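import Crest.Agent.R332.Basic

/-! # Row 332: peeling off a soliton channel -/

set_option autoImplicit false

open MeasureTheory Matrix Set
open scoped ComplexOrder ContDiff
open Crest.MathPhysics.LiebThirring

noncomputable section

namespace Crest.Agent.R332

variable {m n k : ℕ}

namespace Peel

theorem soliton_nonneg {β : ℝ} (hβ : 0 < β) (a c x : ℝ) : 0 ≤ soliton β⁻¹ a c x := by
  unfold soliton
  have := inv_pos.2 hβ
  positivity

theorem soliton_pos {β : ℝ} (hβ : 0 < β) {a : ℝ} (ha : 0 < a) (c x : ℝ) :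
    0 < soliton β⁻¹ a c x := by
  unfold soliton
  have := inv_pos.2 hβ
  have := Real.cosh_pos (β⁻¹ * a * (x - c))
  positivity

theorem continuous_soliton (r a c : ℝ) : Continuous fun x => soliton r a c x := by
  unfold soliton
  refine continuous_const.div (by fun_prop) fun x => ?_
  exact (pow_pos (Real.cosh_pos _) 2).ne'

theorem proj_herm (v : Fin m → ℂ) : (vecMulVec v (star v)).IsHermitian := by
  ext i j
  simp [vecMulVec_apply, mul_comm]

theorem proj_mulVec (v w : Fin m → ℂ) : vecMulVec v (star v) *ᵥ w = (star v ⬝ᵥ w) • v := by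
  ext i
  simp [vecMulVec_apply, mulVec, dotProduct, Finset.mul_sum, mul_assoc, mul_comm, mul_left_comm]

theorem mul_proj (A : Mx m m) (v : Fin m → ℂ) :
    A * vecMulVec v (star v) = vecMulVec (A *ᵥ v) (star v) := by
  ext i j
  simp [vecMulVec_apply, mulVec, dotProduct, mul_apply, Finset.sum_mul, mul_assoc]

theorem mul_proj_of {A : Mx m m} {v : Fin m → ℂ} {s : ℂ} (h : A *ᵥ v = s • v) :
    A * vecMulVec v (star v) = s • vecMulVec v (star v) := by
  rw [mul_proj, h]
  ext i j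
  simp [vecMulVec_apply, mul_assoc]

theorem proj_sq {v : Fin m → ℂ} (hv : vs v = 1) :
    vecMulVec v (star v) * vecMulVec v (star v) = vecMulVec v (star v) := by
  rw [mul_proj_of (proj_mulVec v v), vs_eq_dot, hv]
  simp

theorem rtr_proj (v : Fin m → ℂ) : rtr (vecMulVec v (star v)) = vs v := by
  rw [rtr_eq_sum, vs]
  refine Finset.sum_congr rfl fun i _ => ?_
  rw [vecMulVec_apply, Pi.star_apply, mul_comm, B0.star_mul_self_re]

theorem herm_smul {P : Mx m m} (hP : P.IsHermitian) (s : ℝ) : ((s : ℂ) • P).IsHermitian := by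
  rw [IsHermitian, conjTranspose_smul, hP.eq]
  simp

theorem proj_mul_of {A P : Mx m m} (hA : A.IsHermitian) (hP : P.IsHermitian) {s : ℝ}
    (h : A * P = (s : ℂ) • P) : P * A = (s : ℂ) • P := by
  have := congrArg conjTranspose h
  rwa [conjTranspose_mul, hA.eq, hP.eq, (herm_smul hP s).eq] at this

theorem compress {A P : Mx m m} (hA : A.IsHermitian) (hP : P.IsHermitian) (hPP : P * P = P)
    {s : ℝ} (h : A * P = (s : ℂ) • P) : (1 - P) * A * (1 - P) = A - (s : ℂ) • P := by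
  have h' := proj_mul_of hA hP h
  rw [Matrix.sub_mul, Matrix.one_mul, h', Matrix.mul_sub, Matrix.mul_one, Matrix.sub_mul, h,
    Matrix.smul_mul, hPP, sub_self, sub_zero]

theorem trace_split {A P : Mx m m} (hA : A.IsHermitian) (hP : P.IsHermitian) (hPP : P * P = P)
    {s : ℝ} (h : A * P = (s : ℂ) • P) {f : ℝ → ℝ} (hf : f 0 = 0) :
    rtr (cfc f A) = rtr (cfc f (A - (s : ℂ) • P)) + f s * rtr P := by
  have h' := proj_mul_of hA hP h
  have hA' : (A - (s : ℂ) • P).IsHermitian := hA.sub (herm_smul hP s)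
  have e1 : cfc f A * P = (f s : ℂ) • P := by
    have := cfc_intertwine' f hA (dg_herm fun _ : Fin m => s) (X := P)
      (by rw [h, dg_const]; simp)
    rw [this, cfc_dg, dg_const]
    simp
  have e2 : cfc f A * (1 - P) = (1 - P) * cfc f (A - (s : ℂ) • P) := by
    refine cfc_intertwine' f hA hA' ?_
    rw [Matrix.mul_sub, Matrix.mul_one, h, Matrix.sub_mul, Matrix.one_mul, Matrix.mul_sub, h',
      Matrix.mul_smul, hPP, sub_self, sub_zero]
  have e3 : cfc f (A - (s : ℂ) • P) * P = 0 := by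
    have := cfc_intertwine' f hA' (dg_herm fun _ : Fin m => 0) (X := P)
      (by rw [Matrix.sub_mul, h, Matrix.smul_mul, hPP, dg_const]; simp)
    rw [this, cfc_dg, dg_const, hf]
    simp
  have e4 : cfc f A = cfc f A * P + cfc f A * (1 - P) := by
    rw [← Matrix.mul_add]; simp
  rw [e4, rtr_add, e1, e2, rtr_smul, Matrix.sub_mul, Matrix.one_mul, rtr_sub, rtr_mul_comm P, e3,
    rtr_zero]
  ring

theorem tracePow_split {A P : Mx m m} (hA : A.IsHermitian) (hP : P.IsHermitian) (hPP : P * P = P)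
    (hP1 : rtr P = 1) {s : ℝ} (h : A * P = (s : ℂ) • P) {q : ℝ} (hq : 0 < q) :
    tracePow A q = tracePow (A - (s : ℂ) • P) q + s ^ q := by
  have := trace_split hA hP hPP h (f := fun t => t ^ q) (Real.zero_rpow hq.ne')
  rw [hP1, mul_one] at this
  exact this

theorem tracePow_proj {P : Mx m m} (hP : P.IsHermitian) (hPP : P * P = P)
    (hP1 : rtr P = 1) (s : ℝ) {q : ℝ} (hq : 0 < q) : tracePow ((s : ℂ) • P) q = s ^ q := by
  rw [tracePow_split (herm_smul hP s) hP hPP hP1 (s := s) (by rw [Matrix.smul_mul, hPP]) hq,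
    sub_self, tracePow_eq, mpow_zero hq.ne', rtr_zero, zero_add]

theorem integrable_gram {F : ℝ → Mx m n} (hF : Sm F) (i j : Fin n) :
    Integrable fun x => ((F x)ᴴ * F x) i j := by
  refine Continuous.integrable_of_hasCompactSupport ?_ ?_
  · exact (hF.continuous.matrix_conjTranspose.matrix_mul hF.continuous).matrix_elem i j
  · exact hF.supp.comp_left (g := fun A : Mx m n => (Aᴴ * A) i j) (by simp)

theorem split_sq {P : Mx m m} (hP : P.IsHermitian) (hPP : P * P = P) (A : Mx m n) :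
    Aᴴ * A = (P * A)ᴴ * (P * A) + ((1 - P) * A)ᴴ * ((1 - P) * A) := by
  have hQ : (1 - P).IsHermitian := isHermitian_one.sub hP
  have e : P * P + (1 - P) * (1 - P) = 1 := by
    rw [Matrix.sub_mul, Matrix.one_mul, Matrix.mul_sub, Matrix.mul_one, hPP]; simp
  rw [conjTranspose_mul, conjTranspose_mul, hP.eq, hQ.eq]
  calc Aᴴ * A = Aᴴ * (P * P + (1 - P) * (1 - P)) * A := by rw [e, Matrix.mul_one]
    _ = _ := by simp only [Matrix.mul_add, Matrix.add_mul, Matrix.mul_assoc]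

theorem split_pot {P W : Mx m m} (hP : P.IsHermitian) (hPP : P * P = P) {s : ℝ}
    (h : W = (1 - P) * W * (1 - P) + (s : ℂ) • P) (A : Mx m n) :
    Aᴴ * W * A = (P * A)ᴴ * ((s : ℂ) • P) * (P * A) +
      ((1 - P) * A)ᴴ * ((1 - P) * W * (1 - P)) * ((1 - P) * A) := by
  have hQ : (1 - P).IsHermitian := isHermitian_one.sub hP
  have hQQ : (1 - P) * (1 - P) = 1 - P := by
    rw [Matrix.sub_mul, Matrix.one_mul, Matrix.mul_sub, Matrix.mul_one, hPP]; simp
  have e1 : P * ((s : ℂ) • P) * P = (s : ℂ) • P := by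
    rw [Matrix.mul_smul, hPP, Matrix.smul_mul, hPP]
  have e2 : (1 - P) * ((1 - P) * W * (1 - P)) * (1 - P) = (1 - P) * W * (1 - P) := by
    calc (1 - P) * ((1 - P) * W * (1 - P)) * (1 - P)
        = ((1 - P) * (1 - P)) * W * ((1 - P) * (1 - P)) := by simp only [Matrix.mul_assoc]
      _ = _ := by rw [hQQ]
  rw [conjTranspose_mul, conjTranspose_mul, hP.eq, hQ.eq]
  calc Aᴴ * W * A = Aᴴ * (P * ((s : ℂ) • P) * P +
        (1 - P) * ((1 - P) * W * (1 - P)) * (1 - P)) * A := by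
        rw [e1, e2, add_comm, ← h]
    _ = _ := by simp only [Matrix.mul_add, Matrix.add_mul, Matrix.mul_assoc]

end Peel

open Peel

theorem peelStmt_of (hL : LTStmt) (hF : FamStmt) (hC : CountStmt) (hS : ScalStmt) : PeelStmt := by
  intro β m W lam c v hβ hβ1 hW hO hlam hv hae
  obtain ⟨-, -, hCpos, -, -, -, h7⟩ := hS β hβ hβ1
  obtain ⟨hsint, -⟩ := h7 lam c hlam.le
  obtain ⟨F1, F2, F3, F4, -⟩ := hF
  set P : Mx m m := vecMulVec v (star v) with hPdef
  have hP : P.IsHermitian := proj_herm v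
  have hPP : P * P = P := proj_sq hv
  have hP1 : rtr P = 1 := by rw [hPdef, rtr_proj, hv]
  have hQ : (1 - P).IsHermitian := isHermitian_one.sub hP
  have hq : 0 < 1 + β := by linarith
  set s : ℝ → ℝ := fun x => soliton β⁻¹ lam c x with hs
  let W' : ℝ → Mx m m := fun x => (1 - P) * W x * (1 - P)
  let W₁ : ℝ → Mx m m := fun x => (s x : ℂ) • P
  have hWP : ∀ᵐ x, W x * P = (s x : ℂ) • P := hae.mono fun x hx => mul_proj_of hx
  have hW' : ∀ᵐ x, W' x = W x - (s x : ℂ) • P :=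
    hWP.mono fun x hx => compress (hW.psd x).1 hP hPP hx
  have hsum : ∀ᵐ x, W x = W' x + (s x : ℂ) • P := hW'.mono fun x hx => by rw [hx]; simp
  have htr : ∀ᵐ x, tracePow (W' x) (1 + β) = tracePow (W x) (1 + β) - s x ^ (1 + β) := by
    filter_upwards [hWP, hW'] with x h1 h2
    rw [h2, tracePow_split (hW.psd x).1 hP hPP hP1 h1 hq]
    ring
  have htr1 : ∀ x, tracePow (W₁ x) (1 + β) = s x ^ (1 + β) := fun x =>
    tracePow_proj hP hPP hP1 _ hq
  have hPW' : Pot β W' := by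
    refine ⟨fun i j => ?_, fun x => ?_, ?_⟩
    · simp only [W', mul_apply]
      refine Finset.measurable_sum _ fun a _ => Measurable.mul_const ?_ _
      exact Finset.measurable_sum _ fun b _ => (hW.meas b a).const_mul _
    · have := (hW.psd x).conjTranspose_mul_mul_same (1 - P)
      rwa [hQ.eq] at this
    · exact (hW.int.sub hsint).congr (htr.mono fun x hx => hx.symm)
  have hPW₁ : Pot β W₁ := by
    refine ⟨fun i j => ?_, fun x => ?_, ?_⟩
    · simp only [W₁, Matrix.smul_apply, smul_eq_mul]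
      exact (Complex.continuous_ofReal.comp (continuous_soliton _ _ _)).measurable.mul_const _
    · have h1 : P.PosSemidef := by
        have := posSemidef_conjTranspose_mul_self P
        rwa [hP.eq, hPP] at this
      exact h1.smul (Complex.zero_le_real.2 (soliton_nonneg hβ lam c x))
    · simp only [htr1]
      exact hsint
  have hsig : sig β W' = sig β W - sig β W₁ := by
    simp only [sig, htr1]
    rw [← integral_sub hW.int hsint]
    exact integral_congr_ae htr
  refine ⟨W', hPW', fun ε hε => ?_, hsum⟩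
  obtain ⟨n, Φ, hΦ, hg, hlt⟩ := hO ε hε
  obtain ⟨hS1, hD1⟩ := F2 m n m Φ P hΦ
  obtain ⟨hS2, hD2⟩ := F2 m n m Φ (1 - P) hΦ
  obtain ⟨n₁, C₁, J₁, hg₁, hJ₁⟩ := F4 m n _ hS1
  obtain ⟨n₂, C₂, J₂, hg₂, hJ₂⟩ := F4 m n _ hS2
  obtain ⟨hal, -, -⟩ := F1 m n n₁ _ C₁ hS1
  obtain ⟨hbe, -, -⟩ := F1 m n n₂ _ C₂ hS2
  obtain ⟨-, -, hG₁⟩ := F1 m n₁ n _ J₁ hal
  obtain ⟨-, -, hG₂⟩ := F1 m n₂ n _ J₂ hbe
  obtain ⟨-, hE, -⟩ := F3 β m n W Φ hβ hW hΦ
  obtain ⟨-, hE₁, hEJ₁⟩ := F3 β m n₁ W₁ _ hβ hPW₁ hal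
  obtain ⟨-, hE₂, hEJ₂⟩ := F3 β m n₂ W' _ hβ hPW' hbe
  obtain ⟨hI₁, -, -⟩ := F3 β m n W₁ _ hβ hPW₁ hS1
  obtain ⟨hI₂, -, -⟩ := F3 β m n W' _ hβ hPW' hS2
  have e₁ : (fun x => P * Φ x * C₁ * J₁) = fun x => P * Φ x := funext fun x => (hJ₁ x).symm
  have e₂ : (fun x => (1 - P) * Φ x * C₂ * J₂) = fun x => (1 - P) * Φ x :=
    funext fun x => (hJ₂ x).symm
  have hEJ₁' := hEJ₁ n J₁
  have hEJ₂' := hEJ₂ n J₂
  rw [e₁] at hG₁ hEJ₁'
  rw [e₂] at hG₂ hEJ₂'
  rw [hg₁, Matrix.mul_one] at hG₁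
  rw [hg₂, Matrix.mul_one] at hG₂
  have hgram : gram Φ = gram (fun x => P * Φ x) + gram (fun x => (1 - P) * Φ x) := by
    ext i j
    simp only [gram, of_apply, Matrix.add_apply]
    rw [← integral_add (integrable_gram hS1 i j) (integrable_gram hS2 i j)]
    refine integral_congr_ae (Filter.Eventually.of_forall fun x => ?_)
    simp only
    rw [split_sq hP hPP (Φ x), Matrix.add_apply]
  have hener : ener W Φ = ener W₁ (fun x => P * Φ x) + ener W' (fun x => (1 - P) * Φ x) := by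
    ext i j
    simp only [ener, of_apply, Matrix.add_apply, Matrix.sub_apply]
    refine Eq.trans ?_ (integral_add ((integrable_gram hS1.dM i j).sub (hI₁ i j))
      ((integrable_gram hS2.dM i j).sub (hI₂ i j)))
    refine integral_congr_ae (hsum.mono fun x hx => ?_)
    simp only [Pi.sub_apply]
    rw [hD1, hD2, split_sq hP hPP (dM Φ x), split_pot hP hPP hx (Φ x), Matrix.add_apply, Matrix.add_apply]
    ring
  have hγ : 0 < β + 1 / 2 := by linarith
  have hcount := hC n n₁ n₂ _ _ _ J₁ J₂ 0 (fun t : ℝ => (max (-t) 0) ^ (β + 1 / 2)) hE hE₁ hE₂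
    (fun a b hab => Real.rpow_le_rpow (le_max_right _ _) (max_le_max (neg_le_neg hab) le_rfl)
      hγ.le)
    (fun t ht => by rw [max_eq_right (by linarith), Real.zero_rpow hγ.ne'])
    (fun t w _ h1 h2 => by
      rw [hener, hEJ₁', hEJ₂', qf_add, qf_conj, qf_conj, vs_eq_qf w, ← hg, hgram, hG₁, hG₂, qf_add,
        ← vs_mulVec, ← vs_mulVec]
      linarith)
  have hlt₁ := hL β m n₁ W₁ _ hβ hβ1 hPW₁ hal hg₁
  refine ⟨n₂, _, hbe, hg₂, ?_⟩
  rw [negMoment_eq] at hlt hlt₁ ⊢
  rw [hsig, mul_sub]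
  linarith

end Crest.Agent.R332
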