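import Crest.Agent.R332.LT
import Crest.Agent.R332.Peel

/-! # Row 332: optimisers have approximate soliton channels -/

set_option autoImplicit false

open MeasureTheory Matrix Set
open scoped ComplexOrder ContDiff
open Crest.MathPhysics.LiebThirring

noncomputable section

namespace Crest.Agent.R332

variable {m n k : ℕ}

namespace ApproxAux

theorem compress_le (hC : CountStmt) {E : Mx k k} (hE : E.IsHermitian) {J : Mx k n}
    (hJ : Jᴴ * J = 1) {f : ℝ → ℝ} (hf : Antitone f) (hf0 : ∀ t, 0 ≤ t → f t = 0) :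
    rtr (cfc f (Jᴴ * E * J)) ≤ rtr (cfc f E) := by
  have h := hC n k 0 (Jᴴ * E * J) E 0 J 0 0 f (isHermitian_conjTranspose_mul_mul J hE) hE
    isHermitian_zero hf hf0 (fun t v _ h1 _ => by
      rw [qf_conj]
      rwa [vs_mulVec, hJ, ← vs_eq_qf] at h1)
  have h0 : rtr (cfc f (0 : Mx 0 0)) = 0 := by simp [rtr_eq_sum]
  rwa [h0, add_zero] at h

theorem exists_common (hF : FamStmt) {Φ : ℝ → Mx m n} {Ψ : ℝ → Mx m k} (hΦ : Sm Φ) (hΨ : Sm Ψ) :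
    ∃ (n' : ℕ) (Ph : ℝ → Mx m n') (J₁ : Mx n' n) (J₂ : Mx n' k), Sm Ph ∧ gram Ph = 1 ∧
      (Φ = fun x => Ph x * J₁) ∧ Ψ = fun x => Ph x * J₂ := by
  obtain ⟨F1, -, -, F4, -⟩ := hF
  let F : ℝ → Mx m (n + k) := fun x => of fun i l => Fin.append (Φ x i) (Ψ x i) l
  have hFs : Sm F := by
    refine ⟨fun i l => ?_, ?_⟩
    · refine Fin.addCases (fun l => ?_) (fun l => ?_) l
      · simpa [F] using hΦ.smooth i l
      · simpa [F] using hΨ.smooth i l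
    · refine HasCompactSupport.intro (hΦ.supp.isCompact.union hΨ.supp.isCompact) fun x hx => ?_
      rw [mem_union, not_or] at hx
      have h1 : Φ x = 0 := image_eq_zero_of_notMem_tsupport hx.1
      have h2 : Ψ x = 0 := image_eq_zero_of_notMem_tsupport hx.2
      ext i l
      refine Fin.addCases (fun l => ?_) (fun l => ?_) l
      · simp [F, h1]
      · simp [F, h2]
  obtain ⟨n', C, J, hg, hJ⟩ := F4 m (n + k) F hFs
  let I₁ : Mx (n + k) n := of fun l j => if l = Fin.castAdd k j then 1 else 0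
  let I₂ : Mx (n + k) k := of fun l j => if l = Fin.natAdd n j then 1 else 0
  refine ⟨n', fun x => F x * C, J * I₁, J * I₂, (F1 m _ _ F C hFs).1, hg, ?_, ?_⟩
  · ext x i j
    rw [← Matrix.mul_assoc, ← hJ x]
    simp [mul_apply, F, I₁]
  · ext x i j
    rw [← Matrix.mul_assoc, ← hJ x]
    simp [mul_apply, F, I₂]

theorem exists_frame (hF : FamStmt) (hC : CountStmt) {β : ℝ} {W : ℝ → Mx m m} (hβ : 0 < β)
    (hW : Pot β W) {Ψ₀ : ℝ → Mx m k} {κ₀ : Fin k → ℝ} (hΨ₀ : Sm Ψ₀) (hg₀ : gram Ψ₀ = 1)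
    (hκ₀ : ∀ j, 0 < κ₀ j) (hE₀ : ener W Ψ₀ = -(dg κ₀ * dg κ₀)) (j₀ : Fin k)
    {Φ : ℝ → Mx m n} (hΦ : Sm Φ) (hg : gram Φ = 1) :
    ∃ (l : ℕ) (Ψ : ℝ → Mx m l) (κ : Fin l → ℝ), Sm Ψ ∧ gram Ψ = 1 ∧ (∀ j, 0 < κ j) ∧
      ener W Ψ = -(dg κ * dg κ) ∧
      negMoment (ener W Φ) (β + 1 / 2) ≤ ∑ j, κ j ^ (1 + 2 * β) ∧ ∃ j, κ₀ j₀ / 2 ≤ κ j := by
  obtain ⟨n', Ph, J₁, J₂, hPh, hgP, e₁, e₂⟩ := exists_common hF hΦ hΨ₀
  obtain ⟨F1, -, F3, -, F5⟩ := hF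
  obtain ⟨-, hE, hJ⟩ := F3 β m n' W Ph hβ hW hPh
  obtain ⟨l, J, κ, hκ, hJJ, hJE, hf⟩ := F5 n' _ hE
  obtain ⟨hs, -, hgr⟩ := F1 m n' l Ph J hPh
  have hJ₁ : J₁ᴴ * J₁ = 1 := by
    have := (F1 m n' n Ph J₁ hPh).2.2
    rw [← e₁, hg, hgP, Matrix.mul_one] at this
    exact this.symm
  have hJ₂ : J₂ᴴ * J₂ = 1 := by
    have := (F1 m n' k Ph J₂ hPh).2.2
    rw [← e₂, hg₀, hgP, Matrix.mul_one] at this
    exact this.symm
  have hγ : 0 < β + 1 / 2 := by linarith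
  refine ⟨l, fun x => Ph x * J, κ, hs, by rw [hgr, hgP, Matrix.mul_one, hJJ], hκ,
    by rw [hJ, hJE], ?_, ?_⟩
  · have h1 := compress_le hC hE hJ₁ (f := fun t : ℝ => (max (-t) 0) ^ (β + 1 / 2))
      (fun a b hab => Real.rpow_le_rpow (le_max_right _ _) (max_le_max (neg_le_neg hab) le_rfl)
        hγ.le) (negPart_rpow_zero hγ)
    rw [← hJ n J₁, ← e₁, hf _ (negPart_rpow_zero hγ)] at h1
    rw [negMoment_eq]
    exact h1.trans_eq (Finset.sum_congr rfl fun j _ => negPart_rpow_sq (hκ j))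
  · have h0 : ∀ t : ℝ, 0 ≤ t → max (-t - (κ₀ j₀ / 2) ^ 2) 0 = 0 := fun t ht =>
      max_eq_right (by nlinarith [sq_nonneg (κ₀ j₀ / 2)])
    have h1 := compress_le hC hE hJ₂ (f := fun t : ℝ => max (-t - (κ₀ j₀ / 2) ^ 2) 0)
      (fun a b hab => max_le_max (by linarith) le_rfl) h0
    rw [← hJ k J₂, ← e₂, hf _ h0, hE₀, dg_mul_dg, dg_neg, cfc_dg, rtr_dg] at h1
    by_contra hc
    push Not at hc
    have h2 : ∑ j, max (-(-(κ j ^ 2)) - (κ₀ j₀ / 2) ^ 2) 0 = 0 :=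
      Finset.sum_eq_zero fun j _ => max_eq_right (by nlinarith [hc j, hκ j])
    have h3 := Finset.single_le_sum
      (f := fun j => max (-(-(κ₀ j * κ₀ j)) - (κ₀ j₀ / 2) ^ 2) 0)
      (fun j _ => le_max_right _ _) (Finset.mem_univ j₀)
    have h4 : -(-(κ₀ j₀ * κ₀ j₀)) - (κ₀ j₀ / 2) ^ 2 ≤
        max (-(-(κ₀ j₀ * κ₀ j₀)) - (κ₀ j₀ / 2) ^ 2) 0 := le_max_left _ _
    have h5 := hκ₀ j₀
    nlinarith

theorem measurable_hs {W : ℝ → Mx m n} (h : ∀ i j, Measurable fun x => W x i j) :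
    Measurable fun x => hs (W x) := by
  unfold hs
  exact Finset.measurable_sum _ fun i _ => Finset.measurable_sum _ fun j _ =>
    (h i j).norm.pow_const 2

end ApproxAux

open ApproxAux

theorem approxStmt_of (hF : FamStmt) (hC : CountStmt) (hCo : CoreStmt) (hD : DiaStmt)
    (hY : YoungStmt) (hS : ScalStmt) (h1 : Stab1Stmt) (h2 : Stab2Stmt) : ApproxStmt := by
  intro β m W hβ hβ1 hW hO hσ
  obtain ⟨-, -, hCp, -⟩ := hS β hβ hβ1
  obtain ⟨hY1, hY2⟩ := hY β hβ hβ1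
  set Cs := sharpConst (β + 1 / 2) with hCs
  have hp : 0 < 1 + β := by linarith
  obtain ⟨n₀', Φ₀, hΦ₀, hg₀, hlt₀⟩ := hO (Cs * sig β W) (by positivity)
  obtain ⟨k, Ψ₀, κ₀, hΨ₀, hgΨ₀, hκ₀, hE₀, hneg₀⟩ := exists_neg_frame hF hβ hW hΦ₀ hg₀
  obtain ⟨j₀⟩ : Nonempty (Fin k) := by
    by_contra hc
    rw [not_nonempty_iff] at hc
    rw [hneg₀, Finset.univ_eq_empty, Finset.sum_empty] at hlt₀
    linarith
  obtain ⟨M₁, hM₁, hcore⟩ := hCo β m W hβ hβ1 hW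
  set μ := κ₀ j₀ / 2 with hμ
  have hμ0 : 0 < μ := half_pos (hκ₀ j₀)
  set B := Cs * (sig β W + (1 + β)) with hB
  have hB0 : 0 < B := by positivity
  have hM₁p : 0 < M₁ ^ β⁻¹ := Real.rpow_pos_of_pos hM₁ _
  set M := M₁ + M₁ ^ β⁻¹ + 1 + B with hM
  have hM0 : 0 < M := by positivity
  obtain ⟨cD, hcD, hdia⟩ := hD β M hβ hβ1 hM0
  refine ⟨μ, M, hμ0, fun R Λ η hR hΛ hη => ?_⟩
  have hΛ0 : 0 < Λ + 1 + M := by positivity
  have hΛ1 : Λ ≤ (Λ + 1 + M) ^ 2 :=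
    (by linarith : Λ ≤ Λ + 1 + M).trans (le_self_pow₀ (by linarith) two_ne_zero)
  obtain ⟨cY, hcY, hyoung⟩ := hY2 (Λ + 1 + M) hΛ0
  obtain ⟨ε₂, hε₂, hst2⟩ := h2 β M μ R (η / 4) hβ hβ1 hμ0 hR (by positivity)
  obtain ⟨ε₁, hε₁, hst1⟩ := h1 β M μ R ε₂ ⌈B / (μ / 2) ^ (1 + 2 * β)⌉₊ hβ hβ1 hμ0 hR hε₂
  set δ := min (min (cD * ε₁) ε₂) (cY * η / 4) with hδ
  have hδ0 : 0 < δ := lt_min (lt_min (by positivity) hε₂) (by positivity)
  have hδ1 : δ ≤ cD * ε₁ := (min_le_left _ _).trans (min_le_left _ _)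
  have hδ2 : δ ≤ ε₂ := (min_le_left _ _).trans (min_le_right _ _)
  have hδ3 : δ ≤ cY * η / 4 := min_le_right _ _
  obtain ⟨n, Φ₁, hΦ₁, hg₁, hlt₁⟩ := hO (Cs * (δ / 2)) (by positivity)
  obtain ⟨l, Ψ, κ, hΨ, hgΨ, hκ, hE, hneg, j₁, hj₁⟩ :=
    exists_frame hF hC hβ hW hΨ₀ hgΨ₀ hκ₀ hE₀ j₀ hΦ₁ hg₁
  set η₁ := min 1 (δ / (2 * (1 + β))) with hη₁
  have hη₁0 : 0 < η₁ := lt_min one_pos (by positivity)
  have hη₁1 : η₁ ≤ 1 := min_le_left _ _
  have hη₁2 : (1 + β) * η₁ ≤ δ / 2 := by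
    have : η₁ ≤ δ / (2 * (1 + β)) := min_le_right _ _
    rw [le_div_iff₀ (by positivity)] at this
    linarith
  obtain ⟨Φ, κ', N, a, b, hΦ, hκ', hκκ', hsum, hRic, hb, hI1, hI3, hineq⟩ :=
    hcore l Ψ κ η₁ j₁.pos hΨ hgΨ hκ hE hη₁0 hη₁1
  have hS0 : 0 ≤ ∫ x in a..b, slk β κ' (N x) (mpow ((Φ x)ᴴ * Φ x) β⁻¹) :=
    intervalIntegral.integral_nonneg hRic.ab.le fun x _ => slk_nonneg _ _ _ _
  have hI10 : 0 ≤ ∫ x, hs (dM Φ x - Φ x * N x) := integral_nonneg fun x => hs_nonneg _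
  have hbrg : ∀ x, 0 ≤ brg β (W x) (Φ x * (Φ x)ᴴ) := fun x =>
    hY1 m _ _ (hW.psd x) (posSemidef_self_mul_conjTranspose _)
  have hI30 : 0 ≤ ∫ x, brg β (W x) (Φ x * (Φ x)ᴴ) := integral_nonneg hbrg
  set T := ∫ x in a..b, tracePow (mpow ((Φ x)ᴴ * Φ x) β⁻¹) (1 + β) with hT
  set I1 := ∫ x, hs (dM Φ x - Φ x * N x) with hI1d
  set I3 := ∫ x, brg β (W x) (Φ x * (Φ x)ᴴ) with hI3d
  set S := ∫ x in a..b, slk β κ' (N x) (mpow ((Φ x)ᴴ * Φ x) β⁻¹) with hSd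
  have hineq' : (1 + β) * I1 + T + (1 + β) * I3 ≤ sig β W + (1 + β) * η₁ := by
    have := mul_le_mul_of_nonneg_left hineq hp.le
    rw [mul_add, mul_add, mul_add, mul_div_cancel₀ _ hp.ne', mul_div_cancel₀ _ hp.ne'] at this
    exact this
  have hI1p : I1 ≤ (1 + β) * I1 := le_mul_of_one_le_left hI10 (by linarith)
  have hI3p : I3 ≤ (1 + β) * I3 := le_mul_of_one_le_left hI30 (by linarith)
  have hsB : ∑ j, κ' j ^ (1 + 2 * β) ≤ B := by
    have hs0 : 0 ≤ ∑ j, κ' j := Finset.sum_nonneg fun j _ => (hκ' j).le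
    obtain ⟨c', hc', hdia'⟩ := hD β (M₁ ^ β⁻¹ + ∑ j, κ' j) hβ hβ1 (by linarith)
    have h3 := hdia' l κ' N _ a b (fun j => ⟨hκ' j, by
      have := Finset.single_le_sum (f := κ') (fun j _ => (hκ' j).le) (Finset.mem_univ j)
      linarith⟩) hRic
      (fun x => (bd_mpow_gram (hb x) (inv_nonneg.2 hβ.le)).mono (by linarith))
    have h4 := mul_nonneg hc'.le hS0
    have h5 : (1 + β) * η₁ ≤ 1 + β := mul_le_of_le_one_right hp.le hη₁1
    have h6 : Cs⁻¹ * ∑ j, κ' j ^ (1 + 2 * β) ≤ sig β W + (1 + β) := by linarith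
    rwa [inv_mul_le_iff₀ hCp] at h6
  have hκM : ∀ j, 0 < κ' j ∧ κ' j ≤ M := fun j => by
    refine ⟨hκ' j, ?_⟩
    have h3 := Finset.single_le_sum (f := fun j => κ' j ^ (1 + 2 * β))
      (fun j _ => Real.rpow_nonneg (hκ' j).le _) (Finset.mem_univ j)
    by_cases h4 : κ' j ≤ 1
    · linarith
    · have h5 := Real.self_le_rpow_of_one_le (not_le.1 h4).le (by linarith : 1 ≤ 1 + 2 * β)
      linarith
  have hcard : (Finset.univ.filter fun j => μ / 2 ≤ κ' j).card ≤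
      ⌈B / (μ / 2) ^ (1 + 2 * β)⌉₊ := by
    have hpos : 0 < (μ / 2) ^ (1 + 2 * β) := Real.rpow_pos_of_pos (half_pos hμ0) _
    have h3 : ((Finset.univ.filter fun j => μ / 2 ≤ κ' j).card : ℝ) * (μ / 2) ^ (1 + 2 * β) ≤
        B := by
      refine le_trans ?_ hsB
      rw [← nsmul_eq_mul, ← Finset.sum_const]
      refine le_trans (Finset.sum_le_sum fun j hj => Real.rpow_le_rpow (half_pos hμ0).le
        (Finset.mem_filter.1 hj).2 (by linarith)) ?_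
      exact Finset.sum_le_sum_of_subset_of_nonneg (Finset.filter_subset _ _)
        fun j _ _ => Real.rpow_nonneg (hκ' j).le _
    rw [← le_div_iff₀ hpos] at h3
    exact_mod_cast h3.trans (Nat.le_ceil _)
  have h3 := hdia l κ' N _ a b hκM hRic
    (fun x => (bd_mpow_gram (hb x) (inv_nonneg.2 hβ.le)).mono (by linarith))
  have h4 : sig β W - δ / 2 ≤ Cs⁻¹ * ∑ j, κ' j ^ (1 + 2 * β) := by
    rw [le_inv_mul_iff₀ hCp, mul_sub]
    linarith
  have hcS := mul_nonneg hcD.le hS0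
  have hS1 : S ≤ ε₁ := by
    have : cD * S ≤ cD * ε₁ := by linarith
    exact le_of_mul_le_mul_left this hcD
  have hI1e : I1 ≤ ε₂ := by linarith
  have hI3e : I3 ≤ cY * η / 4 := by linarith
  obtain ⟨j₂, hj₂⟩ := hκκ' j₁
  obtain ⟨lam, c, w, hl1, hl2, hw, hint1⟩ :=
    hst1 l κ' N _ a b hκM ⟨j₂, hj₁.trans hj₂⟩ hcard hRic hS1
  have hcR : c - R ≤ c + R := by linarith
  obtain ⟨v, hv, hint2⟩ := hst2 m l Φ N lam c w hΦ (fun x => (hb x).trans (by linarith))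
    hRic.continuous hl1 hl2 hw (by
      refine le_trans ?_ hI1e
      rw [intervalIntegral.integral_of_le hcR]
      exact setIntegral_le_integral hI1 (Filter.Eventually.of_forall fun x => hs_nonneg _)) hint1
  refine ⟨lam, c, v, hl1, hl2, hv, ?_⟩
  set g : ℝ → ℝ := fun x =>
    vs (mpow (Φ x * (Φ x)ᴴ) β⁻¹ *ᵥ v - (soliton β⁻¹ lam c x : ℂ) • v) with hgd
  have hgc : Continuous g := by
    refine continuous_vs.comp (Continuous.sub ?_ ?_)
    · exact (continuous_mpow (hΦ.continuous.matrix_mul hΦ.continuous.matrix_conjTranspose)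
        (fun x => isHermitian_mul_conjTranspose_self _) (inv_nonneg.2 hβ.le)).matrix_mulVec
        continuous_const
    · exact (Complex.continuous_ofReal.comp (Peel.continuous_soliton _ _ _)).smul continuous_const
  have hgI : IntegrableOn g (Icc (c - R) (c + R)) := hgc.continuousOn.integrableOn_Icc
  have hA : MeasurableSet (Icc (c - R) (c + R) ∩ {x | hs (W x) ≤ Λ}) :=
    measurableSet_Icc.inter (measurableSet_le (measurable_hs hW.meas) measurable_const)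
  have hgA : IntegrableOn g (Icc (c - R) (c + R) ∩ {x | hs (W x) ≤ Λ}) :=
    hgI.mono_set inter_subset_left
  have hle : (∫ x in Icc (c - R) (c + R) ∩ {x | hs (W x) ≤ Λ},
      vs (W x *ᵥ v - (soliton β⁻¹ lam c x : ℂ) • v)) ≤
      ∫ x in Icc (c - R) (c + R) ∩ {x | hs (W x) ≤ Λ},
        (2 / cY * brg β (W x) (Φ x * (Φ x)ᴴ) + 2 * g x) := by
    refine integral_mono_of_nonneg (Filter.Eventually.of_forall fun x => vs_nonneg _)
      ((hI3.integrableOn.const_mul _).add (hgA.const_mul _)) ?_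
    refine (ae_restrict_iff' hA).2 (Filter.Eventually.of_forall fun x hx => ?_)
    have h5 : hs (W x) ≤ Λ := hx.2
    have h6 := hyoung m (W x) (Φ x * (Φ x)ᴴ) (hW.psd x) (posSemidef_self_mul_conjTranspose _)
      (bd_of_hs (hW.psd x).1 hΛ0.le (h5.trans hΛ1))
      ((bd_rtr (posSemidef_self_mul_conjTranspose _)).mono (by
        rw [← hs_eq_rtr']
        linarith [hb x]))
    have h7 : W x *ᵥ v - (soliton β⁻¹ lam c x : ℂ) • v =
        (W x - mpow (Φ x * (Φ x)ᴴ) β⁻¹) *ᵥ v +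
          (mpow (Φ x * (Φ x)ᴴ) β⁻¹ *ᵥ v - (soliton β⁻¹ lam c x : ℂ) • v) := by
      rw [sub_mulVec]; abel
    have h8 := vs_mulVec_le_hs (W x - mpow (Φ x * (Φ x)ᴴ) β⁻¹) v
    rw [hv, mul_one] at h8
    have h9 : hs (W x - mpow (Φ x * (Φ x)ᴴ) β⁻¹) ≤ 1 / cY * brg β (W x) (Φ x * (Φ x)ᴴ) := by
      rw [one_div, le_inv_mul_iff₀ hcY]
      exact h6
    simp only
    rw [h7]
    refine (vs_add_le _ _).trans ?_
    have e : 2 / cY * brg β (W x) (Φ x * (Φ x)ᴴ) = 2 * (1 / cY * brg β (W x) (Φ x * (Φ x)ᴴ)) := by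
      ring
    rw [e]
    linarith
  refine hle.trans ?_
  rw [integral_add (hI3.integrableOn.const_mul _) (hgA.const_mul _), integral_const_mul,
    integral_const_mul]
  have h5 : (∫ x in Icc (c - R) (c + R) ∩ {x | hs (W x) ≤ Λ}, brg β (W x) (Φ x * (Φ x)ᴴ)) ≤ I3 :=
    setIntegral_le_integral hI3 (Filter.Eventually.of_forall hbrg)
  have h6 : (∫ x in Icc (c - R) (c + R) ∩ {x | hs (W x) ≤ Λ}, g x) ≤ η / 4 := by
    refine le_trans ?_ hint2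
    rw [intervalIntegral.integral_of_le hcR, ← integral_Icc_eq_integral_Ioc]
    exact setIntegral_mono_set hgI (Filter.Eventually.of_forall fun x => vs_nonneg _)
      (LE.le.eventuallyLE inter_subset_left)
  have h7 : 2 / cY * (∫ x in Icc (c - R) (c + R) ∩ {x | hs (W x) ≤ Λ},
      brg β (W x) (Φ x * (Φ x)ᴴ)) ≤ η / 2 := by
    calc _ ≤ 2 / cY * (cY * η / 4) :=
          mul_le_mul_of_nonneg_left (h5.trans hI3e) (by positivity)
      _ = η / 2 := by field_simp; ring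
  linarith

end Crest.Agent.R332
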