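import Crest.Agent.R332.Basic

/-! # Row 332: behaviour of `χ_u` as `u → 0` and `u → ∞` -/

set_option autoImplicit false

open MeasureTheory Matrix Set
open scoped ComplexOrder ContDiff
open Crest.MathPhysics.LiebThirring

noncomputable section

namespace Crest.Agent.R332

namespace Asy

variable {n : ℕ}

/-- `-t ≤ C ≤ t` -/
def OB (C : Mx n n) (t : ℝ) : Prop := Bd C t ∧ Bd (-C) t

theorem bd_add {A B : Mx n n} {s t : ℝ} (hA : Bd A s) (hB : Bd B t) : Bd (A + B) (s + t) := by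
  have := PosSemidef.add hA hB
  rw [Bd]
  convert this using 1
  push_cast
  rw [add_smul]
  abel

theorem OB.add {A B : Mx n n} {s t : ℝ} (hA : OB A s) (hB : OB B t) : OB (A + B) (s + t) :=
  ⟨bd_add hA.1 hB.1, by rw [neg_add]; exact bd_add hA.2 hB.2⟩

theorem OB.neg {A : Mx n n} {s : ℝ} (hA : OB A s) : OB (-A) s := ⟨hA.2, by rw [neg_neg]; exact hA.1⟩

theorem OB.mono {A : Mx n n} {s t : ℝ} (hA : OB A s) (h : s ≤ t) : OB A t :=
  ⟨hA.1.mono h, hA.2.mono h⟩

theorem neg_conj (U : Mx n n) (d : Fin n → ℝ) :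
    -(U * dg d * Uᴴ) = U * dg (fun i => -d i) * Uᴴ := by
  rw [← dg_neg]; simp

theorem ob_conj {U : Mx n n} (hU : Uᴴ * U = 1) (d : Fin n → ℝ) (t : ℝ) :
    OB (U * dg d * Uᴴ) t ↔ ∀ i, |d i| ≤ t := by
  rw [OB, neg_conj, bd_conj_dg_iff hU, bd_conj_dg_iff hU]
  simp only [abs_le]
  exact ⟨fun h i => ⟨by linarith [h.2 i], h.1 i⟩, fun h => ⟨fun i => (h i).2,
    fun i => by linarith [(h i).1]⟩⟩

theorem ob_dg {d : Fin n → ℝ} {t : ℝ} (h : ∀ i, |d i| ≤ t) : OB (dg d) t := by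
  simpa using (ob_conj (U := (1 : Mx n n)) (by simp) d t).2 h

theorem OB.smul {A : Mx n n} {s : ℝ} (hA : OB A s) {c : ℝ} (hc : 0 ≤ c) :
    OB ((c : ℂ) • A) (c * s) := by
  obtain ⟨U, d, hU, -, rfl⟩ := exists_diag hA.1.herm
  have e : (c : ℂ) • (U * dg d * Uᴴ) = U * dg (fun i => c * d i) * Uᴴ := by
    rw [← dg_mul_dg (fun _ => c), dg_const]; simp
  rw [e]
  rw [ob_conj hU] at hA ⊢
  intro i
  rw [abs_mul, abs_of_nonneg hc]
  exact mul_le_mul_of_nonneg_left (hA i) hc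

theorem OB.hs_le {C : Mx n n} {t : ℝ} (h : OB C t) : hs C ≤ n * t ^ 2 := by
  obtain ⟨U, d, hU, -, rfl⟩ := exists_diag h.1.herm
  rw [hs_eq_rtr, h.1.herm.eq, conj_dg_mul hU, rtr_conj_dg hU]
  rw [ob_conj hU] at h
  calc ∑ i, d i * d i ≤ ∑ _i : Fin n, t ^ 2 := Finset.sum_le_sum fun i _ => by
        rw [← sq, ← sq_abs]; exact pow_le_pow_left₀ (abs_nonneg _) (h i) 2
    _ = _ := by simp

theorem OB.rtr_le {C : Mx n n} {t : ℝ} (h : OB C t) : |rtr C| ≤ n * t := by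
  obtain ⟨U, d, hU, -, rfl⟩ := exists_diag h.1.herm
  rw [rtr_conj_dg hU]
  rw [ob_conj hU] at h
  calc |∑ i, d i| ≤ ∑ i, |d i| := Finset.abs_sum_le_sum_abs _ _
    _ ≤ ∑ _i : Fin n, t := Finset.sum_le_sum fun i _ => h i
    _ = _ := by simp

theorem OB.rtr_mul_le {C A : Mx n n} {t s : ℝ} (h : OB C t) (hA : OB A s) (ht : 0 ≤ t)
    (hs0 : 0 ≤ s) : |rtr (C * A)| ≤ n * s * t := by
  have h1 := rtr_sq_le C A
  rw [h.1.herm.eq] at h1
  refine abs_le_of_sq_le_sq (h1.trans ?_) (by positivity)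
  calc hs C * hs A ≤ (n * t ^ 2) * (n * s ^ 2) :=
        mul_le_mul h.hs_le hA.hs_le (hs_nonneg _) (by positivity)
    _ = _ := by ring

theorem OB.sq {C : Mx n n} {t : ℝ} (h : OB C t) : OB (C * C) (t ^ 2) := by
  obtain ⟨U, d, hU, -, rfl⟩ := exists_diag h.1.herm
  rw [conj_dg_mul hU]
  rw [ob_conj hU] at h ⊢
  intro i
  rw [abs_mul, ← _root_.sq]
  exact pow_le_pow_left₀ (abs_nonneg _) (h i) 2

variable {κ : Fin n → ℝ} {N : Mx n n} {M : ℝ}

theorem ob_N (hκ : ∀ j, 0 < κ j ∧ κ j ≤ M) (h : Btw κ N) : OB N M := by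
  have hb : Bd (dg κ) M := bd_dg fun j => (hκ j).2
  constructor
  · have := hb.add h.2
    rw [Bd]; convert this using 1; abel
  · have := hb.add h.1
    rw [Bd]; convert this using 1; abel

theorem ob_A (hκ : ∀ j, 0 < κ j ∧ κ j ≤ M) (h : Btw κ N) : OB (Am κ N) (2 * M ^ 2) := by
  have h1 : OB (dg κ) M := ob_dg fun j => by rw [abs_of_pos (hκ j).1]; exact (hκ j).2
  have := h1.sq.add (ob_N hκ h).sq.neg
  rwa [← sub_eq_add_neg, ← two_mul] at this

theorem btw_neg (h : Btw κ N) : Btw κ (-N) :=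
  ⟨by rw [← sub_eq_add_neg]; exact h.2, by rw [sub_neg_eq_add]; exact h.1⟩

theorem small (hM : 0 < M) (hκ : ∀ j, 0 < κ j ∧ κ j ≤ M) (h : Btw κ N) {u : ℝ} (hu : 0 < u)
    (hu1 : u ≤ 1) : OB (mlog (Ld κ u + N)) (Real.log (2 * M + 1) + |Real.log u|) := by
  have hs1 : ∀ j, √(κ j ^ 2 + u) ≤ M + 1 := fun j => by
    rw [Real.sqrt_le_left (by linarith)]
    nlinarith [(hκ j).1, (hκ j).2]
  have hs2 : ∀ j, u / (2 * M + 1) ≤ √(κ j ^ 2 + u) - κ j := fun j => by
    have h1 := Real.sq_sqrt (show 0 ≤ κ j ^ 2 + u by positivity)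
    have h2 : κ j ≤ √(κ j ^ 2 + u) := Real.le_sqrt_of_sq_le (by linarith)
    rw [div_le_iff₀ (by linarith)]
    have h3 := mul_le_mul_of_nonneg_left
      (show √(κ j ^ 2 + u) + κ j ≤ 2 * M + 1 by linarith [hs1 j, (hκ j).2]) (sub_nonneg.2 h2)
    nlinarith
  have hup : Bd (Ld κ u + N) (M + 1 + M) := bd_add (bd_dg hs1) (ob_N hκ h).1
  have hlo : Bd (-(Ld κ u + N)) (-(u / (2 * M + 1))) := by
    have h1 : Bd (dg fun j => κ j - √(κ j ^ 2 + u)) (-(u / (2 * M + 1))) :=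
      bd_dg fun j => by linarith [hs2 j]
    have := h1.add h.1
    rw [Bd]
    convert this using 1
    rw [← dg_sub, Ld]
    abel
  obtain ⟨U, x, hU, -, e⟩ := exists_diag hup.herm
  rw [e] at hup hlo ⊢
  rw [neg_conj, bd_conj_dg_iff hU] at hlo
  rw [bd_conj_dg_iff hU] at hup
  rw [mlog, cfc_conj_dg _ hU, ob_conj hU]
  intro i
  have hd : 0 < u / (2 * M + 1) := by positivity
  have h1 : u / (2 * M + 1) ≤ x i := by linarith [hlo i]
  have h2 := Real.log_le_log hd h1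
  have h3 := Real.log_le_log (hd.trans_le h1) (show x i ≤ 2 * M + 1 by linarith [hup i])
  rw [Real.log_div hu.ne' (by positivity)] at h2
  have := abs_nonneg (Real.log u)
  have := neg_abs_le (Real.log u)
  rw [abs_le]
  constructor <;> linarith

theorem log1 {t : ℝ} (ht : |t| ≤ 1 / 2) : |Real.log (1 + t) - t| ≤ 2 * t ^ 2 := by
  have h := Real.abs_log_sub_add_sum_range_le (x := -t) (by rw [abs_neg]; linarith) 1
  simp only [Finset.sum_range_succ, Finset.sum_range_zero, abs_neg, sub_neg_eq_add] at h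
  norm_num at h
  rw [show Real.log (1 + t) - t = -t + Real.log (1 + t) by ring]
  refine h.trans ?_
  rw [div_le_iff₀ (by linarith)]
  nlinarith [sq_nonneg t]

theorem log3 {t : ℝ} (ht : |t| ≤ 1 / 2) :
    t - t * t / 2 + t * t * t / 3 - 2 * |t| ^ 4 ≤ Real.log (1 + t) := by
  have h := Real.abs_log_sub_add_sum_range_le (x := -t) (by rw [abs_neg]; linarith) 3
  simp only [Finset.sum_range_succ, Finset.sum_range_zero, abs_neg, sub_neg_eq_add] at h
  norm_num at h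
  have h2 : |t| ^ 4 / (1 - |t|) ≤ 2 * |t| ^ 4 := by
    rw [div_le_iff₀ (by linarith)]
    nlinarith [pow_nonneg (abs_nonneg t) 4]
  have h3 := (abs_le.1 (h.trans h2)).1
  nlinarith

/-- `log (s (1 + E)) = log s + E + R` -/
theorem large {E : Mx n n} {s τ : ℝ} (hs : 0 < s) (hE : OB E τ) (hτ : τ ≤ 1 / 2) :
    OB (mlog ((s : ℂ) • (1 + E)) - (Real.log s : ℂ) • 1 - E) (2 * τ ^ 2) ∧
    rtr E - rtr (E * E) / 2 + rtr (E * E * E) / 3 - 2 * n * τ ^ 4 ≤
      rtr (mlog ((s : ℂ) • (1 + E)) - (Real.log s : ℂ) • 1) := by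
  obtain ⟨U, e, hU, hU', rfl⟩ := exists_diag hE.1.herm
  rw [ob_conj hU] at hE
  have e1 : (s : ℂ) • (1 + U * dg e * Uᴴ) = U * dg (fun i => s * (1 + e i)) * Uᴴ := by
    rw [← dg_mul_dg (fun _ => s), ← dg_add (fun _ => 1), dg_const, dg_const]
    simp [Matrix.mul_add, Matrix.add_mul, hU']
  have e2 : mlog ((s : ℂ) • (1 + U * dg e * Uᴴ)) - (Real.log s : ℂ) • 1 =
      U * dg (fun i => Real.log (1 + e i)) * Uᴴ := by
    rw [e1, mlog, cfc_conj_dg _ hU]
    have : (fun i => Real.log (s * (1 + e i))) = fun i => Real.log s + Real.log (1 + e i) := by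
      funext i
      have := (abs_le.1 ((hE i).trans hτ)).1
      rw [Real.log_mul hs.ne' (by linarith)]
    rw [this, ← dg_add (fun _ => Real.log s), dg_const]
    simp [Matrix.mul_add, Matrix.add_mul, hU']
  rw [e2]
  constructor
  · rw [← Matrix.sub_mul, ← Matrix.mul_sub, dg_sub, ob_conj hU]
    intro i
    refine (log1 ((hE i).trans hτ)).trans ?_
    rw [← sq_abs]
    have := pow_le_pow_left₀ (abs_nonneg _) (hE i) 2
    linarith
  · rw [conj_dg_mul hU, conj_dg_mul hU]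
    simp only [rtr_conj_dg hU]
    have : 2 * n * τ ^ 4 = ∑ _i : Fin n, 2 * τ ^ 4 := by simp; ring
    rw [this]
    simp only [Finset.sum_div, ← Finset.sum_sub_distrib, ← Finset.sum_add_distrib]
    refine Finset.sum_le_sum fun i _ => le_trans ?_ (log3 ((hE i).trans hτ))
    have := pow_le_pow_left₀ (abs_nonneg _) (hE i) 4
    linarith

theorem big (hM : 0 < M) (hκ : ∀ j, 0 < κ j ∧ κ j ≤ M) (h : Btw κ N) {u : ℝ}
    (hu : 16 * M ^ 2 ≤ u) : OB (chi κ u N) (17 * M ^ 2 / u) ∧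
      rtr (Am κ N) / u - 65 * n * M ^ 4 / u ^ 2 ≤ rtr (chi κ u N) := by
  have hu0 : 0 < u := lt_of_lt_of_le (by positivity) hu
  obtain ⟨s, hs, rfl⟩ : ∃ s : ℝ, 0 < s ∧ u = s ^ 2 :=
    ⟨√u, Real.sqrt_pos.2 hu0, (Real.sq_sqrt hu0.le).symm⟩
  have hsM : 4 * M ≤ s := by
    refine abs_le_of_sq_le_sq' (by linarith) hs.le |>.2
  set lam : Fin n → ℝ := fun j => √(κ j ^ 2 + s ^ 2) / s - 1 with hlam
  have hl1 : ∀ j, (1 + lam j) ^ 2 = 1 + κ j ^ 2 / s ^ 2 := fun j => by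
    rw [hlam]
    simp only [add_sub_cancel]
    rw [div_pow, Real.sq_sqrt (by positivity)]
    field_simp
    ring
  have hl0 : ∀ j, 0 ≤ lam j := fun j => by
    rw [hlam]
    simp only [sub_nonneg]
    rw [le_div_iff₀ hs, one_mul]
    exact Real.le_sqrt_of_sq_le (by nlinarith [sq_nonneg (κ j)])
  have hl2 : ∀ j, lam j ≤ M ^ 2 / s ^ 2 / 2 := fun j => by
    have h1 : κ j ^ 2 / s ^ 2 ≤ M ^ 2 / s ^ 2 :=
      div_le_div_of_nonneg_right (pow_le_pow_left₀ (hκ j).1.le (hκ j).2 2) (by positivity)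
    nlinarith [hl1 j, hl0 j, sq_nonneg (lam j)]
  set a := M / s with ha
  have ha0 : 0 < a := by positivity
  have ha4 : a ≤ 1 / 4 := by rw [ha, div_le_iff₀ hs]; linarith
  have ha2 : M ^ 2 / s ^ 2 = a ^ 2 := by rw [ha, div_pow]
  rw [ha2] at hl2
  set ν : Mx n n := ((s⁻¹ : ℝ) : ℂ) • N with hν
  have hνb : OB ν a := by
    have := (ob_N hκ h).smul (inv_nonneg.2 hs.le)
    rwa [inv_mul_eq_div] at this
  have hlb : OB (dg lam) (a ^ 2 / 2) := ob_dg fun j => by rw [abs_of_nonneg (hl0 j)]; exact hl2 j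
  have hlb' : OB (dg lam) a := hlb.mono (by nlinarith)
  have hL : Ld κ (s ^ 2) = (s : ℂ) • (1 + dg lam) := by
    have : (1 : Mx n n) = dg fun _ => 1 := by rw [dg_const]; simp
    rw [this, dg_add, ← Matrix.one_mul (dg _), ← smul_mul_assoc, ← dg_const, dg_mul_dg, Ld]
    congr 1
    funext j
    rw [hlam]
    field_simp
    ring
  have hN : N = (s : ℂ) • ν := by
    rw [hν, smul_smul, ← Complex.ofReal_mul, mul_inv_cancel₀ hs.ne']
    simp
  have hX : Ld κ (s ^ 2) + N = (s : ℂ) • (1 + (dg lam + ν)) := by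
    rw [hL]
    conv_lhs => rw [hN]
    rw [← smul_add, add_assoc]
  have hY : Ld κ (s ^ 2) - N = (s : ℂ) • (1 + (dg lam + -ν)) := by
    rw [hL]
    conv_lhs => rw [hN]
    rw [← smul_sub, sub_eq_add_neg, add_assoc]
  obtain ⟨p1, p2⟩ := large hs (hlb'.add hνb) (by linarith)
  obtain ⟨q1, q2⟩ := large hs (hlb'.add hνb.neg) (by linarith)
  rw [← hX] at p1 p2
  rw [← hY] at q1 q2
  have hchi : chi κ (s ^ 2) N = (mlog (Ld κ (s ^ 2) + N) - (Real.log s : ℂ) • 1) +
      (mlog (Ld κ (s ^ 2) - N) - (Real.log s : ℂ) • 1) := by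
    rw [chi, Real.log_pow]
    push_cast
    rw [two_mul, add_smul]
    abel
  constructor
  · have := (hlb.add hlb).add (p1.add q1)
    rw [show 17 * M ^ 2 / s ^ 2 = 17 * a ^ 2 by rw [← ha2]; ring, hchi]
    convert this using 1
    · abel
    · ring
  · have hνh : νᴴ = ν := hνb.1.herm.eq
    have hνν : (ν * ν).PosSemidef := by
      have := posSemidef_conjTranspose_mul_self ν
      rwa [hνh] at this
    have c1 : 0 ≤ rtr (dg lam * (ν * ν)) := rtr_mul_nonneg (dg_psd hl0) hνν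
    have c2 : 0 ≤ rtr (dg lam * dg lam * dg lam) := by
      rw [dg_mul_dg, dg_mul_dg]
      exact rtr_nonneg (dg_psd fun j => mul_nonneg (mul_nonneg (hl0 j) (hl0 j)) (hl0 j))
    have c3 : rtr (ν * dg lam * ν) = rtr (dg lam * (ν * ν)) := by
      rw [Matrix.mul_assoc, rtr_mul_comm, Matrix.mul_assoc]
    have c4 : rtr (ν * ν * dg lam) = rtr (dg lam * (ν * ν)) := rtr_mul_comm _ _
    have d1 : rtr (dg lam + ν) + rtr (dg lam + -ν) = 2 * ∑ j, lam j := by
      rw [rtr_add, rtr_add, rtr_neg, rtr_dg]; ring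
    have d2 : rtr ((dg lam + ν) * (dg lam + ν)) + rtr ((dg lam + -ν) * (dg lam + -ν)) =
        2 * ∑ j, lam j * lam j + 2 * rtr (ν * ν) := by
      rw [← rtr_add, show (dg lam + ν) * (dg lam + ν) + (dg lam + -ν) * (dg lam + -ν) =
        (dg lam * dg lam + ν * ν) + (dg lam * dg lam + ν * ν) by noncomm_ring]
      simp only [rtr_add, dg_mul_dg, rtr_dg]
      ring
    have d3 : 0 ≤ rtr ((dg lam + ν) * (dg lam + ν) * (dg lam + ν)) +
        rtr ((dg lam + -ν) * (dg lam + -ν) * (dg lam + -ν)) := by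
      rw [← rtr_add, show (dg lam + ν) * (dg lam + ν) * (dg lam + ν) +
        (dg lam + -ν) * (dg lam + -ν) * (dg lam + -ν) =
        (dg lam * dg lam * dg lam + dg lam * (ν * ν) + ν * dg lam * ν + ν * ν * dg lam) +
        (dg lam * dg lam * dg lam + dg lam * (ν * ν) + ν * dg lam * ν + ν * ν * dg lam)
        by noncomm_ring]
      simp only [rtr_add, c3, c4]
      linarith
    have d4 : rtr (Am κ N) / s ^ 2 = ∑ j, κ j ^ 2 / s ^ 2 - rtr (ν * ν) := by
      have : N * N = ((s ^ 2 : ℝ) : ℂ) • (ν * ν) := by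
        conv_lhs => rw [hN]
        rw [smul_mul_smul_comm]
        push_cast
        rw [sq]
      rw [Am, rtr_sub, this, rtr_smul, dg_mul_dg, rtr_dg, ← Finset.sum_div]
      simp only [← sq]
      field_simp
    have d5 : ∑ j, κ j ^ 2 / s ^ 2 - n * a ^ 4 ≤ 2 * ∑ j, lam j - ∑ j, lam j * lam j := by
      have : n * a ^ 4 = ∑ _j : Fin n, a ^ 4 := by simp
      rw [this, Finset.mul_sum, ← Finset.sum_sub_distrib, ← Finset.sum_sub_distrib]
      refine Finset.sum_le_sum fun j _ => ?_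
      have := mul_le_mul (hl2 j) (hl2 j) (hl0 j) (by positivity)
      nlinarith [hl1 j, pow_pos ha0 4]
    rw [hchi, rtr_add, d4, show 65 * n * M ^ 4 / (s ^ 2) ^ 2 = 65 * n * a ^ 4 by
      rw [ha]; field_simp]
    nlinarith

end Asy

open Asy in
theorem asyStmt : AsyStmt := by
  intro n M hM
  have hlog : 0 ≤ Real.log (2 * M + 1) := Real.log_nonneg (by linarith)
  set l := Real.log (2 * M + 1) with hl
  set C := 1 + n * (2 * M ^ 2) + n * (2 * M ^ 2) * (2 * l + 3) + n * (2 * l + 3) +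
    n * (2 * M ^ 2) * (17 * M ^ 2) + 65 * n * M ^ 4 with hC
  have t1 : 0 ≤ n * (2 * M ^ 2) := by positivity
  have t2 : 0 ≤ n * (2 * M ^ 2) * (2 * l + 3) := by positivity
  have t3 : 0 ≤ n * (2 * l + 3) := by positivity
  have t4 : 0 ≤ n * (2 * M ^ 2) * (17 * M ^ 2) := by positivity
  have t5 : 0 ≤ 65 * n * M ^ 4 := by positivity
  refine ⟨C, 16 * M ^ 2, by linarith, fun κ N hκ h => ⟨?_, fun u hu hu1 => ?_, fun u hu => ?_⟩⟩
  · exact (ob_A hκ h).rtr_le.trans (by linarith)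
  · have h1 := small hM hκ h hu hu1
    have h2 := small hM hκ (btw_neg h) hu hu1
    have h3 : OB (dg fun _ : Fin n => Real.log u) |Real.log u| := ob_dg fun _ => le_rfl
    have ha := abs_nonneg (Real.log u)
    have h4 : OB (chi κ u N) ((2 * l + 3) * (1 + |Real.log u|)) := by
      have := (h1.add h2).add h3.neg
      rw [← sub_eq_add_neg, ← sub_eq_add_neg, dg_const] at this
      exact OB.mono this (by rw [← hl]; nlinarith)
    constructor
    · refine (h4.rtr_mul_le (ob_A hκ h) (by positivity) (by positivity)).trans ?_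
      rw [← mul_assoc]
      exact mul_le_mul_of_nonneg_right (by linarith) (by positivity)
    · refine h4.rtr_le.trans ?_
      rw [← mul_assoc]
      exact mul_le_mul_of_nonneg_right (by linarith) (by positivity)
  · have hu0 : 0 < u := lt_of_lt_of_le (by positivity) hu
    obtain ⟨h1, h2⟩ := big hM hκ h hu
    constructor
    · refine (h1.rtr_mul_le (ob_A hκ h) (by positivity) (by positivity)).trans ?_
      rw [← mul_div_assoc]
      exact div_le_div_of_nonneg_right (by linarith) hu0.le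
    · refine le_trans (sub_le_sub_left ?_ _) h2
      exact div_le_div_of_nonneg_right (by linarith) (by positivity)

end Crest.Agent.R332
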