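import Crest.Agent.R332.Basic

/-! # Row 332: sums of solitons are optimisers -/

set_option autoImplicit false

open MeasureTheory Matrix Set
open scoped ComplexOrder ContDiff
open Crest.MathPhysics.LiebThirring

noncomputable section

namespace Crest.Agent.R332

namespace Conv

/-- the ground state -/
def gs (β a c x : ℝ) : ℝ := Real.cosh (β⁻¹ * a * (x - c)) ^ (-β)
/-- minus its logarithmic derivative -/
def kk (β a c x : ℝ) : ℝ :=
  a * (Real.sinh (β⁻¹ * a * (x - c)) / Real.cosh (β⁻¹ * a * (x - c)))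

theorem lin_der (β a c x : ℝ) : HasDerivAt (fun y => β⁻¹ * a * (y - c)) (β⁻¹ * a) x := by
  simpa using ((hasDerivAt_id x).sub_const c).const_mul (β⁻¹ * a)

theorem gs_pos (β a c x : ℝ) : 0 < gs β a c x := Real.rpow_pos_of_pos (Real.cosh_pos _) _

theorem gs_le_one {β : ℝ} (hβ : 0 < β) (a c x : ℝ) : gs β a c x ≤ 1 :=
  Real.rpow_le_one_of_one_le_of_nonpos (Real.one_le_cosh _) (by linarith)

theorem gs_smooth (β a c : ℝ) : ContDiff ℝ ∞ (gs β a c) := by
  unfold gs
  refine ContDiff.rpow_const_of_ne ?_ fun x => (Real.cosh_pos _).ne'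
  exact Real.contDiff_cosh.comp (by fun_prop)

theorem gs_der {β : ℝ} (hβ : 0 < β) (a c x : ℝ) :
    HasDerivAt (gs β a c) (-(kk β a c x) * gs β a c x) x := by
  have h1 := (lin_der β a c x).cosh
  have h2 := h1.rpow_const (p := -β) (Or.inl (Real.cosh_pos _).ne')
  refine h2.congr_deriv ?_
  have hc := Real.cosh_pos (β⁻¹ * a * (x - c))
  unfold kk gs
  rw [Real.rpow_sub_one hc.ne']
  field_simp

theorem kk_der (β a c x : ℝ) :
    HasDerivAt (kk β a c) (β⁻¹ * a ^ 2 / Real.cosh (β⁻¹ * a * (x - c)) ^ 2) x := by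
  have hc := Real.cosh_pos (β⁻¹ * a * (x - c))
  have h1 := (((lin_der β a c x).sinh).div ((lin_der β a c x).cosh) hc.ne').const_mul a
  refine h1.congr_deriv ?_
  have h2 := Real.cosh_sq (β⁻¹ * a * (x - c))
  generalize Real.cosh (β⁻¹ * a * (x - c)) = C at *
  generalize Real.sinh (β⁻¹ * a * (x - c)) = S at *
  generalize β⁻¹ = r at *
  have : C * (r * a) * C - S * (S * (r * a)) = r * a := by linear_combination (r * a) * h2
  rw [this]; ring

theorem kk_id (β a c x : ℝ) :
    a ^ 2 - kk β a c x ^ 2 + β⁻¹ * a ^ 2 / Real.cosh (β⁻¹ * a * (x - c)) ^ 2 =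
      soliton β⁻¹ a c x := by
  have hc := Real.cosh_pos (β⁻¹ * a * (x - c))
  have h2 := Real.cosh_sq (β⁻¹ * a * (x - c))
  unfold kk soliton
  generalize Real.cosh (β⁻¹ * a * (x - c)) = C at *
  generalize Real.sinh (β⁻¹ * a * (x - c)) = S at *
  generalize β⁻¹ = r at *
  field_simp
  linear_combination a ^ 2 * h2

theorem kk_cont (β a c : ℝ) : Continuous (kk β a c) :=
  continuous_iff_continuousAt.2 fun x => (kk_der β a c x).continuousAt

theorem sol_cont (r a c : ℝ) : Continuous (soliton r a c) := by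
  unfold soliton
  refine Continuous.div continuous_const (by fun_prop) fun x => ?_
  exact (pow_pos (Real.cosh_pos _) 2).ne'

theorem int_of {χ g : ℝ → ℝ} (hχ : Continuous χ) (hs : HasCompactSupport χ) (hg : Continuous g) :
    Integrable fun x => χ x * g x :=
  (hχ.mul hg).integrable_of_hasCompactSupport hs.mul_right

/-- the ground state substitution -/
theorem gs_sub {β : ℝ} (hβ : 0 < β) (a c : ℝ) {χ : ℝ → ℝ} (hχ : ContDiff ℝ ∞ χ)
    (hs : HasCompactSupport χ) :
    ∫ x, (deriv (fun y => χ y * gs β a c y) x ^ 2 -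
        soliton β⁻¹ a c x * (χ x * gs β a c x) ^ 2) =
      -a ^ 2 * (∫ x, (χ x * gs β a c x) ^ 2) + ∫ x, (deriv χ x * gs β a c x) ^ 2 := by
  have hd : ∀ x, HasDerivAt χ (deriv χ x) x := fun x =>
    ((hχ.differentiable (by simp)) x).hasDerivAt
  have hc : Continuous χ := hχ.continuous
  have hc' : Continuous (deriv χ) := hχ.continuous_deriv (by simp)
  have hs' : HasCompactSupport (deriv χ) := hs.deriv
  have hf : Continuous (gs β a c) := (gs_smooth β a c).continuous
  have hk := kk_cont β a c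
  have hsol := sol_cont β⁻¹ a c
  have hu : ∀ x, HasDerivAt (fun y => χ y * gs β a c y)
      (deriv χ x * gs β a c x + χ x * (-(kk β a c x) * gs β a c x)) x := fun x =>
    (hd x).mul (gs_der hβ a c x)
  -- the total derivative
  set G : ℝ → ℝ := fun x => χ x * (kk β a c x * χ x * gs β a c x ^ 2) with hG
  set G' : ℝ → ℝ := fun x => χ x * (2 * kk β a c x * deriv χ x * gs β a c x ^ 2 +
    (soliton β⁻¹ a c x - a ^ 2 - kk β a c x ^ 2) * χ x * gs β a c x ^ 2) with hG'
  have hGd : ∀ x, HasDerivAt G (G' x) x := by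
    intro x
    have h1 := (hd x).mul (((kk_der β a c x).mul (hd x)).mul ((gs_der hβ a c x).fun_pow 2))
    refine h1.congr_deriv ?_
    simp only [hG', ← kk_id β a c x, Pi.mul_apply]
    norm_num
    ring
  have hGi : Integrable G := int_of hc hs (by fun_prop)
  have hGi' : Integrable G' := int_of hc hs (by fun_prop)
  have h0 := integral_eq_zero_of_hasDerivAt_of_integrable hGd hGi' hGi
  have i1 : Integrable fun x => (χ x * gs β a c x) ^ 2 := by
    have := int_of hc hs (g := fun x => χ x * gs β a c x ^ 2) (by fun_prop)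
    refine this.congr (Filter.Eventually.of_forall fun x => ?_)
    simp only; ring
  have i2 : Integrable fun x => (deriv χ x * gs β a c x) ^ 2 := by
    have := int_of hc' hs' (g := fun x => deriv χ x * gs β a c x ^ 2) (by fun_prop)
    refine this.congr (Filter.Eventually.of_forall fun x => ?_)
    simp only; ring
  have e : (fun x => deriv (fun y => χ y * gs β a c y) x ^ 2 -
        soliton β⁻¹ a c x * (χ x * gs β a c x) ^ 2) =
      fun x => (-a ^ 2 * (χ x * gs β a c x) ^ 2 + (deriv χ x * gs β a c x) ^ 2) - G' x := by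
    ext x
    rw [(hu x).deriv]
    simp only [hG']
    ring
  have i4 : Integrable fun x =>
      -a ^ 2 * (χ x * gs β a c x) ^ 2 + (deriv χ x * gs β a c x) ^ 2 := (i1.const_mul _).add i2
  rw [e, integral_sub i4 hGi', integral_add (i1.const_mul _) i2,
    integral_const_mul, h0, sub_zero]

/-- the bump -/
def bp : ContDiffBump (0 : ℝ) := ⟨1, 2, one_pos, one_lt_two⟩

theorem scal {β : ℝ} (hβ : 0 < β) (a c : ℝ) {δ : ℝ} (hδ : 0 < δ) :
    ∃ u : ℝ → ℝ, ContDiff ℝ ∞ u ∧ HasCompactSupport u ∧ ∫ x, u x ^ 2 = 1 ∧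
      ∫ x, (deriv u x ^ 2 - soliton β⁻¹ a c x * u x ^ 2) ≤ -a ^ 2 + δ := by
  have hf : Continuous (gs β a c) := (gs_smooth β a c).continuous
  set ν₀ : ℝ := ∫ x in (-1 : ℝ)..1, gs β a c x ^ 2 with hν₀
  have hν₀p : 0 < ν₀ :=
    intervalIntegral.intervalIntegral_pos_of_pos ((hf.pow 2).intervalIntegrable _ _)
      (fun x => pow_pos (gs_pos β a c x) 2) (by norm_num)
  set B : ℝ := ∫ x, deriv bp x ^ 2 with hB
  have hB0 : 0 ≤ B := integral_nonneg fun x => sq_nonneg _
  set T : ℝ := 1 + B / (δ * ν₀) with hT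
  have hT1 : 1 ≤ T := by
    have : 0 ≤ B / (δ * ν₀) := by positivity
    linarith
  have hT0 : 0 < T := by linarith
  have hb : ContDiff ℝ ∞ (bp : ℝ → ℝ) := bp.contDiff
  set χ : ℝ → ℝ := fun x => bp (x / T) with hχ
  have hχs : ContDiff ℝ ∞ χ := hb.comp (contDiff_id.div_const T)
  have hχc : HasCompactSupport χ := by
    refine HasCompactSupport.intro (isCompact_Icc (a := -(2 * T)) (b := 2 * T)) fun x hx => ?_
    refine bp.zero_of_le_dist ?_
    rw [mem_Icc, not_and_or, not_le, not_le] at hx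
    rw [dist_zero_right, Real.norm_eq_abs, abs_div, abs_of_pos hT0, le_div_iff₀ hT0]
    change 2 * T ≤ |x|
    rcases hx with hx | hx
    · linarith [neg_abs_le x]
    · linarith [le_abs_self x]
  have hχd : ∀ x, deriv χ x = deriv bp (x / T) / T := by
    intro x
    have h1 : HasDerivAt (bp : ℝ → ℝ) (deriv bp (x / T)) (x / T) :=
      ((hb.differentiable (by simp)) _).hasDerivAt
    have h2 := h1.comp x ((hasDerivAt_id x).div_const T)
    have h3 : HasDerivAt χ (deriv bp (x / T) * (1 / T)) x := h2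
    rw [h3.deriv]; ring
  have hc : Continuous χ := hχs.continuous
  have hc' : Continuous (deriv χ) := hχs.continuous_deriv (by simp)
  have i1 : Integrable fun x => (χ x * gs β a c x) ^ 2 := by
    have := int_of hc hχc (g := fun x => χ x * gs β a c x ^ 2) (by fun_prop)
    refine this.congr (Filter.Eventually.of_forall fun x => ?_)
    simp only; ring
  have i3 : Integrable fun x => deriv χ x ^ 2 := by
    have := int_of hc' hχc.deriv hc'
    refine this.congr (Filter.Eventually.of_forall fun x => ?_)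
    simp only; ring
  set ν : ℝ := ∫ x, (χ x * gs β a c x) ^ 2 with hν
  have hνν : ν₀ ≤ ν := by
    rw [hν₀, intervalIntegral.integral_of_le (by norm_num)]
    have : ∫ x in Ioc (-1 : ℝ) 1, gs β a c x ^ 2 = ∫ x in Ioc (-1 : ℝ) 1, (χ x * gs β a c x) ^ 2 := by
      refine setIntegral_congr_fun measurableSet_Ioc fun x hx => ?_
      have : χ x = 1 := by
        refine bp.one_of_mem_closedBall ?_
        rw [Metric.mem_closedBall, dist_zero_right, Real.norm_eq_abs, abs_div, abs_of_pos hT0,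
          div_le_iff₀ hT0]
        change |x| ≤ 1 * T
        have : |x| ≤ 1 := abs_le.2 ⟨hx.1.le, hx.2⟩
        linarith
      simp [this]
    rw [this]
    exact setIntegral_le_integral i1 (Filter.Eventually.of_forall fun x => sq_nonneg _)
  have hνp : 0 < ν := by linarith
  have hE : ∫ x, (deriv χ x * gs β a c x) ^ 2 ≤ δ * ν := by
    have h1 : ∫ x, (deriv χ x * gs β a c x) ^ 2 ≤ ∫ x, deriv χ x ^ 2 := by
      refine integral_mono_of_nonneg (Filter.Eventually.of_forall fun x => sq_nonneg _) i3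
        (Filter.Eventually.of_forall fun x => ?_)
      have h1 := gs_pos β a c x
      have h2 := gs_le_one hβ a c x
      have h3 : gs β a c x ^ 2 ≤ 1 := pow_le_one₀ h1.le h2
      simp only [mul_pow]
      exact mul_le_of_le_one_right (sq_nonneg _) h3
    have h2 : ∫ x, deriv χ x ^ 2 = B / T := by
      simp only [hχd, div_pow]
      rw [integral_div, Measure.integral_comp_div (fun y => deriv bp y ^ 2) T, abs_of_pos hT0,
        smul_eq_mul, ← hB]
      field_simp
    have h3 : B / T ≤ δ * ν₀ := by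
      rw [div_le_iff₀ hT0, hT, mul_add, mul_div_cancel₀ _ (by positivity)]
      have : 0 < δ * ν₀ := by positivity
      linarith
    have h4 : δ * ν₀ ≤ δ * ν := by gcongr
    linarith
  have hsub := gs_sub hβ a c hχs hχc
  have hsq : (√ν) ^ 2 = ν := Real.sq_sqrt hνp.le
  have hsp : 0 < √ν := Real.sqrt_pos.2 hνp
  have hv : ContDiff ℝ ∞ fun y => χ y * gs β a c y := hχs.mul (gs_smooth β a c)
  refine ⟨fun x => χ x * gs β a c x / √ν, hv.div_const _, ?_, ?_, ?_⟩
  · simp only [div_eq_mul_inv, mul_assoc]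
    exact hχc.mul_right
  · simp only [div_pow, hsq]
    rw [integral_div, ← hν, div_self hνp.ne']
  · have e : (fun x => deriv (fun x => χ x * gs β a c x / √ν) x ^ 2 -
          soliton β⁻¹ a c x * (χ x * gs β a c x / √ν) ^ 2) =
        fun x => (deriv (fun y => χ y * gs β a c y) x ^ 2 -
          soliton β⁻¹ a c x * (χ x * gs β a c x) ^ 2) / ν := by
      ext x
      rw [deriv_div_const]
      simp only [div_pow, hsq]
      ring
    rw [e, integral_div, hsub, ← hν, div_le_iff₀ hνp]
    linarith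

theorem mom {m : ℕ} (a : Fin m → ℝ) (ha : ∀ i, 0 ≤ a i) {β ε : ℝ} (hβ : 0 < β) (hε : 0 < ε) :
    ∃ δ : ℝ, 0 < δ ∧ ∑ i, a i ^ (1 + 2 * β) - ε < ∑ i, (max (a i ^ 2 - δ) 0) ^ (β + 1 / 2) := by
  have hc : Continuous fun δ : ℝ => ∑ i, (max (a i ^ 2 - δ) 0) ^ (β + 1 / 2) := by
    refine continuous_finsetSum _ fun i _ => ?_
    exact Continuous.rpow_const (by fun_prop) fun _ => Or.inr (by linarith)
  have h0 : ∑ i, a i ^ (1 + 2 * β) - ε < ∑ i, (max (a i ^ 2 - 0) 0) ^ (β + 1 / 2) := by
    have : ∑ i, (max (a i ^ 2 - 0) 0) ^ (β + 1 / 2) = ∑ i, a i ^ (1 + 2 * β) := by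
      refine Finset.sum_congr rfl fun i _ => ?_
      rw [sub_zero, max_eq_left (sq_nonneg _), ← Real.rpow_natCast, ← Real.rpow_mul (ha i)]
      congr 1
      push_cast; ring
    rw [this]; linarith
  have h1 : ∀ᶠ δ in nhdsWithin (0 : ℝ) (Ioi 0),
      ∑ i, a i ^ (1 + 2 * β) - ε < ∑ i, (max (a i ^ 2 - δ) 0) ^ (β + 1 / 2) :=
    nhdsWithin_le_nhds (hc.continuousAt.eventually (lt_mem_nhds h0))
  obtain ⟨δ, h2, h3⟩ := (h1.and self_mem_nhdsWithin).exists
  exact ⟨δ, h3, h2⟩

theorem dg_herm' {n : ℕ} (d : Fin n → ℝ) : (dg d)ᴴ = dg d := (dg_herm d).eq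

theorem int_dg {n : ℕ} (d : ℝ → Fin n → ℝ) :
    (of fun k l => ∫ x, dg (d x) k l) = dg fun i => ∫ x, d x i := by
  ext k l
  by_cases h : k = l
  · subst h
    simp only [dg, of_apply, diagonal_apply_eq]
    exact integral_ofReal
  · simp [dg, diagonal_apply_ne _ h]

end Conv

open Conv in
theorem convStmt_of (hS : ScalStmt) : ConvStmt := by
  intro β m W hβ hβ1 _ ⟨U, a, c, ha, hW⟩ ε hε
  obtain ⟨-, -, -, -, -, -, h7⟩ := hS β hβ hβ1
  have hU : (U : Mx m m)ᴴ * (U : Mx m m) = 1 := Unitary.star_mul_self_of_mem U.2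
  have hW' : ∀ᵐ x : ℝ, W x = (U : Mx m m) * dg (fun i => soliton β⁻¹ (a i) (c i) x) *
      (U : Mx m m)ᴴ := hW
  have hsig : sharpConst (β + 1 / 2) * sig β W = ∑ i, a i ^ (1 + 2 * β) := by
    have h1 : sig β W = ∫ x, ∑ i, soliton β⁻¹ (a i) (c i) x ^ (1 + β) := by
      refine integral_congr_ae (hW'.mono fun x hx => ?_)
      simp only [hx]
      exact tracePow_conj_dg hU _ _
    rw [h1, integral_finsetSum _ fun i _ => (h7 (a i) (c i) (ha i)).1, Finset.mul_sum]
    exact Finset.sum_congr rfl fun i _ => (h7 (a i) (c i) (ha i)).2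
  obtain ⟨δ, hδ, hmom⟩ := mom a ha hβ hε
  choose u hus huc hu1 hue using fun i => scal hβ (a i) (c i) hδ
  have hent : ∀ (d : Fin m → ℝ) i k, ((U : Mx m m) * dg d) i k = (U : Mx m m) i k * (d k : ℂ) :=
    fun d i k => by simp [dg, mul_diagonal]
  have hdM : ∀ x, dM (fun x => (U : Mx m m) * dg fun l => u l x) x =
      (U : Mx m m) * dg fun l => deriv (u l) x := by
    intro x
    ext i k
    simp only [dM, of_apply, hent]
    have h1 : HasDerivAt (u k) (deriv (u k) x) x :=
      (((hus k).differentiable (by simp)) x).hasDerivAt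
    exact (h1.ofReal_comp.const_mul _).deriv
  have hmul : ∀ d e : Fin m → ℝ, ((U : Mx m m) * dg d)ᴴ * ((U : Mx m m) * dg e) =
      dg fun i => d i * e i := by
    intro d e
    rw [conjTranspose_mul, dg_herm', Matrix.mul_assoc, ← Matrix.mul_assoc (U : Mx m m)ᴴ, hU,
      Matrix.one_mul, dg_mul_dg]
  refine ⟨m, fun x => (U : Mx m m) * dg fun l => u l x, ⟨fun i k => ?_, ?_⟩, ?_, ?_⟩
  · simp only [hent]
    exact contDiff_const.mul (Complex.ofRealCLM.contDiff.comp (hus k))
  · refine HasCompactSupport.intro (isCompact_iUnion fun l => (huc l).isCompact) fun x hx => ?_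
    have h0 : ∀ l, u l x = 0 := fun l => by
      by_contra h
      exact hx (mem_iUnion.2 ⟨l, subset_tsupport _ h⟩)
    ext i k
    simp [hent, h0]
  · simp only [gram, hmul]
    rw [int_dg]
    simp only [← sq, hu1]
    simp [dg]
  · have he : ener W (fun x => (U : Mx m m) * dg fun l => u l x) =
        dg fun l => ∫ x, (deriv (u l) x ^ 2 - soliton β⁻¹ (a l) (c l) x * u l x ^ 2) := by
      rw [← int_dg]
      ext k l
      simp only [ener, of_apply]
      refine integral_congr_ae (hW'.mono fun x hx => ?_)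
      simp only [hdM, hmul, hx]
      have : ((U : Mx m m) * dg fun l => u l x)ᴴ *
          ((U : Mx m m) * dg (fun i => soliton β⁻¹ (a i) (c i) x) * (U : Mx m m)ᴴ) *
          ((U : Mx m m) * dg fun l => u l x) =
          dg fun l => soliton β⁻¹ (a l) (c l) x * u l x ^ 2 := by
        rw [← Matrix.mul_assoc ((U : Mx m m) * dg fun l => u l x)ᴴ, hmul,
          Matrix.mul_assoc, ← Matrix.mul_assoc (U : Mx m m)ᴴ, hU, Matrix.one_mul, dg_mul_dg]
        congr 1
        ext l; ring
      rw [this, dg_sub]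
      simp only [sq]
    rw [hsig, he, negMoment_eq, cfc_dg, rtr_dg]
    refine hmom.trans_le (Finset.sum_le_sum fun i _ => ?_)
    refine Real.rpow_le_rpow (le_max_right _ _) (max_le_max ?_ le_rfl) (by linarith)
    linarith [hue i]

end Crest.Agent.R332
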