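import Crest.Agent.R332.Basic

/-! # Row 332: completing the square -/

set_option autoImplicit false

open MeasureTheory Matrix Set
open scoped ComplexOrder ContDiff
open Crest.MathPhysics.LiebThirring

noncomputable section

namespace Crest.Agent.R332

namespace CoreP

variable {m n k : ℕ}

theorem int_eq {E : Type*} [NormedAddCommGroup E] [NormedSpace ℝ E] {f : ℝ → E} {a b : ℝ}
    (h0 : ∀ x, x ∉ Ioo a b → f x = 0) : ∫ x in a..b, f x = ∫ x, f x :=
  intervalIntegral.integral_eq_integral_of_support_subset fun x hx => by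
    by_contra h
    exact hx (h0 x fun h' => h (Ioo_subset_Ioc_self h'))

theorem integrable_of {E : Type*} [NormedAddCommGroup E] {f : ℝ → E} {a b : ℝ}
    (hf : Continuous f) (h0 : ∀ x, x ∉ Ioo a b → f x = 0) : Integrable f :=
  hf.integrable_of_hasCompactSupport (HasCompactSupport.intro (isCompact_Icc (a := a) (b := b))
    fun x hx => h0 x fun h => hx (Ioo_subset_Icc_self h))

theorem integrable_rtr {F : ℝ → Mx n n} (hF : ∀ i j, Integrable fun x => F x i j) :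
    Integrable fun x => rtr (F x) := by
  simp only [rtr_eq_sum]
  exact integrable_finsetSum _ fun i _ => (hF i i).re

theorem rtr_integral {F : ℝ → Mx n n} (hF : ∀ i j, Integrable fun x => F x i j) :
    rtr (of fun i j => ∫ x, F x i j) = ∫ x, rtr (F x) := by
  simp only [rtr_eq_sum, of_apply]
  rw [integral_finsetSum (f := fun i x => (F x i i).re) _ fun i _ => (hF i i).re]
  exact Finset.sum_congr rfl fun i _ => (integral_re (hF i i)).symm

theorem rtr_mul_integral {F : ℝ → Mx n n} (hF : ∀ i j, Integrable fun x => F x i j) (C : Mx n n) :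
    rtr (C * of fun i j => ∫ x, F x i j) = ∫ x, rtr (C * F x) := by
  have h1 : ∀ i j, Integrable fun x => (C * F x) i j := fun i j => by
    simp only [mul_apply]
    exact integrable_finsetSum _ fun l _ => (hF l j).const_mul _
  rw [← rtr_integral h1]
  congr 1
  ext i j
  simp only [mul_apply, of_apply]
  rw [integral_finsetSum _ fun l _ => (hF l j).const_mul _]
  simp only [integral_const_mul]

theorem rtr_le_of_bd {A : Mx n n} {M : ℝ} (h : Bd A M) : rtr A ≤ n * M := by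
  have := rtr_nonneg h
  rw [rtr_sub, rtr_smul, rtr_one] at this
  linarith

theorem rtr_rpow_le {A : Mx n n} (hA : A.PosSemidef) {s : ℝ} (hs : 0 < s) :
    rtr A ^ s ≤ n ^ s * tracePow A s := by
  have h1 := rtr_le_of_bd (bd_tracePow hA hs)
  have h2 := tracePow_nonneg hA s
  calc rtr A ^ s ≤ (n * tracePow A s ^ s⁻¹) ^ s := Real.rpow_le_rpow (rtr_nonneg hA) h1 hs.le
    _ = _ := by
      rw [Real.mul_rpow (by positivity) (Real.rpow_nonneg h2 _), Real.rpow_inv_rpow h2 hs.ne']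

/-- the algebra of the completed square -/
theorem square {Φ Φ' : Mx m n} {N A 𝒲 : Mx n n} (hN : N.IsHermitian) :
    rtr ((A - N * N - 𝒲) * (Φᴴ * Φ) + N * (Φ'ᴴ * Φ + Φᴴ * Φ')) =
      hs Φ' + rtr (A * (Φᴴ * Φ)) - hs (Φ' - Φ * N) - rtr (𝒲 * (Φᴴ * Φ)) := by
  have e1 : rtr (Φ'ᴴ * (Φ * N)) = rtr (N * (Φ'ᴴ * Φ)) := by
    rw [← Matrix.mul_assoc, rtr_mul_comm]
  have e2 : rtr (N * Φᴴ * (Φ * N)) = rtr (N * N * (Φᴴ * Φ)) := by
    rw [← Matrix.mul_assoc, rtr_mul_comm]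
    simp only [Matrix.mul_assoc]
  rw [hs_eq_rtr, hs_eq_rtr, conjTranspose_sub, conjTranspose_mul, hN.eq]
  simp only [Matrix.sub_mul, Matrix.mul_sub, Matrix.mul_add, rtr_add, rtr_sub, e1, e2]
  rw [Matrix.mul_assoc N Φᴴ Φ']
  ring

/-- a Gagliardo–Nirenberg type bound -/
theorem sup_bound {Φ : ℝ → Mx m n} (hΦ : Sm Φ) {r A B : ℝ} (hr : 0 < r)
    (h1 : ∫ x, tracePow (Φ x * (Φ x)ᴴ) (r + 1) ≤ A) (h2 : ∫ x, hs (dM Φ x) ≤ B) (x : ℝ) :
    hs (Φ x) ≤ 1 + (r + 2) / 2 * (m ^ (r + 1) * A + B) := by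
  obtain ⟨a, b, -, h0⟩ := hΦ.exists_Ioo
  obtain ⟨a', b', -, h0'⟩ := hΦ.dM.exists_Ioo
  have hc := hΦ.continuous
  have i1 : Integrable fun x => tracePow (Φ x * (Φ x)ᴴ) (r + 1) := by
    refine integrable_of (a := a) (b := b) (continuous_rtr.comp (continuous_mpow
      (hc.matrix_mul hc.matrix_conjTranspose)
      (fun x => isHermitian_mul_conjTranspose_self _) (by linarith))) fun x hx => ?_
    rw [tracePow_eq, h0 x hx, Matrix.zero_mul, mpow_zero (by linarith), rtr_zero]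
  have i2 : Integrable fun x => hs (dM Φ x) :=
    integrable_of (a := a') (b := b') (continuous_hs.comp hΦ.dM.continuous) fun x hx => by rw [h0' x hx, hs_zero]
  set s : ℝ := (r + 2) / 2 with hs'
  have hs1 : 1 ≤ s := by rw [hs']; linarith
  set φ : ℝ → ℝ := fun x => s * (m ^ (r + 1) * tracePow (Φ x * (Φ x)ᴴ) (r + 1) + hs (dM Φ x))
    with hφ
  have iφ : Integrable φ := ((i1.const_mul _).add i2).const_mul _
  have hm : (0 : ℝ) ≤ m ^ (r + 1) := Real.rpow_nonneg (by positivity) _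
  have hφ0 : ∀ x, 0 ≤ φ x := fun x => mul_nonneg (by linarith) (add_nonneg (mul_nonneg hm
    (tracePow_nonneg (posSemidef_self_mul_conjTranspose _) _)) (hs_nonneg _))
  have hφi : ∫ x, φ x ≤ s * (m ^ (r + 1) * A + B) := by
    simp only [hφ]
    rw [integral_const_mul, integral_add (i1.const_mul _) i2, integral_const_mul]
    gcongr
  have hder : ∀ x, HasDerivAt (fun y => hs (Φ y) ^ s)
      (2 * rtr ((Φ x)ᴴ * dM Φ x) * s * hs (Φ x) ^ (s - 1)) x := by
    intro x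
    have d1 := ((hΦ.der x).conjTranspose.mul (hΦ.der x)).rtr
    have e : rtr ((dM Φ x)ᴴ * Φ x + (Φ x)ᴴ * dM Φ x) = 2 * rtr ((Φ x)ᴴ * dM Φ x) := by
      rw [rtr_add, ← rtr_conjTranspose ((dM Φ x)ᴴ * Φ x), conjTranspose_mul,
        conjTranspose_conjTranspose]
      ring
    rw [e] at d1
    simp only [← hs_eq_rtr] at d1
    exact d1.rpow_const (Or.inr hs1)
  have hle : ∀ x, 2 * rtr ((Φ x)ᴴ * dM Φ x) * s * hs (Φ x) ^ (s - 1) ≤ φ x := by
    intro x
    have e1 := rtr_sq_le (Φ x) (dM Φ x)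
    have y0 := hs_nonneg (Φ x)
    have h0 := hs_nonneg (dM Φ x)
    have e2 : hs (Φ x) ^ (r + 1) ≤ m ^ (r + 1) * tracePow (Φ x * (Φ x)ᴴ) (r + 1) := by
      rw [hs_eq_rtr']
      exact rtr_rpow_le (posSemidef_self_mul_conjTranspose _) (by linarith)
    have e3 : hs (Φ x) ^ (s - 1) * hs (Φ x) ^ (s - 1) * hs (Φ x) = hs (Φ x) ^ (r + 1) := by
      rw [← Real.rpow_add' y0 (by rw [hs']; linarith), ← Real.rpow_add_one' y0 (by rw [hs']; linarith)]
      congr 1
      rw [hs']; ring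
    set t := rtr ((Φ x)ᴴ * dM Φ x)
    set α := hs (Φ x) ^ (s - 1)
    set y := hs (Φ x)
    set h := hs (dM Φ x)
    have e4 : 2 * t * α ≤ α * α * y + h := by
      refine abs_le_of_sq_le_sq' ?_ (by positivity) |>.2
      have : α ^ 2 * t ^ 2 ≤ α ^ 2 * (y * h) := mul_le_mul_of_nonneg_left e1 (sq_nonneg _)
      nlinarith [sq_nonneg (α * α * y - h)]
    rw [e3] at e4
    calc 2 * t * s * α = s * (2 * t * α) := by ring
      _ ≤ _ := mul_le_mul_of_nonneg_left (by linarith) (by linarith)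
  have hpos : 0 ≤ s * (m ^ (r + 1) * A + B) := (integral_nonneg hφ0).trans hφi
  rcases le_total x a with hx | hx
  · rw [h0 x fun h => absurd h.1 (not_lt.2 hx), hs_zero]
    linarith
  have h3 := intervalIntegral.sub_le_integral_of_hasDeriv_right_of_le hx
    (fun y _ => (hder y).continuousAt.continuousWithinAt)
    (fun y _ => (hder y).hasDerivWithinAt) iφ.integrableOn fun y _ => hle y
  rw [h0 a (by simp), hs_zero, Real.zero_rpow (by linarith), sub_zero,
    intervalIntegral.integral_of_le hx] at h3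
  have h4 := setIntegral_le_integral (s := Ioc a x) iφ (Filter.Eventually.of_forall hφ0)
  have h5 : hs (Φ x) ≤ 1 + hs (Φ x) ^ s := by
    rcases le_total (hs (Φ x)) 1 with h | h
    · have := Real.rpow_nonneg (hs_nonneg (Φ x)) s
      linarith
    · have := Real.rpow_le_rpow_of_exponent_le h hs1
      rw [Real.rpow_one] at this
      linarith
  linarith

end CoreP

open CoreP in
theorem coreStmt_of (hE : ExtStmt) (hF : FamStmt) (hY : YoungStmt) : CoreStmt := by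
  intro β m W hβ hβ1 hW
  have hσ : 0 ≤ sig β W := integral_nonneg fun x => tracePow_nonneg (hW.psd x) _
  have hr : 1 ≤ β⁻¹ := (one_le_inv₀ hβ).2 hβ1.le
  have hm : (0 : ℝ) ≤ m ^ (β⁻¹ + 1) := Real.rpow_nonneg (by positivity) _
  refine ⟨1 + (β⁻¹ + 2) / 2 * (m ^ (β⁻¹ + 1) * (sig β W + 2) + (2 * sig β W + 3)), by positivity,
    fun n Ψ κ η hn hΨ hg hκ hen hη hη1 => ?_⟩
  obtain ⟨a₁, b₁, hab₁, h₁⟩ := hΨ.exists_Ioo
  obtain ⟨a₂, b₂, -, h₂⟩ := hΨ.dM.exists_Ioo
  set a := min a₁ a₂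
  set b := max b₁ b₂
  have hab : a < b := (min_le_left _ _).trans_lt (hab₁.trans_le (le_max_left _ _))
  have hΨ0 : ∀ x, x ∉ Ioo a b → Ψ x = 0 := fun x hx => h₁ x fun h =>
    hx ⟨(min_le_left _ _).trans_lt h.1, h.2.trans_le (le_max_left _ _)⟩
  have hΨ1 : ∀ x, x ∉ Ioo a b → dM Ψ x = 0 := fun x hx => h₂ x fun h =>
    hx ⟨(min_le_right _ _).trans_lt h.1, h.2.trans_le (le_max_right _ _)⟩
  have hΨc := hΨ.continuous
  obtain ⟨T, κ', N, hκ', htop, hsum, hloss, hR⟩ := hE β⁻¹ (1 + 2 * β) n κ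
    (fun x => (Ψ x)ᴴ * Ψ x) a b η hr (by linarith) hn hκ (hΨc.matrix_conjTranspose.matrix_mul hΨc)
    (fun x => posSemidef_conjTranspose_mul_self _) hab
    (fun x hx => by simp only [hΨ0 x hx, Matrix.mul_zero]) (fun i j => by
      rw [int_eq fun x hx => by simp only [hΨ0 x hx, Matrix.mul_zero, Matrix.zero_apply], ← hg]
      rfl) hη
  obtain ⟨hΦ, hdΦ, hgΦ⟩ := hF.1 m n n Ψ T hΨ
  obtain ⟨-, -, heΦ⟩ := hF.2.2.1 β m n W Ψ hβ hW hΨ
  specialize heΦ n T
  set Φ : ℝ → Mx m n := fun x => Ψ x * T with hΦdef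
  obtain ⟨iW, -, -⟩ := hF.2.2.1 β m n W Φ hβ hW hΦ
  have hGe : (fun x => mpow (Tᴴ * ((Ψ x)ᴴ * Ψ x) * T) β⁻¹) =
      fun x => mpow ((Φ x)ᴴ * Φ x) β⁻¹ := by
    ext1 x
    simp only [hΦdef, conjTranspose_mul, Matrix.mul_assoc]
  rw [hGe] at hR
  have hΦ0 : ∀ x, x ∉ Ioo a b → Φ x = 0 := fun x hx => by
    simp only [hΦdef, hΨ0 x hx, Matrix.zero_mul]
  have hΦ1 : ∀ x, x ∉ Ioo a b → dM Φ x = 0 := fun x hx => by
    rw [hdΦ, hΨ1 x hx, Matrix.zero_mul]
  have hΦc := hΦ.continuous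
  have hΦ'c := hΦ.dM.continuous
  have hNc := hR.continuous
  have hGc : Continuous fun x => (Φ x)ᴴ * Φ x := hΦc.matrix_conjTranspose.matrix_mul hΦc
  have hGp : ∀ x, ((Φ x)ᴴ * Φ x).PosSemidef := fun x => posSemidef_conjTranspose_mul_self _
  -- the three forms of the nonlinear term
  set τ : ℝ → ℝ := fun x => rtr (mpow ((Φ x)ᴴ * Φ x) β⁻¹ * ((Φ x)ᴴ * Φ x)) with hτ
  have hτ1 : ∀ x, tracePow (Φ x * (Φ x)ᴴ) (β⁻¹ + 1) = τ x := fun x => by
    rw [tracePow_swap _ (by linarith), tracePow_eq, ← mpow_mul_self (hGp x) (by linarith)]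
  have hτ2 : ∀ x, tracePow (mpow ((Φ x)ᴴ * Φ x) β⁻¹) (1 + β) = τ x := fun x => by
    rw [tracePow_eq, mpow_mpow (hGp x), mul_add, mul_one, inv_mul_cancel₀ hβ.ne',
      ← mpow_mul_self (hGp x) (by linarith)]
  have hτ0 : ∀ x, x ∉ Ioo a b → τ x = 0 := fun x hx => by
    simp only [hτ, hΦ0 x hx, Matrix.mul_zero, rtr_zero]
  have iτ : Integrable τ := integrable_of (a := a) (b := b) (continuous_rtr.comp (hR.cont.matrix_mul hGc)) hτ0
  have iE : Integrable fun x => hs (dM Φ x - Φ x * N x) :=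
    integrable_of (a := a) (b := b) (continuous_hs.comp (hΦ'c.sub (hΦc.matrix_mul hNc))) fun x hx => by
      rw [hΦ0 x hx, hΦ1 x hx, Matrix.zero_mul, sub_zero, hs_zero]
  have iD : Integrable fun x => hs (dM Φ x) :=
    integrable_of (a := a) (b := b) (continuous_hs.comp hΦ'c) fun x hx => by rw [hΦ1 x hx, hs_zero]
  have iG : ∀ i j, Integrable fun x => ((Φ x)ᴴ * Φ x) i j := fun i j =>
    integrable_of (a := a) (b := b) (hGc.matrix_elem i j) fun x hx => by
      simp only [hΦ0 x hx, Matrix.mul_zero, Matrix.zero_apply]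
  have iD' : ∀ i j, Integrable fun x => ((dM Φ x)ᴴ * dM Φ x) i j := fun i j =>
    integrable_of (a := a) (b := b) ((hΦ'c.matrix_conjTranspose.matrix_mul hΦ'c).matrix_elem i j) fun x hx => by
      simp only [hΦ1 x hx, Matrix.mul_zero, Matrix.zero_apply]
  have iK : Integrable fun x => rtr (dg κ' * dg κ' * ((Φ x)ᴴ * Φ x)) :=
    integrable_of (a := a) (b := b) (continuous_rtr.comp (continuous_const.matrix_mul hGc)) fun x hx => by
      simp only [hΦ0 x hx, Matrix.mul_zero, rtr_zero]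
  have eW : ∀ x, rtr ((Φ x)ᴴ * W x * Φ x) = rtr (W x * (Φ x * (Φ x)ᴴ)) := fun x => by
    rw [Matrix.mul_assoc, rtr_mul_comm, Matrix.mul_assoc]
  have iWΓ : Integrable fun x => rtr (W x * (Φ x * (Φ x)ᴴ)) := by
    simpa only [eW] using integrable_rtr iW
  -- the completed square
  have hsq : (∫ x, hs (dM Φ x)) + (∫ x, rtr (dg κ' * dg κ' * ((Φ x)ᴴ * Φ x))) -
      (∫ x, hs (dM Φ x - Φ x * N x)) - ∫ x, τ x = 0 := by
    have i1 : Integrable fun x => hs (dM Φ x) + rtr (dg κ' * dg κ' * ((Φ x)ᴴ * Φ x)) := iD.add iK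
    have i2 : Integrable fun x => hs (dM Φ x) + rtr (dg κ' * dg κ' * ((Φ x)ᴴ * Φ x)) -
      hs (dM Φ x - Φ x * N x) := i1.sub iE
    rw [← integral_add iD iK, ← integral_sub i1 iE, ← integral_sub i2 iτ]
    refine integral_eq_zero_of_hasDerivAt_of_integrable (f := fun x => rtr (N x * ((Φ x)ᴴ * Φ x)))
      (fun x => ?_) (i2.sub iτ) ?_
    · have d := ((hR.der x).mul ((hΦ.der x).conjTranspose.mul (hΦ.der x))).rtr
      rw [Am, square (hR.btw x).herm] at d
      exact d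
    · exact integrable_of (a := a) (b := b) (continuous_rtr.comp (hNc.matrix_mul hGc)) fun x hx => by
        simp only [hΦ0 x hx, Matrix.mul_zero, rtr_zero]
  have hK : ∫ x, rtr (dg κ' * dg κ' * ((Φ x)ᴴ * Φ x)) = rtr (dg κ' * dg κ' * (Tᴴ * T)) := by
    rw [← rtr_mul_integral iG]
    change rtr (dg κ' * dg κ' * gram Φ) = _
    rw [hgΦ, hg, Matrix.mul_one]
  have hen' : (∫ x, hs (dM Φ x)) - ∫ x, rtr (W x * (Φ x * (Φ x)ᴴ)) =
      -rtr (dg κ * dg κ * (T * Tᴴ)) := by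
    have e1 := rtr_integral (F := fun x => (dM Φ x)ᴴ * dM Φ x - (Φ x)ᴴ * W x * Φ x)
      fun i j => (iD' i j).sub (iW i j)
    change rtr (ener W Φ) = _ at e1
    simp only [rtr_sub, ← hs_eq_rtr, eW] at e1
    rw [integral_sub iD iWΓ, heΦ, hen] at e1
    rw [← e1, Matrix.mul_neg, Matrix.neg_mul, rtr_neg, Matrix.mul_assoc, rtr_mul_comm,
      Matrix.mul_assoc]
  have hb1 : 0 < 1 + β := by linarith
  have iB : Integrable fun x => brg β (W x) (Φ x * (Φ x)ᴴ) := by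
    simp only [brg, add_comm 1 β⁻¹, hτ1]
    exact ((hW.int.div_const _).add (iτ.div_const _)).sub iWΓ
  have hB : ∫ x, brg β (W x) (Φ x * (Φ x)ᴴ) =
      sig β W / (1 + β) + (∫ x, τ x) / (β⁻¹ + 1) - ∫ x, rtr (W x * (Φ x * (Φ x)ᴴ)) := by
    simp only [brg, add_comm 1 β⁻¹, hτ1]
    have i1 : Integrable fun x => tracePow (W x) (1 + β) / (1 + β) + τ x / (β⁻¹ + 1) :=
      (hW.int.div_const _).add (iτ.div_const _)
    rw [integral_sub i1 iWΓ,
      integral_add (hW.int.div_const _) (iτ.div_const _), integral_div, integral_div]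
    rfl
  have hsplit : (∫ x, τ x) / (1 + β) + (∫ x, τ x) / (β⁻¹ + 1) = ∫ x, τ x := by
    field_simp
  have hmain : (∫ x, hs (dM Φ x - Φ x * N x)) + (∫ x, τ x) / (1 + β) +
      (∫ x, brg β (W x) (Φ x * (Φ x)ᴴ)) ≤ sig β W / (1 + β) + η := by
    rw [hB]
    linarith
  refine ⟨Φ, κ', N, a, b, hΦ, hκ', htop, hsum, hR, fun x => ?_, iE, iB, ?_⟩
  · have hB0 : 0 ≤ ∫ x, brg β (W x) (Φ x * (Φ x)ᴴ) := integral_nonneg fun x =>
      (hY β hβ hβ1).1 m _ _ (hW.psd x) (posSemidef_self_mul_conjTranspose _)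
    have hE0 : 0 ≤ ∫ x, hs (dM Φ x - Φ x * N x) := integral_nonneg fun x => hs_nonneg _
    have hτn : 0 ≤ ∫ x, τ x := integral_nonneg fun x =>
      rtr_mul_nonneg (mpow_psd (hGp x) _) (hGp x)
    have e1 : ∫ x, τ x ≤ sig β W + 2 := by
      have : (∫ x, τ x) / (1 + β) ≤ sig β W / (1 + β) + 1 := by linarith
      rw [div_le_iff₀ hb1, add_mul, div_mul_cancel₀ _ hb1.ne'] at this
      linarith
    have e2 : sig β W / (1 + β) ≤ sig β W := div_le_self hσ (by linarith)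
    have e3 : 0 ≤ (∫ x, τ x) / (1 + β) := div_nonneg hτn hb1.le
    have e4 : 0 ≤ rtr (dg κ' * dg κ' * (Tᴴ * T)) := by
      refine rtr_mul_nonneg ?_ (posSemidef_conjTranspose_mul_self T)
      rw [dg_mul_dg]
      exact dg_psd fun i => mul_self_nonneg _
    refine sup_bound hΦ (by linarith) ?_ (by linarith) x
    simp only [hτ1]
    exact e1
  · simp only [hτ2]
    rw [int_eq hτ0]
    exact hmain

end Crest.Agent.R332
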