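import Crest.Agent.R332.Basic

/-!
# Row 332: eigenvalue comparison (`CountStmt`)
-/

set_option autoImplicit false

open Matrix Set Filter Topology
open scoped ComplexOrder

noncomputable section

namespace Crest.Agent.R332

namespace Count

variable {n : ℕ}

theorem qf_conj_dg (U : Mx n n) (d : Fin n → ℝ) (v : Fin n → ℂ) :
    qf (U * dg d * Uᴴ) v = ∑ i, d i * ‖(Uᴴ *ᵥ v) i‖ ^ 2 := by
  rw [← qf_dg, ← qf_conj, conjTranspose_conjTranspose]

theorem vs_conj {U : Mx n n} (hU : U * Uᴴ = 1) (v : Fin n → ℂ) : vs (Uᴴ *ᵥ v) = vs v := by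
  rw [vs_mulVec, conjTranspose_conjTranspose, hU, vs_eq_qf]

theorem le_qf {U : Mx n n} (hU : U * Uᴴ = 1) (d : Fin n → ℝ) (v : Fin n → ℂ) {t : ℝ}
    (h : ∀ i, d i < t → (Uᴴ *ᵥ v) i = 0) : t * vs v ≤ qf (U * dg d * Uᴴ) v := by
  rw [qf_conj_dg, ← vs_conj hU, vs, Finset.mul_sum]
  refine Finset.sum_le_sum fun i _ => ?_
  by_cases hi : d i < t
  · simp [h i hi]
  · exact mul_le_mul_of_nonneg_right (not_lt.1 hi) (sq_nonneg _)

theorem sum_le_of_card {ι κ : Type} [Fintype ι] [Fintype κ] (d : ι → ℝ) (e : κ → ℝ) (t₀ : ℝ)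
    (f : ℝ → ℝ) (hf : Antitone f) (h0 : ∀ t, t₀ ≤ t → f t = 0)
    (hc : ∀ t, t ≤ t₀ → Fintype.card {i // d i < t} ≤ Fintype.card {j // e j < t}) :
    ∑ i, f (d i) ≤ ∑ j, f (e j) := by
  classical
  have hf0 : ∀ t, 0 ≤ f t := fun t => by
    rw [← h0 (max t t₀) (le_max_right _ _)]
    exact hf (le_max_left _ _)
  obtain ⟨σ, hσ, hσm⟩ := (Finset.all_card_le_biUnion_card_iff_exists_injective
    (fun i : {i // d i < t₀} => Finset.univ.filter fun j => e j ≤ d i.1)).1 fun s => by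
      rcases s.eq_empty_or_nonempty with rfl | hs
      · simp
      obtain ⟨i₀, hi₀, hmax⟩ := s.exists_max_image (fun i => d i.1) hs
      have hev : ∀ᶠ t in 𝓝[>] d i₀.1, t ≤ t₀ ∧ ∀ j, d i₀.1 < e j → t ≤ e j := by
        refine Eventually.filter_mono nhdsWithin_le_nhds
          ((eventually_le_nhds i₀.2).and (eventually_all.2 fun j => ?_))
        by_cases hj : d i₀.1 < e j
        · exact (eventually_le_nhds hj).mono fun t ht _ => ht
        · exact Eventually.of_forall fun t h => absurd h hj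
      obtain ⟨t, ⟨ht1, ht2⟩, ht3⟩ := (hev.and self_mem_nhdsWithin).exists
      have ht3' : d i₀.1 < t := ht3
      calc s.card ≤ Fintype.card {i // d i < t} := by
            rw [Fintype.card_subtype]
            exact Finset.card_le_card_of_injOn Subtype.val
              (fun i hi => by simpa using (hmax i hi).trans_lt ht3') Subtype.val_injective.injOn
        _ ≤ Fintype.card {j // e j < t} := hc t ht1
        _ ≤ _ := by
            rw [Fintype.card_subtype]
            refine Finset.card_le_card fun j hj => Finset.mem_biUnion.2 ⟨i₀, hi₀, ?_⟩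
            simp only [Finset.mem_filter, Finset.mem_univ, true_and] at hj ⊢
            by_contra hcon
            exact absurd (ht2 j (not_le.1 hcon)) (not_le.2 hj)
  calc ∑ i, f (d i) = ∑ i ∈ Finset.univ.filter (fun i => d i < t₀), f (d i) :=
        (Finset.sum_filter_of_ne fun i _ hi => by
          by_contra hcon; exact hi (h0 _ (not_lt.1 hcon))).symm
    _ = ∑ i : {i // d i < t₀}, f (d i.1) := Finset.sum_subtype _ (by simp) _
    _ ≤ ∑ i : {i // d i < t₀}, f (e (σ i)) :=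
        Finset.sum_le_sum fun i _ => hf (by simpa using hσm i)
    _ = ∑ j ∈ Finset.univ.map ⟨σ, hσ⟩, f (e j) := by simp
    _ ≤ ∑ j, f (e j) :=
        Finset.sum_le_sum_of_subset_of_nonneg (Finset.subset_univ _) fun j _ _ => hf0 _

end Count

open _root_.Crest.Agent.R332.Count

theorem countStmt : CountStmt := by
  intro n n₁ n₂ E E₁ E₂ J₁ J₂ t₀ f hE hE₁ hE₂ hf h0 H
  obtain ⟨U, d, hU, hU', rfl⟩ := exists_diag hE
  obtain ⟨U₁, d₁, hU₁, hU₁', rfl⟩ := exists_diag hE₁
  obtain ⟨U₂, d₂, hU₂, hU₂', rfl⟩ := exists_diag hE₂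
  rw [cfc_conj_dg f hU, cfc_conj_dg f hU₁, cfc_conj_dg f hU₂, rtr_conj_dg hU, rtr_conj_dg hU₁,
    rtr_conj_dg hU₂]
  have := sum_le_of_card d (Sum.elim d₁ d₂) t₀ f hf h0 fun t ht => ?_
  · simpa [Fintype.sum_sum_type] using this
  classical
  let ext : ({i // d i < t} → ℂ) →ₗ[ℂ] (Fin n → ℂ) :=
    { toFun := fun c i => if h : d i < t then c ⟨i, h⟩ else 0
      map_add' := fun a b => by ext i; by_cases h : d i < t <;> simp [h]
      map_smul' := fun a b => by ext i; by_cases h : d i < t <;> simp [h] }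
  let res : (Fin n → ℂ) →ₗ[ℂ] ({j // Sum.elim d₁ d₂ j < t} → ℂ) :=
    { toFun := fun v j => Sum.elim (U₁ᴴ *ᵥ (J₁ *ᵥ v)) (U₂ᴴ *ᵥ (J₂ *ᵥ v)) j.1
      map_add' := fun a b => by
        ext ⟨j, hj⟩; cases j <;> simp [mulVec_add]
      map_smul' := fun a b => by
        ext ⟨j, hj⟩; cases j <;> simp [mulVec_smul] }
  have hinj : Function.Injective (res ∘ₗ U.mulVecLin ∘ₗ ext) := by
    rw [injective_iff_map_eq_zero]
    intro c hc
    have h1 := H t (U *ᵥ ext c) ht
      (le_qf hU₁' d₁ _ fun j hj => congrFun hc ⟨Sum.inl j, hj⟩)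
      (le_qf hU₂' d₂ _ fun j hj => congrFun hc ⟨Sum.inr j, hj⟩)
    rw [qf_conj_dg, ← vs_conj hU', mulVec_mulVec, hU, one_mulVec, vs, Finset.mul_sum,
      ← sub_nonpos, ← Finset.sum_sub_distrib] at h1
    have h2 : ∀ i ∈ Finset.univ, 0 ≤ t * ‖ext c i‖ ^ 2 - d i * ‖ext c i‖ ^ 2 := fun i _ => by
      by_cases h : d i < t
      · nlinarith [sq_nonneg ‖ext c i‖]
      · simp [ext, h]
    have h3 := (Finset.sum_eq_zero_iff_of_nonneg h2).1 (le_antisymm h1 (Finset.sum_nonneg h2))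
    ext ⟨i, hi⟩
    have h4 := h3 i (Finset.mem_univ _)
    rw [← sub_mul, mul_eq_zero] at h4
    rcases h4 with h4 | h4
    · linarith
    · simpa [ext, hi] using h4
  simpa using LinearMap.finrank_le_finrank_of_injective hinj

end Crest.Agent.R332
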