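import Crest.Agent.R332.Basic

/-!
# Row 332, DELTA: the derivative of `χ_u` in `u`
-/

set_option autoImplicit false

open MeasureTheory Matrix Set Filter Topology
open scoped ComplexOrder

noncomputable section

namespace Crest.Agent.R332

namespace Delta

variable {n : ℕ}

/-! ### the derivative of the matrix logarithm -/

theorem hasDerivAt_mul_zero {a e : ℝ → ℂ} {e' : ℂ} {u : ℝ} (ha : ContinuousAt a u)
    (he : HasDerivAt e e' u) (h0 : e u = 0) :
    HasDerivAt (fun w => a w * e w) (a u * e') u := by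
  rw [hasDerivAt_iff_tendsto_slope] at he ⊢
  refine ((ha.tendsto.mono_left nhdsWithin_le_nhds).mul he).congr fun w => ?_
  simp only [slope, h0, vsub_eq_sub, sub_zero, mul_zero, Complex.real_smul]
  ring

theorem der_mul_zero {Φ E : ℝ → Mx n n} {E' : Mx n n} {u : ℝ} (hΦ : ContinuousAt Φ u)
    (hE : Der E E' u) (h0 : E u = 0) : Der (fun w => Φ w * E w) (Φ u * E') u := by
  intro i j
  simp only [Matrix.mul_apply]
  refine HasDerivAt.fun_sum fun k _ => hasDerivAt_mul_zero ?_ (hE k j) (by rw [h0]; rfl)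
  exact ((continuous_apply_apply i k).continuousAt).comp hΦ

theorem mlog_sub_eq {A : Mx n n} (hA : A.PosDef) (b : ℝ) :
    mlog A - (Real.log b : ℂ) • (1 : Mx n n) =
      cfc (dslope Real.log b) A * (A - (b : ℂ) • (1 : Mx n n)) := by
  obtain ⟨U, d, hU, hU', rfl⟩ := exists_diag hA.1
  have e1 : ∀ (c : ℝ) (e : Fin n → ℝ), U * dg e * Uᴴ - (c : ℂ) • (1 : Mx n n) =
      U * dg (fun i => e i - c) * Uᴴ := fun c e => by
    rw [← dg_sub, dg_const, Matrix.mul_sub, Matrix.sub_mul]
    simp [hU']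
  rw [mlog, cfc_conj_dg _ hU, cfc_conj_dg _ hU, e1, e1, conj_dg_mul hU]
  congr 3
  funext i
  have := sub_smul_dslope Real.log b (d i)
  rw [smul_eq_mul] at this
  rw [← this, mul_comm]

theorem conj_dg_mul_col {V : Mx n n} (hV : Vᴴ * V = 1) (e : Fin n → ℝ) (i k : Fin n) :
    (V * dg e * Vᴴ * V) i k = ((((e k : ℝ) : ℂ) • (1 : Mx n n)) * V) i k := by
  rw [Matrix.mul_assoc, hV, Matrix.mul_one]
  simp [dg, mul_diagonal, mul_comm]

theorem rtr_mlog_sub {V : Mx n n} (hV : Vᴴ * V = 1) (x : Fin n → ℝ) {A : Mx n n} (hA : A.PosDef)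
    (H : Mx n n) :
    rtr (mlog A * H) = rtr (mlog (V * dg x * Vᴴ) * H) +
      ∑ k, ((Vᴴ * H * (cfc (dslope Real.log (x k)) A * (A - V * dg x * Vᴴ)) * V) k k).re := by
  have hV' : V * Vᴴ = 1 := mul_eq_one_comm.1 hV
  have h1 : rtr (mlog A * H) - rtr (mlog (V * dg x * Vᴴ) * H) =
      rtr (Vᴴ * H * ((mlog A - mlog (V * dg x * Vᴴ)) * V)) := by
    rw [← rtr_sub, ← Matrix.sub_mul, ← Matrix.mul_assoc, rtr_mul_comm _ V, ← Matrix.mul_assoc,
      ← Matrix.mul_assoc, hV', Matrix.one_mul, rtr_mul_comm]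
  rw [← sub_eq_iff_eq_add', h1, rtr_eq_sum]
  refine Finset.sum_congr rfl fun k _ => ?_
  congr 1
  rw [Matrix.mul_assoc (Vᴴ * H), Matrix.mul_apply, Matrix.mul_apply]
  refine Finset.sum_congr rfl fun i _ => ?_
  congr 1
  have h2 : ((mlog A - mlog (V * dg x * Vᴴ)) * V) i k =
      ((mlog A - (Real.log (x k) : ℂ) • (1 : Mx n n)) * V) i k := by
    rw [Matrix.sub_mul, Matrix.sub_mul, Matrix.sub_apply, Matrix.sub_apply, mlog, mlog,
      cfc_conj_dg _ hV, conj_dg_mul_col hV]
  rw [h2, mlog_sub_eq hA, Matrix.mul_assoc, Matrix.mul_assoc, Matrix.mul_apply, Matrix.mul_apply]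
  refine Finset.sum_congr rfl fun j _ => ?_
  congr 1
  rw [Matrix.sub_mul, Matrix.sub_mul, Matrix.sub_apply, Matrix.sub_apply, conj_dg_mul_col hV]

/-- the derivative of `tr (log X · H)` in the direction `S` -/
def II (V : Mx n n) (x : Fin n → ℝ) (S H : Mx n n) : ℝ :=
  ∑ i, ∑ k, dslope Real.log (x k) (x i) * ((Vᴴ * S * V) i k * (Vᴴ * H * V) k i).re

theorem logder {X : ℝ → Mx n n} {S : Mx n n} {u : ℝ} (hpd : ∀ᶠ w in 𝓝 u, (X w).PosDef)
    (hX : Der X S u) {V : Mx n n} (hV : Vᴴ * V = 1) {x : Fin n → ℝ} (hx : X u = V * dg x * Vᴴ)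
    (H : Mx n n) : HasDerivAt (fun w => rtr (mlog (X w) * H)) (II V x S H) u := by
  have hpu : (X u).PosDef := hpd.self_of_nhds
  have hx0 : ∀ i, 0 < x i := by rw [hx, pd_conj_dg_iff hV] at hpu; exact hpu
  have hE : Der (fun w => X w - V * dg x * Vᴴ) S u := by
    simpa using hX.sub (Der.const (V * dg x * Vᴴ) u)
  have hk : ∀ k, HasDerivAt
      (fun w => ((Vᴴ * H * (cfc (dslope Real.log (x k)) (X w) * (X w - V * dg x * Vᴴ)) * V) k k).re)
      (∑ i, dslope Real.log (x k) (x i) * ((Vᴴ * S * V) i k * (Vᴴ * H * V) k i).re) u := by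
    intro k
    have hc : ContinuousOn (dslope Real.log (x k)) (Ioi 0) :=
      (continuousOn_dslope (Ioi_mem_nhds (hx0 k))).2
        ⟨Real.continuousOn_log.mono fun _ ht => ne_of_gt ht,
          Real.differentiableAt_log (hx0 k).ne'⟩
    have hΦ : ContinuousAt (fun w => cfc (dslope Real.log (x k)) (X w)) u :=
      (continuousOn_cfc_pd hc _ hpu).tendsto.comp
        (tendsto_nhdsWithin_iff.2 ⟨hX.continuousAt.tendsto, hpd⟩)
    have h1 := der_mul_zero hΦ hE (by simp [hx])
    have h2 := ((Der.const (Vᴴ * H) u).mul h1).mul (Der.const V u)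
    have h3 := Complex.reCLM.hasFDerivAt.comp_hasDerivAt u (h2 k k)
    refine HasDerivAt.congr_deriv h3 (Eq.symm ?_)
    simp only [Matrix.zero_mul, Matrix.mul_zero, zero_add, add_zero, Complex.reCLM_apply]
    rw [hx, cfc_conj_dg _ hV]
    have e : Vᴴ * H * (V * dg (fun i => dslope Real.log (x k) (x i)) * Vᴴ * S) * V =
        (Vᴴ * H * V) * dg (fun i => dslope Real.log (x k) (x i)) * (Vᴴ * S * V) := by
      simp only [Matrix.mul_assoc]
    rw [e, Matrix.mul_apply, Complex.re_sum]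
    refine Finset.sum_congr rfl fun i _ => ?_
    rw [dg, mul_diagonal, ← Complex.re_ofReal_mul]
    congr 1
    ring
  have h4 := (HasDerivAt.fun_sum fun k (_ : k ∈ Finset.univ) => hk k).const_add
    (rtr (mlog (V * dg x * Vᴴ) * H))
  rw [II, Finset.sum_comm]
  refine h4.congr_of_eventuallyEq (hpd.mono fun w hw => ?_)
  exact rtr_mlog_sub hV x hw H

theorem II_add (V : Mx n n) (x : Fin n → ℝ) (S H : Mx n n) (u : ℝ) :
    II V x S H + u * II V x S 1 = II V x S (H + (u : ℂ) • 1) := by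
  simp only [II, Finset.mul_sum, ← Finset.sum_add_distrib]
  refine Finset.sum_congr rfl fun i _ => Finset.sum_congr rfl fun k _ => ?_
  rw [Matrix.mul_add, Matrix.add_mul, Matrix.mul_smul, Matrix.smul_mul, Matrix.add_apply,
    Matrix.smul_apply, smul_eq_mul, mul_add, Complex.add_re, mul_left_comm _ (u : ℂ),
    Complex.re_ofReal_mul]
  ring

/-! ### the scalar kernel -/

/-- antiderivative of `s (1/(x+s) - 1/(y+s))²` vanishing at infinity -/
def GG (x y s : ℝ) : ℝ :=
  if x = y then 0 else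
    x / (x + s) + y / (y + s) - (x + y) / (x - y) * (Real.log (x + s) - Real.log (y + s))

theorem GG_zero {x y : ℝ} (hx : 0 < x) (hy : 0 < y) :
    GG x y 0 = 2 - (x + y) * dslope Real.log y x := by
  unfold GG
  split_ifs with h
  · subst h
    rw [dslope_same, Real.deriv_log]
    field_simp
    ring
  · rw [dslope_of_ne _ h, slope_def_field]
    have : x - y ≠ 0 := sub_ne_zero.2 h
    simp only [add_zero]
    field_simp
    ring

theorem GG_deriv {x y s : ℝ} (hx : 0 < x) (hy : 0 < y) (hs : 0 ≤ s) :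
    HasDerivAt (GG x y) (s * ((x + s)⁻¹ - (y + s)⁻¹) ^ 2) s := by
  unfold GG
  split_ifs with h
  · subst h
    simpa using hasDerivAt_const s (0 : ℝ)
  · have hxs : x + s ≠ 0 := by positivity
    have hys : y + s ≠ 0 := by positivity
    have hxy : x - y ≠ 0 := sub_ne_zero.2 h
    have a1 : HasDerivAt (fun s => x + s) 1 s := (hasDerivAt_id s).const_add x
    have a2 : HasDerivAt (fun s => y + s) 1 s := (hasDerivAt_id s).const_add y
    have := (((hasDerivAt_const s x).div a1 hxs).add ((hasDerivAt_const s y).div a2 hys)).sub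
      (((a1.log hxs).sub (a2.log hys)).const_mul ((x + y) / (x - y)))
    refine HasDerivAt.congr_deriv this ?_
    field_simp
    ring

theorem GG_tendsto (x y : ℝ) : Tendsto (GG x y) atTop (𝓝 0) := by
  unfold GG
  split_ifs with h
  · exact tendsto_const_nhds
  · have a1 : ∀ z : ℝ, Tendsto (fun s => z / (z + s)) atTop (𝓝 0) := fun z =>
      tendsto_const_nhds.div_atTop (tendsto_atTop_add_const_left _ _ tendsto_id)
    have a2 := (Real.tendsto_log_comp_add_sub_log x).sub (Real.tendsto_log_comp_add_sub_log y)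
    have := ((a1 x).add (a1 y)).sub (a2.const_mul ((x + y) / (x - y)))
    simp only [add_zero, sub_zero, mul_zero] at this
    refine this.congr fun s => ?_
    rw [add_comm s x, add_comm s y]
    ring

/-! ### the sign of the defect -/

theorem rtr_dg_mul (a b : Fin n → ℝ) (P Q : Mx n n) :
    rtr (dg a * P * dg b * Q) = ∑ i, ∑ k, a i * b k * (P i k * Q k i).re := by
  rw [rtr_eq_sum]
  refine Finset.sum_congr rfl fun i _ => ?_
  rw [Matrix.mul_apply, Complex.re_sum]
  refine Finset.sum_congr rfl fun k _ => ?_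
  rw [dg, dg, mul_diagonal, diagonal_mul, ← Complex.re_ofReal_mul]
  congr 1
  push_cast
  ring

theorem hs_comm_dg (l : Fin n → ℝ) (R : Mx n n) :
    hs (dg l * R - R * dg l) = ∑ j, ∑ k, (l j - l k) ^ 2 * ‖R j k‖ ^ 2 := by
  refine Finset.sum_congr rfl fun j _ => Finset.sum_congr rfl fun k _ => ?_
  have : (dg l * R - R * dg l) j k = ((l j - l k : ℝ) : ℂ) * R j k := by
    rw [Matrix.sub_apply, dg, diagonal_mul, mul_diagonal]
    push_cast
    ring
  rw [this, norm_mul, mul_pow, Complex.norm_real, Real.norm_eq_abs, sq_abs]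

theorem defect_eq {R : Mx n n} (hR : R.IsHermitian) {l : Fin n → ℝ} (hl : ∀ j, 0 < l j) :
    2 * rtr (dg l * R * dg (fun j => 1 / (2 * l j)) * R) - hs R =
      ∑ j, ∑ k, (l j - l k) ^ 2 * ‖R j k‖ ^ 2 / (2 * (l j * l k)) := by
  have hn : ∀ j k, (R j k * R k j).re = ‖R j k‖ ^ 2 := fun j k => by
    rw [← hR.apply k j, Complex.star_def, Complex.mul_conj, Complex.ofReal_re,
      Complex.normSq_eq_norm_sq]
  have hs' : ∀ j k, ‖R k j‖ = ‖R j k‖ := fun j k => by
    rw [← hR.apply k j, norm_star]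
  rw [rtr_dg_mul]
  simp only [hn]
  have h1 : ∑ j, ∑ k, l j * (1 / (2 * l k)) * ‖R j k‖ ^ 2 =
      ∑ j, ∑ k, l k * (1 / (2 * l j)) * ‖R j k‖ ^ 2 := by
    rw [Finset.sum_comm]
    simp only [hs']
  rw [two_mul]
  nth_rewrite 2 [h1]
  simp only [hs, ← Finset.sum_add_distrib, ← Finset.sum_sub_distrib]
  refine Finset.sum_congr rfl fun j _ => Finset.sum_congr rfl fun k _ => ?_
  have := hl j
  have := hl k
  field_simp
  ring

theorem key {V : Mx n n} (hV : Vᴴ * V = 1) {x l : Fin n → ℝ} (hx : ∀ i, 0 < x i)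
    (hl : ∀ j, 0 < l j) {X : Mx n n} (hX : X = V * dg x * Vᴴ) :
    II V x (dg fun j => 1 / (2 * l j)) (X * dg l + dg l * X - X * X) ≤
        n - rtr (dg (fun j => 1 / (2 * l j)) * X) ∧
      ∀ l₀ : ℝ, 0 < l₀ → (∀ j, l j ≤ l₀) → (∀ i, x i ≤ 2 * l₀) →
        II V x (dg fun j => 1 / (2 * l j)) (X * dg l + dg l * X - X * X) +
          hs (dg l * X - X * dg l) / (2 * l₀ ^ 2 * (2 * l₀ + 2) ^ 4) ≤
          n - rtr (dg (fun j => 1 / (2 * l j)) * X) := by
  have hV' : V * Vᴴ = 1 := mul_eq_one_comm.1 hV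
  set S : Mx n n := dg fun j => 1 / (2 * l j) with hS
  set S' : Mx n n := Vᴴ * S * V with hS'
  set L' : Mx n n := Vᴴ * dg l * V with hL'
  set v : Fin n → Fin n → ℝ := fun i k => (S' i k * L' k i).re with hv
  have hSL : S * dg l = ((1 / 2 : ℝ) : ℂ) • 1 := by
    rw [hS, dg_mul_dg, ← dg_const]
    congr 1
    funext j
    have := hl j
    field_simp
  have hLS : dg l * S = ((1 / 2 : ℝ) : ℂ) • 1 := by
    rw [hS, dg_mul_dg, ← dg_const]
    congr 1
    funext j
    have := hl j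
    field_simp
  have hconj : ∀ P Q : Mx n n, (Vᴴ * P * V) * (Vᴴ * Q * V) = Vᴴ * (P * Q) * V := fun P Q => by
    calc (Vᴴ * P * V) * (Vᴴ * Q * V) = Vᴴ * P * (V * Vᴴ) * Q * V := by
          simp only [Matrix.mul_assoc]
      _ = Vᴴ * (P * Q) * V := by rw [hV']; simp only [Matrix.mul_assoc, Matrix.one_mul]
  have hrow : ∀ i, ∑ k, v i k = 1 / 2 := fun i => by
    have : S' * L' = ((1 / 2 : ℝ) : ℂ) • 1 := by
      rw [hS', hL', hconj, hSL]; simp [hV]
    have h2 := congrArg Complex.re (congrFun (congrFun this i) i)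
    rw [Matrix.mul_apply, Complex.re_sum] at h2
    simp only [hv]
    simpa using h2
  have hcol : ∀ k, ∑ i, v i k = 1 / 2 := fun k => by
    have : L' * S' = ((1 / 2 : ℝ) : ℂ) • 1 := by
      rw [hS', hL', hconj, hLS]; simp [hV]
    have h2 := congrArg Complex.re (congrFun (congrFun this k) k)
    rw [Matrix.mul_apply, Complex.re_sum] at h2
    simp only [hv, mul_comm (S' _ _)]
    simpa using h2
  have hXc : Vᴴ * X * V = dg x := by rw [hX, conj_conj hV]
  set Ψ : ℝ → ℝ := fun s => -∑ i, ∑ k, v i k * GG (x i) (x k) s with hΨ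
  -- the value of `II`
  have hII : II V x S (X * dg l + dg l * X - X * X) = n - rtr (S * X) + Ψ 0 := by
    have e1 : Vᴴ * (X * dg l + dg l * X - X * X) * V =
        dg x * L' + L' * dg x - dg fun i => x i * x i := by
      rw [Matrix.mul_sub, Matrix.mul_add, Matrix.sub_mul, Matrix.add_mul, ← hconj, ← hconj,
        ← hconj, hXc, dg_mul_dg]
    have e2 : rtr (S * X) = ∑ i, x i * (S' i i).re := by
      have : rtr (S * X) = rtr (S' * dg x) := by
        rw [← hXc, hS', hconj, rtr_mul_comm _ V, ← Matrix.mul_assoc, hV', Matrix.one_mul]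
      rw [this, rtr_eq_sum]
      refine Finset.sum_congr rfl fun i _ => ?_
      rw [dg, mul_diagonal, mul_comm, Complex.re_ofReal_mul]
    have e3 : ∀ i k, dslope Real.log (x k) (x i) *
        (S' i k * (dg x * L' + L' * dg x - dg fun i => x i * x i) k i).re =
        2 * v i k - v i k * GG (x i) (x k) 0 - if k = i then x i * (S' i i).re else 0 := by
      intro i k
      rw [GG_zero (hx i) (hx k)]
      have e4 : S' i k * (dg x * L' + L' * dg x - dg fun i => x i * x i) k i =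
          ((x i + x k : ℝ) : ℂ) * (S' i k * L' k i) -
            if k = i then ((x i * x i : ℝ) : ℂ) * S' i i else 0 := by
        rw [Matrix.sub_apply, Matrix.add_apply, dg, dg, diagonal_mul, mul_diagonal, diagonal_apply]
        split_ifs with h
        · subst h; push_cast; ring
        · push_cast; ring
      rw [e4, Complex.sub_re, Complex.re_ofReal_mul]
      split_ifs with h
      · subst h
        rw [Complex.re_ofReal_mul, dslope_same, Real.deriv_log]
        have := hx k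
        simp only [hv]
        field_simp
        ring
      · simp only [hv, Complex.zero_re]
        ring
    rw [II, e1]
    simp only [← hS', e3, Finset.sum_sub_distrib, ← Finset.mul_sum, hrow, Finset.sum_ite_eq',
      Finset.mem_univ, if_true, hΨ, e2]
    simp
    ring
  -- the derivative of `Ψ`
  have hder : ∀ s, 0 ≤ s → HasDerivAt Ψ (s * ∑ j, ∑ k, (l j - l k) ^ 2 *
      ‖(V * dg (fun i => (x i + s)⁻¹) * Vᴴ) j k‖ ^ 2 / (2 * (l j * l k))) s := by
    intro s hs0
    have h1 : HasDerivAt Ψ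
        (-∑ i, ∑ k, v i k * (s * ((x i + s)⁻¹ - (x k + s)⁻¹) ^ 2)) s :=
      (HasDerivAt.fun_sum fun i _ => HasDerivAt.fun_sum fun k _ =>
        (GG_deriv (hx i) (hx k) hs0).const_mul (v i k)).neg
    convert h1 using 1
    set r : Fin n → ℝ := fun i => (x i + s)⁻¹ with hr
    rw [← defect_eq (herm_conj (dg_herm r) V) hl, hs_conj hV hV]
    have e1 : rtr (dg l * (V * dg r * Vᴴ) * S * (V * dg r * Vᴴ)) = ∑ i, ∑ k, r i * r k * v i k := by
      rw [← rtr_dg_mul]
      calc rtr (dg l * (V * dg r * Vᴴ) * S * (V * dg r * Vᴴ))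
          = rtr ((dg l * V) * (dg r * (Vᴴ * S * V) * dg r * Vᴴ)) := by
            simp only [Matrix.mul_assoc]
        _ = rtr (dg r * S' * dg r * L') := by
            rw [rtr_mul_comm]; simp only [hS', hL', Matrix.mul_assoc]
    have e2 : hs (dg r) = ∑ i, r i ^ 2 := by
      rw [hs_eq_rtr, (dg_herm r).eq, dg_mul_dg, rtr_dg]
      simp only [sq]
    have e3 : ∑ i, ∑ k, v i k * r i ^ 2 = (∑ i, r i ^ 2) / 2 := by
      simp only [← Finset.sum_mul, hrow, Finset.sum_div]
      exact Finset.sum_congr rfl fun i _ => by ring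
    have e4 : ∑ i, ∑ k, v i k * r k ^ 2 = (∑ i, r i ^ 2) / 2 := by
      rw [Finset.sum_comm]
      simp only [← Finset.sum_mul, hcol, Finset.sum_div]
      exact Finset.sum_congr rfl fun i _ => by ring
    have e5 : ∑ i, ∑ k, v i k * (s * (r i - r k) ^ 2) =
        s * (∑ i, ∑ k, v i k * r i ^ 2 + ∑ i, ∑ k, v i k * r k ^ 2 -
          2 * ∑ i, ∑ k, r i * r k * v i k) := by
      simp only [Finset.mul_sum, ← Finset.sum_add_distrib, ← Finset.sum_sub_distrib]
      exact Finset.sum_congr rfl fun i _ => Finset.sum_congr rfl fun k _ => by ring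
    rw [← hS, e1, e2]
    show _ = -∑ i, ∑ k, v i k * (s * (r i - r k) ^ 2)
    rw [e5, e3, e4]
    ring
  have hcont : ContinuousOn Ψ (Ici 0) := fun s hs0 =>
    (hder s hs0).continuousAt.continuousWithinAt
  have hmono : MonotoneOn Ψ (Ici 0) := by
    refine monotoneOn_of_hasDerivWithinAt_nonneg (convex_Ici 0) hcont
      (fun s hs0 => (hder s (interior_subset hs0)).hasDerivWithinAt) fun s hs0 => ?_
    refine mul_nonneg (interior_subset hs0) (Finset.sum_nonneg fun j _ =>
      Finset.sum_nonneg fun k _ => ?_)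
    have := hl j
    have := hl k
    positivity
  have hlim : Tendsto Ψ atTop (𝓝 0) := by
    have := (tendsto_finsetSum (Finset.univ : Finset (Fin n)) fun i _ =>
      tendsto_finsetSum (Finset.univ : Finset (Fin n)) fun k _ =>
        (GG_tendsto (x i) (x k)).const_mul (v i k)).neg
    simpa using this
  have hle : ∀ s, 0 ≤ s → Ψ s ≤ 0 := fun s hs0 =>
    ge_of_tendsto hlim ((eventually_ge_atTop s).mono fun t ht =>
      hmono hs0 (hs0.trans ht) ht)
  refine ⟨by rw [hII]; linarith [hle 0 le_rfl], fun l₀ hl₀ hll hxl => ?_⟩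
  set c : ℝ := hs (dg l * X - X * dg l) / (2 * l₀ ^ 2 * (2 * l₀ + 2) ^ 4) with hc
  have hlow : ∀ s, 1 ≤ s → s ≤ 2 → c ≤ s * ∑ j, ∑ k, (l j - l k) ^ 2 *
      ‖(V * dg (fun i => (x i + s)⁻¹) * Vᴴ) j k‖ ^ 2 / (2 * (l j * l k)) := by
    intro s hs1 hs2
    set R : Mx n n := V * dg (fun i => (x i + s)⁻¹) * Vᴴ with hR
    set Z : Mx n n := V * dg (fun i => x i + s) * Vᴴ with hZ
    have hxs : ∀ i, 0 < x i + s := fun i => by linarith [hx i]
    have hZR : Z * R = 1 := by
      rw [hZ, hR, conj_dg_mul hV]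
      simp only [fun i => mul_inv_cancel₀ (hxs i).ne', dg_const]
      simp [hV']
    have hRZ : R * Z = 1 := mul_eq_one_comm.1 hZR
    have hZX : Z = X + (s : ℂ) • 1 := by
      rw [hZ, ← dg_add, dg_const, Matrix.mul_add, Matrix.add_mul, hX]
      simp [hV']
    have hcm : Z * (dg l * R - R * dg l) * Z = -(dg l * X - X * dg l) := by
      rw [Matrix.mul_sub, Matrix.sub_mul, ← Matrix.mul_assoc Z R, hZR, Matrix.mul_assoc Z,
        Matrix.mul_assoc (dg l), hRZ, Matrix.one_mul, Matrix.mul_one, hZX]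
      simp only [Matrix.add_mul, Matrix.mul_add, Matrix.smul_mul, Matrix.mul_smul, Matrix.one_mul,
        Matrix.mul_one]
      abel
    have hZpsd : Z.PosSemidef := (psd_conj_dg_iff hV _).2 fun i => (hxs i).le
    have hZbd : Bd Z (2 * l₀ + 2) := (bd_conj_dg_iff hV _ _).2 fun i => by linarith [hxl i]
    have hZv := vs_mulVec_le_of_psd hZpsd hZbd
    have h1 : hs (dg l * X - X * dg l) ≤ (2 * l₀ + 2) ^ 4 * hs (dg l * R - R * dg l) := by
      rw [← hs_neg, ← hcm]
      have a1 := hs_mul_le_right (A := Z) (c := (2 * l₀ + 2) ^ 2)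
        (by rw [hZpsd.1.eq]; exact hZv) (Z * (dg l * R - R * dg l))
      have a2 := hs_mul_le_left hZv (dg l * R - R * dg l)
      calc _ ≤ _ := a1
        _ ≤ (2 * l₀ + 2) ^ 2 * ((2 * l₀ + 2) ^ 2 * hs (dg l * R - R * dg l)) :=
          mul_le_mul_of_nonneg_left a2 (by positivity)
        _ = _ := by ring
    have h2 : hs (dg l * R - R * dg l) / (2 * l₀ ^ 2) ≤
        ∑ j, ∑ k, (l j - l k) ^ 2 * ‖R j k‖ ^ 2 / (2 * (l j * l k)) := by
      rw [hs_comm_dg]
      simp only [Finset.sum_div]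
      refine Finset.sum_le_sum fun j _ => Finset.sum_le_sum fun k _ => ?_
      have := hl j
      have := hl k
      refine div_le_div_of_nonneg_left (by positivity) (by positivity) ?_
      have := mul_le_mul (hll j) (hll k) (hl k).le hl₀.le
      nlinarith
    have h3 : c ≤ hs (dg l * R - R * dg l) / (2 * l₀ ^ 2) := by
      rw [hc, div_le_div_iff₀ (by positivity) (by positivity)]
      have : 0 ≤ 2 * l₀ ^ 2 := by positivity
      nlinarith [mul_le_mul_of_nonneg_left h1 this]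
    have h4 : 0 ≤ hs (dg l * R - R * dg l) / (2 * l₀ ^ 2) :=
      div_nonneg (hs_nonneg _) (by positivity)
    nlinarith
  have hgap : c * (2 - 1) ≤ Ψ 2 - Ψ 1 := by
    refine (convex_Icc (1 : ℝ) 2).mul_sub_le_image_sub_of_le_deriv
      (hcont.mono fun s hs => le_trans zero_le_one hs.1) (fun s hs => ?_) (fun s hs => ?_)
      1 ⟨le_rfl, one_le_two⟩ 2 ⟨one_le_two, le_rfl⟩ one_le_two
    · have hs' := interior_subset hs
      exact (hder s (le_trans zero_le_one hs'.1)).differentiableAt.differentiableWithinAt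
    · have hs' := interior_subset hs
      rw [(hder s (le_trans zero_le_one hs'.1)).deriv]
      exact hlow s hs'.1 hs'.2
  have h01 : Ψ 0 ≤ Ψ 1 := hmono (le_refl (0 : ℝ)) (zero_le_one : (0 : ℝ) ≤ 1) zero_le_one
  have h2 := hle 2 zero_le_two
  rw [hII]
  linarith

theorem der_Ld {κ : Fin n → ℝ} {u : ℝ} (hu : 0 < u) :
    Der (Ld κ) (dg fun j => 1 / (2 * √(κ j ^ 2 + u))) u := by
  intro i j
  by_cases h : i = j
  · subst h
    simp only [Ld, dg, diagonal_apply_eq]
    have hpos : κ i ^ 2 + u ≠ 0 := by positivity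
    exact (((hasDerivAt_id u).const_add (κ i ^ 2)).sqrt hpos).ofReal_comp
  · simp only [Ld, dg, diagonal_apply_ne _ h]
    exact hasDerivAt_const _ _

theorem cm_le {κ : Fin n → ℝ} (N : Mx n n) {u l₀ : ℝ} (hu : 0 ≤ u)
    (hl : ∀ j, √(κ j ^ 2 + u) ≤ l₀) :
    cm κ N ≤ 4 * l₀ ^ 2 * hs (Ld κ u * N - N * Ld κ u) := by
  rw [cm, dg_mul_dg, Ld, hs_comm_dg, hs_comm_dg]
  simp only [Finset.mul_sum]
  refine Finset.sum_le_sum fun j _ => Finset.sum_le_sum fun k _ => ?_
  rw [← mul_assoc]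
  refine mul_le_mul_of_nonneg_right ?_ (by positivity)
  have a1 := Real.mul_self_sqrt (show 0 ≤ κ j ^ 2 + u by positivity)
  have a2 := Real.mul_self_sqrt (show 0 ≤ κ k ^ 2 + u by positivity)
  have b1 := Real.sqrt_nonneg (κ j ^ 2 + u)
  have b2 := Real.sqrt_nonneg (κ k ^ 2 + u)
  have c1 := hl j
  have c2 := hl k
  set a := √(κ j ^ 2 + u)
  set b := √(κ k ^ 2 + u)
  have e : κ j * κ j - κ k * κ k = (a + b) * (a - b) := by nlinarith
  rw [e, mul_pow]
  refine mul_le_mul_of_nonneg_right ?_ (by positivity)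
  nlinarith

end Delta

open Delta in
theorem deltaStmt : DeltaStmt := by
  intro M hM
  refine ⟨1 / (4 * (M + 2) ^ 2 * (2 * (M + 2) ^ 2 * (2 * (M + 2) + 2) ^ 4)), by positivity, ?_⟩
  intro n κ N u hκ hN hu
  have hκ0 : ∀ j, 0 < κ j := fun j => (hκ j).1
  set l : Fin n → ℝ := fun j => √(κ j ^ 2 + u) with hl
  have hl0 : ∀ j, 0 < l j := fun j => Real.sqrt_pos.2 (by positivity)
  have hL : Ld κ u = dg l := rfl
  set S : Mx n n := dg fun j => 1 / (2 * l j) with hS
  have hev : ∀ᶠ w in 𝓝 u, 0 < w := Ioi_mem_nhds hu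
  have hpX : ∀ᶠ w in 𝓝 u, (Ld κ w + N).PosDef := hev.mono fun w hw => hN.pd_add hκ0 hw
  have hpY : ∀ᶠ w in 𝓝 u, (Ld κ w - N).PosDef := hev.mono fun w hw => hN.pd_sub hκ0 hw
  have hdX : Der (fun w => Ld κ w + N) S u := by
    have := (der_Ld (κ := κ) hu).add (Der.const N u)
    rwa [add_zero] at this
  have hdY : Der (fun w => Ld κ w - N) S u := by
    have := (der_Ld (κ := κ) hu).sub (Der.const N u)
    rwa [sub_zero] at this
  obtain ⟨V, x, hV, -, hx⟩ := exists_diag (hN.pd_add hκ0 hu).1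
  obtain ⟨W, y, hW, -, hy⟩ := exists_diag (hN.pd_sub hκ0 hu).1
  have hx0 : ∀ i, 0 < x i := (pd_conj_dg_iff hV x).1 (hx ▸ hN.pd_add hκ0 hu)
  have hy0 : ∀ i, 0 < y i := (pd_conj_dg_iff hW y).1 (hy ▸ hN.pd_sub hκ0 hu)
  have hchi : ∀ H : Mx n n, HasDerivAt (fun w => rtr (chi κ w N * H))
      (II V x S H + II W y S H - u⁻¹ * rtr H) u := fun H => by
    have := ((logder hpX hdX hV hx H).add (logder hpY hdY hW hy H)).sub
      ((Real.hasDerivAt_log hu.ne').mul_const (rtr H))
    refine this.congr_of_eventuallyEq (Eventually.of_forall fun w => ?_)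
    simp only [chi, Matrix.sub_mul, Matrix.add_mul, Matrix.smul_mul, Matrix.one_mul, rtr_sub,
      rtr_add, rtr_smul, Pi.add_apply, Pi.sub_apply]
  have hA : Am κ N + (u : ℂ) • 1 = dg l * dg l - N * N := by
    rw [← hL, Ld_mul_self κ hu.le, Am]; abel
  have hAX : Am κ N + (u : ℂ) • 1 =
      (Ld κ u + N) * dg l + dg l * (Ld κ u + N) - (Ld κ u + N) * (Ld κ u + N) := by
    rw [hA, hL]; noncomm_ring
  have hAY : Am κ N + (u : ℂ) • 1 =
      (Ld κ u - N) * dg l + dg l * (Ld κ u - N) - (Ld κ u - N) * (Ld κ u - N) := by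
    rw [hA, hL]; noncomm_ring
  obtain ⟨kx1, kx2⟩ := key hV hx0 hl0 hx
  obtain ⟨ky1, -⟩ := key hW hy0 hl0 hy
  rw [← hAX, ← II_add] at kx1 kx2
  rw [← hAY, ← II_add] at ky1
  have hsum : rtr (S * (Ld κ u + N)) + rtr (S * (Ld κ u - N)) = n := by
    rw [← rtr_add, ← Matrix.mul_add, hL]
    have : dg l + N + (dg l - N) = dg fun j => l j + l j := by rw [← dg_add]; abel
    rw [this, hS, dg_mul_dg, rtr_dg]
    have : ∀ j, 1 / (2 * l j) * (l j + l j) = 1 := fun j => by
      have := hl0 j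
      field_simp
      ring
    simp only [this]
    simp
  have hun : u * (u⁻¹ * (n : ℝ)) = n := by field_simp
  refine ⟨_, _, hchi (Am κ N), by simpa using hchi 1, ?_, fun hu12 => ?_⟩
  · rw [div_eq_inv_mul]
    simp only [mul_sub, mul_add, hun]
    linarith
  · have hll : ∀ j, l j ≤ M + 2 := fun j => by
      refine Real.sqrt_le_iff.2 ⟨by positivity, ?_⟩
      have := hκ j
      nlinarith [hu12.2]
    have hbd : Bd (Ld κ u + N) (2 * (M + 2)) := by
      have b1 : Bd (dg l) (M + 2) := bd_dg hll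
      have b2 : Bd (dg κ) (M + 2) := bd_dg fun j => by linarith [(hκ j).2]
      have := (PosSemidef.add b1 b2).add hN.2
      unfold Bd
      convert this using 1
      rw [hL]
      push_cast
      module
    have hxl : ∀ i, x i ≤ 2 * (M + 2) := (bd_conj_dg_iff hV x _).1 (hx ▸ hbd)
    have k2 := kx2 (M + 2) (by positivity) hll hxl
    have hcm := cm_le N hu.le hll
    have e : dg l * (Ld κ u + N) - (Ld κ u + N) * dg l = Ld κ u * N - N * Ld κ u := by
      rw [hL]; noncomm_ring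
    rw [e] at k2
    have hc : 1 / (4 * (M + 2) ^ 2 * (2 * (M + 2) ^ 2 * (2 * (M + 2) + 2) ^ 4)) * cm κ N ≤
        hs (Ld κ u * N - N * Ld κ u) / (2 * (M + 2) ^ 2 * (2 * (M + 2) + 2) ^ 4) := by
      rw [one_div, inv_mul_eq_div, div_le_div_iff₀ (by positivity) (by positivity)]
      have : 0 ≤ 2 * (M + 2) ^ 2 * (2 * (M + 2) + 2) ^ 4 := by positivity
      nlinarith [mul_le_mul_of_nonneg_right hcm this]
    rw [div_eq_inv_mul (rtr _), mul_sub u, mul_add u, hun]
    linarith

end Crest.Agent.R332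

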