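import Crest.Agent.R332.Basic

/-!
# Row 332, DIA: the cost of a Riccati path
-/

set_option autoImplicit false

open MeasureTheory Matrix Set Filter Topology
open scoped ComplexOrder
open Crest.MathPhysics.LiebThirring

noncomputable section

namespace Crest.Agent.R332

namespace Dia

variable {n : ℕ} {κ : Fin n → ℝ} {N 𝒲 : ℝ → Mx n n} {a b : ℝ}

/-- the boundary term -/
def bt (κ u : ℝ) : ℝ := 2 * (eta (√(κ ^ 2 + u) + κ) - eta (√(κ ^ 2 + u) - κ) - κ * Real.log u)

theorem continuous_eta : Continuous eta := Real.continuous_mul_log.sub continuous_id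

theorem continuous_Am (κ : Fin n → ℝ) : Continuous (Am κ) := by
  unfold Am
  exact continuous_const.sub (continuous_id.matrix_mul continuous_id)

theorem continuous_cm (κ : Fin n → ℝ) : Continuous (cm κ) := by
  unfold cm
  exact continuous_hs.comp ((continuous_const.matrix_mul continuous_id).sub
    (continuous_id.matrix_mul continuous_const))

/-- the integrand, continuous in both variables -/
theorem continuous_integrand (hκ : ∀ j, 0 < κ j) (h : Ric κ N 𝒲 a b) {Z : Type}
    [TopologicalSpace Z] {u x : Z → ℝ} (hu : Continuous u) (hx : Continuous x)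
    (hu0 : ∀ z, 0 < u z) :
    Continuous fun z => rtr (chi κ (u z) (N (x z)) * (𝒲 (x z) - Am κ (N (x z)))) := by
  have hN : Continuous fun z => N (x z) := h.continuous.comp hx
  have h0 : Continuous fun z => (u z, N (x z)) := hu.prodMk hN
  have h1 : Continuous fun z => chi κ (u z) (N (x z)) :=
    ContinuousOn.comp_continuous (g := fun p : ℝ × Mx n n => chi κ p.1 p.2)
      (f := fun z => (u z, N (x z))) (continuousOn_chi hκ) h0 fun z => ⟨hu0 z, h.btw _⟩
  have h2 : Continuous fun z => 𝒲 (x z) := h.cont.comp hx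
  have h3 : Continuous fun z => Am κ (N (x z)) := (continuous_Am κ).comp hN
  have h4 : Continuous fun z => 𝒲 (x z) - Am κ (N (x z)) := h2.sub h3
  have h5 : Continuous fun z => chi κ (u z) (N (x z)) * (𝒲 (x z) - Am κ (N (x z))) :=
    h1.matrix_mul h4
  exact continuous_rtr.comp h5

theorem inner (hT : TrDerStmt) (hκ : ∀ j, 0 < κ j) (h : Ric κ N 𝒲 a b) {u : ℝ} (hu : 0 < u) :
    ∫ x in a..b, rtr (chi κ u (N x) * (𝒲 x - Am κ (N x))) = ∑ j, bt (κ j) u := by
  set E : ℝ → ℝ := fun x => -(rtr (cfc eta (Ld κ u + N x)) - rtr (cfc eta (Ld κ u - N x)) -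
    Real.log u * rtr (N x)) with hE
  have hder : ∀ x, HasDerivAt E (rtr (chi κ u (N x) * (𝒲 x - Am κ (N x)))) x := by
    intro x
    have h1 := hT n (fun y => Ld κ u + N y) _ x (fun y => (h.btw y).pd_add hκ hu)
      ((Der.const (Ld κ u) x).add (h.der x))
    have h2 := hT n (fun y => Ld κ u - N y) _ x (fun y => (h.btw y).pd_sub hκ hu)
      ((Der.const (Ld κ u) x).sub (h.der x))
    have h3 := ((h1.sub h2).sub ((h.der x).rtr.const_mul (Real.log u))).neg
    refine HasDerivAt.congr_deriv h3 ?_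
    simp only [chi, zero_add, zero_sub, Matrix.sub_mul, Matrix.add_mul, Matrix.mul_sub,
      Matrix.mul_neg, Matrix.smul_mul, Matrix.one_mul, rtr_sub, rtr_add, rtr_smul, rtr_neg]
    ring
  rw [intervalIntegral.integral_eq_sub_of_hasDerivAt (fun x _ => hder x)
    ((continuous_integrand hκ h continuous_const continuous_id fun _ => hu).intervalIntegrable _ _)]
  simp only [hE]
  rw [h.left a le_rfl, h.right b le_rfl, ← sub_eq_add_neg (Ld κ u), sub_neg_eq_add (Ld κ u),
    rtr_neg, Ld, dg_add, dg_sub, cfc_dg, cfc_dg, rtr_dg, rtr_dg, rtr_dg]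
  simp only [bt, mul_sub, Finset.sum_sub_distrib, ← Finset.mul_sum, ← Finset.sum_mul]
  ring

theorem swap (hT : TrDerStmt) (hκ : ∀ j, 0 < κ j) (h : Ric κ N 𝒲 a b) (β : ℝ) {ε R : ℝ}
    (hε : 0 < ε) (hεR : ε ≤ R) :
    Continuous (fun x => ∫ u in ε..R, u ^ (β - 1) * rtr (chi κ u (N x) * (𝒲 x - Am κ (N x)))) ∧
    ∫ x in a..b, ∫ u in ε..R, u ^ (β - 1) * rtr (chi κ u (N x) * (𝒲 x - Am κ (N x))) =
      ∑ j, ∫ u in ε..R, u ^ (β - 1) * bt (κ j) u := by
  set F : ℝ → ℝ → ℝ := fun x u => (max u ε) ^ (β - 1) *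
    rtr (chi κ (max u ε) (N x) * (𝒲 x - Am κ (N x))) with hF
  have hpos : ∀ u : ℝ, 0 < max u ε := fun u => lt_max_of_lt_right hε
  have hm : Continuous fun p : ℝ × ℝ => max p.2 ε := continuous_snd.max continuous_const
  have hFc : Continuous F.uncurry :=
    (hm.rpow_const fun p => Or.inl (hpos _).ne').mul
      (continuous_integrand hκ h hm continuous_fst fun p => hpos _)
  have hmax : ∀ u ∈ uIcc ε R, max u ε = u := fun u hu => by
    rw [uIcc_of_le hεR] at hu
    exact max_eq_left hu.1
  have e1 : (fun x => ∫ u in ε..R, u ^ (β - 1) * rtr (chi κ u (N x) * (𝒲 x - Am κ (N x)))) =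
      fun x => ∫ u in ε..R, F x u := by
    funext x
    refine intervalIntegral.integral_congr fun u hu => ?_
    simp only [hF, hmax u hu]
  refine ⟨by rw [e1]; exact intervalIntegral.continuous_parametric_intervalIntegral_of_continuous' hFc _ _, ?_⟩
  rw [e1, intervalIntegral_intervalIntegral_swap
    ((hFc.continuousOn.integrableOn_compact (isCompact_uIcc.prod isCompact_uIcc)).mono_set
      (prod_mono uIoc_subset_uIcc uIoc_subset_uIcc)), ← intervalIntegral.integral_finsetSum]
  · refine intervalIntegral.integral_congr fun u hu => ?_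
    have hu0 : 0 < u := by rw [← hmax u hu]; exact hpos u
    simp only [hF, hmax u hu]
    rw [intervalIntegral.integral_const_mul, inner hT hκ h hu0, Finset.mul_sum]
  · intro j _
    refine ContinuousOn.intervalIntegrable fun u hu => ?_
    have hu0 : 0 < u := by rw [← hmax u hu]; exact hpos u
    refine ContinuousAt.continuousWithinAt ?_
    have c1 : Continuous fun u : ℝ => √(κ j ^ 2 + u) := by fun_prop
    refine (Real.continuousAt_rpow_const _ _ (Or.inl hu0.ne')).mul ?_
    unfold bt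
    exact continuousAt_const.mul
      (((continuous_eta.comp (c1.add continuous_const)).sub
        (continuous_eta.comp (c1.sub continuous_const))).continuousAt.sub
        (continuousAt_const.mul (Real.continuousAt_log hu0.ne')))

end Dia

open Dia in
theorem diaStmt_of (hH : HJBStmt) (hT : TrDerStmt) (hS : ScalStmt) : DiaStmt := by
  intro β M hβ0 hβ1 hM
  obtain ⟨c₀, hc₀, hHJB⟩ := hH β M hβ0 hβ1 hM
  obtain ⟨hIb, hJb, -, hsc, -, hlim, -⟩ := hS β hβ0 hβ1
  set θ : ℝ := β / (1 + β) with hθ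
  have hθ0 : 0 < θ := by positivity
  have hθ1 : θ ≤ 1 := by rw [hθ, div_le_one (by positivity)]; linarith
  set D : ℝ := β⁻¹ * Ib β * θ ^ (1 + β) with hD
  have hD0 : 0 < D := by positivity
  refine ⟨c₀ / D, by positivity, fun n κ N 𝒲 a b hκ h hW => ?_⟩
  have hκ0 : ∀ j, 0 < κ j := fun j => (hκ j).1
  have hslk : Continuous fun x => slk β κ (N x) (𝒲 x) := by
    have a1 : Continuous fun x => Am κ (N x) := (continuous_Am κ).comp h.continuous
    have a2 : Continuous fun x => ((β / (1 + β) : ℝ) : ℂ) • 𝒲 x :=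
      h.cont.const_smul ((β / (1 + β) : ℝ) : ℂ)
    have a3 : Continuous fun x => Am κ (N x) - ((β / (1 + β) : ℝ) : ℂ) • 𝒲 x := a1.sub a2
    have a4 : Continuous fun x => hs (Am κ (N x) - ((β / (1 + β) : ℝ) : ℂ) • 𝒲 x) :=
      continuous_hs.comp a3
    have a5 : Continuous fun x => cm κ (N x) := (continuous_cm κ).comp h.continuous
    exact a4.add a5
  have htr : Continuous fun x => tracePow (𝒲 x) (1 + β) := by
    simp only [tracePow_eq]
    exact continuous_rtr.comp (continuous_mpow h.cont (fun x => (h.psd x).1) (by linarith))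
  have main : Ib β * Jb β * ∑ j, κ j ^ (1 + 2 * β) + c₀ * ∫ x in a..b, slk β κ (N x) (𝒲 x) ≤
      D * ∫ x in a..b, tracePow (𝒲 x) (1 + β) := by
    have hba : 0 < b - a := sub_pos.2 h.ab
    refine le_of_forall_pos_le_add fun δ hδ => ?_
    set η : ℝ := δ / (n + (b - a)) with hη
    have hη0 : 0 < η := by positivity
    obtain ⟨ε₀, R₀, hε₀, hx⟩ := hHJB n η hη0
    choose εj Rj hεj hj using fun j => hlim (κ j) η (hκ0 j) hη0
    have ev : ∀ e : ℝ, 0 < e → ∀ᶠ ε in 𝓝[>] (0 : ℝ), ε ≤ e := fun e he =>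
      mem_nhdsWithin_of_mem_nhds (Iic_mem_nhds he)
    obtain ⟨ε, hε, hεε₀, hε1, hεεj⟩ : ∃ ε : ℝ, 0 < ε ∧ ε ≤ ε₀ ∧ ε ≤ 1 ∧ ∀ j, ε ≤ εj j :=
      ((eventually_mem_nhdsWithin (a := (0 : ℝ)) (s := Ioi 0)).and ((ev _ hε₀).and
        ((ev _ one_pos).and (eventually_all.2 fun j => ev _ (hεj j))))).exists
    obtain ⟨R, hRR₀, hR1, hRRj⟩ : ∃ R : ℝ, R₀ ≤ R ∧ 1 ≤ R ∧ ∀ j, Rj j ≤ R :=
      ((eventually_ge_atTop R₀).and ((eventually_ge_atTop 1).and
        (eventually_all.2 fun j => eventually_ge_atTop (Rj j)))).exists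
    obtain ⟨hc, hsw⟩ := swap hT hκ0 h β hε (hε1.trans hR1)
    have hpt : ∀ x, β * (∫ u in ε..R, u ^ (β - 1) * rtr (chi κ u (N x) * (𝒲 x - Am κ (N x)))) +
        c₀ * slk β κ (N x) (𝒲 x) ≤ D * tracePow (𝒲 x) (1 + β) + η := by
      intro x
      have hB : ((θ : ℂ) • 𝒲 x).PosSemidef := (h.psd x).smul (by exact_mod_cast hθ0.le)
      have hBd : Bd ((θ : ℂ) • 𝒲 x) M := by
        have h1 : (((1 - θ : ℝ) : ℂ) • 𝒲 x).PosSemidef :=
          (h.psd x).smul (by exact_mod_cast sub_nonneg.2 hθ1)
        have := PosSemidef.add (hW x) h1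
        unfold Bd
        convert this using 1
        push_cast
        module
      have h1 := hx ε R hε hεε₀ hRR₀ κ (N x) _ hκ (h.btw x) hB hBd
      have e : ((β⁻¹ + 1 : ℝ) : ℂ) • (θ : ℂ) • 𝒲 x = 𝒲 x := by
        rw [smul_smul, ← Complex.ofReal_mul]
        have : (β⁻¹ + 1) * θ = 1 := by rw [hθ]; field_simp
        rw [this]
        simp
      rw [e, tracePow_smul (h.psd x) hθ0.le, ← mul_assoc] at h1
      exact h1
    have hint := intervalIntegral.integral_mono_on h.ab.le
      (((hc.const_mul β).add (hslk.const_mul c₀)).intervalIntegrable (μ := volume) a b)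
      (((htr.const_mul D).add continuous_const).intervalIntegrable a b) fun x _ => hpt x
    simp only [Pi.add_apply] at hint
    rw [intervalIntegral.integral_add ((hc.const_mul β).intervalIntegrable _ _)
        ((hslk.const_mul c₀).intervalIntegrable _ _),
      intervalIntegral.integral_add ((htr.const_mul D).intervalIntegrable _ _)
        (continuous_const.intervalIntegrable _ _),
      intervalIntegral.integral_const_mul, intervalIntegral.integral_const_mul,
      intervalIntegral.integral_const_mul, intervalIntegral.integral_const, hsw, smul_eq_mul,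
      Finset.mul_sum] at hint
    have hsum : ∑ j, (Ib β * Jb β * κ j ^ (1 + 2 * β) - η) ≤
        ∑ j, β * ∫ u in ε..R, u ^ (β - 1) * bt (κ j) u :=
      Finset.sum_le_sum fun j _ => hj j ε R hε (hεεj j) (hRRj j)
    rw [Finset.sum_sub_distrib, ← Finset.mul_sum] at hsum
    simp only [Finset.sum_const, Finset.card_univ, Fintype.card_fin, nsmul_eq_mul] at hsum
    have hδη : (n + (b - a)) * η = δ := by rw [hη]; field_simp
    nlinarith
  have hconst : (sharpConst (β + 1 / 2))⁻¹ = Ib β * Jb β / D := by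
    rw [hsc, hD, hθ, Real.div_rpow hβ0.le (by positivity), Real.rpow_neg hβ0.le,
      Real.rpow_add hβ0, Real.rpow_one]
    have := Real.rpow_pos_of_pos hβ0 β
    have := Real.rpow_pos_of_pos (show 0 < 1 + β by positivity) (1 + β)
    field_simp
  rw [hconst, div_mul_eq_mul_div, div_mul_eq_mul_div, ← add_div, div_le_iff₀ hD0, mul_comm _ D]
  exact main

end Crest.Agent.R332

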