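import Crest.Agent.R332.Basic

/-! # Row 332: existence of the frame and of the Riccati path -/

set_option autoImplicit false

open MeasureTheory Matrix Set
open scoped ComplexOrder ContDiff
open Crest.MathPhysics.LiebThirring

noncomputable section

namespace Crest.Agent.R332

namespace Ext

variable {m n k : ℕ}

theorem rtr_mul_vecMulVec (A : Mx n n) (w : Fin n → ℂ) :
    rtr (A * vecMulVec w (star w)) = qf A w := by
  simp only [rtr, qf, Matrix.trace, diag_apply, mul_apply, vecMulVec_apply, dotProduct, mulVec,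
    Finset.mul_sum]
  congr 1
  refine Finset.sum_congr rfl fun i _ => Finset.sum_congr rfl fun j _ => ?_
  ring

theorem psd_vecMulVec (w : Fin n → ℂ) : (vecMulVec w (star w)).PosSemidef :=
  posSemidef_vecMulVec_self_star w

theorem rtr_mono {A B : Mx n n} (h : (B - A).PosSemidef) : rtr A ≤ rtr B := by
  have := rtr_nonneg h
  rw [rtr_sub] at this
  linarith

theorem psd_smul {A : Mx n n} (hA : A.PosSemidef) {c : ℝ} (hc : 0 ≤ c) :
    ((c : ℂ) • A).PosSemidef := hA.smul (by exact_mod_cast hc)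

/-- first variation at the solution of the variational inequality -/
theorem vi_psd {T Δ : Mx n n} (hT : T.PosSemidef) (hΔ : Δ.IsHermitian) {c : ℝ} (hc : 0 ≤ c)
    (hker : ∀ v, T *ᵥ v = 0 → Δ *ᵥ v = (c : ℂ) • v)
    (hvi : ∀ T' : Mx n n, T'.PosSemidef → rtr T' ≤ rtr T → rtr (Δ * (T' - T)) ≤ 0) :
    Δ.PosSemidef := by
  obtain ⟨U, d, hU, hU', hTe⟩ := exists_diag hT.1
  have hd : ∀ i, 0 ≤ d i := (psd_conj_dg_iff hU d).1 (hTe ▸ hT)
  set S : Mx n n := U * dg (fun i => √(d i)) * Uᴴ with hS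
  set S' : Mx n n := U * dg (fun i => (√(d i))⁻¹) * Uᴴ with hS'
  have hSh : S.IsHermitian := herm_conj (dg_herm _) U
  have hSS : S * S = T := by
    rw [hS, conj_dg_mul hU, hTe]
    congr 3
    ext i
    exact Real.mul_self_sqrt (hd i)
  -- the form is nonnegative on the range of `S`
  have h1 : ∀ w, 0 ≤ qf Δ (S *ᵥ w) := by
    intro w
    set t : ℝ := (vs w + 1)⁻¹ with ht
    have hv := vs_nonneg w
    have ht0 : 0 < t := by positivity
    have e : S * vecMulVec w (star w) * S = vecMulVec (S *ᵥ w) (star (S *ᵥ w)) := by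
      rw [mul_vecMulVec, vecMulVec_mul, star_mulVec, hSh.eq]
    have hb : ((1 : Mx n n) - (t : ℂ) • vecMulVec w (star w)).PosSemidef := by
      have h0 := bd_rtr (psd_smul (psd_vecMulVec w) ht0.le)
      have h2 : rtr ((t : ℂ) • vecMulVec w (star w)) ≤ 1 := by
        have := rtr_mul_vecMulVec 1 w
        rw [Matrix.one_mul, ← vs_eq_qf] at this
        rw [rtr_smul, this, ht, inv_mul_le_iff₀ (by positivity)]
        linarith
      have := h0.mono h2
      simpa [Bd] using this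
    have h3 := hb.conjTranspose_mul_mul_same S
    have e2 : Sᴴ * (1 - (t : ℂ) • vecMulVec w (star w)) * S =
        T - (t : ℂ) • vecMulVec (S *ᵥ w) (star (S *ᵥ w)) := by
      rw [hSh.eq, Matrix.mul_sub, Matrix.sub_mul, Matrix.mul_one, hSS, Matrix.mul_smul,
        Matrix.smul_mul, e]
    rw [e2] at h3
    have h4 := hvi _ h3 (rtr_mono (by
      simpa using psd_smul (psd_vecMulVec (S *ᵥ w)) ht0.le))
    rw [sub_sub_cancel_left, Matrix.mul_neg, rtr_neg, Matrix.mul_smul, rtr_smul,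
      rtr_mul_vecMulVec] at h4
    have : 0 ≤ t * qf Δ (S *ᵥ w) := by linarith
    exact nonneg_of_mul_nonneg_right (by linarith) ht0 |> fun h => by
      by_contra hneg
      push Not at hneg
      nlinarith
  set P : Mx n n := S * S' with hP
  have hPe : P = U * dg (fun i => √(d i) * (√(d i))⁻¹) * Uᴴ := conj_dg_mul hU _ _
  set Q : Mx n n := U * dg (fun i => 1 - √(d i) * (√(d i))⁻¹) * Uᴴ with hQ
  have hPQ : P + Q = 1 := by
    have := smul_one_sub_conj_dg hU (fun i => √(d i) * (√(d i))⁻¹) 1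
    rw [hQ, ← this, hPe]
    simp
  have hcase : ∀ i, (√(d i) = 0 ∧ d i = 0) ∨ √(d i) * (√(d i))⁻¹ = 1 := by
    intro i
    by_cases h : √(d i) = 0
    · exact Or.inl ⟨h, by rwa [Real.sqrt_eq_zero (hd i)] at h⟩
    · exact Or.inr (mul_inv_cancel₀ h)
  have hz : U * dg (fun _ : Fin n => 0) * Uᴴ = 0 := by simp [dg]
  have hTQ : T * Q = 0 := by
    rw [hTe, hQ, conj_dg_mul hU, ← hz]
    congr 3
    ext i
    rcases hcase i with h | h
    · simp [h.2]
    · simp [h]
  have hQP : Q * P = 0 := by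
    rw [hPe, hQ, conj_dg_mul hU, ← hz]
    congr 3
    ext i
    rcases hcase i with h | h
    · simp [h.1]
    · simp [h]
  have hQpsd : Q.PosSemidef := by
    rw [hQ, psd_conj_dg_iff hU]
    intro i
    rcases hcase i with h | h
    · simp [h.1]
    · simp [h]
  have hPh : P.IsHermitian := by rw [hPe]; exact herm_conj (dg_herm _) U
  have hΔQ : Δ * Q = (c : ℂ) • Q := by
    refine Matrix.ext_iff_mulVec.2 fun v => ?_
    rw [← mulVec_mulVec, hker _ (by rw [mulVec_mulVec, hTQ, zero_mulVec]), smul_mulVec]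
  have hQΔ : Q * Δ = (c : ℂ) • Q := by
    have := congrArg conjTranspose hΔQ
    rwa [conjTranspose_mul, hΔ.eq, hQpsd.1.eq, conjTranspose_smul, hQpsd.1.eq, Complex.star_def,
      Complex.conj_ofReal] at this
  have hdec : Δ = Pᴴ * Δ * P + (c : ℂ) • Q := by
    calc Δ = Δ * (P + Q) := by rw [hPQ, Matrix.mul_one]
      _ = (P + Q) * Δ * P + Δ * Q := by rw [hPQ, Matrix.one_mul, ← Matrix.mul_add, hPQ]
      _ = P * Δ * P + Q * Δ * P + Δ * Q := by simp only [Matrix.add_mul]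
      _ = _ := by rw [hQΔ, Matrix.smul_mul, hQP, hΔQ, hPh.eq]; simp
  rw [hdec]
  refine PosSemidef.add ?_ (psd_smul hQpsd hc)
  refine psd_of_qf (isHermitian_conjTranspose_mul_mul P hΔ) fun v => ?_
  rw [qf_conj, hP, ← mulVec_mulVec]
  exact h1 _

theorem vi_zero {T Δ : Mx n n} {R : ℝ} (hT : T.PosSemidef) (hΔ : Δ.PosSemidef) (hR : rtr T < R)
    (hvi : ∀ T' : Mx n n, T'.PosSemidef → rtr T' ≤ R → rtr (Δ * (T' - T)) ≤ 0) : Δ = 0 := by
  have h0 := rtr_nonneg hΔ
  set t : ℝ := (R - rtr T) / (rtr Δ + 1) with ht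
  have ht0 : 0 < t := div_pos (by linarith) (by linarith)
  have h1 := hvi (T + (t : ℂ) • Δ) (hT.add (psd_smul hΔ ht0.le)) (by
    rw [rtr_add, rtr_smul]
    have : t * (rtr Δ + 1) = R - rtr T := div_mul_cancel₀ _ (by linarith)
    nlinarith)
  rw [add_sub_cancel_left, Matrix.mul_smul, rtr_smul] at h1
  have h2 : hs Δ = rtr (Δ * Δ) := by rw [hs_eq_rtr, hΔ.1.eq]
  rw [← h2] at h1
  have h3 := hs_nonneg Δ
  exact hs_eq_zero.1 (by nlinarith)

theorem integral_rtr_mul {g : ℝ → Mx n n} (hg : Continuous g) {a b : ℝ}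
    (h1 : ∀ i j, ∫ x in a..b, g x i j = (1 : Mx n n) i j) (C : Mx n n) :
    ∫ x in a..b, rtr (C * g x) = rtr C := by
  have hc : ∀ i j, Continuous fun x => g x i j := fun i j => hg.matrix_elem i j
  have e : ∀ x, (C * g x).trace = ∑ i, ∑ j, C i j * g x j i := fun x => by
    simp [Matrix.trace, mul_apply]
  have h2 : ∫ x in a..b, (C * g x).trace = C.trace := by
    simp only [e]
    have hc' : ∀ i j, Continuous fun x => C i j * g x j i := fun i j =>
      continuous_const.mul (hc j i)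
    rw [intervalIntegral.integral_finsetSum (f := fun i x => ∑ j, C i j * g x j i) fun i _ =>
      (continuous_finsetSum _ fun j _ => hc' i j).intervalIntegrable _ _]
    have : ∀ i, ∫ x in a..b, ∑ j, C i j * g x j i = C i i := by
      intro i
      rw [intervalIntegral.integral_finsetSum (f := fun j x => C i j * g x j i) fun j _ =>
        (hc' i j).intervalIntegrable _ _]
      simp only [intervalIntegral.integral_const_mul, h1]
      simp [one_apply]
    simp [this, Matrix.trace]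
  have h3 : IntervalIntegrable (fun x => (C * g x).trace) volume a b :=
    (Continuous.matrix_trace (continuous_const.matrix_mul hg)).intervalIntegrable _ _
  have := Complex.reCLM.intervalIntegral_comp_comm h3
  simp only [Complex.reCLM_apply] at this
  rw [rtr, ← h2, ← this]
  rfl

theorem rtr_le_add_tracePow {G : Mx n n} (hG : G.PosSemidef) {r : ℝ} (hr : 1 ≤ r) :
    rtr G ≤ n + rtr (mpow G r) := by
  obtain ⟨U, d, hU, hU', rfl⟩ := exists_diag hG.1
  rw [psd_conj_dg_iff hU] at hG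
  rw [mpow_conj_dg hU, rtr_conj_dg hU, rtr_conj_dg hU]
  have : ∀ i, d i ≤ 1 + d i ^ r := by
    intro i
    rcases le_total (d i) 1 with h | h
    · have := Real.rpow_nonneg (hG i) r
      linarith
    · have := Real.rpow_le_rpow_of_exponent_le h hr
      rw [Real.rpow_one] at this
      linarith
  calc ∑ i, d i ≤ ∑ i, (1 + d i ^ r) := Finset.sum_le_sum fun i _ => this i
    _ = _ := by simp [Finset.sum_add_distrib]

theorem rtr_le_of_bd {A : Mx n n} {M : ℝ} (h : Bd A M) : rtr A ≤ n * M := by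
  have := rtr_nonneg h
  rw [rtr_sub, rtr_smul, rtr_one] at this
  linarith

theorem rtr_mul_le_of_bd {A B : Mx n n} {M : ℝ} (h : Bd A M) (hB : B.PosSemidef) :
    rtr (A * B) ≤ M * rtr B := by
  have := rtr_mul_nonneg h hB
  rw [Matrix.sub_mul, Matrix.smul_mul, Matrix.one_mul, rtr_sub, rtr_smul] at this
  linarith

/-- the a priori bound on the frame -/
theorem trace_bound {r ρ a b : ℝ} (hr : 1 ≤ r) (hab : a < b) {g : ℝ → Mx n n} (hg : Continuous g)
    (hgp : ∀ x, (g x).PosSemidef) (h1 : ∀ i j, ∫ x in a..b, g x i j = (1 : Mx n n) i j)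
    {T K : Mx n n} (hT : T.IsHermitian) (hK : K.PosSemidef) (hKb : Bd K ρ) {N : ℝ → Mx n n}
    (ha : N a = K)
    (hN : ∀ x ∈ Icc a b, (K + N x).PosSemidef ∧ (K - N x).PosSemidef ∧
      ∀ i j, HasDerivWithinAt (fun y => N y i j)
        ((K * K - N x * N x - mpow (T * g x * T) r) i j) (Icc a b) x) :
    rtr (T * T) ≤ 2 * (n * ρ) + (b - a) * (ρ * (n * ρ) + n) := by
  have hc : Continuous fun x => rtr (T * T * g x) :=
    continuous_rtr.comp (continuous_const.matrix_mul hg)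
  set φ : ℝ → ℝ := fun x => rtr (N x) - (x - a) * (rtr (K * K) + n) +
    ∫ y in a..x, rtr (T * T * g y) with hφ
  have hder : ∀ x ∈ Icc a b, HasDerivWithinAt φ
      (rtr (K * K - N x * N x - mpow (T * g x * T) r) - (rtr (K * K) + n) + rtr (T * T * g x))
      (Icc a b) x := by
    intro x hx
    have d1 : HasDerivWithinAt (fun y => rtr (N y))
        (rtr (K * K - N x * N x - mpow (T * g x * T) r)) (Icc a b) x := by
      simp only [rtr_eq_sum]
      refine HasDerivWithinAt.fun_sum fun i _ => ?_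
      exact Complex.reCLM.hasFDerivAt.comp_hasDerivWithinAt x ((hN x hx).2.2 i i)
    have d2 : HasDerivAt (fun y => (y - a) * (rtr (K * K) + n)) (rtr (K * K) + n) x := by
      simpa using ((hasDerivAt_id x).sub_const a).mul_const (rtr (K * K) + n)
    have d3 := (hc.integral_hasStrictDerivAt a x).hasDerivAt
    exact (d1.sub d2.hasDerivWithinAt).add d3.hasDerivWithinAt
  have hanti : AntitoneOn φ (Icc a b) := by
    refine antitoneOn_of_hasDerivWithinAt_nonpos (convex_Icc a b)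
      (fun x hx => (hder x hx).continuousWithinAt)
      (fun x hx => (hder x (interior_subset hx)).mono interior_subset) fun x hx => ?_
    have hx' := interior_subset hx
    have hNh : (N x).IsHermitian := by
      have := (hN x hx').1.1.sub hK.1
      simpa using this
    have e1 : 0 ≤ rtr (N x * N x) := by
      have := hs_nonneg (N x)
      rwa [hs_eq_rtr, hNh.eq] at this
    have hG : (T * g x * T).PosSemidef := by
      have := (hgp x).conjTranspose_mul_mul_same T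
      rwa [hT.eq] at this
    have e2 := rtr_le_add_tracePow hG hr
    have e3 : rtr (T * T * g x) = rtr (T * g x * T) := by
      rw [rtr_mul_comm (T * g x) T, Matrix.mul_assoc]
    rw [rtr_sub, rtr_sub, e3]
    linarith
  have h2 := hanti (left_mem_Icc.2 hab.le) (right_mem_Icc.2 hab.le) hab.le
  simp only [hφ, sub_self, zero_mul, intervalIntegral.integral_same, ha,
    integral_rtr_mul hg h1] at h2
  have h3 := rtr_nonneg (hN b (right_mem_Icc.2 hab.le)).1
  rw [rtr_add] at h3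
  have h4 := rtr_le_of_bd hKb
  have h5 := rtr_mul_le_of_bd hKb hK
  have h6 := rtr_nonneg hK
  have h7 : rtr (K * K) ≤ ρ * (n * ρ) := by
    rcases Nat.eq_zero_or_pos n with rfl | hn
    · simp [rtr]
    · have hρ : 0 ≤ ρ := by
        have : (0 : ℝ) < n := by exact_mod_cast hn
        by_contra hneg
        push Not at hneg
        nlinarith
      nlinarith
  have hba : 0 < b - a := by linarith
  nlinarith

/-- the regularised range projection -/
def fe (ε t : ℝ) : ℝ := max t 0 / (max t 0 + ε)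

theorem continuous_fe {ε : ℝ} (hε : 0 < ε) : Continuous (fe ε) := by
  unfold fe
  refine Continuous.div (by fun_prop) (by fun_prop) fun t => ?_
  have := le_max_right t 0
  linarith

theorem fe_mem {ε : ℝ} (hε : 0 < ε) (t : ℝ) : 0 ≤ fe ε t ∧ fe ε t ≤ 1 := by
  have := le_max_right t 0
  exact ⟨div_nonneg this (by linarith), (div_le_one (by linarith)).2 (by linarith)⟩

theorem fe_zero (ε : ℝ) : fe ε 0 = 0 := by simp [fe]

theorem fe_loss {ε d : ℝ} (hε : 0 < ε) (hd : 0 ≤ d) :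
    0 ≤ d * d - fe ε d * (d * d) * fe ε d ∧ d * d - fe ε d * (d * d) * fe ε d ≤ 2 * ε * d + ε ^ 2 := by
  obtain ⟨h0, h1⟩ := fe_mem hε d
  have h2 : fe ε d * (d + ε) = d := by
    rw [fe, max_eq_left hd]; exact div_mul_cancel₀ _ (by linarith)
  set f := fe ε d
  constructor
  · have : f * f ≤ 1 := by nlinarith
    nlinarith [mul_self_nonneg d]
  · have h3 : d - f * d = f * ε := by linarith
    have h4 : d * d - f * (d * d) * f = (f * ε) * (d + f * d) := by rw [← h3]; ring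
    rw [h4]
    have h5 : f * ε ≤ ε := by nlinarith
    have h6 : d + f * d ≤ 2 * d := by nlinarith
    have h7 : 0 ≤ d + f * d := by nlinarith
    nlinarith [sq_nonneg ε]

theorem vs_fe_le {ε : ℝ} (hε : 0 < ε) {T : Mx n n} (hT : T.IsHermitian) (v : Fin n → ℂ) :
    vs (cfc (fe ε) T *ᵥ v) ≤ vs v := by
  obtain ⟨U, d, hU, hU', rfl⟩ := exists_diag hT
  rw [cfc_conj_dg _ hU]
  have := vs_mulVec_le_of_psd ((psd_conj_dg_iff hU fun i => fe ε (d i)).2 fun i => (fe_mem hε _).1)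
    ((bd_conj_dg_iff hU _ 1).2 fun i => (fe_mem hε _).2) v
  simpa using this

/-- the deformed diagonal matrix -/
def Kt (κ : Fin n → ℝ) (k₁ : ℝ) (F : Mx n n) : Mx n n :=
  (k₁ : ℂ) • 1 - F * dg (fun j => k₁ - κ j) * F

theorem smul_one_herm (c : ℝ) : ((c : ℂ) • (1 : Mx n n)).IsHermitian := by
  rw [← dg_const]; exact dg_herm _

theorem Kt_herm (κ : Fin n → ℝ) (k₁ : ℝ) {F : Mx n n} (hF : F.IsHermitian) :
    (Kt κ k₁ F).IsHermitian := by
  refine (smul_one_herm k₁).sub ?_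
  have := herm_conj (dg_herm fun j => k₁ - κ j) F
  rwa [hF.eq] at this

theorem qf_Kt (κ : Fin n → ℝ) (k₁ : ℝ) {F : Mx n n} (hF : F.IsHermitian) (v : Fin n → ℂ) :
    qf (Kt κ k₁ F) v = k₁ * vs v - k₁ * vs (F *ᵥ v) + qf (dg κ) (F *ᵥ v) := by
  have e : F * dg (fun j => k₁ - κ j) * F = Fᴴ * dg (fun j => k₁ - κ j) * F := by rw [hF.eq]
  rw [Kt, qf_sub, qf_smul, ← vs_eq_qf, e, qf_conj, ← dg_sub, dg_const, qf_sub, qf_smul,
    ← vs_eq_qf]
  ring

theorem qf_dg_ge {κ : Fin n → ℝ} {t : ℝ} (h : ∀ j, t ≤ κ j) (v : Fin n → ℂ) :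
    t * vs v ≤ qf (dg κ) v := by
  rw [qf_dg, vs, Finset.mul_sum]
  exact Finset.sum_le_sum fun i _ => mul_le_mul_of_nonneg_right (h i) (sq_nonneg _)

theorem qf_Kt_ge {κ : Fin n → ℝ} {k₁ t : ℝ} {F : Mx n n} (hF : F.IsHermitian)
    (hF1 : ∀ v, vs (F *ᵥ v) ≤ vs v) (ht : t ≤ k₁) {v : Fin n → ℂ}
    (h : t * vs (F *ᵥ v) ≤ qf (dg κ) (F *ᵥ v)) : t * vs v ≤ qf (Kt κ k₁ F) v := by
  rw [qf_Kt κ k₁ hF]
  have := hF1 v
  nlinarith

theorem bd_Kt {κ : Fin n → ℝ} {k₁ : ℝ} {F : Mx n n} (hF : F.IsHermitian) (h : ∀ j, κ j ≤ k₁) :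
    Bd (Kt κ k₁ F) k₁ := by
  have := (dg_psd (d := fun j => k₁ - κ j) fun j => by linarith [h j]).conjTranspose_mul_mul_same F
  rw [hF.eq] at this
  simpa [Bd, Kt] using this

theorem pd_Kt {κ : Fin n → ℝ} {k₁ : ℝ} {F : Mx n n} (hF : F.IsHermitian)
    (hF1 : ∀ v, vs (F *ᵥ v) ≤ vs v) (hn : 0 < n) (hκ : ∀ j, 0 < κ j) (h : ∀ j, κ j ≤ k₁) :
    (Kt κ k₁ F).PosDef := by
  have : Nonempty (Fin n) := ⟨⟨0, hn⟩⟩
  obtain ⟨j₀, hj₀⟩ := Finite.exists_min κ
  refine pd_of_qf (Kt_herm κ k₁ hF) fun v hv => ?_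
  have h1 := qf_Kt_ge (κ := κ) hF hF1 (h j₀) (qf_dg_ge hj₀ (F *ᵥ v))
  have h2 : 0 < vs v := lt_of_le_of_ne (vs_nonneg v) fun h0 => hv (vs_eq_zero.1 h0.symm)
  have := mul_pos (hκ j₀) h2
  linarith

/-- the loss caused by the regularisation -/
theorem loss (κ : Fin n → ℝ) (k₁ : ℝ) {ε R : ℝ} (hε : 0 < ε)
    {T : Mx n n} (hT : T.PosSemidef) (hR : rtr T ≤ R) :
    rtr (Kt κ k₁ (cfc (fe ε) T) * Kt κ k₁ (cfc (fe ε) T) * (T * T)) ≤
      rtr (dg κ * dg κ * (T * T)) + k₁ ^ 2 * (2 * ε * R + n * ε ^ 2) := by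
  set F := cfc (fe ε) T with hF
  have hFh : F.IsHermitian := cfc_herm _ _
  set M : Mx n n := dg fun j => k₁ - κ j with hM
  have hMh : M.IsHermitian := dg_herm _
  set D : Mx n n := dg fun j => k₁ ^ 2 - κ j * κ j with hD
  have hTT : (T * T).PosSemidef := by
    have := posSemidef_conjTranspose_mul_self T
    rwa [hT.1.eq] at this
  -- `1 - F²` is positive
  have h1 : ((1 : Mx n n) - F * F).PosSemidef := by
    refine psd_of_qf (isHermitian_one.sub (by
      have := isHermitian_conjTranspose_mul_self F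
      rwa [hFh.eq] at this)) fun v => ?_
    have h2 := vs_mulVec F v
    rw [hFh.eq] at h2
    rw [qf_sub, ← vs_eq_qf, ← h2]
    have := vs_fe_le hε hT.1 v
    linarith
  have h2 := h1.conjTranspose_mul_mul_same (M * F)
  rw [conjTranspose_mul, hFh.eq, hMh.eq] at h2
  have hDM : D = ((2 * k₁ : ℝ) : ℂ) • M - M * M := by
    rw [← Matrix.one_mul M, ← Matrix.smul_mul, ← dg_const, Matrix.one_mul, hM, dg_mul_dg,
      dg_mul_dg, dg_sub, hD]
    congr 1
    ext j
    ring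
  have e1 : Kt κ k₁ F * Kt κ k₁ F =
      ((k₁ ^ 2 : ℝ) : ℂ) • 1 - F * D * F - F * M * (1 - F * F) * (M * F) := by
    rw [Kt, ← hM, hDM]
    simp only [Matrix.mul_sub, Matrix.sub_mul, Matrix.mul_smul, Matrix.smul_mul, Matrix.mul_one,
      Matrix.one_mul, Matrix.mul_assoc]
    push_cast
    module
  have e2 : dg κ * dg κ = ((k₁ ^ 2 : ℝ) : ℂ) • 1 - D := by
    rw [← dg_const, dg_mul_dg, hD, dg_sub]
    congr 1
    ext j
    ring
  have h3 := rtr_mul_nonneg h2 hTT
  have hDb : Bd D (k₁ ^ 2) := bd_dg fun j => by nlinarith [mul_self_nonneg (κ j)]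
  obtain ⟨U, d, hU, hU', hTe⟩ := exists_diag hT.1
  have hd : ∀ i, 0 ≤ d i := (psd_conj_dg_iff hU d).1 (hTe ▸ hT)
  have e3 : T * T - F * (T * T) * F =
      U * dg (fun i => d i * d i - fe ε (d i) * (d i * d i) * fe ε (d i)) * Uᴴ := by
    rw [hF, hTe, cfc_conj_dg _ hU]
    simp only [conj_dg_mul hU]
    rw [← dg_sub, Matrix.mul_sub, Matrix.sub_mul]
  have h4 : (T * T - F * (T * T) * F).PosSemidef := by
    rw [e3, psd_conj_dg_iff hU]
    exact fun i => (fe_loss hε (hd i)).1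
  have h5 : rtr (T * T - F * (T * T) * F) ≤ 2 * ε * R + n * ε ^ 2 := by
    rw [e3, rtr_conj_dg hU]
    rw [hTe, rtr_conj_dg hU] at hR
    calc _ ≤ ∑ i, (2 * ε * d i + ε ^ 2) := Finset.sum_le_sum fun i _ => (fe_loss hε (hd i)).2
      _ = 2 * ε * ∑ i, d i + n * ε ^ 2 := by
          simp [Finset.sum_add_distrib, Finset.mul_sum]
      _ ≤ _ := by nlinarith
  have h6 := rtr_mul_le_of_bd hDb h4
  have e4 : rtr (F * D * F * (T * T)) = rtr (D * (F * (T * T) * F)) := by
    rw [Matrix.mul_assoc F D F, Matrix.mul_assoc F, rtr_mul_comm F]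
    simp only [Matrix.mul_assoc]
  rw [e1, e2]
  simp only [Matrix.sub_mul, rtr_sub, Matrix.mul_sub] at h6 h3 h5 ⊢
  rw [e4]
  nlinarith [sq_nonneg k₁]

/-- extension of a Riccati solution by constants -/
theorem extend {a b : ℝ} (hab : a < b) {K : Mx n n} {N 𝒲 : ℝ → Mx n n}
    (h0 : ∀ x, x ∉ Ioo a b → 𝒲 x = 0) (ha : N a = K) (hb : N b = -K)
    (hN : ∀ x ∈ Icc a b, ∀ i j, HasDerivWithinAt (fun y => N y i j)
        ((K * K - N x * N x - 𝒲 x) i j) (Icc a b) x) :
    ∃ M : ℝ → Mx n n, (∀ x, ∃ y ∈ Icc a b, M x = N y) ∧ (∀ x, x ≤ a → M x = K) ∧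
      (∀ x, b ≤ x → M x = -K) ∧ ∀ x, Der M (K * K - M x * M x - 𝒲 x) x := by
  set M : ℝ → Mx n n := fun x => N (max a (min x b)) with hM
  have hl : ∀ x, x ≤ a → M x = K := fun x hx => by
    simp only [hM]
    rw [max_eq_left ((min_le_left _ _).trans hx), ha]
  have hr : ∀ x, b ≤ x → M x = -K := fun x hx => by
    simp only [hM]
    rw [min_eq_right hx, max_eq_right hab.le, hb]
  have hm : ∀ x ∈ Icc a b, M x = N x := fun x hx => by
    simp only [hM]
    rw [min_eq_left hx.2, max_eq_right hx.1]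
  refine ⟨M, fun x => ⟨_, ⟨le_max_left _ _, max_le hab.le (min_le_right _ _)⟩, rfl⟩, hl, hr,
    fun x i j => ?_⟩
  have h1 : HasDerivWithinAt (fun y => M y i j) ((K * K - M x * M x - 𝒲 x) i j) (Iic a) x := by
    by_cases hx : x ≤ a
    · rw [hl x hx, h0 x (fun h => absurd h.1 (not_lt.2 hx)), sub_self, sub_zero]
      exact (hasDerivWithinAt_const x _ (K i j)).congr (fun y hy => by rw [hl y hy])
        (by rw [hl x hx])
    · exact hasDerivWithinAt_iff_hasFDerivWithinAt.2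
        (HasFDerivWithinAt.of_notMem_closure (by rwa [closure_Iic]))
  have h2 : HasDerivWithinAt (fun y => M y i j) ((K * K - M x * M x - 𝒲 x) i j) (Icc a b) x := by
    by_cases hx : x ∈ Icc a b
    · rw [hm x hx]
      exact (hN x hx i j).congr (fun y hy => by rw [hm y hy]) (by rw [hm x hx])
    · exact hasDerivWithinAt_iff_hasFDerivWithinAt.2
        (HasFDerivWithinAt.of_notMem_closure (by rwa [closure_Icc]))
  have h3 : HasDerivWithinAt (fun y => M y i j) ((K * K - M x * M x - 𝒲 x) i j) (Ici b) x := by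
    by_cases hx : b ≤ x
    · rw [hr x hx, h0 x (fun h => absurd h.2 (not_lt.2 hx)), neg_mul_neg, sub_self, sub_zero]
      exact (hasDerivWithinAt_const x _ ((-K) i j)).congr (fun y hy => by rw [hr y hy])
        (by rw [hr x hx])
    · exact hasDerivWithinAt_iff_hasFDerivWithinAt.2
        (HasFDerivWithinAt.of_notMem_closure (by rwa [closure_Ici]))
  have h4 := (h1.union h2).union h3
  rwa [Iic_union_Icc_eq_Iic hab.le, Iic_union_Ici, hasDerivWithinAt_univ] at h4

/-- the frame before diagonalisation -/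
theorem ext0 (hO : OdeStmt) (hV : ViStmt) {r k₁ : ℝ} {κ : Fin n → ℝ} {g : ℝ → Mx n n}
    {a b η : ℝ} (hr : 1 ≤ r) (hn : 0 < n) (hκ : ∀ j, 0 < κ j) (hk : ∀ j, κ j ≤ k₁)
    (hg : Continuous g) (hgp : ∀ x, (g x).PosSemidef) (hab : a < b)
    (hg0 : ∀ x, x ∉ Ioo a b → g x = 0)
    (h1 : ∀ i j, ∫ x in a..b, g x i j = (1 : Mx n n) i j) (hη : 0 < η) :
    ∃ (T F : Mx n n) (M : ℝ → Mx n n), T.IsHermitian ∧ F.IsHermitian ∧
      (∀ v, vs (F *ᵥ v) ≤ vs v) ∧
      rtr (Kt κ k₁ F * Kt κ k₁ F * (T * T)) ≤ rtr (dg κ * dg κ * (T * T)) + η ∧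
      (∀ x, (Kt κ k₁ F + M x).PosSemidef ∧ (Kt κ k₁ F - M x).PosSemidef) ∧
      (∀ x, x ≤ a → M x = Kt κ k₁ F) ∧ (∀ x, b ≤ x → M x = -Kt κ k₁ F) ∧
      ∀ x, Der M (Kt κ k₁ F * Kt κ k₁ F - M x * M x - mpow (T * g x * T) r) x := by
  have hk0 : 0 < k₁ := (hκ ⟨0, hn⟩).trans_le (hk _)
  have hba : 0 < b - a := by linarith
  set B : ℝ := 2 * (n * k₁) + (b - a) * (k₁ * (n * k₁) + n) with hB
  have hB0 : 0 ≤ B := by positivity
  set R : ℝ := n * B + 1 with hR
  have hR0 : 0 < R := by positivity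
  set ε : ℝ := min 1 (η / (k₁ ^ 2 * (2 * R + n))) with hε
  have hε0 : 0 < ε := lt_min one_pos (by positivity)
  have hεη : k₁ ^ 2 * (2 * ε * R + n * ε ^ 2) ≤ η := by
    have e1 : ε ≤ 1 := min_le_left _ _
    have e2 : ε ≤ η / (k₁ ^ 2 * (2 * R + n)) := min_le_right _ _
    rw [le_div_iff₀ (by positivity)] at e2
    have e3 : (n : ℝ) * ε ^ 2 ≤ n * ε := mul_le_mul_of_nonneg_left (by nlinarith) (by positivity)
    calc _ ≤ k₁ ^ 2 * (2 * ε * R + n * ε) := by gcongr
      _ = ε * (k₁ ^ 2 * (2 * R + n)) := by ring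
      _ ≤ η := e2
  let Z : Type := {T : Mx n n // T.PosSemidef ∧ rtr T ≤ R}
  let Fz : Z → Mx n n := fun z => cfc (fe ε) z.1
  have hFc : Continuous Fz := (continuousOn_cfc_herm (continuous_fe hε0)).comp_continuous
    continuous_subtype_val fun z => z.2.1.1
  have hFh : ∀ z, (Fz z).IsHermitian := fun z => cfc_herm _ _
  have hF1 : ∀ z v, vs (Fz z *ᵥ v) ≤ vs v := fun z v => vs_fe_le hε0 z.2.1.1 v
  let K : Z → Mx n n := fun z => Kt κ k₁ (Fz z)
  have hKc : Continuous K :=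
    continuous_const.sub ((hFc.matrix_mul continuous_const).matrix_mul hFc)
  have hKp : ∀ z, (K z).PosSemidef := fun z => (pd_Kt (hFh z) (hF1 z) hn hκ hk).posSemidef
  have hKb : ∀ z, Bd (K z) k₁ := fun z => bd_Kt (hFh z) hk
  have hGp : ∀ (z : Z) x, (z.1 * g x * z.1).PosSemidef := fun z x => by
    have := (hgp x).conjTranspose_mul_mul_same z.1
    rwa [z.2.1.1.eq] at this
  let 𝒲 : Z → ℝ → Mx n n := fun z x => mpow (z.1 * g x * z.1) r
  have hv : Continuous fun p : Z × ℝ => p.1.1 := continuous_subtype_val.comp continuous_fst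
  have hWc : Continuous fun p : Z × ℝ => 𝒲 p.1 p.2 :=
    continuous_mpow (G := fun p : Z × ℝ => p.1.1 * g p.2 * p.1.1)
      ((hv.matrix_mul (hg.comp continuous_snd)).matrix_mul hv) (fun p => (hGp p.1 p.2).1)
      (by linarith)
  obtain ⟨N, hNa, hNc, hNh, hNk, hNr⟩ := hO n Z a b k₁ K 𝒲 hab hKc hWc
    (fun z => ⟨hKp z, hKb z⟩) fun z x => mpow_psd (hGp z x) r
  classical
  let Δ : Mx n n → Mx n n := fun T =>
    if h : T.PosSemidef ∧ rtr T ≤ R then K ⟨T, h⟩ + N ⟨T, h⟩ b else 0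
  have hΔc : ContinuousOn Δ {T | T.PosSemidef ∧ rtr T ≤ R} := by
    rw [continuousOn_iff_continuous_domRestrict]
    refine (hKc.add hNc).congr fun z => ?_
    have hz : z.1.PosSemidef ∧ rtr z.1 ≤ R := z.2
    simp only [Set.domRestrict_apply, Δ, dif_pos hz]
    rfl
  obtain ⟨T, hT, hvi⟩ := hV n R Δ hR0.le hΔc
  set z : Z := ⟨T, hT⟩ with hz
  have hΔ : Δ T = K z + N z b := dif_pos hT
  rw [hΔ] at hvi
  have hpsd : (K z + N z b).PosSemidef := by
    refine vi_psd hT.1 ((hKp z).1.add (hNh z)) (c := 2 * k₁) (by linarith) (fun v hv => ?_)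
      fun T' h1 h2 => hvi T' h1 (h2.trans hT.2)
    have e1 : Fz z *ᵥ v = 0 := by
      have := cfc_mulVec_eigen (fe ε) hT.1.1 (v := v) (t := 0) (by simpa using hv)
      simpa [fe_zero] using this
    have e2 : K z *ᵥ v = (k₁ : ℂ) • v := by
      simp only [K, Kt, sub_mulVec, smul_mulVec, one_mulVec, ← mulVec_mulVec, e1, mulVec_zero,
        sub_zero]
    have e3 : ∀ x, 𝒲 z x *ᵥ v = 0 := fun x => by
      have := cfc_mulVec_eigen (fun t : ℝ => t ^ r) (hGp z x).1 (v := v) (t := 0) (by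
        simp only [← mulVec_mulVec]
        rw [show z.1 *ᵥ v = 0 from hv]
        simp)
      rw [Real.zero_rpow (by linarith), Complex.ofReal_zero, zero_smul] at this
      exact this
    rw [add_mulVec, e2, hNk z v _ e2 e3, ← add_smul]
    congr 1
    push_cast
    ring
  have hric := hNr z hpsd
  have htr := trace_bound hr hab hg hgp h1 hT.1.1 (hKp z) (hKb z) (hNa z) hric
  have hlt : rtr T < R := by
    have e1 := rtr_sq_le (1 : Mx n n) T
    rw [conjTranspose_one, Matrix.one_mul, hs_eq_rtr, hs_eq_rtr, conjTranspose_one,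
      Matrix.one_mul, rtr_one, hT.1.1.eq] at e1
    have e2 : (n : ℝ) * rtr (T * T) ≤ n * B := mul_le_mul_of_nonneg_left htr (by positivity)
    have e3 : 0 ≤ (n : ℝ) * B := by positivity
    by_contra hneg
    push Not at hneg
    nlinarith
  have hzero := vi_zero hT.1 hpsd hlt hvi
  have hNb : N z b = -K z := by rw [eq_neg_iff_add_eq_zero, add_comm, hzero]
  obtain ⟨M, hM1, hM2, hM3, hM4⟩ := extend hab (𝒲 := 𝒲 z) (fun x hx => by
    simp only [𝒲, hg0 x hx, Matrix.mul_zero, Matrix.zero_mul]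
    exact mpow_zero (by linarith)) (hNa z) hNb fun x hx => (hric x hx).2.2
  refine ⟨T, Fz z, M, hT.1.1, hFh z, hF1 z, ?_, fun x => ?_, hM2, hM3, hM4⟩
  · exact (loss κ k₁ hε0 hT.1 hT.2).trans (by linarith)
  · obtain ⟨y, hy, e⟩ := hM1 x
    rw [e]
    exact ⟨(hric y hy).1, (hric y hy).2.1⟩

theorem exists_top {κ κ' : Fin n → ℝ} {F U : Mx n n} (hU : Uᴴ * U = 1) (j₀ : Fin n)
    (h : Kt κ (κ j₀) F = U * dg κ' * Uᴴ) : ∃ j, κ' j = κ j₀ := by
  have hU' : U * Uᴴ = 1 := mul_eq_one_comm.1 hU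
  have e1 := smul_one_sub_conj_dg hU κ' (κ j₀)
  rw [← h, Kt, sub_sub_cancel] at e1
  have e2 := congrArg Matrix.det e1
  have e3 : (dg fun j => κ j₀ - κ j).det = 0 := by
    rw [dg, det_diagonal]
    exact Finset.prod_eq_zero (Finset.mem_univ j₀) (by simp)
  have e4 : U.det * Uᴴ.det = 1 := by rw [← det_mul, hU', det_one]
  rw [det_mul, det_mul, e3, det_mul, det_mul, mul_right_comm U.det, e4, dg, det_diagonal] at e2
  simp only [mul_zero, zero_mul, one_mul] at e2
  obtain ⟨j, -, hj⟩ := Finset.prod_eq_zero_iff.1 e2.symm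
  have : κ j₀ - κ' j = 0 := by exact_mod_cast hj
  exact ⟨j, by linarith⟩

theorem sum_le (hC : CountStmt) {κ κ' : Fin n → ℝ} {k₁ q : ℝ} (hq : 0 < q) {F U : Mx n n}
    (hF : F.IsHermitian) (hF1 : ∀ v, vs (F *ᵥ v) ≤ vs v) (hU : Uᴴ * U = 1)
    (hκ : ∀ j, 0 < κ j ∧ κ j ≤ k₁) (hκ' : ∀ j, 0 < κ' j ∧ κ' j ≤ k₁) (hk : 0 ≤ k₁)
    (h : Kt κ k₁ F = U * dg κ' * Uᴴ) : ∑ j, κ j ^ q ≤ ∑ j, κ' j ^ q := by
  set f : ℝ → ℝ := fun t => k₁ ^ q - (max (min t k₁) 0) ^ q with hf
  have hanti : Antitone f := fun s t hst => by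
    have : (max (min s k₁) 0) ^ q ≤ (max (min t k₁) 0) ^ q :=
      Real.rpow_le_rpow (le_max_right _ _) (max_le_max (min_le_min hst le_rfl) le_rfl) hq.le
    simp only [hf]
    linarith
  have h1 := hC n n 0 (Kt κ k₁ F) (dg κ) 0 F 0 k₁ f (Kt_herm κ k₁ hF) (dg_herm κ) isHermitian_zero
    hanti (fun t ht => by simp only [hf]; rw [min_eq_right ht, max_eq_left hk, sub_self])
    fun t v ht h1 _ => qf_Kt_ge hF hF1 ht h1
  have e : ∀ {μ : Fin n → ℝ}, (∀ j, 0 < μ j ∧ μ j ≤ k₁) →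
      ∑ j, f (μ j) = ∑ _j : Fin n, k₁ ^ q - ∑ j, μ j ^ q := fun {μ} hμ => by
    rw [← Finset.sum_sub_distrib]
    refine Finset.sum_congr rfl fun j _ => ?_
    simp only [hf]
    rw [min_eq_left (hμ j).2, max_eq_left (hμ j).1.le]
  have e0 : rtr (cfc f (0 : Mx 0 0)) = 0 := by simp [rtr]
  rw [h, cfc_conj_dg _ hU, rtr_conj_dg hU, cfc_dg, rtr_dg, e0, e hκ, e hκ'] at h1
  linarith

end Ext

open Ext in
theorem extStmt_of (hO : OdeStmt) (hV : ViStmt) (hC : CountStmt) : ExtStmt := by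
  intro r q n κ g a b η hr hq hn hκ hg hgp hab hg0 h1 hη
  have : Nonempty (Fin n) := ⟨⟨0, hn⟩⟩
  obtain ⟨j₀, hj₀⟩ := Finite.exists_max κ
  obtain ⟨T, F, M, hT, hF, hF1, hloss, hbtw, hl, hrt, hder⟩ :=
    ext0 hO hV hr hn hκ hj₀ hg hgp hab hg0 h1 hη
  obtain ⟨U, κ', hU, hU', hK⟩ := exists_diag (Kt_herm κ (κ j₀) hF)
  have hκ'0 : ∀ j, 0 < κ' j := (pd_conj_dg_iff hU κ').1 (hK ▸ pd_Kt hF hF1 hn hκ hj₀)
  have hκ'1 : ∀ j, κ' j ≤ κ j₀ := (bd_conj_dg_iff hU κ' _).1 (hK ▸ bd_Kt hF hj₀)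
  have hKd : dg κ' = Uᴴ * Kt κ (κ j₀) F * U := by rw [hK, conj_conj hU]
  set K := Kt κ (κ j₀) F with hKdef
  have hmul : ∀ A B : Mx n n, Uᴴ * A * U * (Uᴴ * B * U) = Uᴴ * (A * B) * U := fun A B => by
    calc Uᴴ * A * U * (Uᴴ * B * U) = Uᴴ * A * (U * Uᴴ) * B * U := by simp only [Matrix.mul_assoc]
      _ = _ := by rw [hU']; simp only [Matrix.mul_assoc, Matrix.mul_one]
  have hGp : ∀ x, (T * g x * T).PosSemidef := fun x => by
    have := (hgp x).conjTranspose_mul_mul_same T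
    rwa [hT.eq] at this
  have hW : ∀ x, mpow ((T * U)ᴴ * g x * (T * U)) r = Uᴴ * mpow (T * g x * T) r * U := fun x => by
    have := cfc_conj (fun t : ℝ => t ^ r) (U := Uᴴ) (by rw [conjTranspose_conjTranspose, hU'])
      (hGp x).1
    rw [conjTranspose_conjTranspose] at this
    rw [mpow, mpow, ← this, conjTranspose_mul, hT.eq]
    simp only [Matrix.mul_assoc]
  refine ⟨T * U, κ', fun x => Uᴴ * M x * U, hκ'0, fun i => ?_,
    sum_le hC hq hF hF1 hU (fun j => ⟨hκ j, hj₀ j⟩) (fun j => ⟨hκ'0 j, hκ'1 j⟩) (hκ j₀).le hK,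
    ?_, hab, ?_, fun x => ?_, fun x => ?_, fun x => ?_, fun x hx => ?_, fun x hx => ?_⟩
  · obtain ⟨j, hj⟩ := exists_top hU j₀ hK
    exact ⟨j, hj ▸ hj₀ i⟩
  · have e1 : (T * U)ᴴ * (T * U) = Uᴴ * (T * T) * U := by
      rw [conjTranspose_mul, hT.eq]; simp only [Matrix.mul_assoc]
    have e2 : T * U * (T * U)ᴴ = T * T := by
      rw [conjTranspose_mul, hT.eq, Matrix.mul_assoc, ← Matrix.mul_assoc U, hU', Matrix.one_mul]
    have e3 := rtr_conj (U := Uᴴ) (by rw [conjTranspose_conjTranspose, hU']) (K * K * (T * T))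
    rw [conjTranspose_conjTranspose] at e3
    rw [e1, e2, hKd, hmul, hmul, e3]
    exact hloss
  · exact continuous_mpow ((continuous_const.matrix_mul hg).matrix_mul continuous_const)
      (fun x => ((hgp x).conjTranspose_mul_mul_same _).1) (by linarith)
  · exact mpow_psd ((hgp x).conjTranspose_mul_mul_same _) r
  · constructor
    · have := (hbtw x).1.conjTranspose_mul_mul_same U
      rwa [Matrix.mul_add, Matrix.add_mul, ← hKd] at this
    · have := (hbtw x).2.conjTranspose_mul_mul_same U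
      rwa [Matrix.mul_sub, Matrix.sub_mul, ← hKd] at this
  · have := ((Der.const Uᴴ x).mul (hder x)).mul (Der.const U x)
    simp only [Matrix.zero_mul, Matrix.mul_zero, zero_add, add_zero] at this
    rw [hW, Am, hKd, hmul, hmul, ← Matrix.sub_mul, ← Matrix.sub_mul, ← Matrix.mul_sub,
      ← Matrix.mul_sub]
    exact this
  · simp only [hl x hx, hKd]
  · simp only [hrt x hx, hKd, Matrix.mul_neg, Matrix.neg_mul]

end Crest.Agent.R332
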