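import Crest.Agent.R332.Basic

/-!
# Row 332: trial families as matrix functions, algebra of frames
-/

set_option autoImplicit false

open MeasureTheory Matrix Set
open scoped ComplexOrder ContDiff
open Crest.MathPhysics.LiebThirring

noncomputable section

namespace Crest.Agent.R332

namespace Fam

variable {m n k : ℕ}

/-- entrywise integral -/
def mint (H : ℝ → Mx m n) : Mx m n := of fun i j => ∫ x, H x i j

/-- entrywise integrable -/
def IntE (H : ℝ → Mx m n) : Prop := ∀ i j, Integrable fun x => H x i j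

theorem IntE.mul_const {H : ℝ → Mx m n} (h : IntE H) (B : Mx n k) : IntE fun x => H x * B := by
  intro i j
  simp only [Matrix.mul_apply]
  exact integrable_finsetSum _ fun l _ => (h i l).mul_const _

theorem IntE.const_mul {H : ℝ → Mx m n} (h : IntE H) (A : Mx k m) : IntE fun x => A * H x := by
  intro i j
  simp only [Matrix.mul_apply]
  exact integrable_finsetSum _ fun l _ => (h l j).const_mul _

theorem IntE.sub {H H' : ℝ → Mx m n} (h : IntE H) (h' : IntE H') : IntE fun x => H x - H' x :=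
  fun i j => (h i j).sub (h' i j)

theorem mint_mul_const {H : ℝ → Mx m n} (h : IntE H) (B : Mx n k) :
    mint (fun x => H x * B) = mint H * B := by
  ext i j
  simp only [mint, of_apply, Matrix.mul_apply]
  rw [integral_finsetSum _ fun l _ => (h i l).mul_const _]
  exact Finset.sum_congr rfl fun l _ => integral_mul_const _ _

theorem mint_const_mul {H : ℝ → Mx m n} (h : IntE H) (A : Mx k m) :
    mint (fun x => A * H x) = A * mint H := by
  ext i j
  simp only [mint, of_apply, Matrix.mul_apply]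
  rw [integral_finsetSum _ fun l _ => (h l j).const_mul _]
  exact Finset.sum_congr rfl fun l _ => integral_const_mul _ _

theorem mint_conj {H : ℝ → Mx n n} (h : IntE H) (J : Mx n k) :
    mint (fun x => Jᴴ * H x * J) = Jᴴ * mint H * J := by
  rw [mint_mul_const (h.const_mul _), mint_const_mul h]

theorem mint_herm {H : ℝ → Mx n n} (h : ∀ x, (H x).IsHermitian) : (mint H).IsHermitian := by
  ext i j
  simp only [mint, conjTranspose_apply, of_apply]
  rw [Complex.star_def, ← integral_conj]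
  congr 1
  ext x
  exact (h x).apply i j

theorem supp_entry {G : ℝ → Mx m n} (h : HasCompactSupport G) (i : Fin m) (j : Fin n) :
    HasCompactSupport fun x => G x i j :=
  h.comp_left (g := fun M : Mx m n => M i j) rfl

theorem cont_entry {G : ℝ → Mx m n} (h : Continuous G) (i : Fin m) (j : Fin n) :
    Continuous fun x => G x i j := h.matrix_elem i j

theorem intE_gram {Φ : ℝ → Mx m n} (h : Sm Φ) : IntE fun x => (Φ x)ᴴ * Φ x := fun i j =>
  (cont_entry (h.continuous.matrix_conjTranspose.matrix_mul h.continuous) i j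
    ).integrable_of_hasCompactSupport
    (supp_entry (h.supp.comp_left (g := fun M : Mx m n => Mᴴ * M) (by simp)) i j)

theorem sm_mul {Φ : ℝ → Mx m n} (h : Sm Φ) (J : Mx n k) : Sm fun x => Φ x * J := by
  refine ⟨fun i j => ?_, h.supp.comp_left (g := fun M : Mx m n => M * J) (by simp)⟩
  simp only [Matrix.mul_apply]
  exact ContDiff.sum fun l _ => (h.smooth i l).mul contDiff_const

theorem sm_mul' {Φ : ℝ → Mx m n} (h : Sm Φ) (P : Mx k m) : Sm fun x => P * Φ x := by
  refine ⟨fun i j => ?_, h.supp.comp_left (g := fun M : Mx m n => P * M) (by simp)⟩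
  simp only [Matrix.mul_apply]
  exact ContDiff.sum fun l _ => contDiff_const.mul (h.smooth l j)

theorem dM_mul {Φ : ℝ → Mx m n} (h : Sm Φ) (J : Mx n k) (x : ℝ) :
    dM (fun x => Φ x * J) x = dM Φ x * J := by
  have := ((sm_mul h J).der x).unique ((h.der x).mul (Der.const J x))
  simpa using this

theorem dM_mul' {Φ : ℝ → Mx m n} (h : Sm Φ) (P : Mx k m) (x : ℝ) :
    dM (fun x => P * Φ x) x = P * dM Φ x := by
  have := ((sm_mul' h P).der x).unique ((Der.const P x).mul (h.der x))
  simpa using this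

theorem gram_mul {Φ : ℝ → Mx m n} (h : Sm Φ) (J : Mx n k) :
    gram (fun x => Φ x * J) = Jᴴ * gram Φ * J := by
  refine Eq.trans ?_ (mint_conj (intE_gram h) J)
  change mint _ = _
  congr 1
  ext1 x
  simp only [conjTranspose_mul, Matrix.mul_assoc]

theorem norm_entry_le {A : Mx n n} (hA : A.PosSemidef) {s : ℝ} (hs : 1 ≤ s) (i j : Fin n) :
    ‖A i j‖ ≤ 1 + tracePow A s := by
  have hT := tracePow_nonneg hA s
  have h1 := vs_mulVec_le_of_psd hA (bd_tracePow hA (by linarith : 0 < s)) (Pi.single j 1)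
  have h2 : vs (Pi.single j 1 : Fin n → ℂ) = 1 := by
    simp [vs, Pi.single_apply, apply_ite]
  have h3 : ‖A i j‖ ^ 2 ≤ vs (A *ᵥ Pi.single j 1) := by
    have := Finset.single_le_sum (f := fun i => ‖(A *ᵥ Pi.single j 1) i‖ ^ 2)
      (fun _ _ => by positivity) (Finset.mem_univ i)
    simpa [vs] using this
  rw [h2, mul_one] at h1
  have h4 : ‖A i j‖ ≤ tracePow A s ^ s⁻¹ :=
    (pow_le_pow_iff_left₀ (norm_nonneg _) (by positivity) two_ne_zero).1 (h3.trans h1)
  refine h4.trans ?_
  by_cases h : tracePow A s ≤ 1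
  · exact (Real.rpow_le_one hT h (by positivity)).trans (by linarith)
  · have := Real.rpow_le_rpow_of_exponent_le (le_of_not_ge h) (inv_le_one_of_one_le₀ hs)
    rw [Real.rpow_one] at this
    linarith

theorem intE_pot {β : ℝ} {W : ℝ → Mx m m} {Φ : ℝ → Mx m n} (hβ : 0 < β) (hW : Pot β W)
    (h : Sm Φ) : IntE fun x => (Φ x)ᴴ * W x * Φ x := by
  intro k l
  simp only [Matrix.mul_apply, Finset.sum_mul]
  refine integrable_finsetSum _ fun j _ => integrable_finsetSum _ fun i _ => ?_
  let c : ℝ → ℂ := fun x => (Φ x)ᴴ k i * Φ x j l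
  have hc : Continuous c :=
    (cont_entry h.continuous.matrix_conjTranspose k i).mul (cont_entry h.continuous j l)
  have hs : HasCompactSupport c := (supp_entry h.supp j l).mul_left
  obtain ⟨C, hC⟩ := hs.exists_bound_of_continuous hc
  have e : (fun x => (Φ x)ᴴ k i * W x i j * Φ x j l) = fun x => c x * W x i j := by
    ext x; simp only [c]; ring
  rw [e]
  refine Integrable.mono' ((hc.integrable_of_hasCompactSupport hs).norm.add (hW.int.const_mul C))
    (hc.measurable.mul (hW.meas i j)).aestronglyMeasurable (Filter.Eventually.of_forall fun x => ?_)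
  have h1 := norm_entry_le (hW.psd x) (s := 1 + β) (by linarith) i j
  have h2 := tracePow_nonneg (hW.psd x) (1 + β)
  have h3 := hC x
  have h4 := norm_nonneg (c x)
  rw [norm_mul, Pi.add_apply]
  nlinarith

/-- selection matrix -/
def sel (e : Fin n → Fin k) : Mx k n := of fun a l => if a = e l then 1 else 0

theorem mul_sel (A : Mx m k) (e : Fin n → Fin k) (i : Fin m) (l : Fin n) :
    (A * sel e) i l = A i (e l) := by
  simp [sel, Matrix.mul_apply]

theorem sel_mul (A : Mx k m) (e : Fin n → Fin k) (l : Fin n) (j : Fin m) :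
    ((sel e)ᴴ * A) l j = A (e l) j := by
  simp [sel, Matrix.mul_apply, apply_ite]

theorem sel_dg {e : Fin n → Fin k} (he : Function.Injective e) (d : Fin k → ℝ) :
    (sel e)ᴴ * dg d * sel e = dg fun l => d (e l) := by
  ext a b
  rw [mul_sel, sel_mul]
  by_cases h : a = b
  · subst h; simp [dg]
  · simp [dg, h, he.ne h]

theorem dg_one : dg (fun _ : Fin n => 1) = 1 := by rw [dg_const]; simp

theorem sel_sel {e : Fin n → Fin k} (he : Function.Injective e) : (sel e)ᴴ * sel e = 1 := by
  have := sel_dg he fun _ => 1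
  rwa [dg_one, dg_one, Matrix.mul_one] at this

theorem mul_sel_sel {e : Fin n → Fin k} (he : Function.Injective e) (A : Mx m k)
    (hA : ∀ j, (¬ ∃ l, e l = j) → ∀ i, A i j = 0) : A * sel e * (sel e)ᴴ = A := by
  ext i j
  rw [Matrix.mul_apply]
  simp only [mul_sel]
  simp only [conjTranspose_apply, sel, of_apply]
  by_cases h : ∃ l, e l = j
  · obtain ⟨l, rfl⟩ := h
    rw [Finset.sum_eq_single l]
    · simp
    · intro b _ hb
      simp [he.ne hb.symm]
    · simp
  · rw [hA j h i]
    refine Finset.sum_eq_zero fun l _ => ?_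
    rw [if_neg (fun e' => h ⟨l, e'.symm⟩)]
    simp

theorem exists_enum (P : Fin k → Prop) : ∃ (n : ℕ) (e : Fin n → Fin k),
    Function.Injective e ∧ ∀ j, P j ↔ ∃ l, e l = j := by
  classical
  let S := Finset.univ.filter P
  refine ⟨S.card, S.orderEmbOfFin rfl, (S.orderEmbOfFin rfl).injective, fun j => ?_⟩
  have := Set.ext_iff.1 (S.range_orderEmbOfFin rfl) j
  simp only [Set.mem_range, Finset.mem_coe, S, Finset.mem_filter, Finset.mem_univ,
    true_and] at this
  exact this.symm

theorem col_zero {G : ℝ → Mx m k} (h : Sm G) (j : Fin k) (hj : (gram G j j).re ≤ 0) (x : ℝ)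
    (i : Fin m) : G x i j = 0 := by
  let v : ℝ → ℝ := fun x => vs fun i => G x i j
  have hv : Continuous v := continuous_vs.comp (continuous_pi fun i => cont_entry h.continuous i j)
  have hs : HasCompactSupport v :=
    h.supp.comp_left (g := fun M : Mx m k => vs fun i => M i j) (by simp [vs])
  have e : gram G j j = ((∫ x, v x : ℝ) : ℂ) := by
    rw [← integral_complex_ofReal]
    simp only [gram, of_apply]
    congr 1
    ext x
    simp only [v]
    rw [← vs_eq_dot]
    rfl
  rw [e, Complex.ofReal_re] at hj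
  have h0 : ∫ x, v x = 0 := le_antisymm hj (integral_nonneg fun x => vs_nonneg _)
  rw [integral_eq_zero_iff_of_nonneg (fun x => vs_nonneg _)
    (hv.integrable_of_hasCompactSupport hs), hv.ae_eq_iff_eq _ continuous_zero] at h0
  exact congrFun (vs_eq_zero.1 (congrFun h0 x)) i

theorem orth (F : ℝ → Mx m k) (hF : Sm F) : ∃ (n : ℕ) (C : Mx k n) (J : Mx n k),
    gram (fun x => F x * C) = 1 ∧ ∀ x, F x = F x * C * J := by
  have hG : (gram F).IsHermitian := mint_herm fun x => isHermitian_conjTranspose_mul_self (F x)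
  obtain ⟨U, d, hU, hU', hd⟩ := exists_diag hG
  obtain ⟨n, e, he, hP⟩ := exists_enum fun j => 0 < d j
  have hpos : ∀ l, 0 < d (e l) := fun l => (hP _).2 ⟨l, rfl⟩
  have h1 : gram (fun x => F x * U) = dg d := by rw [gram_mul hF, hd, conj_conj hU]
  refine ⟨n, U * sel e * dg fun l => (√(d (e l)))⁻¹, dg (fun l => √(d (e l))) * (sel e)ᴴ * Uᴴ,
    ?_, fun x => ?_⟩
  · simp only [← Matrix.mul_assoc]
    rw [gram_mul (sm_mul (sm_mul hF U) _), gram_mul (sm_mul hF U), h1, sel_dg he,
      (dg_herm _).eq, dg_mul_dg, dg_mul_dg, ← dg_one]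
    congr 1
    ext l
    have h2 := Real.sqrt_pos.2 (hpos l)
    have h3 := Real.mul_self_sqrt (hpos l).le
    field_simp
    linarith
  · have h2 : dg (fun l => (√(d (e l)))⁻¹) * dg (fun l => √(d (e l))) = 1 := by
      rw [dg_mul_dg, ← dg_one]
      congr 1
      ext l
      exact inv_mul_cancel₀ (Real.sqrt_pos.2 (hpos l)).ne'
    have h3 : F x * U * sel e * (sel e)ᴴ = F x * U := mul_sel_sel he _ fun j hj i => by
      refine col_zero (sm_mul hF U) j ?_ x i
      rw [h1]
      simpa [dg] using not_lt.1 (mt (hP j).1 hj)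
    calc F x = F x * U * Uᴴ := by rw [Matrix.mul_assoc, hU', Matrix.mul_one]
      _ = F x * U * sel e * (dg (fun l => (√(d (e l)))⁻¹) * dg (fun l => √(d (e l)))) *
          (sel e)ᴴ * Uᴴ := by rw [h2, Matrix.mul_one, h3]
      _ = _ := by simp only [Matrix.mul_assoc]

theorem negPart (E : Mx n n) (hE : E.IsHermitian) : ∃ (k : ℕ) (J : Mx n k) (κ : Fin k → ℝ),
    (∀ j, 0 < κ j) ∧ Jᴴ * J = 1 ∧ Jᴴ * E * J = -(dg κ * dg κ) ∧
    ∀ f : ℝ → ℝ, (∀ t, 0 ≤ t → f t = 0) → rtr (cfc f E) = ∑ j, f (-(κ j ^ 2)) := by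
  obtain ⟨U, d, hU, hU', hd, hf⟩ := exists_spec hE
  obtain ⟨k, e, he, hP⟩ := exists_enum fun j => d j < 0
  have hneg : ∀ l, 0 < -d (e l) := fun l => neg_pos.2 ((hP _).2 ⟨l, rfl⟩)
  refine ⟨k, U * sel e, fun l => √(-d (e l)), fun l => Real.sqrt_pos.2 (hneg l), ?_, ?_,
    fun f h0 => ?_⟩
  · rw [conjTranspose_mul, Matrix.mul_assoc, ← Matrix.mul_assoc Uᴴ, hU, Matrix.one_mul, sel_sel he]
  · calc (U * sel e)ᴴ * E * (U * sel e) = (sel e)ᴴ * (Uᴴ * E * U) * sel e := by
          simp only [conjTranspose_mul, Matrix.mul_assoc]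
      _ = _ := by
          rw [hd, conj_conj hU, sel_dg he, dg_mul_dg, dg_neg]
          congr 1
          ext l
          rw [Real.mul_self_sqrt (hneg l).le, neg_neg]
  · rw [hf, rtr_conj_dg hU]
    refine (Fintype.sum_of_injective e he _ _ (fun j hj => h0 _ ?_) fun l => ?_).symm
    · exact not_lt.1 (mt (hP j).1 hj)
    · rw [Real.sq_sqrt (hneg l).le, neg_neg]

theorem inner_eq (u v : Vec m) : inner ℂ u v = ∑ i, star (u i) * v i := by
  rw [PiLp.inner_apply]
  exact Finset.sum_congr rfl fun i _ => by simp [mul_comm]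

theorem deriv_coord {φ : ℝ → Vec m} (h : ContDiff ℝ ∞ φ) (x : ℝ) (i : Fin m) :
    deriv (fun y => φ y i) x = deriv φ x i :=
  ((PiLp.proj (𝕜 := ℝ) 2 (fun _ : Fin m => ℂ) i).hasFDerivAt.comp_hasDerivAt x
    (h.differentiable (by simp) x).hasDerivAt).deriv

theorem link (W : ℝ → Mx m m) {φ : Fin n → ℝ → Vec m} {Φ : ℝ → Mx m n}
    (hφ : ∀ k, ContDiff ℝ ∞ (φ k)) (h : ∀ x i k, Φ x i k = φ k x i) :
    (∀ k l, gram Φ k l = ∫ x, inner ℂ (φ k x) (φ l x)) ∧ ener W Φ = energyMatrix W φ := by
  refine ⟨fun k l => ?_, ?_⟩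
  · simp only [gram, of_apply, inner_eq, Matrix.mul_apply, conjTranspose_apply, h]
  · ext k l
    simp only [ener, energyMatrix, of_apply]
    congr 1
    ext x
    rw [Matrix.sub_apply, Matrix.mul_assoc]
    simp only [inner_eq, Matrix.mul_apply, conjTranspose_apply, h, dM, of_apply,
      deriv_coord (hφ _)]
    rfl

end Fam

open Fam in
theorem bridgeStmt : BridgeStmt := by
  intro m n W
  refine ⟨fun φ ⟨h1, h2, h3⟩ => ?_, fun Φ hΦ hg => ?_⟩
  · let Φ : ℝ → Mx m n := fun x => of fun i k => φ k x i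
    obtain ⟨a, b⟩ := link W (Φ := Φ) h1 (fun _ _ _ => rfl)
    refine ⟨Φ, ⟨fun i k => (contDiff_piLp 2).1 (h1 k) i, ?_⟩, ?_, b⟩
    · refine HasCompactSupport.intro (isCompact_iUnion fun k => (h2 k).isCompact) fun x hx => ?_
      ext i k
      have : φ k x = 0 := image_eq_zero_of_notMem_tsupport fun h => hx (mem_iUnion.2 ⟨k, h⟩)
      simp [Φ, this]
    · ext k l
      rw [a, h3, one_apply]
  · let φ : Fin n → ℝ → Vec m := fun k x => WithLp.toLp 2 fun i => Φ x i k
    have h1 : ∀ k, ContDiff ℝ ∞ (φ k) := fun k => (contDiff_piLp 2).2 fun i => hΦ.smooth i k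
    obtain ⟨a, b⟩ := link W (Φ := Φ) h1 (fun _ _ _ => rfl)
    refine ⟨φ, ⟨h1, fun k => ?_, fun k l => ?_⟩, b.symm⟩
    · exact hΦ.supp.comp_left (g := fun M : Mx m n => (WithLp.toLp 2 fun i => M i k : Vec m)) rfl
    · rw [← a, hg, one_apply]

open Fam in
theorem famStmt : FamStmt := by
  refine ⟨fun m n k Φ J h => ⟨sm_mul h J, dM_mul h J, gram_mul h J⟩,
    fun m n k Φ P h => ⟨sm_mul' h P, dM_mul' h P⟩, fun β m n W Φ hβ hW h => ⟨intE_pot hβ hW h,
      mint_herm fun x => (isHermitian_conjTranspose_mul_self _).sub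
        (isHermitian_conjTranspose_mul_mul _ (hW.psd x).1), fun k J => ?_⟩,
    fun m k F hF => orth F hF, fun n E hE => negPart E hE⟩
  refine Eq.trans ?_ (mint_conj ((intE_gram h.dM).sub (intE_pot hβ hW h)) J)
  change mint _ = _
  congr 1
  ext1 x
  simp only [dM_mul h J, conjTranspose_mul, Matrix.mul_assoc, Matrix.mul_sub, Matrix.sub_mul]

end Crest.Agent.R332
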