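import Crest.Agent.R332.Peel

/-! # Row 332: optimisers are sums of solitons -/

set_option autoImplicit false

open MeasureTheory Matrix Set
open scoped ComplexOrder ContDiff
open Crest.MathPhysics.LiebThirring

noncomputable section

namespace Crest.Agent.R332

variable {m n k : ℕ}

namespace Fwd

open Peel

theorem exists_orth (hk : k < m) (v : Fin k → Fin m → ℂ) :
    ∃ w : Fin m → ℂ, vs w = 1 ∧ ∀ i, star (v i) ⬝ᵥ w = 0 := by
  let A : Mx k m := of fun i j => star (v i j)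
  have h1 : LinearMap.ker A.mulVecLin ≠ ⊥ :=
    LinearMap.ker_ne_bot_of_finrank_lt (by simpa using hk)
  obtain ⟨w, hw, hw0⟩ := Submodule.exists_mem_ne_zero_of_ne_bot h1
  have hpos : 0 < vs w := lt_of_le_of_ne (vs_nonneg w) fun h => hw0 (vs_eq_zero.1 h.symm)
  refine ⟨(((√(vs w))⁻¹ : ℝ) : ℂ) • w, ?_, fun i => ?_⟩
  · rw [vs_smul, Complex.norm_real, Real.norm_eq_abs, sq_abs, inv_pow, Real.sq_sqrt hpos.le,
      inv_mul_cancel₀ hpos.ne']
  · have h2 : star (v i) ⬝ᵥ w = 0 := congrFun (LinearMap.mem_ker.1 hw) i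
    rw [dotProduct_smul, h2, smul_zero]

theorem dot_symm {v w : Fin m → ℂ} (h : star v ⬝ᵥ w = 0) : star w ⬝ᵥ v = 0 := by
  rw [star_dotProduct, h, star_zero]

/-- the state after peeling `k` channels -/
def State (β : ℝ) (W : ℝ → Mx m m) (k : ℕ) : Prop :=
  ∃ (v : Fin k → Fin m → ℂ) (a c : Fin k → ℝ) (W' : ℝ → Mx m m),
    (∀ i j, star (v i) ⬝ᵥ v j = if i = j then 1 else 0) ∧ (∀ i, 0 ≤ a i) ∧ Pot β W' ∧ Opt β W' ∧
    (∀ᵐ x, W x = W' x + ∑ i, (soliton β⁻¹ (a i) (c i) x : ℂ) • vecMulVec (v i) (star (v i))) ∧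
    ∀ᵐ x, ∀ i, W' x *ᵥ v i = 0

theorem orth_cons {v : Fin k → Fin m → ℂ} {w : Fin m → ℂ}
    (hv : ∀ i j, star (v i) ⬝ᵥ v j = if i = j then 1 else 0) (hw : vs w = 1)
    (hvw : ∀ i, star (v i) ⬝ᵥ w = 0) (i j : Fin (k + 1)) :
    star ((Fin.cons w v : Fin (k + 1) → Fin m → ℂ) i) ⬝ᵥ
      (Fin.cons w v : Fin (k + 1) → Fin m → ℂ) j = if i = j then 1 else 0 := by
  refine Fin.cases ?_ (fun i => ?_) i <;> refine Fin.cases ?_ (fun j => ?_) j
  · simp [vs_eq_dot, hw]
  · simp only [Fin.cons_zero, Fin.cons_succ]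
    rw [dot_symm (hvw j), if_neg (Fin.succ_ne_zero j).symm]
  · simp only [Fin.cons_zero, Fin.cons_succ]
    rw [hvw i, if_neg (Fin.succ_ne_zero i)]
  · simp only [Fin.cons_succ, Fin.succ_inj]
    exact hv i j

theorem step (hA : ApproxStmt) (hL : LimStmt) (hP : PeelStmt) {β : ℝ} (hβ : 0 < β) (hβ1 : β < 1)
    {W : ℝ → Mx m m} (hk : k < m) (h : State β W k) : State β W (k + 1) := by
  obtain ⟨v, a, c, W', hv, ha, hPot, hOpt, hW, hW0⟩ := h
  have hnn : ∀ x, 0 ≤ tracePow (W' x) (1 + β) := fun x => tracePow_nonneg (hPot.psd x) _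
  have hσ : 0 ≤ sig β W' := integral_nonneg hnn
  rcases hσ.eq_or_lt with h0 | hpos
  · have h1 : ∀ᵐ x, W' x = 0 := by
      have := (integral_eq_zero_iff_of_nonneg hnn hPot.int).1 h0.symm
      exact this.mono fun x hx => eq_zero_of_tracePow (hPot.psd x) (by linarith) hx
    obtain ⟨w, hw, hvw⟩ := exists_orth hk v
    refine ⟨Fin.cons w v, Fin.cons 0 a, Fin.cons 0 c, W', orth_cons hv hw hvw,
      fun i => Fin.cases le_rfl (fun i => ha i) i, hPot, hOpt, hW.mono fun x hx => ?_,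
      h1.mono fun x hx i => by rw [hx, zero_mulVec]⟩
    rw [hx, Fin.sum_univ_succ]
    simp [soliton]
  · obtain ⟨lam, c₀, w, hlam, hw, hwe⟩ := hL β m W' hβ hβ1 hPot (hA β m W' hβ hβ1 hPot hOpt hpos)
    obtain ⟨W'', hPot', hOpt', hW'⟩ := hP β m W' lam c₀ w hβ hβ1 hPot hOpt hlam hw hwe
    have hvw : ∀ i, star (v i) ⬝ᵥ w = 0 := by
      intro i
      obtain ⟨x, hx1, hx2⟩ := (hwe.and hW0).exists
      have h1 : star (v i) ⬝ᵥ (W' x *ᵥ w) = 0 := by
        rw [dotProduct_mulVec, ← (hPot.psd x).1.eq, ← star_mulVec, hx2 i, star_zero,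
          zero_dotProduct]
      rw [hx1, dotProduct_smul, smul_eq_mul, mul_eq_zero] at h1
      refine h1.resolve_left ?_
      exact_mod_cast (soliton_pos hβ hlam c₀ x).ne'
    refine ⟨Fin.cons w v, Fin.cons lam a, Fin.cons c₀ c, W'', orth_cons hv hw hvw,
      fun i => Fin.cases hlam.le (fun i => ha i) i, hPot', hOpt', ?_, ?_⟩
    · filter_upwards [hW, hW'] with x h1 h2
      rw [h1, h2, Fin.sum_univ_succ, add_assoc]
      simp only [Fin.cons_zero, Fin.cons_succ]
    · filter_upwards [hW0, hW', hwe] with x h1 h2 h3 i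
      have h4 : W'' x = W' x - (soliton β⁻¹ lam c₀ x : ℂ) • vecMulVec w (star w) := by
        rw [h2]; simp
      rw [h4, sub_mulVec, smul_mulVec, proj_mulVec]
      refine Fin.cases ?_ (fun i => ?_) i
      · simp only [Fin.cons_zero]
        rw [h3, vs_eq_dot, hw]
        simp
      · simp only [Fin.cons_succ]
        rw [h1 i, dot_symm (hvw i)]
        simp

end Fwd

open Fwd

theorem fwdStmt_of (hA : ApproxStmt) (hL : LimStmt) (hP : PeelStmt) : FwdStmt := by
  intro β m W hβ hβ1 hW hO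
  have key : ∀ k, k ≤ m → State β W k := by
    intro k
    induction k with
    | zero =>
      intro _
      exact ⟨Fin.elim0, Fin.elim0, Fin.elim0, W, fun i => i.elim0, fun i => i.elim0, hW, hO,
        by simp, by simp⟩
    | succ k ih => exact fun hk => step hA hL hP hβ hβ1 hk (ih (Nat.le_of_succ_le hk))
  obtain ⟨v, a, c, W', hv, ha, -, -, h1, h2⟩ := key m le_rfl
  let U : Mx m m := of fun i j => v j i
  have hU : Uᴴ * U = 1 := by
    ext i j
    rw [one_apply, ← hv i j]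
    simp [U, mul_apply, dotProduct]
  have hU' : U * Uᴴ = 1 := mul_eq_one_comm.1 hU
  refine ⟨⟨U, mem_unitaryGroup_iff'.2 hU⟩, a, c, ha, ?_⟩
  filter_upwards [h1, h2] with x h3 h4
  have h5 : W' x * U = 0 := by
    ext i j
    exact congrFun (h4 j) i
  have h6 : W' x = 0 := by
    rw [← Matrix.mul_one (W' x), ← hU', ← Matrix.mul_assoc, h5, Matrix.zero_mul]
  rw [h3, h6, zero_add]
  ext i j
  simp only [Matrix.sum_apply, Matrix.smul_apply, vecMulVec_apply, mul_apply (M := U * _),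
    mul_diagonal, star_apply, U, of_apply, Pi.star_apply, smul_eq_mul]
  refine Finset.sum_congr rfl fun l _ => ?_
  ring

end Crest.Agent.R332
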