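import Crest.Agent.R332.Defs

/-! # Row 332: from the interface to the two statements -/

set_option autoImplicit false

open MeasureTheory Matrix Set
open scoped ComplexOrder ContDiff
open Crest.MathPhysics.LiebThirring

noncomputable section

namespace Crest.Agent.R332

theorem s0515_of (hB : BridgeStmt) (hL : LTStmt)
    (γ : ℝ) (hγ : 1 / 2 < γ) (hγ' : γ < 3 / 2) (m : ℕ)
    (W : ℝ → Matrix (Fin m) (Fin m) ℂ) (hW : ∀ i j, Measurable fun x => W x i j)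
    (hWp : ∀ x, (W x).PosSemidef)
    (hWi : Integrable fun x => tracePow (W x) (γ + 1 / 2))
    (n : ℕ) (φ : Fin n → ℝ → Vec m) (hφ : IsTrialFamily φ) :
    negMoment (energyMatrix W φ) γ ≤ sharpConst γ * ∫ x, tracePow (W x) (γ + 1 / 2) := by
  obtain ⟨β, rfl⟩ : ∃ β, γ = β + 1 / 2 := ⟨γ - 1 / 2, by ring⟩
  have e : β + 1 / 2 + 1 / 2 = 1 + β := by ring
  rw [e] at hWi ⊢
  obtain ⟨Φ, hΦ, hg, hE⟩ := (hB m n W).1 φ hφ
  rw [← hE]
  exact hL β m n W Φ (by linarith) (by linarith) ⟨hW, hWp, hWi⟩ hΦ hg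

theorem s0516_of (hB : BridgeStmt) (hF : FwdStmt) (hC : ConvStmt)
    (γ : ℝ) (hγ : 1 / 2 < γ) (hγ' : γ < 3 / 2) (m : ℕ)
    (W : ℝ → Matrix (Fin m) (Fin m) ℂ) (hW : ∀ i j, Measurable fun x => W x i j)
    (hWp : ∀ x, (W x).PosSemidef)
    (hWi : Integrable fun x => tracePow (W x) (γ + 1 / 2)) :
    (∀ ε : ℝ, 0 < ε → ∃ (n : ℕ) (φ : Fin n → ℝ → Vec m), IsTrialFamily φ ∧
        sharpConst γ * (∫ x, tracePow (W x) (γ + 1 / 2)) - ε < negMoment (energyMatrix W φ) γ) ↔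
      ∃ (U : Matrix.unitaryGroup (Fin m) ℂ) (a c : Fin m → ℝ), (∀ i, 0 ≤ a i) ∧
        ∀ᵐ x : ℝ, W x = (U : Matrix (Fin m) (Fin m) ℂ) *
          Matrix.diagonal (fun i => ((soliton (γ - 1 / 2)⁻¹ (a i) (c i) x : ℝ) : ℂ)) *
            star (U : Matrix (Fin m) (Fin m) ℂ) := by
  obtain ⟨β, rfl⟩ : ∃ β, γ = β + 1 / 2 := ⟨γ - 1 / 2, by ring⟩
  have e : β + 1 / 2 + 1 / 2 = 1 + β := by ring
  have e' : β + 1 / 2 - 1 / 2 = β := by ring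
  rw [e] at hWi ⊢
  rw [e']
  have hP : Pot β W := ⟨hW, hWp, hWi⟩
  have hβ : 0 < β := by linarith
  have hβ1 : β < 1 := by linarith
  constructor
  · intro h
    refine hF β m W hβ hβ1 hP fun ε hε => ?_
    obtain ⟨n, φ, hφ, hlt⟩ := h ε hε
    obtain ⟨Φ, hΦ, hg, hE⟩ := (hB m n W).1 φ hφ
    exact ⟨n, Φ, hΦ, hg, by rw [hE]; exact hlt⟩
  · intro h ε hε
    obtain ⟨n, Φ, hΦ, hg, hlt⟩ := hC β m W hβ hβ1 hP h ε hε
    obtain ⟨φ, hφ, hE⟩ := (hB m n W).2 Φ hΦ hg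
    exact ⟨n, φ, hφ, by rw [hE]; exact hlt⟩

end Crest.Agent.R332
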