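import Crest.Agent.R332.Basic

/-!
# Row 332: the pointwise Hamilton–Jacobi inequality (`HJBStmt`)
-/

set_option autoImplicit false

open MeasureTheory Matrix Set Filter Topology
open scoped ComplexOrder
open Crest.MathPhysics.LiebThirring

noncomputable section

namespace Crest.Agent.R332

namespace HJB

theorem ftc_le {K H H' : ℝ → ℝ} (hK : ContinuousOn K (Ioi 0))
    (hH : ∀ u, 0 < u → HasDerivAt H (H' u) u) {a b σ : ℝ} (ha : 0 < a) (hab : a ≤ b)
    (hle : ∀ u ∈ Icc a b, H' u + σ ≤ K u) : H b - H a + σ * (b - a) ≤ ∫ u in a..b, K u := by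
  have hsub : Icc a b ⊆ Ioi 0 := fun u hu => ha.trans_le hu.1
  have h1 := intervalIntegral.sub_le_integral_of_hasDeriv_right_of_le
    (g := fun u => H u + σ * u) (g' := fun u => H' u + σ) (φ := K) hab
    (fun u hu => ((hH u (hsub hu)).continuousAt.add (by fun_prop)).continuousWithinAt)
    (fun u hu => by
      have h2 := (hH u (hsub (Ioo_subset_Icc_self hu))).add ((hasDerivAt_id u).const_mul σ)
      rw [mul_one] at h2
      exact h2.hasDerivWithinAt)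
    ((hK.mono hsub).integrableOn_Icc) fun u hu => hle u (Ioo_subset_Icc_self hu)
  linarith

theorem intInt {K : ℝ → ℝ} (hK : ContinuousOn K (Ioi 0)) {a b : ℝ} (ha : 0 < a) (hab : a ≤ b) :
    IntervalIntegrable K volume a b := by
  refine ContinuousOn.intervalIntegrable (hK.mono fun u hu => ?_)
  rw [uIcc_of_le hab] at hu
  exact ha.trans_le hu.1

theorem key {K H : ℝ → ℝ} (hK : ContinuousOn K (Ioi 0)) {σ : ℝ}
    (hH : ∀ u, 0 < u → ∃ H', HasDerivAt H H' u ∧ H' ≤ K u ∧ (u ∈ Icc (1 : ℝ) 2 → H' + σ ≤ K u))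
    {ε R : ℝ} (hε : 0 < ε) (hε1 : ε ≤ 1) (hR : 2 ≤ R) : H R - H ε + σ ≤ ∫ u in ε..R, K u := by
  choose! H' h1 h2 h3 using hH
  have a1 := ftc_le hK h1 (σ := 0) hε hε1 fun u hu => by
    rw [add_zero]; exact h2 u (hε.trans_le hu.1)
  have a2 := ftc_le hK h1 (σ := σ) one_pos one_le_two fun u hu => h3 u (one_pos.trans_le hu.1) hu
  have a3 := ftc_le hK h1 (σ := 0) two_pos hR fun u hu => by
    rw [add_zero]; exact h2 u (two_pos.trans_le hu.1)
  rw [← intervalIntegral.integral_add_adjacent_intervals (b := 1) (intInt hK hε hε1)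
    (intInt hK one_pos (by linarith)), ← intervalIntegral.integral_add_adjacent_intervals
    (a := 1) (b := 2) (intInt hK one_pos one_le_two) (intInt hK two_pos hR)]
  linarith

variable {n : ℕ} {κ : Fin n → ℝ} {N B : Mx n n}

theorem XY_eq (κ : Fin n → ℝ) (N : Mx n n) {u : ℝ} (hu : 0 ≤ u) :
    (Ld κ u + N) * (Ld κ u - N) =
      Am κ N + (u : ℂ) • (1 : Mx n n) + (N * Ld κ u - Ld κ u * N) := by
  rw [Matrix.add_mul, Matrix.mul_sub, Matrix.mul_sub, Ld_mul_self κ hu, Am]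
  abel

theorem comm_eq (κ : Fin n → ℝ) (N : Mx n n) (u : ℝ) :
    (Ld κ u + N) * (Ld κ u - N) - (Ld κ u - N) * (Ld κ u + N) =
      (2 : ℂ) • (N * Ld κ u - Ld κ u * N) := by
  simp only [Matrix.add_mul, Matrix.mul_sub, Matrix.sub_mul, Matrix.mul_add, two_smul]
  abel

theorem hsQ_le (κ : Fin n → ℝ) (N : Mx n n) {u : ℝ} (hu : 1 ≤ u) :
    hs (N * Ld κ u - Ld κ u * N) ≤ cm κ N := by
  rw [cm, dg_mul_dg, hs, hs]
  refine Finset.sum_le_sum fun i _ => Finset.sum_le_sum fun j _ => ?_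
  have hl : ∀ i, 1 ≤ √(κ i ^ 2 + u) := fun i => Real.one_le_sqrt.2 (by nlinarith)
  have hl2 : ∀ i, √(κ i ^ 2 + u) ^ 2 = κ i ^ 2 + u := fun i => Real.sq_sqrt (by nlinarith)
  have e1 : (N * Ld κ u - Ld κ u * N) i j =
      ((√(κ j ^ 2 + u) - √(κ i ^ 2 + u) : ℝ) : ℂ) * N i j := by
    simp only [Ld, dg, Matrix.sub_apply, mul_diagonal, diagonal_mul]
    push_cast
    ring
  have e2 : (dg (fun i => κ i * κ i) * N - N * dg (fun i => κ i * κ i)) i j =
      ((κ i * κ i - κ j * κ j : ℝ) : ℂ) * N i j := by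
    simp only [dg, Matrix.sub_apply, mul_diagonal, diagonal_mul]
    push_cast
    ring
  rw [e1, e2, norm_mul, norm_mul, mul_pow, mul_pow, Complex.norm_real, Complex.norm_real,
    Real.norm_eq_abs, Real.norm_eq_abs, sq_abs, sq_abs]
  refine mul_le_mul_of_nonneg_right ?_ (sq_nonneg _)
  have e3 : κ i * κ i - κ j * κ j =
      -((√(κ j ^ 2 + u) - √(κ i ^ 2 + u)) * (√(κ j ^ 2 + u) + √(κ i ^ 2 + u))) := by
    linear_combination hl2 j - hl2 i
  rw [e3, neg_sq, mul_pow]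
  exact le_mul_of_one_le_right (sq_nonneg _) (one_le_pow₀ (by linarith [hl i, hl j]))

theorem bd_XY {M u : ℝ} (hM : 0 < M) (hκ : ∀ j, 0 < κ j ∧ κ j ≤ M) (hu : u ≤ 2) {N' : Mx n n}
    (hN : (dg κ - N').PosSemidef) : Bd (Ld κ u + N') (2 * M + 2) := by
  have h1 : ((2 * M + 2 : ℝ) : ℂ) • (1 : Mx n n) - (Ld κ u + N') =
      dg (fun j => 2 * M + 2 - √(κ j ^ 2 + u) - κ j) + (dg κ - N') := by
    rw [← dg_sub, ← dg_sub, dg_const, Ld]
    abel
  rw [Bd, h1]
  refine (dg_psd fun j => ?_).add hN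
  have h2 : √(κ j ^ 2 + u) ≤ M + 2 :=
    Real.sqrt_le_iff.2 ⟨by linarith, by nlinarith [(hκ j).1, (hκ j).2]⟩
  linarith [(hκ j).2]

/-- the Golden–Thompson defect -/
theorem gt_terms {U : Mx n n} (hU : Uᴴ * U = 1) (b : Fin n → ℝ) (κ : Fin n → ℝ) (N : Mx n n)
    {u : ℝ} (hu : 0 < u) {P : Mx n n} (hP : P = U * dg (fun i => b i + u) * Uᴴ) :
    rtr (P * mlog P) - rtr P + rtr ((Ld κ u + N) * (Ld κ u - N)) -
        rtr (P * (mlog (Ld κ u + N) + mlog (Ld κ u - N))) =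
      ∑ i, ((b i + u) * (Real.log (b i + u) - Real.log u) - b i) + rtr (Am κ N) -
        (rtr (chi κ u N * (U * dg b * Uᴴ)) + u * rtr (chi κ u N)) := by
  have hU' : U * Uᴴ = 1 := mul_eq_one_comm.1 hU
  have hP' : P = U * dg b * Uᴴ + (u : ℂ) • (1 : Mx n n) := by
    rw [hP, ← dg_add, dg_const, Matrix.mul_add, Matrix.add_mul]
    simp [hU']
  have h1 : rtr (P * mlog P) = ∑ i, (b i + u) * Real.log (b i + u) := by
    rw [hP, mlog, cfc_conj_dg _ hU, conj_dg_mul hU, rtr_conj_dg hU]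
  have h2 : rtr P = ∑ i, (b i + u) := by rw [hP, rtr_conj_dg hU]
  have h3 : rtr ((Ld κ u + N) * (Ld κ u - N)) = rtr (Am κ N) + ∑ _i : Fin n, u := by
    rw [XY_eq κ N hu.le, rtr_add, rtr_add, rtr_sub, rtr_mul_comm N, rtr_smul, rtr_one]
    simp [mul_comm]
  have h4 : rtr (P * (mlog (Ld κ u + N) + mlog (Ld κ u - N))) =
      rtr (chi κ u N * (U * dg b * Uᴴ)) + u * rtr (chi κ u N) + Real.log u * rtr P := by
    rw [show mlog (Ld κ u + N) + mlog (Ld κ u - N) =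
      chi κ u N + (Real.log u : ℂ) • (1 : Mx n n) by rw [chi, sub_add_cancel], Matrix.mul_add,
      rtr_add, Matrix.mul_smul, Matrix.mul_one, rtr_smul, rtr_mul_comm P]
    conv_lhs => rw [hP', Matrix.mul_add, rtr_add, Matrix.mul_smul, Matrix.mul_one, rtr_smul,
      ← hP']
  rw [h1, h3, h4, h2]
  simp only [mul_sub, Finset.sum_sub_distrib, Finset.sum_add_distrib, ← Finset.sum_mul]
  ring

theorem small_eps {β : ℝ} (h0 : 0 < β) (C : ℝ) {η : ℝ} (hη : 0 < η) :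
    ∃ ε₀ : ℝ, 0 < ε₀ ∧ ∀ ε, 0 < ε → ε ≤ ε₀ → C * (ε ^ β * (1 + |Real.log ε|)) ≤ η := by
  have h1 : Tendsto (fun ε : ℝ => ε ^ β) (𝓝[>] 0) (𝓝 0) := by
    have := ((Real.continuous_rpow_const h0.le).tendsto 0).mono_left (nhdsWithin_le_nhds
      (s := Ioi 0))
    rwa [Real.zero_rpow h0.ne'] at this
  have h2 := ((h1.add (tendsto_log_mul_rpow_nhdsGT_zero h0).abs).const_mul C)
  rw [abs_zero, add_zero, mul_zero] at h2
  obtain ⟨ε₀, hε₀, h3⟩ := mem_nhdsGT_iff_exists_Ioc_subset.1 (h2.eventually (gt_mem_nhds hη))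
  refine ⟨ε₀, hε₀, fun ε hε hε' => le_of_eq_of_le ?_ (le_of_lt (h3 ⟨hε, hε'⟩))⟩
  rw [abs_mul, abs_of_pos (Real.rpow_pos_of_pos hε β)]
  ring

theorem large_R {β : ℝ} (h1 : β < 1) (C : ℝ) {η : ℝ} (hη : 0 < η) :
    ∃ R₀ : ℝ, ∀ R, R₀ ≤ R → C * R ^ (β - 1) ≤ η := by
  have h2 := (tendsto_rpow_neg_atTop (y := 1 - β) (by linarith)).const_mul C
  rw [mul_zero, neg_sub] at h2
  obtain ⟨R₀, h3⟩ := eventually_atTop.1 (h2.eventually (gt_mem_nhds hη))
  exact ⟨R₀, fun R hR => (h3 R hR).le⟩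

theorem bdry_eps {β ε C D j a : ℝ} (hε : 0 < ε) (hε1 : ε ≤ 1) (hC : 0 < C)
    (e1 : |D| ≤ C * (1 + |Real.log ε|)) (e2 : |j| ≤ C * (1 + |Real.log ε|)) (e3 : |a| ≤ C) :
    ε ^ β * D + ε ^ (β + 1) * j - ε ^ β * a ≤ 3 * C * (ε ^ β * (1 + |Real.log ε|)) := by
  have hεβ : 0 < ε ^ β := Real.rpow_pos_of_pos hε _
  have hl : 0 ≤ |Real.log ε| := abs_nonneg _
  have c1 := (abs_le.1 e1).2
  have c2 : ε * j ≤ C * (1 + |Real.log ε|) :=
    (mul_le_mul_of_nonneg_left (abs_le.1 e2).2 hε.le).trans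
      (mul_le_of_le_one_left (by positivity) hε1)
  have c3 : -a ≤ C * (1 + |Real.log ε|) := by nlinarith [(abs_le.1 e3).1]
  rw [Real.rpow_add hε, Real.rpow_one]
  have := mul_le_mul_of_nonneg_left (add_le_add (add_le_add c1 c2) c3) hεβ.le
  linarith

theorem bdry_R {β R C D j a : ℝ} (hR0 : 0 < R) (r1 : |D| ≤ C / R) (r2 : a / R - C / R ^ 2 ≤ j) :
    -(2 * C * R ^ (β - 1)) ≤ R ^ β * D + R ^ (β + 1) * j - R ^ β * a := by
  have hRβ : 0 < R ^ (β - 1) := Real.rpow_pos_of_pos hR0 _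
  have c0 : R ^ β = R ^ (β - 1) * R := by
    rw [Real.rpow_sub_one hR0.ne', div_mul_cancel₀ _ hR0.ne']
  have c1 : -C ≤ R * D := by
    have := mul_le_mul_of_nonneg_left (abs_le.1 r1).1 hR0.le
    rwa [mul_neg, mul_div_cancel₀ _ hR0.ne'] at this
  have c2 : R * a - C ≤ R * R * j := by
    refine le_of_eq_of_le ?_ (mul_le_mul_of_nonneg_left r2 (mul_pos hR0 hR0).le)
    field_simp
  rw [Real.rpow_add hR0, Real.rpow_one, c0]
  have := mul_le_mul_of_nonneg_left (add_le_add c1 c2) hRβ.le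
  linarith

theorem slack {β u t cG cD T₁ T₂ Z x y : ℝ} (h0 : 0 < β) (hu : u ∈ Icc (1 : ℝ) 2) (ht0 : 0 < t)
    (ht1 : t ≤ cG) (ht2 : t ≤ cD / 9) (hT1 : 0 ≤ T₁) (hT2 : 0 ≤ T₂) (hy : 0 ≤ y)
    (g1 : cG * Z ≤ T₁) (g3 : x / 2 - 9 * y ≤ Z) (g4 : cD * y ≤ T₂) :
    t / 4 * (x + y) ≤ (1 + β) * u ^ (β - 1) * T₁ + u ^ β * T₂ := by
  have hu0 : 0 < u := by linarith [hu.1]
  have hw : 0 < u ^ (β - 1) := Real.rpow_pos_of_pos hu0 _
  have c0 : u ^ β = u ^ (β - 1) * u := by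
    rw [Real.rpow_sub_one hu0.ne', div_mul_cancel₀ _ hu0.ne']
  have g2 : t * Z ≤ T₁ := by
    rcases le_total 0 Z with h | h
    · have := mul_le_mul_of_nonneg_right ht1 h
      linarith
    · have := mul_nonpos_of_nonneg_of_nonpos ht0.le h
      linarith
  have w1 : 1 ≤ u ^ β := Real.one_le_rpow hu.1 h0.le
  have w2 : 1 / 2 ≤ (1 + β) * u ^ (β - 1) := by
    have : 1 / 2 ≤ u ^ (β - 1) := by nlinarith [hu.2]
    nlinarith
  have g5 := mul_le_mul_of_nonneg_right w1 hT2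
  have g6 := mul_le_mul_of_nonneg_right w2 hT1
  have g7 := mul_le_mul_of_nonneg_left g3 ht0.le
  have g8 := mul_le_mul_of_nonneg_right ht2 hy
  have g9 := mul_nonneg ht0.le hy
  linarith

end HJB

open HJB in
theorem hjbStmt_of (hG : GTStmt) (hD : DeltaStmt) (hA : AsyStmt) (hS : ScalStmt) : HJBStmt := by
  intro β M h0 h1 hM
  obtain ⟨cG, hcG, hG2⟩ := hG.2 (2 * M + 2) (by linarith)
  obtain ⟨cD, hcD, hD⟩ := hD M hM
  set t := min cG (cD / 9) with ht
  have ht0 : 0 < t := lt_min hcG (by linarith)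
  have ht1 : t ≤ cG := min_le_left _ _
  have ht2 : t ≤ cD / 9 := min_le_right _ _
  refine ⟨t / 4, by linarith, fun n η hη => ?_⟩
  obtain ⟨C, u₀, hC, hA⟩ := hA n M hM
  obtain ⟨ε₀, hε₀, hsmall⟩ := small_eps h0 (3 * C) (half_pos hη)
  obtain ⟨R₀, hlarge⟩ := large_R h1 (2 * C) (half_pos hη)
  refine ⟨min ε₀ 1, max R₀ (max u₀ 2), lt_min hε₀ one_pos,
    fun ε R hε hε' hR κ N B hκ hN hB hBM => ?_⟩
  have hε1 : ε ≤ 1 := hε'.trans (min_le_right _ _)
  have hR2 : 2 ≤ R := ((le_max_right _ _).trans (le_max_right _ _)).trans hR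
  have hRu : u₀ ≤ R := ((le_max_left _ _).trans (le_max_right _ _)).trans hR
  have hεR : ε ≤ R := by linarith
  have hR0 : 0 < R := by linarith
  replace hsmall := hsmall ε hε (hε'.trans (min_le_left _ _))
  replace hlarge := hlarge R ((le_max_left _ _).trans hR)
  obtain ⟨hA1, hA2, hA3⟩ := hA κ N hκ hN
  obtain ⟨U, b, hU, hU', rfl⟩ := exists_diag hB.1
  have hb0 : ∀ i, 0 ≤ b i := (psd_conj_dg_iff hU b).1 hB
  have hbM : ∀ i, b i ≤ M := (bd_conj_dg_iff hU b M).1 hBM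
  have hκ0 : ∀ j, 0 < κ j := fun j => (hκ j).1
  set B := U * dg b * Uᴴ with hBdef
  set a := rtr (Am κ N) with ha
  set S : Fin n → ℝ → ℝ := fun i u =>
    u ^ (β - 1) * ((b i + u) * (Real.log (b i + u) - Real.log u) - b i) with hSdef
  set F : ℝ → ℝ := fun u =>
    u ^ (β - 1) * rtr (chi κ u N * (((β⁻¹ + 1 : ℝ) : ℂ) • B - Am κ N)) with hF
  have hpow : ContinuousOn (fun u : ℝ => u ^ (β - 1)) (Ioi 0) :=
    continuousOn_id.rpow_const fun u hu => Or.inl (ne_of_gt hu)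
  have hSc : ∀ i, ContinuousOn (S i) (Ioi 0) := fun i => by
    refine hpow.mul (ContinuousOn.sub (ContinuousOn.mul (by fun_prop) (ContinuousOn.sub ?_ ?_))
      continuousOn_const)
    · exact ContinuousOn.log (by fun_prop) fun u hu => (add_pos_of_nonneg_of_pos (hb0 i) hu).ne'
    · exact Real.continuousOn_log.mono fun u hu => ne_of_gt hu
  have hFc : ContinuousOn F (Ioi 0) := by
    have h2 : ContinuousOn (fun u : ℝ => chi κ u N) (Ioi 0) :=
      (continuousOn_chi hκ0).comp (f := fun u : ℝ => (u, N)) (by fun_prop) fun u hu => ⟨hu, hN⟩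
    exact hpow.mul (continuous_rtr.comp_continuousOn (h2.mul continuousOn_const))
  have hkey := key (K := fun u => (1 + β) * ∑ i, S i u - β * F u)
    (H := fun u => u ^ β * rtr (chi κ u N * Am κ N) + u ^ (β + 1) * rtr (chi κ u N) - u ^ β * a)
    (σ := t / 4 * (hs (Am κ N - B) + cm κ N))
    ((continuousOn_const.mul (continuousOn_finsetSum _ fun i _ => hSc i)).sub
      (continuousOn_const.mul hFc)) (fun u hu => ?_) hε hε1 hR2
  · -- conclusion
    rw [intervalIntegral.integral_sub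
      ((intInt (continuousOn_finsetSum _ fun i _ => hSc i) hε hεR).const_mul _)
      ((intInt hFc hε hεR).const_mul _), intervalIntegral.integral_const_mul,
      intervalIntegral.integral_const_mul,
      intervalIntegral.integral_finsetSum fun i _ => intInt (hSc i) hε hεR] at hkey
    have h5 : (1 + β) * ∑ i, ∫ u in ε..R, S i u ≤ β⁻¹ * Ib β * tracePow B (1 + β) := by
      rw [hBdef, tracePow_conj_dg hU, Finset.mul_sum, Finset.mul_sum]
      exact Finset.sum_le_sum fun i _ => (hS β h0 h1).2.2.2.2.1 (b i) ε R (hb0 i) hε hεR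
    obtain ⟨e1, e2⟩ := hA2 ε hε hε1
    obtain ⟨r1, r2⟩ := hA3 R hRu
    have b1 := bdry_eps (β := β) hε hε1 hC e1 e2 hA1
    have b2 := bdry_R (β := β) hR0 r1 r2
    linarith
  · -- the derivative
    obtain ⟨D', j', hD1, hD2, hD3, hD4⟩ := hD n κ N u hκ hN hu
    have p1 : HasDerivAt (fun u : ℝ => u ^ β) (β * u ^ (β - 1)) u :=
      Real.hasDerivAt_rpow_const (Or.inl hu.ne')
    have p2 : HasDerivAt (fun u : ℝ => u ^ (β + 1)) ((β + 1) * u ^ β) u := by
      simpa using Real.hasDerivAt_rpow_const (x := u) (p := β + 1) (Or.inl hu.ne')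
    refine ⟨_, ((p1.mul hD1).add (p2.mul hD2)).sub (p1.mul_const a), ?_⟩
    have hw : 0 < u ^ (β - 1) := Real.rpow_pos_of_pos hu _
    have c0 : u ^ β = u ^ (β - 1) * u := by
      rw [Real.rpow_sub_one hu.ne', div_mul_cancel₀ _ hu.ne']
    have c1 : u ^ (β + 1) = u ^ (β - 1) * u * u := by rw [Real.rpow_add hu, Real.rpow_one, c0]
    set P := U * dg (fun i => b i + u) * Uᴴ with hP
    have hPpd : P.PosDef := (pd_conj_dg_iff hU _).2 fun i => add_pos_of_nonneg_of_pos (hb0 i) hu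
    have hX := hN.pd_add hκ0 hu
    have hY := hN.pd_sub hκ0 hu
    have hgt := gt_terms hU b κ N hu hP
    set T₁ := ∑ i, ((b i + u) * (Real.log (b i + u) - Real.log u) - b i) + a -
      (rtr (chi κ u N * B) + u * rtr (chi κ u N)) with hT₁
    set T₂ := -(a / u) - (D' + u * j') with hT₂
    have hT1 : 0 ≤ T₁ := by linarith [hG.1 n P _ _ hPpd hX hY]
    have hT2 : 0 ≤ T₂ := by linarith
    have hid : (1 + β) * ∑ i, S i u - β * F u -
        (β * u ^ (β - 1) * rtr (chi κ u N * Am κ N) + u ^ β * D' +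
          ((β + 1) * u ^ β * rtr (chi κ u N) + u ^ (β + 1) * j') - β * u ^ (β - 1) * a) =
        (1 + β) * u ^ (β - 1) * T₁ + u ^ β * T₂ := by
      simp only [hSdef, hF, ← Finset.mul_sum]
      rw [Matrix.mul_sub, Matrix.mul_smul, rtr_sub, rtr_smul, hT₁, hT₂, c1, c0]
      field_simp
      ring
    have huβ : 0 < u ^ β := Real.rpow_pos_of_pos hu _
    refine ⟨?_, fun hu12 => ?_⟩
    · have := add_nonneg (mul_nonneg (mul_nonneg (by linarith : 0 ≤ 1 + β) hw.le) hT1)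
        (mul_nonneg huβ.le hT2)
      linarith
    · have hPb : Bd P (2 * M + 2) :=
        (bd_conj_dg_iff hU _ _).2 fun i => by linarith [hbM i, hu12.2]
      have hXb := bd_XY hM hκ hu12.2 hN.2
      have hYb : Bd (Ld κ u - N) (2 * M + 2) := by
        rw [sub_eq_add_neg]
        exact bd_XY hM hκ hu12.2 (by rw [sub_neg_eq_add]; exact hN.1)
      have g1 := hG2 n P _ _ hPpd hX hY hPb hXb hYb
      have hP' : P = B + (u : ℂ) • (1 : Mx n n) := by
        rw [hP, ← dg_add, dg_const, Matrix.mul_add, Matrix.add_mul]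
        simp [hU', hBdef]
      have q1 := hsQ_le κ N hu12.1
      set Q := N * Ld κ u - Ld κ u * N with hQ
      have q2 : hs (Am κ N - B) ≤ 2 * hs ((Ld κ u + N) * (Ld κ u - N) - P) + 2 * hs Q := by
        refine le_of_eq_of_le ?_ (hs_sub_le _ _)
        rw [XY_eq κ N hu.le, hP', ← hQ]
        congr 1
        abel
      rw [comm_eq, hs_smul, show ‖(2 : ℂ)‖ ^ 2 = 4 by norm_num] at g1
      have g2 := slack (Z := hs ((Ld κ u + N) * (Ld κ u - N) - P) - 2 * (4 * hs Q))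
        (x := hs (Am κ N - B)) (y := cm κ N) h0 hu12 ht0 ht1 ht2 hT1 hT2 (hs_nonneg _)
        (by linarith) (by linarith) (by linarith [hD4 hu12])
      linarith

end Crest.Agent.R332
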