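import Crest.Agent.R332.Basic

/-! # Row 332: the inequality in matrix form -/

set_option autoImplicit false

open MeasureTheory Matrix Set
open scoped ComplexOrder ContDiff
open Crest.MathPhysics.LiebThirring

noncomputable section

namespace Crest.Agent.R332

variable {m n k : ℕ}

theorem sig_nonneg {β : ℝ} {W : ℝ → Mx m m} (hW : Pot β W) : 0 ≤ sig β W :=
  integral_nonneg fun x => tracePow_nonneg (hW.psd x) _

theorem slk_nonneg (β : ℝ) (κ : Fin n → ℝ) (N 𝒲 : Mx n n) : 0 ≤ slk β κ N 𝒲 :=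
  add_nonneg (hs_nonneg _) (hs_nonneg _)

theorem negPart_rpow_zero {γ : ℝ} (hγ : 0 < γ) (t : ℝ) (ht : 0 ≤ t) : (max (-t) 0) ^ γ = 0 := by
  rw [max_eq_right (by linarith), Real.zero_rpow hγ.ne']

theorem negPart_rpow_sq {β κ : ℝ} (hκ : 0 < κ) :
    (max (-(-(κ ^ 2))) 0) ^ (β + 1 / 2) = κ ^ (1 + 2 * β) := by
  rw [neg_neg, max_eq_left (sq_nonneg κ), ← Real.rpow_natCast, ← Real.rpow_mul hκ.le]
  congr 1
  push_cast
  ring

/-- the operator bound on `(Φᴴ Φ)^r` -/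
theorem bd_mpow_gram {Φ : Mx m n} {M s : ℝ} (h : hs Φ ≤ M) (hs' : 0 ≤ s) :
    Bd (mpow (Φᴴ * Φ) s) (M ^ s) := by
  refine bd_mpow (posSemidef_conjTranspose_mul_self Φ) ?_ hs'
  refine (bd_rtr (posSemidef_conjTranspose_mul_self Φ)).mono ?_
  rwa [← hs_eq_rtr]

/-- diagonalising the negative part of the energy matrix -/
theorem exists_neg_frame (hF : FamStmt) {β : ℝ} {W : ℝ → Mx m m} {Φ : ℝ → Mx m n} (hβ : 0 < β)
    (hW : Pot β W) (hΦ : Sm Φ) (hg : gram Φ = 1) :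
    ∃ (k : ℕ) (Ψ : ℝ → Mx m k) (κ : Fin k → ℝ), Sm Ψ ∧ gram Ψ = 1 ∧ (∀ j, 0 < κ j) ∧
      ener W Ψ = -(dg κ * dg κ) ∧
      negMoment (ener W Φ) (β + 1 / 2) = ∑ j, κ j ^ (1 + 2 * β) := by
  obtain ⟨h1, -, h3, -, h5⟩ := hF
  obtain ⟨-, hE, hJ⟩ := h3 β m n W Φ hβ hW hΦ
  obtain ⟨k, J, κ, hκ, hJJ, hJE, hf⟩ := h5 n _ hE
  obtain ⟨hs, -, hgr⟩ := h1 m n k Φ J hΦ
  refine ⟨k, fun x => Φ x * J, κ, hs, by rw [hgr, hg, Matrix.mul_one, hJJ], hκ,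
    by rw [hJ, hJE], ?_⟩
  rw [negMoment_eq, hf _ (negPart_rpow_zero (by linarith))]
  exact Finset.sum_congr rfl fun j _ => negPart_rpow_sq (hκ j)

theorem ltStmt_of (hF : FamStmt) (hCo : CoreStmt) (hD : DiaStmt) (hY : YoungStmt)
    (hS : ScalStmt) : LTStmt := by
  intro β m n W Φ hβ hβ1 hW hΦ hg
  obtain ⟨k, Ψ, κ, hΨ, hgΨ, hκ, hE, hneg⟩ := exists_neg_frame hF hβ hW hΦ hg
  obtain ⟨-, -, hC, -⟩ := hS β hβ hβ1
  have hσ := sig_nonneg hW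
  rw [hneg]
  rcases Nat.eq_zero_or_pos k with rfl | hk
  · simp only [Finset.univ_eq_empty, Finset.sum_empty]
    positivity
  obtain ⟨M₁, hM₁, hcore⟩ := hCo β m W hβ hβ1 hW
  refine le_of_forall_pos_le_add fun ε hε => ?_
  set η : ℝ := min 1 (ε / (sharpConst (β + 1 / 2) * (1 + β))) with hη
  have hη0 : 0 < η := lt_min one_pos (by positivity)
  obtain ⟨Φ', κ', N, a, b, hΦ', hκ', -, hsum, hR, hb, -, -, hineq⟩ :=
    hcore k Ψ κ η hk hΨ hgΨ hκ hE hη0 (min_le_left _ _)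
  set M : ℝ := M₁ ^ β⁻¹ + ∑ j, κ' j with hM
  have hs0 : 0 ≤ ∑ j, κ' j := Finset.sum_nonneg fun j _ => (hκ' j).le
  have hp : 0 < M₁ ^ β⁻¹ := Real.rpow_pos_of_pos hM₁ _
  obtain ⟨c, hc, hdia⟩ := hD β M hβ hβ1 (by linarith)
  have h1 := hdia k κ' N _ a b (fun j => ⟨hκ' j, by
    have := Finset.single_le_sum (f := κ') (fun j _ => (hκ' j).le) (Finset.mem_univ j)
    linarith⟩) hR
    (fun x => (bd_mpow_gram (hb x) (inv_nonneg.2 hβ.le)).mono (by linarith))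
  have h2 : 0 ≤ ∫ x in a..b, slk β κ' (N x) (mpow ((Φ' x)ᴴ * Φ' x) β⁻¹) :=
    intervalIntegral.integral_nonneg hR.ab.le fun x _ => slk_nonneg _ _ _ _
  have h3 : 0 ≤ ∫ x, hs (dM Φ' x - Φ' x * N x) := integral_nonneg fun x => hs_nonneg _
  have h4 : 0 ≤ ∫ x, brg β (W x) (Φ' x * (Φ' x)ᴴ) := integral_nonneg fun x =>
    (hY β hβ hβ1).1 m _ _ (hW.psd x) (posSemidef_self_mul_conjTranspose _)
  set T := ∫ x in a..b, tracePow (mpow ((Φ' x)ᴴ * Φ' x) β⁻¹) (1 + β)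
  have hb1 : 0 < 1 + β := by linarith
  have h5 : T ≤ sig β W + (1 + β) * η := by
    have : T / (1 + β) ≤ sig β W / (1 + β) + η := by linarith
    rw [div_le_iff₀ hb1, add_mul, div_mul_cancel₀ _ hb1.ne'] at this
    linarith
  have h6 : (sharpConst (β + 1 / 2))⁻¹ * ∑ j, κ' j ^ (1 + 2 * β) ≤ sig β W + (1 + β) * η := by
    have := mul_nonneg hc.le h2
    linarith
  rw [inv_mul_le_iff₀ hC] at h6
  have h7 : sharpConst (β + 1 / 2) * ((1 + β) * η) ≤ ε := by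
    have : η ≤ ε / (sharpConst (β + 1 / 2) * (1 + β)) := min_le_right _ _
    rw [le_div_iff₀ (by positivity)] at this
    linarith
  linarith

end Crest.Agent.R332
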