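import Crest.Agent.R332.Stab2

/-! # Row 332: (LIM) passage to the limit -/

set_option autoImplicit false

open MeasureTheory Matrix Set Filter Topology
open scoped ComplexOrder ContDiff
open Crest.MathPhysics.LiebThirring

noncomputable section

namespace Crest.Agent.R332

namespace Lim

variable {m : ℕ}

theorem measurable_comp {W : ℝ → Mx m m} (hW : ∀ i j, Measurable fun x => W x i j)
    {Θ : (Fin m → Fin m → ℂ) × ℝ → ℝ} (hΘ : Continuous Θ) :
    Measurable fun x => Θ ((fun i j => W x i j), x) :=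
  hΘ.measurable.comp ((measurable_pi_lambda _ fun i => measurable_pi_lambda _ fun j => hW i j).prodMk
    measurable_id)

theorem measurable_hs {W : ℝ → Mx m m} (hW : ∀ i j, Measurable fun x => W x i j) :
    Measurable fun x => hs (W x) :=
  measurable_comp hW (Θ := fun p => hs (of p.1)) (continuous_hs.comp continuous_fst)

theorem measurable_err {W : ℝ → Mx m m} (hW : ∀ i j, Measurable fun x => W x i j)
    (r lam c : ℝ) (v : Fin m → ℂ) :
    Measurable fun x => vs (W x *ᵥ v - (soliton r lam c x : ℂ) • v) :=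
  measurable_comp hW (Θ := fun p => vs (of p.1 *ᵥ v - (soliton r lam c p.2 : ℂ) • v))
    (continuous_vs.comp ((Continuous.matrix_mulVec continuous_fst continuous_const).sub
      ((Complex.continuous_ofReal.comp ((Stab2.continuous_soliton r lam c).comp continuous_snd)).smul
        continuous_const)))

theorem err_le {A : Mx m m} {v : Fin m → ℂ} (hv : vs v = 1) {r lam M Λ : ℝ} (hr : 0 ≤ r)
    (h0 : 0 ≤ lam) (hM : lam ≤ M) (c x : ℝ) (hA : hs A ≤ Λ) :
    vs (A *ᵥ v - (soliton r lam c x : ℂ) • v) ≤ 2 * Λ + 2 * ((r + 1) * M ^ 2) ^ 2 := by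
  refine (vs_sub_le _ _).trans ?_
  have h1 := vs_mulVec_le_hs A v
  have h2 : ‖(soliton r lam c x : ℂ)‖ ^ 2 ≤ ((r + 1) * M ^ 2) ^ 2 := by
    rw [Complex.norm_real, Real.norm_eq_abs, sq_abs]
    exact pow_le_pow_left₀ (Stab2.soliton_nonneg hr _ _ _) (Stab2.soliton_le hr h0 hM _ _) 2
  rw [vs_smul, hv, mul_one]
  rw [hv, mul_one] at h1
  linarith

theorem measurableSet_E {W : ℝ → Mx m m} (hW : ∀ i j, Measurable fun x => W x i j) (a b Λ : ℝ) :
    MeasurableSet (Icc a b ∩ {x | hs (W x) ≤ Λ}) :=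
  measurableSet_Icc.inter (measurableSet_le (measurable_hs hW) measurable_const)

theorem volume_E_lt (W : ℝ → Mx m m) (a b Λ : ℝ) :
    volume (Icc a b ∩ {x | hs (W x) ≤ Λ}) < ⊤ :=
  (measure_mono inter_subset_left).trans_lt measure_Icc_lt_top

theorem integrableOn_err {W : ℝ → Mx m m} (hW : ∀ i j, Measurable fun x => W x i j)
    {v : Fin m → ℂ} (hv : vs v = 1) {r lam M : ℝ} (hr : 0 ≤ r) (h0 : 0 ≤ lam) (hM : lam ≤ M)
    (c a b Λ : ℝ) : IntegrableOn (fun x => vs (W x *ᵥ v - (soliton r lam c x : ℂ) • v))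
      (Icc a b ∩ {x | hs (W x) ≤ Λ}) := by
  refine Measure.integrableOn_of_bounded (M := 2 * Λ + 2 * ((r + 1) * M ^ 2) ^ 2)
    (volume_E_lt W a b Λ).ne (measurable_err hW r lam c v).aestronglyMeasurable ?_
  refine (ae_restrict_iff' (measurableSet_E hW a b Λ)).2 (Eventually.of_forall fun x hx => ?_)
  rw [Real.norm_eq_abs, abs_of_nonneg (vs_nonneg _)]
  exact err_le hv hr h0 hM c x hx.2

theorem hs_le_of_bd {A : Mx m m} (hA : A.PosSemidef) {t : ℝ} (h : Bd A t) : hs A ≤ t ^ 2 * m := by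
  have := hs_mul_le_left (vs_mulVec_le_of_psd hA h) (1 : Mx m m)
  rwa [Matrix.mul_one, hs_eq_rtr (1 : Mx m m), conjTranspose_one, Matrix.mul_one, rtr_one] at this

/-- the mass of `tr W^p` near the centre of an approximate channel -/
theorem mass_ge {β : ℝ} {W : ℝ → Mx m m} (hβ : 0 < β) (hW : Pot β W) {μ M lam c R Λ η : ℝ}
    {v : Fin m → ℂ} (hμ : 0 < μ) (hlam : μ ≤ lam) (hM : lam ≤ M) (hv : vs v = 1) (hR : 1 ≤ R)
    {s0 : ℝ} (hs0 : s0 = (β⁻¹ + 1) * μ ^ 2 / Real.cosh (β⁻¹ * M * 1) ^ 2)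
    (hΛ : (s0 / 2) ^ 2 * m ≤ Λ) (hη : η ≤ (s0 / 2) ^ 2)
    (h : (∫ x in Icc (c - R) (c + R) ∩ {x | hs (W x) ≤ Λ},
      vs (W x *ᵥ v - (soliton β⁻¹ lam c x : ℂ) • v)) ≤ η) :
    (s0 / 2) ^ (1 + β) ≤ ∫ x in Icc (c - 1) (c + 1), tracePow (W x) (1 + β) := by
  have hr0 : 0 ≤ β⁻¹ := by positivity
  have hs0p : 0 < s0 := by have := Real.cosh_pos (β⁻¹ * M * 1); rw [hs0]; positivity
  set τ := (s0 / 2) ^ (1 + β) with hτ
  have hτp : 0 < τ := Real.rpow_pos_of_pos (by positivity) _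
  set g : ℝ → ℝ := fun x => vs (W x *ᵥ v - (soliton β⁻¹ lam c x : ℂ) • v) with hg
  set S := {x | hs (W x) ≤ Λ} with hS
  have hSm : MeasurableSet S := measurableSet_le (measurable_hs hW.meas) measurable_const
  have hgi : IntegrableOn g (Icc (c - 1) (c + 1) ∩ S) :=
    integrableOn_err hW.meas hv hr0 (hμ.le.trans hlam) hM c _ _ Λ
  have hgi' : IntegrableOn (S.indicator g) (Icc (c - 1) (c + 1)) := by
    rw [IntegrableOn, integrable_indicator_iff hSm, IntegrableOn, Measure.restrict_restrict hSm,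
      inter_comm]
    exact hgi
  have h1 : ∫ x in Icc (c - 1) (c + 1), S.indicator g x ≤ η := by
    rw [setIntegral_indicator hSm]
    refine le_trans (setIntegral_mono_set
      (integrableOn_err hW.meas hv hr0 (hμ.le.trans hlam) hM c _ _ Λ)
      (Eventually.of_forall fun _ => vs_nonneg _) ?_) h
    exact (inter_subset_inter_left _ (Icc_subset_Icc (by linarith) (by linarith))).eventuallyLE
  have h2 : ∫ _ in Icc (c - 1) (c + 1), (1 : ℝ) ≤ ∫ x in Icc (c - 1) (c + 1),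
      (τ⁻¹ * tracePow (W x) (1 + β) + ((s0 / 2) ^ 2)⁻¹ * S.indicator g x) := by
    refine setIntegral_mono_on (integrableOn_const (by simp))
      ((hW.int.integrableOn.const_mul _).add (hgi'.const_mul _)) measurableSet_Icc fun x hx => ?_
    have hT := tracePow_nonneg (hW.psd x) (1 + β)
    have hI : 0 ≤ S.indicator g x := indicator_nonneg (fun _ _ => vs_nonneg _) _
    by_cases hc : τ ≤ tracePow (W x) (1 + β)
    · have : 1 ≤ τ⁻¹ * tracePow (W x) (1 + β) := by
        rw [← div_eq_inv_mul, le_div_iff₀ hτp, one_mul]; exact hc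
      have : 0 ≤ ((s0 / 2) ^ 2)⁻¹ * S.indicator g x := by positivity
      linarith
    · have hb : Bd (W x) (s0 / 2) := by
        refine (bd_tracePow (hW.psd x) (by linarith : 0 < 1 + β)).mono ?_
        calc _ ≤ τ ^ (1 + β)⁻¹ := Real.rpow_le_rpow hT (not_le.1 hc).le (by positivity)
          _ = s0 / 2 := Real.rpow_rpow_inv (by positivity) (by linarith)
      have hxS : x ∈ S := (hs_le_of_bd (hW.psd x) hb).trans hΛ
      have h3 := vs_mulVec_le_of_psd (hW.psd x) hb v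
      have h4 : s0 ≤ soliton β⁻¹ lam c x := by
        rw [hs0]; exact Stab2.le_soliton hr0 hμ.le hlam hM hx
      have h5 := vs_sub_le (W x *ᵥ v) (W x *ᵥ v - (soliton β⁻¹ lam c x : ℂ) • v)
      rw [sub_sub_cancel, vs_smul, hv, mul_one, Complex.norm_real, Real.norm_eq_abs, sq_abs] at h5
      rw [hv, mul_one] at h3
      have h6 : s0 ^ 2 ≤ soliton β⁻¹ lam c x ^ 2 := pow_le_pow_left₀ hs0p.le h4 2
      have h7 : (s0 / 2) ^ 2 ≤ g x := by simp only [hg]; linarith
      have : 1 ≤ ((s0 / 2) ^ 2)⁻¹ * S.indicator g x := by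
        rw [indicator_of_mem hxS, ← div_eq_inv_mul, le_div_iff₀ (by positivity), one_mul]; exact h7
      have : 0 ≤ τ⁻¹ * tracePow (W x) (1 + β) := by positivity
      linarith
  rw [integral_add (hW.int.integrableOn.const_mul _) (hgi'.const_mul _), integral_const_mul,
    integral_const_mul, setIntegral_const, Real.volume_real_Icc_of_le (by linarith), smul_eq_mul] at h2
  have h3 : ((s0 / 2) ^ 2)⁻¹ * ∫ x in Icc (c - 1) (c + 1), S.indicator g x ≤ 1 := by
    rw [← div_eq_inv_mul, div_le_one (by positivity)]; exact h1.trans hη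
  have h4 : 1 ≤ τ⁻¹ * ∫ x in Icc (c - 1) (c + 1), tracePow (W x) (1 + β) := by linarith
  rwa [← div_eq_inv_mul, le_div_iff₀ hτp, one_mul] at h4

theorem exists_tail {T : ℝ → ℝ} (hT : Integrable T) (h0 : ∀ x, 0 ≤ T x) {τ : ℝ} (hτ : 0 < τ) :
    ∃ L : ℝ, ∀ c, τ ≤ ∫ x in Icc (c - 1) (c + 1), T x → |c| ≤ L := by
  have hm : ∀ k : ℕ, MeasurableSet {x : ℝ | (k : ℝ) ≤ |x|} := fun k =>
    measurableSet_le measurable_const continuous_abs.measurable
  have h1 := tendsto_setIntegral_of_antitone (μ := volume) (f := T) hm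
    (fun i j hij x (hx : (j : ℝ) ≤ |x|) => le_trans (Nat.cast_le.2 hij) hx) ⟨0, hT.integrableOn⟩
  have h2 : ⋂ k : ℕ, {x : ℝ | (k : ℝ) ≤ |x|} = ∅ := by
    refine eq_empty_of_forall_notMem fun x hx => ?_
    obtain ⟨k, hk⟩ := exists_nat_gt |x|
    exact absurd (mem_iInter.1 hx k) (not_le.2 hk)
  rw [h2, setIntegral_empty] at h1
  obtain ⟨k, hk⟩ := (h1.eventually (gt_mem_nhds hτ)).exists
  refine ⟨k + 1, fun c hc => ?_⟩
  by_contra hcon
  refine absurd (hc.trans (setIntegral_mono_set hT.integrableOn (Eventually.of_forall h0) ?_))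
    (not_le.2 hk)
  refine LE.le.eventuallyLE fun x hx => ?_
  have h3 : |c| ≤ |x| + 1 := by
    have := abs_sub_abs_le_abs_sub c x
    have h4 : |c - x| ≤ 1 := abs_le.2 ⟨by linarith [hx.2], by linarith [hx.1]⟩
    linarith
  change (k : ℝ) ≤ |x|
  linarith [not_le.1 hcon]

theorem isCompact_sphere : IsCompact {v : Fin m → ℂ | vs v = 1} := by
  refine Metric.isCompact_of_isClosed_isBounded (isClosed_eq continuous_vs continuous_const) ?_
  refine (Metric.isBounded_closedBall (x := 0) (r := 1)).subset fun v hv => ?_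
  rw [mem_closedBall_zero_iff, pi_norm_le_iff_of_nonneg zero_le_one]
  intro i
  have h1 : ‖v i‖ ^ 2 ≤ vs v :=
    Finset.single_le_sum (f := fun j => ‖v j‖ ^ 2) (fun j _ => sq_nonneg _) (Finset.mem_univ i)
  rw [show vs v = 1 from hv] at h1
  nlinarith [norm_nonneg (v i)]

theorem tendsto_err (A : Mx m m) (r x : ℝ) {lam c : ℕ → ℝ} {v : ℕ → Fin m → ℂ} {φ : ℕ → ℕ}
    {l₀ c₀ : ℝ} {v₀ : Fin m → ℂ}
    (h : Tendsto ((fun k => (lam k, c k, v k)) ∘ φ) atTop (𝓝 (l₀, c₀, v₀))) :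
    Tendsto (fun k => vs (A *ᵥ v (φ k) - (soliton r (lam (φ k)) (c (φ k)) x : ℂ) • v (φ k))) atTop
      (𝓝 (vs (A *ᵥ v₀ - (soliton r l₀ c₀ x : ℂ) • v₀))) := by
  have h1 : Tendsto (fun k => lam (φ k)) atTop (𝓝 l₀) := h.fst_nhds
  have h2 : Tendsto (fun k => c (φ k)) atTop (𝓝 c₀) := h.snd_nhds.fst_nhds
  have h3 : Tendsto (fun k => v (φ k)) atTop (𝓝 v₀) := h.snd_nhds.snd_nhds
  have h4 : Tendsto (fun k => soliton r (lam (φ k)) (c (φ k)) x) atTop (𝓝 (soliton r l₀ c₀ x)) :=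
    ((Stab2.continuous_soliton3 r).tendsto (l₀, c₀, x)).comp
      (h1.prodMk_nhds (h2.prodMk_nhds tendsto_const_nhds))
  have h5 : Tendsto (fun k => A *ᵥ v (φ k)) atTop (𝓝 (A *ᵥ v₀)) :=
    ((continuous_const.matrix_mulVec continuous_id).tendsto v₀).comp h3
  exact (continuous_vs.tendsto _).comp
    (h5.sub (((Complex.continuous_ofReal.tendsto _).comp h4).smul h3))

end Lim

open Lim

theorem limStmt : LimStmt := by
  intro β m W hβ _ hW ⟨μ, M, hμ, hA⟩
  have hr0 : 0 ≤ β⁻¹ := by positivity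
  set s0 := (β⁻¹ + 1) * μ ^ 2 / Real.cosh (β⁻¹ * M * 1) ^ 2 with hs0
  have hs0p : 0 < s0 := by have := Real.cosh_pos (β⁻¹ * M * 1); positivity
  set q := (s0 / 2) ^ 2 with hq
  have hqp : 0 < q := by positivity
  choose lam c v hlam hM hv hint using fun k : ℕ =>
    hA ((k : ℝ) + 1) ((k : ℝ) + 1 + q * m) (q * (1 / ((k : ℝ) + 1))) (by positivity) (by positivity)
      (by positivity)
  obtain ⟨L, hL⟩ := exists_tail hW.int (fun x => tracePow_nonneg (hW.psd x) _)
    (Real.rpow_pos_of_pos (by positivity : 0 < s0 / 2) (1 + β))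
  have hc : ∀ k, |c k| ≤ L := fun k => by
    have hk : (0 : ℝ) ≤ k := Nat.cast_nonneg k
    refine hL _ (mass_ge hβ hW hμ (hlam k) (hM k) (hv k) (by linarith) hs0 (by rw [← hq]; linarith) ?_
      (hint k))
    exact mul_le_of_le_one_right hqp.le ((div_le_one (by positivity)).2 (by linarith))
  have hK : IsCompact (Icc μ M ×ˢ Icc (-L) L ×ˢ {v : Fin m → ℂ | vs v = 1}) :=
    isCompact_Icc.prod (isCompact_Icc.prod isCompact_sphere)
  obtain ⟨⟨l₀, c₀, v₀⟩, ⟨h1, -, h3⟩, φ, hφ, hlim⟩ := hK.tendsto_subseq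
    (x := fun k => (lam k, c k, v k)) fun k => ⟨⟨hlam k, hM k⟩, abs_le.1 (hc k), hv k⟩
  refine ⟨l₀, c₀, v₀, hμ.trans_le h1.1, h3, ?_⟩
  have key : ∀ n : ℕ, ∀ᵐ x, x ∈ Icc (-(n : ℝ)) n ∩ {x | hs (W x) ≤ n} →
      vs (W x *ᵥ v₀ - (soliton β⁻¹ l₀ c₀ x : ℂ) • v₀) = 0 := by
    intro n
    set E := Icc (-(n : ℝ)) n ∩ {x | hs (W x) ≤ n} with hE
    have hEm : MeasurableSet E := measurableSet_E hW.meas _ _ _
    have hlimI : Tendsto (fun k => ∫ x in E,
        vs (W x *ᵥ v (φ k) - (soliton β⁻¹ (lam (φ k)) (c (φ k)) x : ℂ) • v (φ k))) atTop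
        (𝓝 (∫ x in E, vs (W x *ᵥ v₀ - (soliton β⁻¹ l₀ c₀ x : ℂ) • v₀))) := by
      refine tendsto_integral_of_dominated_convergence
        (fun _ => 2 * (n : ℝ) + 2 * ((β⁻¹ + 1) * M ^ 2) ^ 2)
        (fun k => (measurable_err hW.meas _ _ _ _).aestronglyMeasurable)
        (integrableOn_const (volume_E_lt W _ _ _).ne) (fun k => ?_)
        (Eventually.of_forall fun x => ?_)
      · refine (ae_restrict_iff' hEm).2 (Eventually.of_forall fun x hx => ?_)
        rw [Real.norm_eq_abs, abs_of_nonneg (vs_nonneg _)]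
        exact err_le (hv _) hr0 (hμ.le.trans (hlam _)) (hM _) _ x hx.2
      · exact tendsto_err (W x) β⁻¹ x hlim
    have hzero : Tendsto (fun k => q * (1 / ((φ k : ℝ) + 1))) atTop (𝓝 0) := by
      have := (tendsto_one_div_add_atTop_nhds_zero_nat (𝕜 := ℝ)).comp hφ.tendsto_atTop
      simpa using this.const_mul q
    have hle : ∫ x in E, vs (W x *ᵥ v₀ - (soliton β⁻¹ l₀ c₀ x : ℂ) • v₀) ≤ 0 := by
      refine le_of_tendsto_of_tendsto hlimI hzero ?_
      obtain ⟨k₀, hk₀⟩ := exists_nat_gt ((n : ℝ) + L)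
      refine eventually_atTop.2 ⟨k₀, fun k hk => le_trans ?_ (hint (φ k))⟩
      have hk1 : (k₀ : ℝ) ≤ φ k := Nat.cast_le.2 (hk.trans (hφ.id_le k))
      refine setIntegral_mono_set
        (integrableOn_err hW.meas (hv _) hr0 (hμ.le.trans (hlam _)) (hM _) _ _ _ _)
        (Eventually.of_forall fun _ => vs_nonneg _) ?_
      refine LE.le.eventuallyLE fun x hx => ?_
      have h4 := abs_le.1 (hc (φ k))
      have h5 : 0 ≤ L := (abs_nonneg _).trans (hc 0)
      have h6 : 0 ≤ q * m := by positivity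
      have h7 : hs (W x) ≤ n := hx.2
      refine ⟨⟨by linarith [hx.1.1], by linarith [hx.1.2]⟩, ?_⟩
      change hs (W x) ≤ _
      linarith
    have h0 := (setIntegral_eq_zero_iff_of_nonneg_ae (Eventually.of_forall fun _ => vs_nonneg _)
      (integrableOn_err hW.meas h3 hr0 (hμ.le.trans h1.1) h1.2 c₀ _ _ _)).1
      (le_antisymm hle (integral_nonneg fun _ => vs_nonneg _))
    exact (ae_restrict_iff' hEm).1 h0
  filter_upwards [ae_all_iff.2 key] with x hx
  obtain ⟨n, hn⟩ := exists_nat_gt (|x| + hs (W x))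
  have h4 := abs_nonneg x
  have h5 := hs_nonneg (W x)
  have h6 := abs_le.1 (show |x| ≤ n by linarith)
  exact sub_eq_zero.1 (vs_eq_zero.1 (hx n ⟨h6, show hs (W x) ≤ n by linarith⟩))

end Crest.Agent.R332
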