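import Crest.Agent.R332.Basic

/-!
# Row 332: the truncated Riccati flow (`OdeStmt`)
-/

set_option autoImplicit false

open Matrix Set Filter Topology Metric
open scoped ComplexOrder NNReal

noncomputable section

namespace Crest.Agent.R332

namespace Ode

section Gen

variable {A : Type} [NormedRing A] [NormedAlgebra ℝ A]

/-- Lipschitz cutoff -/
def ch (R : ℝ) (N : A) : ℝ := max 0 (min 1 (R + 1 - ‖N‖))

/-- truncated Riccati field -/
def fld (R : ℝ) (C N : A) : A := ch R N • (C - N * N)

omit [NormedAlgebra ℝ A] in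
theorem ch_nonneg (R : ℝ) (N : A) : 0 ≤ ch R N := le_max_left _ _

omit [NormedAlgebra ℝ A] in
theorem ch_le_one (R : ℝ) (N : A) : ch R N ≤ 1 := max_le zero_le_one (min_le_left _ _)

omit [NormedAlgebra ℝ A] in
theorem ch_eq_one {R : ℝ} {N : A} (h : ‖N‖ ≤ R) : ch R N = 1 := by
  unfold ch
  rw [min_eq_left (by linarith), max_eq_right zero_le_one]

omit [NormedAlgebra ℝ A] in
theorem ch_eq_zero {R : ℝ} {N : A} (h : R + 1 ≤ ‖N‖) : ch R N = 0 := by
  unfold ch
  exact max_eq_left ((min_le_right _ _).trans (by linarith))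

omit [NormedAlgebra ℝ A] in
theorem ch_lip (R : ℝ) (N M : A) : |ch R N - ch R M| ≤ ‖N - M‖ := by
  unfold ch
  have h1 := abs_norm_sub_norm_le N M
  rw [abs_le] at h1 ⊢
  constructor <;> simp only [max_def, min_def] <;> split_ifs <;> linarith [h1.1, h1.2]

theorem norm_ch_smul_le (R : ℝ) (N X : A) : ‖ch R N • X‖ ≤ ‖X‖ := by
  rw [norm_smul, Real.norm_of_nonneg (ch_nonneg R N)]
  exact mul_le_of_le_one_left (norm_nonneg _) (ch_le_one R N)

omit [NormedAlgebra ℝ A] in
theorem norm_sub_sq_le {R : ℝ} (C : A) {N : A} (h : ‖N‖ ≤ R + 1) :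
    ‖C - N * N‖ ≤ ‖C‖ + (R + 1) ^ 2 := by
  have h1 := norm_sub_le C (N * N)
  have h2 := norm_mul_le N N
  nlinarith [norm_nonneg N]

theorem norm_fld_le (R : ℝ) (C N : A) : ‖fld R C N‖ ≤ ‖C‖ + (R + 1) ^ 2 := by
  unfold fld
  rcases le_total ‖N‖ (R + 1) with h | h
  · exact (norm_ch_smul_le _ _ _).trans (norm_sub_sq_le C h)
  · rw [ch_eq_zero h, zero_smul, norm_zero]; positivity

theorem fld_lip {R : ℝ} (hR : 0 ≤ R) (C N M : A) :
    ‖fld R C N - fld R C M‖ ≤ (‖C‖ + (R + 1) ^ 2 + 2 * (R + 1)) * ‖N - M‖ := by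
  have key : ∀ N M : A, ‖N‖ ≤ R + 1 →
      ‖(ch R N - ch R M) • (C - N * N)‖ ≤ (‖C‖ + (R + 1) ^ 2) * ‖N - M‖ := fun N M h => by
    rw [norm_smul, Real.norm_eq_abs, mul_comm]
    exact mul_le_mul (norm_sub_sq_le C h) (ch_lip R N M) (abs_nonneg _) (by positivity)
  have key2 : ∀ N M : A, R + 1 ≤ ‖M‖ →
      ‖fld R C N - fld R C M‖ ≤ (‖C‖ + (R + 1) ^ 2 + 2 * (R + 1)) * ‖N - M‖ := fun N M h => by
    unfold fld
    rcases le_total ‖N‖ (R + 1) with h' | h'
    · have := key N M h'
      rw [ch_eq_zero h, sub_zero] at this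
      rw [ch_eq_zero h, zero_smul, sub_zero]
      refine this.trans (mul_le_mul_of_nonneg_right (by linarith) (norm_nonneg _))
    · rw [ch_eq_zero h, ch_eq_zero h', zero_smul, zero_smul, sub_zero, norm_zero]
      positivity
  rcases le_total ‖M‖ (R + 1) with hM | hM
  · rcases le_total ‖N‖ (R + 1) with hN | hN
    · have e : fld R C N - fld R C M =
          (ch R N - ch R M) • (C - N * N) - ch R M • (M * (N - M) + (N - M) * N) := by
        unfold fld
        rw [show M * (N - M) + (N - M) * N = (C - M * M) - (C - N * N) by noncomm_ring]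
        module
      rw [e]
      have h1 := key N M hN
      have h2 := norm_ch_smul_le R M (M * (N - M) + (N - M) * N)
      have h3 := norm_add_le (M * (N - M)) ((N - M) * N)
      have h4 := norm_mul_le M (N - M)
      have h5 := norm_mul_le (N - M) N
      have h6 := mul_le_mul_of_nonneg_right hM (norm_nonneg (N - M))
      have h7 := mul_le_mul_of_nonneg_left hN (norm_nonneg (N - M))
      refine (norm_sub_le _ _).trans ?_
      nlinarith
    · rw [norm_sub_rev, norm_sub_rev N]
      exact key2 M N hN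
  · exact key2 N M hM

theorem fld_sub (R : ℝ) (C C' N : A) : ‖fld R C N - fld R C' N‖ ≤ ‖C - C'‖ := by
  unfold fld
  rw [← smul_sub, sub_sub_sub_cancel_right]
  exact norm_ch_smul_le _ _ _

theorem lipschitz_fld {R : ℝ} (hR : 0 ≤ R) (C W : A) :
    LipschitzWith (‖C‖ + (R + 1) ^ 2 + 2 * (R + 1)).toNNReal (fun N => fld R C N - W) := by
  refine LipschitzWith.of_dist_le_mul fun N M => ?_
  rw [dist_eq_norm, dist_eq_norm, sub_sub_sub_cancel_right, Real.coe_toNNReal _ (by positivity)]
  exact fld_lip hR C N M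

theorem exists_flow [CompleteSpace A] {R : ℝ} (hR : 0 ≤ R) (C K : A) {W : ℝ → A}
    (hW : Continuous W) {a b : ℝ} (hab : a ≤ b) :
    ∃ N : ℝ → A, N a = K ∧
      ∀ x ∈ Icc a b, HasDerivWithinAt N (fld R C (N x) - W x) (Icc a b) x := by
  obtain ⟨B, hB⟩ := (isCompact_Icc (a := a) (b := b)).exists_bound_of_continuousOn hW.continuousOn
  have hB0 : 0 ≤ B := (norm_nonneg _).trans (hB a (left_mem_Icc.2 hab))
  set L : ℝ := ‖C‖ + (R + 1) ^ 2 + B with hL
  have hL0 : 0 ≤ L := by positivity
  have hpl : IsPicardLindelof (fun x N => fld R C N - W x) (⟨a, left_mem_Icc.2 hab⟩ : Icc a b) K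
      (L * (b - a)).toNNReal 0 L.toNNReal (‖C‖ + (R + 1) ^ 2 + 2 * (R + 1)).toNNReal :=
    { lipschitzOnWith := fun t _ => (lipschitz_fld hR C (W t)).lipschitzOnWith
      continuousOn := fun x _ => (continuous_const.sub hW).continuousOn
      norm_le := fun t ht x _ => by
        rw [Real.coe_toNNReal _ hL0]
        exact (norm_sub_le _ _).trans (add_le_add (norm_fld_le R C x) (hB t ht))
      mul_max_le := by
        rw [Real.coe_toNNReal _ hL0, Real.coe_toNNReal _ (mul_nonneg hL0 (by linarith))]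
        simp [hab] }
  exact hpl.exists_eq_forall_mem_Icc_hasDerivWithinAt₀

theorem toIci {E : Type} [NormedAddCommGroup E] [NormedSpace ℝ E] {f : ℝ → E} {f' : E}
    {a b x : ℝ} (hx : x ∈ Ico a b) (h : HasDerivWithinAt f f' (Icc a b) x) :
    HasDerivWithinAt f f' (Ici x) x :=
  h.mono_of_mem_nhdsWithin (Icc_mem_nhdsGE_of_mem hx)

theorem eq_zero_of_lin {E : Type} [NormedAddCommGroup E] [NormedSpace ℝ E] {f f' : ℝ → E}
    {a b L : ℝ} (h : ∀ x ∈ Icc a b, HasDerivWithinAt f (f' x) (Icc a b) x) (h0 : f a = 0)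
    (hb : ∀ x ∈ Icc a b, ‖f' x‖ ≤ L * ‖f x‖) : ∀ x ∈ Icc a b, f x = 0 :=
  eq_zero_of_abs_deriv_le_mul_abs_self_of_eq_zero_right (fun x hx => (h x hx).continuousWithinAt)
    (fun x hx => toIci hx (h x (Ico_subset_Icc_self hx))) h0
    fun x hx => hb x (Ico_subset_Icc_self hx)

/-- invariance of a closed cone under `D' = D E + E D + W` -/
theorem inv_cone [ProperSpace A] {S : Set A} (hS : IsClosed S) {D E W : ℝ → A} {a b B : ℝ}
    (hD : ∀ x ∈ Icc a b, HasDerivWithinAt D (D x * E x + E x * D x + W x) (Icc a b) x)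
    (hE : ∀ x ∈ Icc a b, ‖E x‖ ≤ B)
    (hcone : ∀ x ∈ Icc a b, ∀ P ∈ S, ∀ t : ℝ, 0 ≤ t →
      (1 + t • E x) * P * (1 + t • E x) + t • W x ∈ S)
    (h0 : D a ∈ S) : ∀ x ∈ Icc a b, D x ∈ S := by
  have hne : S.Nonempty := ⟨_, h0⟩
  have hDc : ContinuousOn D (Icc a b) := fun x hx => (hD x hx).continuousWithinAt
  have key := le_gronwallBound_of_liminf_deriv_right_le (f := fun x => infDist (D x) S)
    (f' := fun x => 2 * B * infDist (D x) S) (δ := 0) (K := 2 * B) (ε := 0) (a := a) (b := b)
    ((continuous_infDist_pt S).comp_continuousOn hDc) ?_ (infDist_zero_of_mem h0).le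
    (fun x _ => by simp)
  · intro x hx
    have h1 := key x hx
    rw [gronwallBound_ε0_δ0] at h1
    exact (hS.mem_iff_infDist_zero hne).2 (le_antisymm h1 infDist_nonneg)
  · intro x hx r hr
    have hx' := Ico_subset_Icc_self hx
    obtain ⟨P, hP, hPd⟩ := hS.exists_infDist_eq_dist hne (D x)
    have h1 : HasDerivWithinAt (fun z : ℝ => z - x) 1 (Ici x) x :=
      ((hasDerivAt_id x).sub_const x).hasDerivWithinAt
    have h2 : HasDerivWithinAt (fun z : ℝ => 1 + (z - x) • E x) (E x) (Ici x) x := by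
      simpa using (h1.smul_const (E x)).const_add 1
    have h3 : HasDerivWithinAt
        (fun z : ℝ => D z - ((1 + (z - x) • E x) * P * (1 + (z - x) • E x) + (z - x) • W x))
        ((D x - P) * E x + E x * (D x - P)) (Ici x) x := by
      have := (toIci hx (hD x hx')).sub (((h2.mul_const P).mul h2).add (h1.smul_const (W x)))
      refine this.congr_deriv ?_
      simp only [sub_self, zero_smul, add_zero, mul_one, one_mul, one_smul]
      noncomm_ring
    have h4 : ‖(D x - P) * E x + E x * (D x - P)‖ < r := by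
      refine lt_of_le_of_lt ?_ hr
      simp only [hPd, dist_eq_norm]
      have := hE x hx'
      have h5 := norm_mul_le (D x - P) (E x)
      have h6 := norm_mul_le (E x) (D x - P)
      have h7 := mul_le_mul_of_nonneg_left this (norm_nonneg (D x - P))
      refine (norm_add_le _ _).trans ?_
      nlinarith
    refine ((h3.liminf_right_slope_norm_le h4).and_eventually self_mem_nhdsWithin).mono ?_
    rintro z ⟨hz, hxz⟩
    have hxz' : 0 < z - x := sub_pos.2 hxz
    refine lt_of_le_of_lt (mul_le_mul_of_nonneg_left ?_ (inv_pos.2 hxz').le) hz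
    simp only [sub_self, zero_smul, add_zero, mul_one, one_mul]
    rw [hPd, dist_eq_norm]
    have := infDist_le_dist_of_mem (x := D z) (hcone x hx' P hP (z - x) hxz'.le)
    rw [dist_eq_norm] at this
    linarith

theorem continuous_gronwall (L x : ℝ) :
    Continuous fun p : ℝ × ℝ => gronwallBound p.1 L p.2 x := by
  unfold gronwallBound
  split_ifs <;> fun_prop

theorem continuous_flow {Z : Type} [TopologicalSpace Z] {R : ℝ} (hR : 0 ≤ R) {a b : ℝ}
    (hab : a ≤ b) {C : Z → A} (hC : Continuous C) {W : Z → ℝ → A}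
    (hW : Continuous fun p : Z × ℝ => W p.1 p.2) {N : Z → ℝ → A}
    (h0 : Continuous fun z => N z a)
    (hN : ∀ z, ∀ x ∈ Icc a b, HasDerivWithinAt (N z) (fld R (C z) (N z x) - W z x) (Icc a b) x) :
    Continuous fun z => N z b := by
  let F : C(Z × Icc a b, A) := ⟨fun p => W p.1 p.2,
    hW.comp (continuous_fst.prodMk (continuous_subtype_val.comp continuous_snd))⟩
  refine continuous_iff_continuousAt.2 fun z₀ => ?_
  rw [ContinuousAt, tendsto_iff_dist_tendsto_zero]
  set L := (‖C z₀‖ + (R + 1) ^ 2 + 2 * (R + 1)).toNNReal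
  have hb : ∀ z, dist (N z b) (N z₀ b) ≤ gronwallBound (dist (N z a) (N z₀ a)) L
      (dist (C z) (C z₀) + dist (F.curry z) (F.curry z₀)) (b - a) := fun z => by
    have := dist_le_of_approx_trajectories_ODE (v := fun x M => fld R (C z₀) M - W z₀ x)
      (K := L) (f := N z) (g := N z₀) (f' := fun x => fld R (C z) (N z x) - W z x)
      (g' := fun x => fld R (C z₀) (N z₀ x) - W z₀ x) (a := a) (b := b)
      (εf := dist (C z) (C z₀) + dist (F.curry z) (F.curry z₀)) (εg := 0)
      (δ := dist (N z a) (N z₀ a))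
      (fun t => lipschitz_fld hR _ _) (fun x hx => (hN z x hx).continuousWithinAt)
      (fun x hx => toIci hx (hN z x (Ico_subset_Icc_self hx)))
      (fun x hx => (dist_sub_sub_le _ _ _ _).trans (add_le_add
        (by rw [dist_eq_norm, dist_eq_norm]; exact fld_sub _ _ _ _)
        (ContinuousMap.dist_apply_le_dist (f := F.curry z) (g := F.curry z₀)
          ⟨x, Ico_subset_Icc_self hx⟩)))
      (fun x hx => (hN z₀ x hx).continuousWithinAt)
      (fun x hx => toIci hx (hN z₀ x (Ico_subset_Icc_self hx)))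
      (fun x _ => by simp) le_rfl b (right_mem_Icc.2 hab)
    simpa using this
  refine squeeze_zero (fun _ => dist_nonneg) hb ?_
  have hc : Continuous fun z => gronwallBound (dist (N z a) (N z₀ a)) L
      (dist (C z) (C z₀) + dist (F.curry z) (F.curry z₀)) (b - a) :=
    (continuous_gronwall L (b - a)).comp (f := fun z => (dist (N z a) (N z₀ a),
      dist (C z) (C z₀) + dist (F.curry z) (F.curry z₀)))
      ((h0.dist continuous_const).prodMk ((hC.dist continuous_const).add
        (F.curry.continuous.dist continuous_const)))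
  have := hc.tendsto z₀
  simpa [gronwallBound_ε0_δ0] using this

end Gen

open scoped Matrix.Norms.Frobenius

variable {n : ℕ}

theorem norm_sq_eq (X : Mx n n) : ‖X‖ ^ 2 = hs X := by
  rw [frobenius_norm_def, ← Real.rpow_natCast, ← Real.rpow_mul (by positivity)]
  simp [hs]

theorem isClosed_psd : IsClosed {P : Mx n n | P.PosSemidef} := by
  have : {P : Mx n n | P.PosSemidef} = {P | Pᴴ = P} ∩ ⋂ v, {P | 0 ≤ qf P v} := by
    ext P
    simp only [mem_ofPred_eq, mem_inter_iff, mem_iInter]
    exact ⟨fun h => ⟨h.isHermitian, qf_nonneg h⟩, fun h => psd_of_qf h.1 h.2⟩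
  rw [this]
  refine (isClosed_eq (by fun_prop) continuous_id).inter (isClosed_iInter fun v => ?_)
  refine isClosed_le continuous_const ?_
  unfold qf
  fun_prop

theorem pos_lemma {D W : ℝ → Mx n n} {K : Mx n n} {c : ℝ → ℝ} {a b : ℝ} (hK : K.IsHermitian)
    (hD : ∀ x ∈ Icc a b, HasDerivWithinAt D
      (W x - c x • (K * D x + D x * K - D x * D x)) (Icc a b) x)
    (hc : ∀ x, |c x| ≤ 1) (hH : ∀ x ∈ Icc a b, (D x).IsHermitian) (hW : ∀ x, (W x).PosSemidef)
    (h0 : (D a).PosSemidef) : ∀ x ∈ Icc a b, (D x).PosSemidef := by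
  have : ProperSpace (Mx n n) := FiniteDimensional.proper_real _
  obtain ⟨B, hB⟩ := (isCompact_Icc (a := a) (b := b)).exists_bound_of_continuousOn
    (f := D) fun x hx => (hD x hx).continuousWithinAt
  refine inv_cone isClosed_psd (E := fun x => -(c x) • (K - (1 / 2 : ℝ) • D x)) (W := W)
    (B := ‖K‖ + B) (fun x hx => (hD x hx).congr_deriv ?_) (fun x hx => ?_)
    (fun x hx P hP t ht => ?_) h0
  · simp only [mul_smul_comm, smul_mul_assoc, mul_sub, sub_mul]
    module
  · rw [norm_smul, norm_neg, Real.norm_eq_abs]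
    refine (mul_le_of_le_one_left (norm_nonneg _) (hc x)).trans ((norm_sub_le _ _).trans ?_)
    rw [norm_smul]
    have := hB x hx
    have h2 := norm_nonneg (D x)
    norm_num
    linarith
  · have hE : (1 + t • -(c x) • (K - (1 / 2 : ℝ) • D x))ᴴ =
        1 + t • -(c x) • (K - (1 / 2 : ℝ) • D x) := by
      simp only [conjTranspose_add, conjTranspose_one, conjTranspose_smul, conjTranspose_sub,
        star_trivial, hK.eq, (hH x hx).eq]
    refine PosSemidef.add ?_ ((hW x).smul ht)
    have := PosSemidef.conjTranspose_mul_mul_same hP (1 + t • -(c x) • (K - (1 / 2 : ℝ) • D x))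
    rwa [hE] at this

end Ode

open Ode
open scoped Matrix.Norms.Frobenius

theorem odeStmt : OdeStmt := by
  intro n Z _ a b ρ K 𝒲 hab hK h𝒲 hKb hWp
  set R : ℝ := √(ρ ^ 2 * hs (1 : Mx n n)) with hRdef
  have hR : 0 ≤ R := Real.sqrt_nonneg _
  have hWc : ∀ z, Continuous (𝒲 z) := fun z => h𝒲.comp (Continuous.prodMk_right z)
  choose N hN0 hN using fun z => exists_flow hR (K z * K z) (K z) (hWc z) hab.le
  have hbd : ∀ z, ∃ B, ∀ x ∈ Icc a b, ‖N z x‖ ≤ B := fun z =>
    (isCompact_Icc (a := a) (b := b)).exists_bound_of_continuousOn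
      fun x hx => (hN z x hx).continuousWithinAt
  have hch : ∀ X : Mx n n, |ch R X| ≤ 1 := fun X => by
    rw [abs_of_nonneg (ch_nonneg R X)]; exact ch_le_one R X
  have hH : ∀ z, ∀ x ∈ Icc a b, (N z x).IsHermitian := fun z => by
    obtain ⟨B, hB⟩ := hbd z
    have key := eq_zero_of_lin (f := fun x => (N z x)ᴴ - N z x)
      (f' := fun x => -(ch R (N z x) •
        ((N z x)ᴴ * ((N z x)ᴴ - N z x) + ((N z x)ᴴ - N z x) * N z x))) (a := a) (b := b)
      (L := 2 * B) (fun x hx => ?_) (by simp only [hN0, (hKb z).1.isHermitian.eq, sub_self])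
      (fun x hx => ?_)
    · exact fun x hx => sub_eq_zero.1 (key x hx)
    · have h1 : HasDerivWithinAt (fun x => star (N z x))
          (star (fld R (K z * K z) (N z x) - 𝒲 z x)) (Icc a b) x := (hN z x hx).star
      refine (h1.sub (hN z x hx)).congr_deriv ?_
      simp only [fld, star_eq_conjTranspose, conjTranspose_sub, conjTranspose_smul,
        conjTranspose_mul, star_trivial, (hKb z).1.isHermitian.eq, (hWp z x).isHermitian.eq,
        mul_sub, sub_mul]
      module
    · rw [norm_neg]
      refine (norm_ch_smul_le _ _ _).trans ((norm_add_le _ _).trans ?_)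
      have h1 := norm_mul_le (N z x)ᴴ ((N z x)ᴴ - N z x)
      have h2 := norm_mul_le ((N z x)ᴴ - N z x) (N z x)
      rw [frobenius_norm_conjTranspose] at h1
      have h3 := mul_le_mul_of_nonneg_left (hB x hx) (norm_nonneg ((N z x)ᴴ - N z x))
      nlinarith
  refine ⟨N, hN0, ?_, fun z => hH z b (right_mem_Icc.2 hab.le), fun z v μ hv hw => ?_,
    fun z hz => ?_⟩
  · exact continuous_flow hR hab.le (C := fun z => K z * K z) (hK.mul hK) h𝒲
      (by simp only [hN0]; exact hK) hN
  · obtain ⟨B, hB⟩ := hbd z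
    set P : Mx n n := of fun i _ => v i with hP
    have hmul : ∀ X : Mx n n, X * P = of fun i _ => (X *ᵥ v) i := fun X => by
      ext i j
      simp [hP, Matrix.mul_apply, mulVec, dotProduct]
    have hKP : K z * P = μ • P := by
      rw [hmul, hv]; ext i j; simp [hP]
    have hWP : ∀ x, 𝒲 z x * P = 0 := fun x => by
      rw [hmul, hw]; ext i j; simp
    have key := eq_zero_of_lin (f := fun x => N z x * P - μ • P)
      (f' := fun x => -(ch R (N z x) • ((N z x + μ • 1) * (N z x * P - μ • P)))) (a := a) (b := b)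
      (L := B + ‖μ • (1 : Mx n n)‖) (fun x hx => ?_) (by simp only [hN0, hKP, sub_self])
      (fun x hx => ?_) b (right_mem_Icc.2 hab.le)
    · ext i
      have h1 := congrFun (congrFun (sub_eq_zero.1 key) i) i
      rw [hmul] at h1
      simpa [hP] using h1
    · refine (((hN z x hx).mul_const P).sub_const (μ • P)).congr_deriv ?_
      simp only [fld, sub_mul, smul_mul_assoc, hWP, add_mul, mul_sub, mul_smul_comm, one_mul,
        mul_assoc, hKP]
      module
    · rw [norm_neg]
      refine (norm_ch_smul_le _ _ _).trans ((norm_mul_le _ _).trans ?_)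
      exact mul_le_mul_of_nonneg_right ((norm_add_le _ _).trans (add_le_add (hB x hx) le_rfl))
        (norm_nonneg _)
  · have hKH := (hKb z).1.isHermitian
    have hsub : ∀ x ∈ Icc a b, (K z - N z x).PosSemidef :=
      pos_lemma (D := fun x => K z - N z x) (W := 𝒲 z) (c := fun x => ch R (N z x)) hKH
        (fun x hx => ((hN z x hx).const_sub (K z)).congr_deriv (by
          simp only [fld, mul_sub, sub_mul]
          module)) (fun x => hch _) (fun x hx => hKH.sub (hH z x hx)) (hWp z)
        (by simp only [hN0, sub_self]; exact PosSemidef.zero)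
    have hrefl : ∀ x ∈ Icc a b, a + b - x ∈ Icc a b := fun x hx =>
      ⟨by linarith [hx.2], by linarith [hx.1]⟩
    have hadd' : ∀ x ∈ Icc a b, (K z + N z (a + b - x)).PosSemidef :=
      pos_lemma (D := fun x => K z + N z (a + b - x)) (W := fun x => 𝒲 z (a + b - x))
        (c := fun x => ch R (N z (a + b - x))) hKH
        (fun x hx => (((hN z _ (hrefl x hx)).scomp x
          ((hasDerivAt_id x).const_sub (a + b)).hasDerivWithinAt hrefl).const_add (K z)).congr_deriv
          (by
            simp only [fld, mul_add, add_mul]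
            module)) (fun x => hch _) (fun x hx => hKH.add (hH z _ (hrefl x hx)))
        (fun x => hWp z _) (by simpa using hz)
    intro x hx
    have hadd : (K z + N z x).PosSemidef := by simpa using hadd' _ (hrefl x hx)
    refine ⟨hadd, hsub x hx, fun i j => ?_⟩
    have hb1 : Bd (N z x) ρ := by
      have := PosSemidef.add (hKb z).2 (hsub x hx)
      unfold Bd
      convert this using 1
      abel
    have hb2 : Bd (-N z x) ρ := by
      have := PosSemidef.add (hKb z).2 hadd
      unfold Bd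
      convert this using 1
      abel
    have hhs := hs_mul_le_left (vs_mulVec_le_of_bd hb1 hb2) (1 : Mx n n)
    rw [Matrix.mul_one, ← norm_sq_eq] at hhs
    have hNR : ‖N z x‖ ≤ R := Real.le_sqrt_of_sq_le hhs
    have h1 := hN z x hx
    rw [fld, ch_eq_one hNR, one_smul] at h1
    let e : Mx n n →ₗ[ℝ] ℂ :=
      { toFun := fun X => X i j, map_add' := fun _ _ => rfl, map_smul' := fun _ _ => rfl }
    exact (LinearMap.toContinuousLinearMap e).hasFDerivAt.comp_hasDerivWithinAt x h1

end Crest.Agent.R332
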