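import Crest.Agent.R332.Defs

/-!
# Row 332: scalar integrals and constants (`ScalStmt`)
-/

set_option autoImplicit false

open MeasureTheory Set Filter Topology
open Crest.MathPhysics.LiebThirring

noncomputable section

namespace Crest.Agent.R332

namespace Scal

/-- Tonelli for real integrals -/
theorem tonelli {s t : Set ℝ} (hs : MeasurableSet s) (ht : MeasurableSet t) {f : ℝ → ℝ → ℝ}
    {g : ℝ → ℝ} (hm : Measurable (Function.uncurry f)) (h0 : ∀ x ∈ s, ∀ y ∈ t, 0 ≤ f x y)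
    (hi : ∀ y ∈ t, IntegrableOn (fun x => f x y) s ∧ ∫ x in s, f x y = g y)
    (hg : IntegrableOn g t) :
    IntegrableOn (fun x => ∫ y in t, f x y) s ∧ ∫ x in s, ∫ y in t, f x y = ∫ y in t, g y := by
  have h1 : Integrable (Function.uncurry f) ((volume.restrict s).prod (volume.restrict t)) := by
    rw [integrable_prod_iff' hm.aestronglyMeasurable]
    refine ⟨ae_restrict_of_forall_mem ht fun y hy => (hi y hy).1, ?_⟩
    refine IntegrableOn.congr_fun hg (fun y hy => ?_) ht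
    rw [← (hi y hy).2]
    exact setIntegral_congr_fun hs fun x hx => (Real.norm_of_nonneg (h0 x hx y hy)).symm
  refine ⟨h1.integral_prod_left, ?_⟩
  rw [integral_integral_swap h1]
  exact setIntegral_congr_fun ht fun y hy => (hi y hy).2

variable {β : ℝ}

theorem Ib_eq (h0 : 0 < β) (h1 : β < 1) :
    Ib β = ∫ t in Ioi (0 : ℝ), Real.rpowIntegrand₀₁ β t 1 := by
  refine setIntegral_congr_fun measurableSet_Ioi fun t ht => ?_
  rw [Real.rpowIntegrand₀₁_eq_pow_div ⟨h0, h1⟩ (le_of_lt ht) zero_le_one, mul_one, add_comm]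

theorem Ib_pos (h0 : 0 < β) (h1 : β < 1) : 0 < Ib β := by
  rw [Ib_eq h0 h1]
  exact Real.integral_rpowIntegrand₀₁_one_pos ⟨h0, h1⟩

theorem inv_int (h0 : 0 < β) (h1 : β < 1) {x : ℝ} (hx : 0 < x) :
    IntegrableOn (fun u : ℝ => u ^ (β - 1) * (u + x)⁻¹) (Ioi 0) ∧
      ∫ u in Ioi (0 : ℝ), u ^ (β - 1) * (u + x)⁻¹ = Ib β * x ^ (β - 1) := by
  have he : EqOn (fun u : ℝ => Real.rpowIntegrand₀₁ β u x * x⁻¹)
      (fun u : ℝ => u ^ (β - 1) * (u + x)⁻¹) (Ioi 0) := fun u hu => by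
    simp only
    rw [Real.rpowIntegrand₀₁_eq_pow_div ⟨h0, h1⟩ (le_of_lt hu) hx.le]
    field_simp
  refine ⟨IntegrableOn.congr_fun
    ((Real.integrableOn_rpowIntegrand₀₁_Ioi ⟨h0, h1⟩ hx.le).mul_const x⁻¹) he
    measurableSet_Ioi, ?_⟩
  rw [← setIntegral_congr_fun measurableSet_Ioi he, integral_mul_const,
    Real.integral_rpowIntegrand₀₁_eq_rpow_mul_const ⟨h0, h1⟩ hx.le, ← Ib_eq h0 h1,
    Real.rpow_sub_one hx.ne']
  field_simp

theorem int_rpow {r a : ℝ} (hr : -1 < r) (ha : 0 ≤ a) :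
    IntegrableOn (fun x : ℝ => x ^ r) (Ioc 0 a) ∧
      ∫ x in Ioc (0 : ℝ) a, x ^ r = a ^ (r + 1) / (r + 1) := by
  refine ⟨(intervalIntegrable_iff_integrableOn_Ioc_of_le ha).1
    (intervalIntegral.intervalIntegrable_rpow' hr), ?_⟩
  rw [← intervalIntegral.integral_of_le ha, integral_rpow (Or.inl hr),
    Real.zero_rpow (by linarith), sub_zero]

theorem log_int (h0 : 0 < β) (h1 : β < 1) {a : ℝ} (ha : 0 ≤ a) :
    IntegrableOn (fun u : ℝ => u ^ (β - 1) * (Real.log (a + u) - Real.log u)) (Ioi 0) ∧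
      ∫ u in Ioi (0 : ℝ), u ^ (β - 1) * (Real.log (a + u) - Real.log u) = Ib β * a ^ β / β := by
  obtain ⟨h2, h3⟩ := int_rpow (r := β - 1) (by linarith) ha
  obtain ⟨h4, h5⟩ := tonelli (s := Ioi 0) (t := Ioc 0 a) measurableSet_Ioi measurableSet_Ioc
    (f := fun u x => u ^ (β - 1) * (u + x)⁻¹) (g := fun x => Ib β * x ^ (β - 1))
    (by unfold Function.uncurry; fun_prop)
    (fun u hu x hx => by have := hu.out; have := hx.1; positivity)
    (fun x hx => inv_int h0 h1 hx.1) (h2.const_mul _)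
  have he : EqOn (fun u : ℝ => ∫ x in Ioc 0 a, u ^ (β - 1) * (u + x)⁻¹)
      (fun u : ℝ => u ^ (β - 1) * (Real.log (a + u) - Real.log u)) (Ioi 0) := fun u hu => by
    have hu' : 0 < u := hu
    simp only
    rw [integral_const_mul, ← intervalIntegral.integral_of_le ha,
      intervalIntegral.integral_comp_add_left (fun x => x⁻¹), add_zero,
      integral_inv_of_pos hu' (by positivity), Real.log_div (by positivity) hu'.ne', add_comm]
  refine ⟨h4.congr_fun he measurableSet_Ioi, ?_⟩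
  rw [← setIntegral_congr_fun measurableSet_Ioi he, h5, integral_const_mul, h3, sub_add_cancel,
    mul_div_assoc]

theorem log_nonneg {a u : ℝ} (ha : 0 ≤ a) (hu : 0 < u) : 0 ≤ Real.log (a + u) - Real.log u :=
  sub_nonneg.2 (Real.log_le_log hu (by linarith))

theorem meas_log : Measurable (Function.uncurry fun u x : ℝ =>
    u ^ (β - 1) * (Real.log (x + u) - Real.log u)) := by
  unfold Function.uncurry
  fun_prop

theorem prim5 {b u : ℝ} (hb : 0 ≤ b) (hu : 0 < u) :
    ∫ x in Ioc 0 b, (Real.log (x + u) - Real.log u) =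
      (b + u) * (Real.log (b + u) - Real.log u) - b := by
  rw [← intervalIntegral.integral_of_le hb]
  have hd : ∀ x ∈ uIcc 0 b, HasDerivAt (fun x => (x + u) * (Real.log (x + u) - Real.log u) - x)
      (Real.log (x + u) - Real.log u) x := fun x hx => by
    rw [uIcc_of_le hb] at hx
    have hxu : 0 < x + u := by linarith [hx.1]
    have h1 : HasDerivAt (fun x => x + u) 1 x := (hasDerivAt_id x).add_const u
    refine ((h1.mul ((h1.log hxu.ne').sub_const (Real.log u))).sub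
      (hasDerivAt_id x)).congr_deriv ?_
    field_simp
    ring
  rw [intervalIntegral.integral_eq_sub_of_hasDerivAt hd]
  · simp
  · refine ContinuousOn.intervalIntegrable fun x hx => ?_
    rw [uIcc_of_le hb] at hx
    have hxu : 0 < x + u := by linarith [hx.1]
    exact (ContinuousAt.sub (ContinuousAt.log (f := fun x => x + u) (by fun_prop) hxu.ne')
      continuousAt_const).continuousWithinAt

theorem item5 (h0 : 0 < β) (h1 : β < 1) {b ε R : ℝ} (hb : 0 ≤ b) (hε : 0 < ε) (hR : ε ≤ R) :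
    (1 + β) * ∫ u in ε..R, u ^ (β - 1) * ((b + u) * (Real.log (b + u) - Real.log u) - b) ≤
      β⁻¹ * Ib β * b ^ (1 + β) := by
  obtain ⟨h2, h3⟩ := int_rpow (r := β) (by linarith) hb
  obtain ⟨h4, h5⟩ := tonelli (s := Ioi 0) (t := Ioc 0 b) measurableSet_Ioi measurableSet_Ioc
    (f := fun u x => u ^ (β - 1) * (Real.log (x + u) - Real.log u))
    (g := fun x => Ib β / β * x ^ β) meas_log
    (fun u hu x hx => mul_nonneg (Real.rpow_nonneg (le_of_lt hu) _) (log_nonneg hx.1.le hu))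
    (fun x hx => by
      obtain ⟨h6, h7⟩ := log_int h0 h1 hx.1.le
      exact ⟨h6, by rw [h7]; ring⟩) (h2.const_mul _)
  have he : EqOn (fun u : ℝ => ∫ x in Ioc 0 b, u ^ (β - 1) * (Real.log (x + u) - Real.log u))
      (fun u : ℝ => u ^ (β - 1) * ((b + u) * (Real.log (b + u) - Real.log u) - b)) (Ioi 0) :=
    fun u hu => by simp only; rw [integral_const_mul, prim5 hb hu]
  have hsub : Ioc ε R ⊆ Ioi 0 := fun u hu => hε.trans hu.1
  have h8 : ∫ u in ε..R, u ^ (β - 1) * ((b + u) * (Real.log (b + u) - Real.log u) - b) ≤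
      Ib β / β * (b ^ (β + 1) / (β + 1)) := by
    rw [intervalIntegral.integral_of_le hR,
      ← setIntegral_congr_fun measurableSet_Ioc (he.mono hsub), ← h3, ← integral_const_mul, ← h5]
    refine setIntegral_mono_set h4 (ae_restrict_of_forall_mem measurableSet_Ioi fun u hu => ?_)
      hsub.eventuallyLE
    exact setIntegral_nonneg measurableSet_Ioc fun x hx =>
      mul_nonneg (Real.rpow_nonneg (le_of_lt hu) _) (log_nonneg hx.1.le hu)
  refine (mul_le_mul_of_nonneg_left h8 (by linarith)).trans (le_of_eq ?_)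
  rw [add_comm β 1]
  field_simp

theorem prim6 {κ u : ℝ} (hκ : 0 < κ) (hu : 0 < u) :
    ∫ n in Ioc (-κ) κ, (Real.log (κ ^ 2 - n ^ 2 + u) - Real.log u) =
      2 * (eta (√(κ ^ 2 + u) + κ) - eta (√(κ ^ 2 + u) - κ) - κ * Real.log u) := by
  have hle : -κ ≤ κ := by linarith
  rw [← intervalIntegral.integral_of_le hle]
  set l := √(κ ^ 2 + u) with hl
  have hl2 : l ^ 2 = κ ^ 2 + u := Real.sq_sqrt (by positivity)
  have hlκ : κ < l := Real.lt_sqrt_of_sq_lt (by linarith)
  have heta : ∀ t : ℝ, 0 < t → HasDerivAt eta (Real.log t) t := fun t ht => by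
    refine (((hasDerivAt_id t).mul (Real.hasDerivAt_log ht.ne')).sub
      (hasDerivAt_id t)).congr_deriv ?_
    simp only [id]
    field_simp
    ring
  have hd : ∀ n ∈ uIcc (-κ) κ, HasDerivAt (fun n => eta (l + n) - eta (l - n) - n * Real.log u)
      (Real.log (κ ^ 2 - n ^ 2 + u) - Real.log u) n := fun n hn => by
    rw [uIcc_of_le hle] at hn
    have hp : 0 < l + n := by linarith [hn.1]
    have hm : 0 < l - n := by linarith [hn.2]
    have h1 := (heta _ hp).comp n ((hasDerivAt_id n).const_add l)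
    have h2 := (heta _ hm).comp n ((hasDerivAt_id n).const_sub l)
    refine ((h1.sub h2).sub ((hasDerivAt_id n).mul_const (Real.log u))).congr_deriv ?_
    rw [show κ ^ 2 - n ^ 2 + u = (l + n) * (l - n) by linear_combination -hl2,
      Real.log_mul hp.ne' hm.ne']
    ring
  rw [intervalIntegral.integral_eq_sub_of_hasDerivAt hd]
  · rw [← sub_eq_add_neg, sub_neg_eq_add]
    ring
  · refine ContinuousOn.intervalIntegrable fun n hn => ?_
    rw [uIcc_of_le hle] at hn
    have h1 : 0 < κ ^ 2 - n ^ 2 + u := by nlinarith [hn.1, hn.2]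
    exact (ContinuousAt.sub (ContinuousAt.log (f := fun n => κ ^ 2 - n ^ 2 + u) (by fun_prop)
      h1.ne') continuousAt_const).continuousWithinAt

theorem cont_J (h0 : 0 < β) (κ : ℝ) : Continuous fun n : ℝ => (κ ^ 2 - n ^ 2) ^ β :=
  Continuous.rpow_const (by fun_prop) fun _ => Or.inr h0.le

theorem J_scaled {κ : ℝ} (hκ : 0 < κ) :
    ∫ n in Ioc (-κ) κ, (κ ^ 2 - n ^ 2) ^ β = Jb β * κ ^ (1 + 2 * β) := by
  have h1 := intervalIntegral.smul_integral_comp_mul_left (a := -1) (b := 1)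
    (fun n : ℝ => (κ ^ 2 - n ^ 2) ^ β) κ
  rw [mul_neg, mul_one] at h1
  rw [← intervalIntegral.integral_of_le (by linarith), ← h1, Jb,
    intervalIntegral.integral_congr (g := fun t => κ ^ (2 * β) * (1 - t ^ 2) ^ β) fun t ht => ?_]
  · rw [intervalIntegral.integral_const_mul, Real.rpow_add hκ, Real.rpow_one, smul_eq_mul]
    ring
  · rw [uIcc_of_le (by norm_num)] at ht
    simp only
    rw [show κ ^ 2 - (κ * t) ^ 2 = κ ^ 2 * (1 - t ^ 2) by ring,
      Real.mul_rpow (by positivity) (by nlinarith [ht.1, ht.2]), Real.rpow_mul hκ.le,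
      Real.rpow_two]

/-- exhaustion of `(0, ∞)` -/
theorem exhaust {F : ℝ → ℝ} (hF : IntegrableOn F (Ioi 0)) (h0 : ∀ u ∈ Ioi (0 : ℝ), 0 ≤ F u)
    {η : ℝ} (hη : 0 < η) : ∃ ε₀ R₀ : ℝ, 0 < ε₀ ∧ ∀ ε R : ℝ, 0 < ε → ε ≤ ε₀ → R₀ ≤ R →
      (∫ u in Ioi 0, F u) - η ≤ ∫ u in ε..R, F u := by
  have hU : ⋃ n : ℕ, Ioc (1 / ((n : ℝ) + 1)) ((n : ℝ) + 1) = Ioi 0 := by
    ext u
    simp only [mem_iUnion, mem_Ioc, mem_Ioi]
    constructor
    · rintro ⟨n, hn, -⟩
      exact lt_trans (by positivity) hn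
    · intro hu
      obtain ⟨n, hn⟩ := exists_nat_gt (max u u⁻¹)
      refine ⟨n, ?_, by linarith [le_max_left u u⁻¹]⟩
      rw [one_div]
      exact inv_lt_of_inv_lt₀ hu (by linarith [le_max_right u u⁻¹])
  have hmono : Monotone fun n : ℕ => Ioc (1 / ((n : ℝ) + 1)) ((n : ℝ) + 1) := fun m n hmn => by
    have : (m : ℝ) ≤ n := by exact_mod_cast hmn
    exact Ioc_subset_Ioc (by gcongr) (by linarith)
  have h1 := tendsto_setIntegral_of_monotone (μ := volume) (f := F)
    (fun n : ℕ => (measurableSet_Ioc : MeasurableSet (Ioc (1 / ((n : ℝ) + 1)) ((n : ℝ) + 1))))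
    hmono (by rw [hU]; exact hF)
  rw [hU] at h1
  obtain ⟨n, hn⟩ := (h1.eventually (lt_mem_nhds (sub_lt_self _ hη))).exists
  refine ⟨1 / ((n : ℝ) + 1), (n : ℝ) + 1, by positivity, fun ε R hε hε' hR => hn.le.trans ?_⟩
  have h2 : 1 / ((n : ℝ) + 1) ≤ 1 := by
    rw [div_le_one (by positivity)]
    linarith [(Nat.cast_nonneg n : (0 : ℝ) ≤ n)]
  have h3 : ε ≤ R := by linarith [(Nat.cast_nonneg n : (0 : ℝ) ≤ n)]
  have hsub : Ioc ε R ⊆ Ioi 0 := fun u hu => hε.trans hu.1
  rw [intervalIntegral.integral_of_le h3]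
  exact setIntegral_mono_set (hF.mono_set hsub)
    (ae_restrict_of_forall_mem measurableSet_Ioc fun u hu => h0 u (hsub hu))
    (Ioc_subset_Ioc hε' hR).eventuallyLE

theorem item6 (h0 : 0 < β) (h1 : β < 1) {κ η : ℝ} (hκ : 0 < κ) (hη : 0 < η) :
    ∃ ε₀ R₀ : ℝ, 0 < ε₀ ∧ ∀ ε R : ℝ, 0 < ε → ε ≤ ε₀ → R₀ ≤ R →
      Ib β * Jb β * κ ^ (1 + 2 * β) - η ≤ β * ∫ u in ε..R, u ^ (β - 1) *
        (2 * (eta (√(κ ^ 2 + u) + κ) - eta (√(κ ^ 2 + u) - κ) - κ * Real.log u)) := by
  have hn : ∀ n ∈ Ioc (-κ) κ, 0 ≤ κ ^ 2 - n ^ 2 := fun n hn => by nlinarith [hn.1, hn.2]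
  obtain ⟨h4, h5⟩ := tonelli (s := Ioi 0) (t := Ioc (-κ) κ) measurableSet_Ioi measurableSet_Ioc
    (f := fun u n => u ^ (β - 1) * (Real.log (κ ^ 2 - n ^ 2 + u) - Real.log u))
    (g := fun n => Ib β / β * (κ ^ 2 - n ^ 2) ^ β) (by unfold Function.uncurry; fun_prop)
    (fun u hu n hn' => mul_nonneg (Real.rpow_nonneg (le_of_lt hu) _) (log_nonneg (hn n hn') hu))
    (fun n hn' => by
      obtain ⟨h6, h7⟩ := log_int h0 h1 (hn n hn')
      exact ⟨h6, by rw [h7]; ring⟩)
    (((cont_J h0 κ).integrableOn_Icc.mono_set Ioc_subset_Icc_self).const_mul _)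
  have he : EqOn (fun u : ℝ => ∫ n in Ioc (-κ) κ,
      u ^ (β - 1) * (Real.log (κ ^ 2 - n ^ 2 + u) - Real.log u))
      (fun u : ℝ => u ^ (β - 1) *
        (2 * (eta (√(κ ^ 2 + u) + κ) - eta (√(κ ^ 2 + u) - κ) - κ * Real.log u))) (Ioi 0) :=
    fun u hu => by simp only; rw [integral_const_mul, prim6 hκ hu]
  rw [setIntegral_congr_fun measurableSet_Ioi he, integral_const_mul, J_scaled hκ] at h5
  obtain ⟨ε₀, R₀, hε₀, h⟩ := exhaust (h4.congr_fun he measurableSet_Ioi) (fun u hu => by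
    refine le_of_le_of_eq ?_ (he hu)
    exact setIntegral_nonneg measurableSet_Ioc fun n hn' =>
      mul_nonneg (Real.rpow_nonneg (le_of_lt hu) _) (log_nonneg (hn n hn') hu)) (div_pos hη h0)
  refine ⟨ε₀, R₀, hε₀, fun ε R hε hε' hR => ?_⟩
  have h6 := mul_le_mul_of_nonneg_left (h ε R hε hε' hR) h0.le
  rw [h5] at h6
  refine le_trans (le_of_eq ?_) h6
  field_simp

theorem beta_real (h0 : 0 < β) :
    ∫ s in (0 : ℝ)..1, s ^ β * (1 - s) ^ β =
      Real.Gamma (β + 1) * Real.Gamma (β + 1) / Real.Gamma (2 * (β + 1)) := by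
  have h1 := Complex.betaIntegral_eq_Gamma_mul_div ((β + 1 : ℝ) : ℂ) ((β + 1 : ℝ) : ℂ)
    (by rw [Complex.ofReal_re]; linarith) (by rw [Complex.ofReal_re]; linarith)
  rw [← Complex.ofReal_add, Complex.Gamma_ofReal, Complex.Gamma_ofReal, ← two_mul,
    Complex.betaIntegral, intervalIntegral.integral_congr
      (g := fun s : ℝ => ((s ^ β * (1 - s) ^ β : ℝ) : ℂ)) fun s hs => ?_] at h1
  · rw [intervalIntegral.integral_ofReal] at h1
    exact_mod_cast h1
  · rw [uIcc_of_le zero_le_one] at hs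
    simp only
    rw [Complex.ofReal_mul, Complex.ofReal_cpow hs.1, Complex.ofReal_cpow (sub_nonneg.2 hs.2)]
    push_cast
    simp

theorem Jb_eq (h0 : 0 < β) :
    Jb β = √Real.pi * Real.Gamma (β + 1) / Real.Gamma (β + 3 / 2) := by
  have h1 := intervalIntegral.smul_integral_comp_mul_sub (a := 0) (b := 1)
    (fun t : ℝ => (1 - t ^ 2) ^ β) 2 1
  rw [mul_zero, zero_sub, mul_one, show (2 : ℝ) - 1 = 1 by norm_num] at h1
  rw [Jb, ← h1, intervalIntegral.integral_congr
    (g := fun s : ℝ => 2 ^ (2 * β) * (s ^ β * (1 - s) ^ β)) fun s hs => ?_]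
  · rw [intervalIntegral.integral_const_mul, beta_real h0, smul_eq_mul]
    have h2 := Real.Gamma_mul_Gamma_add_half (β + 1)
    have h3 : 0 < Real.Gamma (β + 3 / 2) := Real.Gamma_pos_of_pos (by linarith)
    have h4 : 0 < Real.Gamma (2 * (β + 1)) := Real.Gamma_pos_of_pos (by linarith)
    have h5 : (2 : ℝ) ^ (1 - 2 * (β + 1)) * (2 * 2 ^ (2 * β)) = 1 := by
      rw [show (2 : ℝ) * 2 ^ (2 * β) = 2 ^ (1 + 2 * β) by
        rw [Real.rpow_add two_pos, Real.rpow_one], ← Real.rpow_add two_pos]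
      rw [show 1 - 2 * (β + 1) + (1 + 2 * β) = 0 by ring, Real.rpow_zero]
    rw [show β + 1 + 1 / 2 = β + 3 / 2 by ring] at h2
    rw [eq_div_iff h3.ne', ← mul_div_assoc, ← mul_div_assoc, div_mul_eq_mul_div,
      div_eq_iff h4.ne']
    linear_combination (2 * 2 ^ (2 * β) * Real.Gamma (β + 1)) * h2 +
      (Real.Gamma (β + 1) * Real.Gamma (2 * (β + 1)) * √Real.pi) * h5
  · rw [uIcc_of_le zero_le_one] at hs
    simp only
    rw [show 1 - (2 * s - 1) ^ 2 = 2 ^ 2 * (s * (1 - s)) by ring,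
      Real.mul_rpow (by positivity) (mul_nonneg hs.1 (sub_nonneg.2 hs.2)),
      Real.mul_rpow hs.1 (sub_nonneg.2 hs.2), Real.rpow_mul two_pos.le, Real.rpow_two]

theorem Jb_pos (h0 : 0 < β) : 0 < Jb β := by
  rw [Jb_eq h0]
  have h3 : 0 < Real.Gamma (β + 3 / 2) := Real.Gamma_pos_of_pos (by linarith)
  have h4 : 0 < Real.Gamma (β + 1) := Real.Gamma_pos_of_pos (by linarith)
  have := Real.pi_pos
  positivity

theorem sharp_mul (h0 : 0 < β) :
    sharpConst (β + 1 / 2) * ((1 + β) ^ (1 + β) * β ^ (-β) * Jb β) = 1 := by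
  have h3 : 0 < Real.Gamma (β + 3 / 2) := Real.Gamma_pos_of_pos (by linarith)
  have h4 : 0 < Real.Gamma (β + 1) := Real.Gamma_pos_of_pos (by linarith)
  have h5 : 0 < √Real.pi := Real.sqrt_pos.2 Real.pi_pos
  have h6 : 0 < β ^ β := Real.rpow_pos_of_pos h0 _
  have h7 : 0 < (1 + β) ^ β := Real.rpow_pos_of_pos (by linarith) _
  rw [Jb_eq h0, sharpConst, add_sub_cancel_right, show β + 1 / 2 + 1 / 2 = 1 + β by ring,
    show β + 1 / 2 + 1 = β + 3 / 2 by ring, show β + 1 / 2 + 3 / 2 = β + 1 + 1 by ring,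
    Real.Gamma_add_one (by linarith : β + 1 ≠ 0), Real.div_rpow h0.le (by linarith),
    Real.rpow_neg h0.le, Real.rpow_add (by linarith), Real.rpow_one]
  field_simp
  ring

theorem sech_int (h0 : 0 < β) {k : ℝ} (hk : 0 < k) (c : ℝ) :
    Integrable (fun x => (1 / Real.cosh (k * (x - c)) ^ 2) ^ (1 + β)) ∧
      ∫ x, (1 / Real.cosh (k * (x - c)) ^ 2) ^ (1 + β) = Jb β / k := by
  have hd : ∀ x ∈ (univ : Set ℝ), HasDerivWithinAt (fun x => Real.tanh (k * (x - c)))
      (k * (1 / Real.cosh (k * (x - c)) ^ 2)) univ x := fun x _ => by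
    have h1 : HasDerivAt (fun x => k * (x - c)) k x := by
      simpa using ((hasDerivAt_id x).sub_const c).const_mul k
    have h2 := (Real.cosh_pos (k * (x - c))).ne'
    simp only [Real.tanh_eq_sinh_div_cosh]
    refine HasDerivAt.hasDerivWithinAt ?_
    refine (h1.sinh.div h1.cosh h2).congr_deriv ?_
    field_simp
    linear_combination Real.cosh_sq (k * (x - c))
  have hinj : InjOn (fun x => Real.tanh (k * (x - c))) univ := fun x _ y _ hxy => by
    have := mul_left_cancel₀ hk.ne' (Real.tanh_injective hxy)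
    linarith
  have him : (fun x => Real.tanh (k * (x - c))) '' univ = Ioo (-1) 1 := by
    ext t
    constructor
    · rintro ⟨x, -, rfl⟩
      exact ⟨Real.neg_one_lt_tanh _, Real.tanh_lt_one _⟩
    · intro ht
      refine ⟨Real.artanh t / k + c, trivial, ?_⟩
      simp only
      rw [add_sub_cancel_right, mul_div_cancel₀ _ hk.ne', Real.tanh_artanh ht]
  have he : (fun x => |k * (1 / Real.cosh (k * (x - c)) ^ 2)| •
      (1 - Real.tanh (k * (x - c)) ^ 2) ^ β) =
      fun x => k * (1 / Real.cosh (k * (x - c)) ^ 2) ^ (1 + β) := by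
    funext x
    have h2 := Real.cosh_pos (k * (x - c))
    have h3 : 1 - Real.tanh (k * (x - c)) ^ 2 = 1 / Real.cosh (k * (x - c)) ^ 2 := by
      rw [Real.tanh_eq_sinh_div_cosh]
      field_simp
      linear_combination Real.cosh_sq (k * (x - c))
    rw [h3, abs_of_pos (by positivity), smul_eq_mul, Real.rpow_add (by positivity),
      Real.rpow_one, mul_assoc]
  have h1 := integrableOn_image_iff_integrableOn_abs_deriv_smul MeasurableSet.univ hd hinj
    fun t : ℝ => (1 - t ^ 2) ^ β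
  have h2 := integral_image_eq_integral_abs_deriv_smul MeasurableSet.univ hd hinj
    fun t : ℝ => (1 - t ^ 2) ^ β
  rw [him, he] at h1 h2
  rw [integrableOn_univ] at h1
  rw [Measure.restrict_univ, integral_const_mul] at h2
  have h3 : Continuous fun t : ℝ => (1 - t ^ 2) ^ β := by simpa using cont_J h0 1
  refine ⟨?_, ?_⟩
  · have h4 := (h1.1 (h3.integrableOn_Icc.mono_set Ioo_subset_Icc_self)).const_mul k⁻¹
    simpa only [inv_mul_cancel_left₀ hk.ne'] using h4
  · rw [Jb, intervalIntegral.integral_of_le (by norm_num), integral_Ioc_eq_integral_Ioo, h2]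
    field_simp

theorem item7 (h0 : 0 < β) {a : ℝ} (c : ℝ) (ha : 0 ≤ a) :
    Integrable (fun x => soliton β⁻¹ a c x ^ (1 + β)) ∧
      sharpConst (β + 1 / 2) * ∫ x, soliton β⁻¹ a c x ^ (1 + β) = a ^ (1 + 2 * β) := by
  rcases ha.eq_or_lt with rfl | ha
  · have h1 : (1 + β) ≠ 0 := by linarith
    have h2 : (1 + 2 * β) ≠ 0 := by linarith
    simp [soliton, Real.zero_rpow h1, Real.zero_rpow h2]
  have hk : 0 < β⁻¹ * a := by positivity
  obtain ⟨h1, h2⟩ := sech_int h0 hk c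
  have he : (fun x => soliton β⁻¹ a c x ^ (1 + β)) = fun x => ((β⁻¹ + 1) * a ^ 2) ^ (1 + β) *
      (1 / Real.cosh (β⁻¹ * a * (x - c)) ^ 2) ^ (1 + β) := by
    funext x
    rw [← Real.mul_rpow (by positivity) (by positivity), soliton, mul_one_div]
  rw [he]
  refine ⟨h1.const_mul _, ?_⟩
  have h3 := sharp_mul h0
  have h6 : 0 < β ^ β := Real.rpow_pos_of_pos h0 _
  rw [integral_const_mul, h2, show (β⁻¹ + 1) * a ^ 2 = (1 + β) / β * a ^ 2 by field_simp,
    Real.mul_rpow (by positivity) (by positivity), Real.div_rpow (by positivity) h0.le,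
    Real.rpow_add h0, Real.rpow_one, ← Real.rpow_natCast, ← Real.rpow_mul ha.le,
    show ((2 : ℕ) : ℝ) * (1 + β) = 1 + (1 + 2 * β) by push_cast; ring, Real.rpow_add ha,
    Real.rpow_one]
  rw [Real.rpow_neg h0.le] at h3
  field_simp at h3 ⊢
  linear_combination h3

end Scal

theorem scalStmt : ScalStmt := by
  intro β h0 h1
  have h2 := Scal.sharp_mul h0
  have h3 : 0 < (1 + β) ^ (1 + β) * β ^ (-β) * Jb β := by
    have := Scal.Jb_pos h0
    positivity
  refine ⟨Scal.Ib_pos h0 h1, Scal.Jb_pos h0, ?_, inv_eq_of_mul_eq_one_right h2,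
    fun b ε R hb hε hR => Scal.item5 h0 h1 hb hε hR, fun κ η hκ hη => Scal.item6 h0 h1 hκ hη,
    fun a c ha => Scal.item7 h0 c ha⟩
  exact (pos_iff_pos_of_mul_pos (by rw [h2]; exact one_pos)).2 h3

end Crest.Agent.R332
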