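import Crest.Agent.R332.Basic

/-! # Row 332: an almost optimal Riccati path has an almost invariant direction -/

set_option autoImplicit false

open MeasureTheory Matrix Set Filter Topology
open scoped ComplexOrder
open Crest.MathPhysics.LiebThirring

noncomputable section

namespace Crest.Agent.R332

namespace Stab1

variable {n : ℕ}

theorem gronwall {h F : ℝ → ℝ} {C c R : ℝ} (hC : 0 ≤ C) (hF : Continuous F)
    (hF0 : ∀ x, 0 ≤ F x) (hh : ∀ x, ∃ h', HasDerivAt h h' x ∧ |h'| ≤ C * h x + F x)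
    (hc : h c = 0) {x : ℝ} (hx : x ∈ Icc (c - R) (c + R)) :
    h x ≤ Real.exp (C * R) * ∫ y in (c - R)..(c + R), F y := by
  choose h' hd hb using hh
  set G : ℝ → ℝ := fun y => ∫ t in c..y, F t with hG
  have hGd : ∀ y, HasDerivAt G (F y) y := fun y =>
    (hF.integral_hasStrictDerivAt c y).hasDerivAt
  have hint : ∀ u v, IntervalIntegrable F volume u v := fun u v => hF.intervalIntegrable u v
  have hsub : ∀ u v, c - R ≤ u → u ≤ v → v ≤ c + R →
      ∫ y in u..v, F y ≤ ∫ y in (c - R)..(c + R), F y := fun u v h1 h2 h3 =>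
    intervalIntegral.integral_mono_interval h1 h2 h3 (ae_of_all _ hF0) (hint _ _)
  have hI : 0 ≤ ∫ y in (c - R)..(c + R), F y :=
    intervalIntegral.integral_nonneg (hx.1.trans hx.2) fun y _ => hF0 y
  rcases le_total c x with hcx | hcx
  · have hφ : ∀ y, HasDerivAt (fun y => h y * Real.exp (-C * (y - c)) - G y)
        (h' y * Real.exp (-C * (y - c)) + h y * (Real.exp (-C * (y - c)) * (-C * 1)) - F y) y :=
      fun y => ((hd y).mul ((((hasDerivAt_id y).sub_const c).const_mul (-C)).exp)).sub (hGd y)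
    have hanti := antitoneOn_of_deriv_nonpos (convex_Ici c)
      (fun y _ => (hφ y).continuousAt.continuousWithinAt)
      (fun y _ => (hφ y).differentiableAt.differentiableWithinAt) fun y hy => by
        rw [(hφ y).deriv]
        rw [interior_Ici] at hy
        have h1 : Real.exp (-C * (y - c)) ≤ 1 :=
          Real.exp_le_one_iff.2 (by nlinarith [mem_Ioi.1 hy])
        have h2 := Real.exp_pos (-C * (y - c))
        have h3 := (abs_le.1 (hb y)).2
        nlinarith [hF0 y]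
    have h1 := hanti self_mem_Ici hcx hcx
    simp only [hc, zero_mul, hG, intervalIntegral.integral_same, sub_zero] at h1
    have h2 := hsub c x (by linarith [hx.1, hx.2]) hcx hx.2
    have h3 : h x = Real.exp (C * (x - c)) * (h x * Real.exp (-C * (x - c))) := by
      rw [mul_left_comm, ← Real.exp_add]
      simp
    have h4 : Real.exp (C * (x - c)) ≤ Real.exp (C * R) :=
      Real.exp_le_exp.2 (mul_le_mul_of_nonneg_left (by linarith [hx.2]) hC)
    rw [h3]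
    calc _ ≤ Real.exp (C * (x - c)) * ∫ y in (c - R)..(c + R), F y :=
          mul_le_mul_of_nonneg_left (by linarith) (Real.exp_pos _).le
      _ ≤ _ := mul_le_mul_of_nonneg_right h4 hI
  · have hφ : ∀ y, HasDerivAt (fun y => h y * Real.exp (C * (y - c)) + G y)
        (h' y * Real.exp (C * (y - c)) + h y * (Real.exp (C * (y - c)) * (C * 1)) + F y) y :=
      fun y => ((hd y).mul ((((hasDerivAt_id y).sub_const c).const_mul C).exp)).add (hGd y)
    have hmono := monotoneOn_of_deriv_nonneg (convex_Iic c)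
      (fun y _ => (hφ y).continuousAt.continuousWithinAt)
      (fun y _ => (hφ y).differentiableAt.differentiableWithinAt) fun y hy => by
        rw [(hφ y).deriv]
        rw [interior_Iic] at hy
        have h1 : Real.exp (C * (y - c)) ≤ 1 :=
          Real.exp_le_one_iff.2 (by nlinarith [mem_Iio.1 hy])
        have h2 := Real.exp_pos (C * (y - c))
        have h3 := (abs_le.1 (hb y)).1
        nlinarith [hF0 y]
    have h1 := hmono hcx self_mem_Iic hcx
    simp only [hc, zero_mul, hG, intervalIntegral.integral_same, add_zero] at h1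
    have h2 := hsub x c hx.1 hcx (by linarith [hx.1, hx.2])
    rw [intervalIntegral.integral_symm] at h2
    have h3 : h x = Real.exp (C * (c - x)) * (h x * Real.exp (C * (x - c))) := by
      rw [mul_left_comm, ← Real.exp_add, ← mul_add]
      simp
    have h4 : Real.exp (C * (c - x)) ≤ Real.exp (C * R) :=
      Real.exp_le_exp.2 (mul_le_mul_of_nonneg_left (by linarith [hx.1]) hC)
    rw [h3]
    calc _ ≤ Real.exp (C * (c - x)) * ∫ y in (c - R)..(c + R), F y :=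
          mul_le_mul_of_nonneg_left (by linarith) (Real.exp_pos _).le
      _ ≤ _ := mul_le_mul_of_nonneg_right h4 hI

theorem vs_deriv {f : ℝ → Fin n → ℂ} {f' : Fin n → ℂ} {x : ℝ}
    (hf : ∀ i, HasDerivAt (fun y => f y i) (f' i) x) :
    ∃ h', HasDerivAt (fun y => vs (f y)) h' x ∧ |h'| ≤ vs (f x) + vs f' := by
  refine ⟨_, HasDerivAt.fun_sum (u := Finset.univ) fun i _ => (hf i).norm_sq, ?_⟩
  rw [vs, vs, ← Finset.sum_add_distrib]
  refine (Finset.abs_sum_le_sum_abs _ _).trans (Finset.sum_le_sum fun i _ => ?_)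
  rw [abs_mul, abs_two]
  have := abs_real_inner_le_norm (f x i) (f' i)
  nlinarith [sq_nonneg (‖f x i‖ - ‖f' i‖)]

theorem one_sub_tanh_sq (t : ℝ) : 1 - Real.tanh t ^ 2 = 1 / Real.cosh t ^ 2 := by
  have h := (Real.cosh_pos t).ne'
  rw [Real.tanh_eq_sinh_div_cosh]
  field_simp
  exact Real.cosh_sq_sub_sinh_sq t

theorem hasDerivAt_tanh (t : ℝ) : HasDerivAt Real.tanh (1 - Real.tanh t ^ 2) t := by
  have h := (Real.cosh_pos t).ne'
  have h1 : Real.tanh = fun s => Real.sinh s / Real.cosh s :=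
    funext Real.tanh_eq_sinh_div_cosh
  have h2 := (Real.hasDerivAt_sinh t).fun_div (Real.hasDerivAt_cosh t) h
  rw [← h1] at h2
  refine h2.congr_deriv ?_
  rw [one_sub_tanh_sq, ← Real.cosh_sq_sub_sinh_sq t]
  ring

theorem hasDerivAt_kink (r lam c x : ℝ) :
    HasDerivAt (kink r lam c) (-(r * (lam ^ 2 - kink r lam c x ^ 2))) x := by
  have h := (((hasDerivAt_tanh (r * lam * (x - c))).comp x
    (((hasDerivAt_id x).sub_const c).const_mul (r * lam))).const_mul lam).fun_neg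
  refine h.congr_deriv ?_
  simp only [kink]
  ring

theorem continuous_kink (r lam c : ℝ) : Continuous (kink r lam c) :=
  continuous_iff_continuousAt.2 fun x => (hasDerivAt_kink r lam c x).continuousAt

theorem kink_sq_le (r lam c x : ℝ) : kink r lam c x ^ 2 ≤ lam ^ 2 := by
  have h := one_sub_tanh_sq (r * lam * (x - c))
  have h1 : 0 ≤ 1 / Real.cosh (r * lam * (x - c)) ^ 2 := by positivity
  simp only [kink]
  nlinarith [sq_nonneg lam]

theorem soliton_eq (r lam c x : ℝ) :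
    soliton r lam c x = (r + 1) * (lam ^ 2 - kink r lam c x ^ 2) := by
  have h := one_sub_tanh_sq (r * lam * (x - c))
  simp only [kink, soliton]
  rw [div_eq_mul_one_div, ← h]
  ring

theorem continuous_qf {G : ℝ → Mx n n} (hG : Continuous G) (v : Fin n → ℂ) :
    Continuous fun x => qf (G x) v :=
  Complex.continuous_re.comp (continuous_const.dotProduct (hG.matrix_mulVec continuous_const))

theorem exists_lower {A : Mx n n} (hA : A.PosDef) : ∃ δ > 0, ∀ v, δ * vs v ≤ qf A v := by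
  obtain ⟨U, d, hU, hU', rfl⟩ := exists_diag hA.1
  rw [pd_conj_dg_iff hU] at hA
  have h1 : ∀ᶠ δ in 𝓝[>] (0 : ℝ), ∀ i, δ < d i :=
    eventually_all.2 fun i => nhdsWithin_le_nhds (Iio_mem_nhds (hA i))
  obtain ⟨δ, hδ, hδ0⟩ := (h1.and self_mem_nhdsWithin).exists
  refine ⟨δ, hδ0, fun v => ?_⟩
  have h2 : Bd (U * dg (fun i => -d i) * Uᴴ) (-δ) :=
    (bd_conj_dg_iff hU _ _).2 fun i => by linarith [hδ i]
  have h3 := (bd_iff h2.herm).1 h2 v
  have h4 : U * dg (fun i => -d i) * Uᴴ = 0 - U * dg d * Uᴴ := by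
    rw [← dg_neg]; simp
  rw [h4, qf_sub] at h3
  have h5 : qf (0 : Mx n n) v = 0 := by simp [qf]
  linarith

/-- a path of Hermitian matrices leaving the positive cone passes through a singular matrix -/
theorem exists_kernel {G : ℝ → Mx n n} (hG : Continuous G) (hH : ∀ x, (G x).IsHermitian)
    {a b : ℝ} (ha : (G a).PosDef) (hb : ¬ (G b).PosSemidef) :
    ∃ c w, vs w = 1 ∧ G c *ᵥ w = 0 := by
  by_contra hne
  push Not at hne
  have hinj : ∀ c v, G c *ᵥ v = 0 → v = 0 := fun c v hv => by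
    by_contra h0
    have h1 : 0 < vs v := lt_of_le_of_ne (vs_nonneg v) fun h => h0 (vs_eq_zero.1 h.symm)
    refine hne c (((√(vs v))⁻¹ : ℝ) • v) ?_ ?_
    · rw [← Complex.coe_smul, vs_smul, Complex.norm_real, Real.norm_eq_abs, sq_abs, inv_pow,
        Real.sq_sqrt h1.le, inv_mul_cancel₀ h1.ne']
    · rw [mulVec_smul, hv, smul_zero]
  have hpd : ∀ c, (G c).PosSemidef → (G c).PosDef := fun c hc =>
    pd_of_qf (hH c) fun v hv => lt_of_le_of_ne (qf_nonneg hc v) fun h => hv (hinj c v (by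
      rw [← hc.dotProduct_mulVec_zero_iff]
      have h1 := hc.dotProduct_mulVec_nonneg v
      rw [Complex.nonneg_iff] at h1
      exact Complex.ext h.symm h1.2.symm))
  have hcl : IsClosed {x | (G x).PosSemidef} := by
    have : {x | (G x).PosSemidef} = ⋂ v, {x | 0 ≤ qf (G x) v} := by
      ext x
      simp only [mem_iInter, mem_ofPred_eq]
      exact ⟨fun h v => qf_nonneg h v, psd_of_qf (hH x)⟩
    rw [this]
    exact isClosed_iInter fun v => isClosed_le continuous_const (continuous_qf hG v)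
  have hop : IsOpen {x | (G x).PosSemidef} := by
    rw [isOpen_iff_mem_nhds]
    intro x hx
    obtain ⟨δ, hδ, h⟩ := exists_lower (hpd x hx)
    have h1 : Continuous fun y => hs (G x - G y) := continuous_hs.comp (continuous_const.sub hG)
    have h2 : ∀ᶠ y in 𝓝 x, hs (G x - G y) < δ ^ 2 :=
      h1.continuousAt.eventually_lt continuousAt_const (by simpa using pow_pos hδ 2)
    refine h2.mono fun y hy => psd_of_qf (hH y) fun v => ?_
    have h3 := (bd_iff ((hH x).sub (hH y))).1 (bd_of_hs ((hH x).sub (hH y)) hδ.le hy.le) v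
    rw [qf_sub] at h3
    linarith [h v]
  have := IsClopen.eq_univ ⟨hcl, hop⟩ ⟨a, ha.posSemidef⟩
  exact hb (this.symm ▸ mem_univ b : b ∈ {x | (G x).PosSemidef})

theorem exists_gap {κ : Fin n → ℝ} {lam μ θ : ℝ} {n₀ : ℕ} (hμ : 0 < μ) (hl : μ ≤ lam)
    (h0 : 0 < θ) (h1 : θ ≤ 1) (hcard : (Finset.univ.filter fun j => μ / 2 ≤ κ j).card ≤ n₀) :
    ∃ k ≤ n₀, ∀ j, κ j ≤ lam - θ ^ k * (μ / 2) ∨ lam - θ ^ (k + 1) * (μ / 2) < κ j := by
  by_contra hne
  push Not at hne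
  have hne' : ∀ k : Fin (n₀ + 1), ∃ j, lam - θ ^ (k : ℕ) * (μ / 2) < κ j ∧
      κ j ≤ lam - θ ^ ((k : ℕ) + 1) * (μ / 2) := fun k => hne k (Nat.lt_succ_iff.1 k.2)
  choose f hf using hne'
  have hlt : ∀ k l : Fin (n₀ + 1), k < l → f k ≠ f l := fun k l hkl h => by
    have h2 : θ ^ (l : ℕ) ≤ θ ^ ((k : ℕ) + 1) := pow_le_pow_of_le_one h0.le h1 hkl
    have h3 := (hf k).2
    have h4 := (hf l).1
    rw [h] at h3
    nlinarith
  have hinj : Function.Injective f := fun k l h => by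
    rcases lt_trichotomy k l with hkl | hkl | hkl
    · exact absurd h (hlt k l hkl)
    · exact hkl
    · exact absurd h.symm (hlt l k hkl)
  have h2 := Finset.card_le_card_of_injOn (s := Finset.univ)
    (t := Finset.univ.filter fun j => μ / 2 ≤ κ j) f (fun k _ => by
      have h3 := (hf k).1
      have h4 : θ ^ (k : ℕ) ≤ 1 := pow_le_one₀ h0.le h1
      simp only [Finset.coe_filter, Finset.mem_univ, true_and, mem_ofPred_eq]
      nlinarith) hinj.injOn
  rw [Finset.card_univ, Fintype.card_fin] at h2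
  omega

theorem vs_offdiag {κ : Fin n → ℝ} (N : Mx n n) {ind : Fin n → ℝ} {γ : ℝ} (hγ : 0 < γ)
    (hind : ∀ j, ind j = 0 ∨ ind j = 1)
    (hgap : ∀ j l, ind j = 1 → ind l = 0 → γ ≤ κ j ^ 2 - κ l ^ 2) {w : Fin n → ℂ}
    (hw : vs w = 1) (hP : dg ind *ᵥ w = w) :
    vs (N *ᵥ w - dg ind *ᵥ (N *ᵥ w)) ≤ cm κ N / γ ^ 2 := by
  have e : N *ᵥ w - dg ind *ᵥ (N *ᵥ w) = ((N - dg ind * N) * dg ind) *ᵥ w := by
    rw [← mulVec_mulVec, hP, sub_mulVec, mulVec_mulVec]
  rw [e]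
  refine (vs_mulVec_le_hs _ _).trans ?_
  rw [hw, mul_one, cm, hs, hs, Finset.sum_div]
  refine Finset.sum_le_sum fun l _ => ?_
  rw [Finset.sum_div]
  refine Finset.sum_le_sum fun j _ => ?_
  have e1 : ((N - dg ind * N) * dg ind) l j = (((1 - ind l) * ind j : ℝ) : ℂ) * N l j := by
    simp only [dg, mul_diagonal, Matrix.sub_apply, diagonal_mul]
    push_cast
    ring
  have e2 : (dg κ * dg κ * N - N * (dg κ * dg κ)) l j =
      ((κ l ^ 2 - κ j ^ 2 : ℝ) : ℂ) * N l j := by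
    simp only [dg, diagonal_mul_diagonal, mul_diagonal, Matrix.sub_apply, diagonal_mul]
    push_cast
    ring
  rw [e1, e2, norm_mul, norm_mul, mul_pow, mul_pow, Complex.norm_real, Complex.norm_real,
    Real.norm_eq_abs, Real.norm_eq_abs, sq_abs, sq_abs, le_div_iff₀ (by positivity)]
  have h0 := sq_nonneg ‖N l j‖
  rcases hind l with hl | hl
  · rcases hind j with hj | hj
    · rw [hj]
      simp only [mul_zero, ne_eq, OfNat.ofNat_ne_zero, not_false_eq_true, zero_pow, zero_mul]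
      positivity
    · have h1 := hgap j l hj hl
      have h2 : γ ^ 2 ≤ (κ l ^ 2 - κ j ^ 2) ^ 2 := by nlinarith
      rw [hl, hj]
      nlinarith
  · rw [hl]
    simp only [sub_self, zero_mul, ne_eq, OfNat.ofNat_ne_zero, not_false_eq_true, zero_pow]
    positivity

theorem integral_le {f : ℝ → ℝ} (hf : Continuous f) (h0 : ∀ x, 0 ≤ f x) {a b u v : ℝ}
    (hz : ∀ x, x ∉ Ioo a b → f x = 0) (huv : u ≤ v) :
    ∫ x in u..v, f x ≤ ∫ x in a..b, f x := by
  have hs : ∀ {s t : ℝ}, s ≤ a → b ≤ t → ∫ x in s..t, f x = ∫ x, f x := fun {s t} hs ht =>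
    intervalIntegral.integral_eq_integral_of_support_subset fun x hx => by
      by_contra h
      exact hx (hz x fun h' => h ⟨hs.trans_lt h'.1, h'.2.le.trans ht⟩)
  rw [hs le_rfl le_rfl, ← hs (min_le_right u a) (le_max_right v b)]
  exact intervalIntegral.integral_mono_interval (min_le_left u a) huv (le_max_left v b)
    (ae_of_all _ h0) (hf.intervalIntegrable _ _)

theorem vs_smul_real (c : ℝ) (v : Fin n → ℂ) : vs ((c : ℂ) • v) = c ^ 2 * vs v := by
  rw [vs_smul, Complex.norm_real, Real.norm_eq_abs, sq_abs]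

/-- the pointwise estimates -/
theorem pointwise {K2 N P D : Mx n n} {w : Fin n → ℂ} {r lam k M : ℝ} (hr : 0 < r)
    (hPK : P *ᵥ (K2 *ᵥ w) = K2 *ᵥ w) (hw : vs w = 1)
    (hP : ∀ v, vs (P *ᵥ v) ≤ vs v) (hN : ∀ v, vs (N *ᵥ v) ≤ M ^ 2 * vs v) (hk : k ^ 2 ≤ M ^ 2)
    {E : ℝ} (hE : vs (N *ᵥ w - P *ᵥ (N *ᵥ w)) + vs (K2 *ᵥ w - ((lam ^ 2 : ℝ) : ℂ) • w) +
      hs D ≤ E) :
    vs (P *ᵥ ((K2 - N * N - ((r + 1 : ℝ) : ℂ) • (K2 - N * N - D)) *ᵥ w) -
        ((-(r * (lam ^ 2 - k ^ 2)) : ℝ) : ℂ) • w) ≤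
      32 * (r + 1) ^ 2 * (M ^ 2 + 1) * (vs (P *ᵥ (N *ᵥ w) - (k : ℂ) • w) + E) ∧
    vs (N *ᵥ w - (k : ℂ) • w) + vs ((((r + 1 : ℝ) : ℂ) • (K2 - N * N - D)) *ᵥ w -
        (((r + 1) * (lam ^ 2 - k ^ 2) : ℝ) : ℂ) • w) ≤
      32 * (r + 1) ^ 2 * (M ^ 2 + 1) * (vs (P *ᵥ (N *ᵥ w) - (k : ℂ) • w) + E) := by
  set d := P *ᵥ (N *ᵥ w) - (k : ℂ) • w with hd
  set q := N *ᵥ w - P *ᵥ (N *ᵥ w) with hq
  set u := K2 *ᵥ w - ((lam ^ 2 : ℝ) : ℂ) • w with hu
  have hD : vs (D *ᵥ w) ≤ hs D := by simpa [hw] using vs_mulVec_le_hs D w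
  have hkv : ∀ v : Fin n → ℂ, vs ((k : ℂ) • v) ≤ M ^ 2 * vs v := fun v => by
    rw [vs_smul_real]
    exact mul_le_mul_of_nonneg_right hk (vs_nonneg v)
  have hd0 := vs_nonneg d
  have hq0 := vs_nonneg q
  have hu0 := vs_nonneg u
  have hD0 := hs_nonneg D
  have hM := sq_nonneg M
  have hMd := mul_nonneg hM hd0
  have hMq := mul_nonneg hM hq0
  have hMu := mul_nonneg hM hu0
  have hMD := mul_nonneg hM hD0
  have hME := mul_le_mul_of_nonneg_left hE hM
  have hr1 : r ^ 2 ≤ (r + 1) ^ 2 := by nlinarith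
  have hr2 : 1 ≤ (r + 1) ^ 2 := by nlinarith
  constructor
  · have e : P *ᵥ ((K2 - N * N - ((r + 1 : ℝ) : ℂ) • (K2 - N * N - D)) *ᵥ w) -
        ((-(r * (lam ^ 2 - k ^ 2)) : ℝ) : ℂ) • w =
        (r : ℂ) • (P *ᵥ (N *ᵥ d) + (k : ℂ) • d + P *ᵥ (N *ᵥ q) - u) +
          ((r + 1 : ℝ) : ℂ) • (P *ᵥ (D *ᵥ w)) := by
      simp only [hd, hq, hu, sub_mulVec, smul_mulVec, ← mulVec_mulVec, mulVec_sub, mulVec_smul,
        hPK]
      push_cast
      module
    have h1 := vs_add_le (P *ᵥ (N *ᵥ d)) ((k : ℂ) • d)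
    have h2 := vs_add_le (P *ᵥ (N *ᵥ d) + (k : ℂ) • d) (P *ᵥ (N *ᵥ q))
    have h3 := vs_sub_le (P *ᵥ (N *ᵥ d) + (k : ℂ) • d + P *ᵥ (N *ᵥ q)) u
    have h4 := (hP _).trans (hN d)
    have h5 := (hP _).trans (hN q)
    have h6 := hkv d
    have h7 := (hP _).trans hD
    have h8 : vs (P *ᵥ (N *ᵥ d) + (k : ℂ) • d + P *ᵥ (N *ᵥ q) - u) ≤
        16 * (M ^ 2 * vs d) + 4 * (M ^ 2 * vs q) + 2 * vs u := by linarith
    rw [e]
    refine (vs_add_le _ _).trans ?_
    rw [vs_smul_real, vs_smul_real]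
    have h9 := mul_le_mul hr1 h8 (vs_nonneg _) (sq_nonneg _)
    have h10 := mul_le_mul_of_nonneg_left h7 (sq_nonneg (r + 1))
    have h11 : 2 * (16 * (M ^ 2 * vs d) + 4 * (M ^ 2 * vs q) + 2 * vs u) + 2 * hs D ≤
        32 * (M ^ 2 + 1) * (vs d + E) := by nlinarith
    have h12 := mul_le_mul_of_nonneg_left h11 (sq_nonneg (r + 1))
    nlinarith
  · have e1 : N *ᵥ w - (k : ℂ) • w = d + q := by
      rw [hd, hq]
      abel
    have e2 : (((r + 1 : ℝ) : ℂ) • (K2 - N * N - D)) *ᵥ w -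
        (((r + 1) * (lam ^ 2 - k ^ 2) : ℝ) : ℂ) • w =
        ((r + 1 : ℝ) : ℂ) • (u - N *ᵥ (d + q) - (k : ℂ) • (d + q) - D *ᵥ w) := by
      simp only [← e1, hu, sub_mulVec, smul_mulVec, ← mulVec_mulVec, mulVec_sub, mulVec_smul]
      push_cast
      module
    have h1 := vs_add_le d q
    have h2 := vs_sub_le u (N *ᵥ (d + q))
    have h3 := vs_sub_le (u - N *ᵥ (d + q)) ((k : ℂ) • (d + q))
    have h4 := vs_sub_le (u - N *ᵥ (d + q) - (k : ℂ) • (d + q)) (D *ᵥ w)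
    have h5 := hN (d + q)
    have h6 := hkv (d + q)
    have h7 := mul_le_mul_of_nonneg_left h1 hM
    rw [e1, e2, vs_smul_real]
    have h8 : vs (d + q) + vs (u - N *ᵥ (d + q) - (k : ℂ) • (d + q) - D *ᵥ w) ≤
        32 * (M ^ 2 + 1) * (vs d + E) := by nlinarith
    have h9 := mul_le_mul_of_nonneg_left h8 (sq_nonneg (r + 1))
    have h10 := mul_le_mul_of_nonneg_right hr2 (vs_nonneg (d + q))
    nlinarith

theorem der_mulVec {F : ℝ → Mx n n} {F' : Mx n n} {x : ℝ} (h : Der F F' x) (P : Mx n n)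
    (w : Fin n → ℂ) (i : Fin n) :
    HasDerivAt (fun y => (P *ᵥ (F y *ᵥ w)) i) ((P *ᵥ (F' *ᵥ w)) i) x := by
  simp only [mulVec, dotProduct]
  exact HasDerivAt.fun_sum fun l _ =>
    (HasDerivAt.fun_sum fun j _ => (h l j).mul_const (w j)).const_mul (P i l)

theorem continuous_slk (β : ℝ) (κ : Fin n → ℝ) {N 𝒲 : ℝ → Mx n n} (hN : Continuous N)
    (h𝒲 : Continuous 𝒲) : Continuous fun x => slk β κ (N x) (𝒲 x) := by
  have h0 : Continuous fun x => ((β / (1 + β) : ℝ) : ℂ) • 𝒲 x :=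
    h𝒲.const_smul ((β / (1 + β) : ℝ) : ℂ)
  have h0' : Continuous fun x => N x * N x := hN.matrix_mul hN
  have h1 : Continuous fun x => dg κ * dg κ - N x * N x - ((β / (1 + β) : ℝ) : ℂ) • 𝒲 x :=
    (continuous_const.sub h0').sub h0
  have h2 : Continuous fun x => dg κ * dg κ * N x - N x * (dg κ * dg κ) :=
    (continuous_const.matrix_mul hN).sub (hN.matrix_mul continuous_const)
  have h3 := continuous_hs.comp' h1
  have h4 := continuous_hs.comp' h2
  unfold slk cm Am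
  exact h3.fun_add h4

/-- the estimate for a given spectral projection and starting vector -/
theorem main {β M lam γ τ R c a b : ℝ} (hβ : 0 < β) (hR : 0 < R) (hγ : 0 < γ)
    {κ ind : Fin n → ℝ} {N 𝒲 : ℝ → Mx n n} (hκ : ∀ j, κ j ≤ M) (hl : lam ^ 2 ≤ M ^ 2)
    (hRic : Ric κ N 𝒲 a b) (hind : ∀ j, ind j = 0 ∨ ind j = 1)
    (hgap : ∀ j l, ind j = 1 → ind l = 0 → γ ≤ κ j ^ 2 - κ l ^ 2) {w : Fin n → ℂ}
    (hw : vs w = 1) (hP : dg ind *ᵥ w = w) (hc : dg ind *ᵥ (N c *ᵥ w) = 0)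
    (hτ : vs ((dg κ * dg κ) *ᵥ w - ((lam ^ 2 : ℝ) : ℂ) • w) ≤ τ) :
    (∫ x in (c - R)..(c + R), (vs (N x *ᵥ w - (kink β⁻¹ lam c x : ℂ) • w) +
      vs (𝒲 x *ᵥ w - (soliton β⁻¹ lam c x : ℂ) • w))) ≤
      (32 * (β⁻¹ + 1) ^ 2 * (M ^ 2 + 1)) * (2 * R * Real.exp
        ((1 + 32 * (β⁻¹ + 1) ^ 2 * (M ^ 2 + 1)) * R) * (32 * (β⁻¹ + 1) ^ 2 * (M ^ 2 + 1)) + 1) *
      (2 * R * τ + (1 + 1 / γ ^ 2) * ∫ x in a..b, slk β κ (N x) (𝒲 x)) := by
  set C := 32 * (β⁻¹ + 1) ^ 2 * (M ^ 2 + 1) with hC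
  have hC0 : 0 ≤ C := by positivity
  have hτ0 : 0 ≤ τ := (vs_nonneg _).trans hτ
  have hNc := hRic.continuous
  have hsc := continuous_slk β κ hNc hRic.cont
  have hs0 : ∀ x, 0 ≤ slk β κ (N x) (𝒲 x) := fun x => add_nonneg (hs_nonneg _) (hs_nonneg _)
  set E : ℝ → ℝ := fun x => τ + (1 + 1 / γ ^ 2) * slk β κ (N x) (𝒲 x) with hE
  have hEc : Continuous E := continuous_const.add (continuous_const.mul hsc)
  have hE0 : ∀ x, 0 ≤ E x := fun x => add_nonneg hτ0 (mul_nonneg (by positivity) (hs0 x))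
  set D : ℝ → Mx n n := fun x => Am κ (N x) - ((β / (1 + β) : ℝ) : ℂ) • 𝒲 x with hD
  have hW : ∀ x, 𝒲 x = ((β⁻¹ + 1 : ℝ) : ℂ) • (dg κ * dg κ - N x * N x - D x) := fun x => by
    rw [hD]
    simp only [Am, sub_sub_cancel, smul_smul]
    rw [← Complex.ofReal_mul, show (β⁻¹ + 1) * (β / (1 + β)) = 1 by field_simp]
    simp
  have hPK : dg ind *ᵥ ((dg κ * dg κ) *ᵥ w) = (dg κ * dg κ) *ᵥ w := by
    conv_rhs => rw [← hP]
    simp only [mulVec_mulVec, dg_mul_dg]
    congr 2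
    ext j
    ring
  have hPv : ∀ v, vs (dg ind *ᵥ v) ≤ vs v := fun v => by
    have := vs_mulVec_le_of_psd (M := 1)
      (dg_psd (d := ind) fun j => by rcases hind j with h | h <;> simp [h])
      (bd_dg fun j => by rcases hind j with h | h <;> simp [h]) v
    simpa using this
  have hpt := fun x => pointwise (K2 := dg κ * dg κ) (N := N x) (D := D x) (lam := lam)
    (k := kink β⁻¹ lam c x) (inv_pos.2 hβ) hPK hw hPv ((hRic.btw x).vs_le hκ)
    ((kink_sq_le _ _ _ _).trans hl) (E := E x) (by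
      have h1 := vs_offdiag (N x) hγ hind hgap hw hP
      have h2 : 0 ≤ cm κ (N x) := hs_nonneg _
      have h3 : 0 ≤ hs (D x) / γ ^ 2 := div_nonneg (hs_nonneg _) (sq_nonneg _)
      have h4 : E x = τ + (hs (D x) + cm κ (N x) + hs (D x) / γ ^ 2 + cm κ (N x) / γ ^ 2) := by
        simp only [hE, slk, hD]
        ring
      linarith)
  set h : ℝ → ℝ := fun x => vs (dg ind *ᵥ (N x *ᵥ w) - (kink β⁻¹ lam c x : ℂ) • w) with hh
  have hder : ∀ x, ∃ h', HasDerivAt h h' x ∧ |h'| ≤ (1 + C) * h x + C * E x := fun x => by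
    obtain ⟨h', h1, h2⟩ := vs_deriv
      (f := fun y => dg ind *ᵥ (N y *ᵥ w) - (kink β⁻¹ lam c y : ℂ) • w)
      (f' := dg ind *ᵥ ((Am κ (N x) - 𝒲 x) *ᵥ w) -
        ((-(β⁻¹ * (lam ^ 2 - kink β⁻¹ lam c x ^ 2)) : ℝ) : ℂ) • w) (x := x) fun i =>
      (der_mulVec (hRic.der x) (dg ind) w i).fun_sub
        ((hasDerivAt_kink β⁻¹ lam c x).ofReal_comp.mul_const (w i))
    refine ⟨h', h1, h2.trans ?_⟩
    have h3 := (hpt x).1
    rw [← hW x] at h3
    change h x + _ ≤ _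
    change vs (dg ind *ᵥ ((Am κ (N x) - 𝒲 x) *ᵥ w) - _) ≤ C * (h x + E x) at h3
    linarith
  have hc0 : h c = 0 := by
    simp only [hh, hc]
    simp [kink]
  set I := ∫ x in (c - R)..(c + R), E x with hI
  have hle : c - R ≤ c + R := by linarith
  have hI1 : I ≤ 2 * R * τ + (1 + 1 / γ ^ 2) * ∫ x in a..b, slk β κ (N x) (𝒲 x) := by
    have h1 := integral_le hsc hs0 (a := a) (b := b) (fun x hx => by
      obtain ⟨h1, h2, h3⟩ := hRic.zero_of_not_mem hx
      simp [slk, h1, h2, h3]) hle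
    simp only [hI, hE]
    rw [intervalIntegral.integral_add (continuous_const.intervalIntegrable _ _)
      ((hsc.intervalIntegrable _ _).const_mul _), intervalIntegral.integral_const,
      intervalIntegral.integral_const_mul, smul_eq_mul]
    have h2 := mul_le_mul_of_nonneg_left h1 (by positivity : 0 ≤ 1 + 1 / γ ^ 2)
    linarith
  have hH : ∀ x ∈ Icc (c - R) (c + R), h x ≤ Real.exp ((1 + C) * R) * (C * I) := fun x hx => by
    have := gronwall (F := fun x => C * E x) (by positivity : 0 ≤ 1 + C)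
      (continuous_const.mul hEc) (fun x => mul_nonneg hC0 (hE0 x)) hder hc0 hx
    rwa [intervalIntegral.integral_const_mul] at this
  have hkc := continuous_kink β⁻¹ lam c
  have hcont : Continuous fun x => vs (N x *ᵥ w - (kink β⁻¹ lam c x : ℂ) • w) +
      vs (𝒲 x *ᵥ w - (soliton β⁻¹ lam c x : ℂ) • w) := by
    simp only [soliton_eq]
    exact (continuous_vs.comp ((hNc.matrix_mulVec continuous_const).sub
      ((Complex.continuous_ofReal.comp hkc).smul continuous_const))).add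
      (continuous_vs.comp ((hRic.cont.matrix_mulVec continuous_const).sub
        ((Complex.continuous_ofReal.comp (continuous_const.mul
          (continuous_const.sub (hkc.pow 2)))).smul continuous_const)))
  have h1 := intervalIntegral.integral_mono_on (μ := volume) hle (hcont.intervalIntegrable _ _)
    ((continuous_const.mul ((continuous_const (y := Real.exp ((1 + C) * R) * (C * I))).add
      hEc)).intervalIntegrable _ _) (g := fun x => C * (Real.exp ((1 + C) * R) * (C * I) + E x))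
    fun x hx => by
      have h3 := (hpt x).2
      rw [← hW x, ← soliton_eq] at h3
      refine h3.trans (mul_le_mul_of_nonneg_left ?_ hC0)
      have := hH x hx
      linarith
  rw [intervalIntegral.integral_const_mul, intervalIntegral.integral_add
    (continuous_const.intervalIntegrable _ _) (hEc.intervalIntegrable _ _),
    intervalIntegral.integral_const, smul_eq_mul, ← hI] at h1
  refine h1.trans (le_trans (le_of_eq (by ring)) (mul_le_mul_of_nonneg_left hI1 (by positivity)))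

theorem aux_tau {M μ θ t lam x : ℝ} (hμ : 0 < μ) (ht : t ≤ θ) (h1 : lam - t * (μ / 2) < x)
    (h2 : x ≤ lam) (h3 : 0 < x) (hM : lam ≤ M) : (x ^ 2 - lam ^ 2) ^ 2 ≤ (M * μ * θ) ^ 2 := by
  have h4 : lam - x ≤ θ * (μ / 2) := by nlinarith
  have h5 : lam ^ 2 - x ^ 2 ≤ M * μ * θ := by nlinarith
  have h6 : 0 ≤ lam ^ 2 - x ^ 2 := by nlinarith
  nlinarith

theorem aux_gap {μ θ s t lam x y : ℝ} (hμ : 0 < μ) (hθ0 : 0 < θ) (hθ : θ ≤ 1 / 2) (hs : 0 ≤ s)
    (hst : s ≤ t) (ht : t ≤ 1) (hl : μ ≤ lam) (h1 : lam - t * θ * (μ / 2) < x)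
    (h2 : y ≤ lam - t * (μ / 2)) (h3 : 0 < y) :
    s * (1 - θ) * (μ / 2) * (μ / 2) ≤ x ^ 2 - y ^ 2 := by
  have h5 : s * (1 - θ) * (μ / 2) ≤ x - y := by
    have : s * ((1 - θ) * (μ / 2)) ≤ t * ((1 - θ) * (μ / 2)) :=
      mul_le_mul_of_nonneg_right hst (mul_nonneg (by linarith) (by linarith))
    nlinarith
  have h6 : μ / 2 ≤ x + y := by
    have : t * θ ≤ 1 := by nlinarith
    nlinarith
  have h7 : 0 ≤ s * (1 - θ) * (μ / 2) := mul_nonneg (mul_nonneg hs (by linarith)) (by linarith)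
  calc _ ≤ (x - y) * (x + y) := mul_le_mul h5 h6 (by linarith) (h7.trans h5)
    _ = _ := by ring

/-- choice of the spectral projection and of the starting vector -/
theorem exists_dir {M μ θ a b : ℝ} {n₀ : ℕ} (hμ : 0 < μ) (hθ0 : 0 < θ) (hθ1 : θ ≤ 1 / 2)
    {κ : Fin n → ℝ} {N 𝒲 : ℝ → Mx n n} (hκ : ∀ j, 0 < κ j ∧ κ j ≤ M) (hj : ∃ j, μ ≤ κ j)
    (hcard : (Finset.univ.filter fun j => μ / 2 ≤ κ j).card ≤ n₀) (hRic : Ric κ N 𝒲 a b) :
    ∃ (lam c : ℝ) (w : Fin n → ℂ) (ind : Fin n → ℝ), μ ≤ lam ∧ lam ≤ M ∧ vs w = 1 ∧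
      (∀ j, ind j = 0 ∨ ind j = 1) ∧
      (∀ j l, ind j = 1 → ind l = 0 →
        θ ^ n₀ * (1 - θ) * (μ / 2) * (μ / 2) ≤ κ j ^ 2 - κ l ^ 2) ∧
      dg ind *ᵥ w = w ∧ dg ind *ᵥ (N c *ᵥ w) = 0 ∧
      vs ((dg κ * dg κ) *ᵥ w - ((lam ^ 2 : ℝ) : ℂ) • w) ≤ (M * μ * θ) ^ 2 := by
  obtain ⟨j₁, hj₁⟩ := hj
  obtain ⟨j₀, -, hj₀⟩ := Finset.univ.exists_max_image κ ⟨j₁, Finset.mem_univ _⟩
  replace hj₀ : ∀ j, κ j ≤ κ j₀ := fun j => hj₀ j (Finset.mem_univ _)
  obtain ⟨lam, hlam⟩ : ∃ lam, lam = κ j₀ := ⟨_, rfl⟩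
  rw [← hlam] at hj₀
  have hμl : μ ≤ lam := hj₁.trans (hj₀ j₁)
  have hlM : lam ≤ M := hlam ▸ (hκ j₀).2
  have hθ1' : θ ≤ 1 := by linarith
  obtain ⟨k, hk, hgap⟩ := exists_gap hμ hμl hθ0 hθ1' hcard
  have hθk : θ ^ (k + 1) ≤ θ := by
    rw [pow_succ]
    exact mul_le_of_le_one_left hθ0.le (pow_le_one₀ hθ0.le hθ1')
  have hθk0 : 0 < θ ^ (k + 1) * (μ / 2) := by positivity
  obtain ⟨ind, hind⟩ : ∃ ind : Fin n → ℝ,
      ∀ j, ind j = if lam - θ ^ (k + 1) * (μ / 2) < κ j then 1 else 0 := ⟨_, fun _ => rfl⟩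
  have hind1 : ∀ j, ind j = 1 → lam - θ ^ (k + 1) * (μ / 2) < κ j := fun j hj => by
    by_contra h
    simp [hind, h] at hj
  have hind0 : ∀ j, ind j = 0 → κ j ≤ lam - θ ^ k * (μ / 2) := fun j hj =>
    (hgap j).resolve_right fun h => by simp [hind, h] at hj
  have hind' : ∀ j, ind j = 0 ∨ ind j = 1 := fun j => by
    rw [hind]
    split_ifs <;> simp
  have hj0 : ind j₀ = 1 := by rw [hind, if_pos (by linarith)]
  obtain ⟨c, w, hw, hc⟩ := exists_kernel
    (G := fun x => dg ind * N x * dg ind + dg fun j => 1 - ind j)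
    (((continuous_const.matrix_mul hRic.continuous).matrix_mul continuous_const).add
      continuous_const)
    (fun x => by
      have := herm_conj (hRic.btw x).herm (dg ind)
      rw [(dg_herm ind).eq] at this
      exact this.add (dg_herm _)) (a := a) (b := b)
    (by
      simp only [hRic.left a le_rfl, dg_mul_dg, dg_add]
      refine dg_pd fun j => ?_
      rcases hind' j with h | h <;> simp [h, (hκ j).1])
    (by
      simp only [hRic.right b le_rfl, dg_neg, dg_mul_dg, dg_add]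
      rw [psd_dg_iff]
      intro h
      have := h j₀
      rw [hj0] at this
      linarith)
  have hw0 : ∀ j, ind j = 0 → w j = 0 := fun j hj => by
    have := congrFun hc j
    rw [add_mulVec, Matrix.mul_assoc, ← mulVec_mulVec, Pi.add_apply, dg, mulVec_diagonal, dg,
      mulVec_diagonal, hj] at this
    simpa using this
  have hP : dg ind *ᵥ w = w := by
    ext j
    rcases hind' j with h | h
    · simp [dg, mulVec_diagonal, hw0 j h]
    · simp [dg, mulVec_diagonal, h]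
  have hc' : dg ind *ᵥ (N c *ᵥ w) = 0 := by
    have h1 : (dg fun j => 1 - ind j) *ᵥ w = 0 := by
      rw [← dg_sub (fun _ => 1), dg_const, sub_mulVec, hP]
      simp
    rwa [add_mulVec, h1, add_zero, ← mulVec_mulVec, hP, ← mulVec_mulVec] at hc
  refine ⟨lam, c, w, ind, hμl, hlM, hw, hind', fun j l hj hl => ?_, hP, hc', ?_⟩
  · have h1 := hind1 j hj
    rw [pow_succ] at h1
    exact aux_gap hμ hθ0 hθ1 (pow_nonneg hθ0.le _) (pow_le_pow_of_le_one hθ0.le hθ1' hk)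
      (pow_le_one₀ hθ0.le hθ1') hμl h1 (hind0 l hl) (hκ l).1
  · rw [← mul_one ((M * μ * θ) ^ 2), ← hw, vs, vs, Finset.mul_sum]
    refine Finset.sum_le_sum fun j _ => ?_
    have e : ((dg κ * dg κ) *ᵥ w - ((lam ^ 2 : ℝ) : ℂ) • w) j =
        ((κ j ^ 2 - lam ^ 2 : ℝ) : ℂ) * w j := by
      rw [dg_mul_dg, dg, Pi.sub_apply, mulVec_diagonal, Pi.smul_apply, smul_eq_mul]
      push_cast
      ring
    rw [e, norm_mul, mul_pow, Complex.norm_real, Real.norm_eq_abs, sq_abs]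
    rcases hind' j with h | h
    · simp [hw0 j h]
    · exact mul_le_mul_of_nonneg_right
        (aux_tau hμ hθk (hind1 j h) (hj₀ j) (hκ j).1 hlM) (sq_nonneg _)

theorem aux_fin {C R T θ η g I : ℝ} (hC : 0 < C) (hR : 0 < R) (hθ0 : 0 < θ) (hθ1 : θ ≤ 1 / 2)
    (hg : 0 < g) (hθ : θ ≤ η / (2 * (C * (2 * R * T ^ 2) + 1))) (hI : I ≤ η / (2 * (C * g))) :
    C * (2 * R * (T * θ) ^ 2 + g * I) ≤ η := by
  have hL0 : 0 ≤ C * (2 * R * T ^ 2) := by positivity
  have h1 : C * (2 * R * (T * θ) ^ 2) = C * (2 * R * T ^ 2) * θ * θ := by ring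
  have h2 := (le_div_iff₀ (by positivity)).1 hθ
  have h3 := (le_div_iff₀ (by positivity)).1 hI
  generalize C * (2 * R * T ^ 2) = L at *
  rw [mul_add, h1]
  nlinarith [mul_nonneg hL0 hθ0.le]

end Stab1

open _root_.Crest.Agent.R332.Stab1 in
theorem stab1Stmt : Stab1Stmt := by
  intro β M μ R η n₀ hβ _ hμ hR hη
  obtain ⟨C, hC⟩ : ∃ C, C = (32 * (β⁻¹ + 1) ^ 2 * (M ^ 2 + 1)) * (2 * R * Real.exp
    ((1 + 32 * (β⁻¹ + 1) ^ 2 * (M ^ 2 + 1)) * R) * (32 * (β⁻¹ + 1) ^ 2 * (M ^ 2 + 1)) + 1) :=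
    ⟨_, rfl⟩
  have hC0 : 0 < C := by rw [hC]; positivity
  obtain ⟨θ, hθ⟩ : ∃ θ, θ = min (1 / 2) (η / (2 * (C * (2 * R * (M * μ) ^ 2) + 1))) := ⟨_, rfl⟩
  have hθ0 : 0 < θ := by rw [hθ]; positivity
  have hθ1 : θ ≤ 1 / 2 := hθ ▸ min_le_left _ _
  obtain ⟨γ, hγ⟩ : ∃ γ, γ = θ ^ n₀ * (1 - θ) * (μ / 2) * (μ / 2) := ⟨_, rfl⟩
  have hγ0 : 0 < γ := by
    have : 0 < 1 - θ := by linarith
    rw [hγ]
    positivity
  refine ⟨η / (2 * (C * (1 + 1 / γ ^ 2))), by positivity,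
    fun n κ N 𝒲 a b hκ hj hcard hRic hε => ?_⟩
  obtain ⟨lam, c, w, ind, h1, h2, h3, h4, h5, h6, h7, h8⟩ :=
    exists_dir hμ hθ0 hθ1 hκ hj hcard hRic
  rw [← hγ] at h5
  refine ⟨lam, c, w, h1, h2, h3, (main hβ hR hγ0 (fun j => (hκ j).2)
    (pow_le_pow_left₀ (hμ.le.trans h1) h2 2) hRic h4 h5 h3 h6 h7 h8).trans ?_⟩
  rw [← hC]
  exact aux_fin hC0 hR hθ0 hθ1 (by positivity) (hθ ▸ min_le_right _ _) hε

end Crest.Agent.R332
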