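import Crest.Agent.R332.Basic

/-! # Row 332: (STAB2) from the direction `w` to a channel `v` -/

set_option autoImplicit false

open MeasureTheory Matrix Set
open scoped ComplexOrder ContDiff
open Crest.MathPhysics.LiebThirring

noncomputable section

namespace Crest.Agent.R332

namespace Stab2

variable {m n : ℕ}

theorem continuous_kink (r lam c : ℝ) : Continuous (kink r lam c) := by
  have : kink r lam c = fun x => -(lam * (Real.sinh (r * lam * (x - c)) /
      Real.cosh (r * lam * (x - c)))) := by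
    ext x; rw [kink, Real.tanh_eq_sinh_div_cosh]
  rw [this]
  refine Continuous.neg (continuous_const.mul (Continuous.div (by fun_prop) (by fun_prop) ?_))
  exact fun x => (Real.cosh_pos _).ne'

theorem continuous_soliton3 (r : ℝ) :
    Continuous fun p : ℝ × ℝ × ℝ => soliton r p.1 p.2.1 p.2.2 := by
  unfold soliton
  exact Continuous.div (by fun_prop) (by fun_prop) fun x => pow_ne_zero _ (Real.cosh_pos _).ne'

theorem continuous_soliton (r lam c : ℝ) : Continuous (soliton r lam c) :=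
  (continuous_soliton3 r).comp (f := fun x => (lam, c, x)) (by fun_prop)

theorem soliton_nonneg {r : ℝ} (hr : 0 ≤ r) (lam c x : ℝ) : 0 ≤ soliton r lam c x := by
  unfold soliton; positivity

theorem soliton_le {r lam M : ℝ} (hr : 0 ≤ r) (h0 : 0 ≤ lam) (hM : lam ≤ M) (c x : ℝ) :
    soliton r lam c x ≤ (r + 1) * M ^ 2 := by
  unfold soliton
  have h1 : 1 ≤ Real.cosh (r * lam * (x - c)) ^ 2 := one_le_pow₀ (Real.one_le_cosh _)
  calc _ ≤ (r + 1) * lam ^ 2 := div_le_self (by positivity) h1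
    _ ≤ _ := by gcongr

theorem cosh_le {r lam M R c x : ℝ} (hr : 0 ≤ r) (h0 : 0 ≤ lam) (hM : lam ≤ M)
    (hx : x ∈ Icc (c - R) (c + R)) : Real.cosh (r * lam * (x - c)) ≤ Real.cosh (r * M * R) := by
  rw [Real.cosh_le_cosh]
  have h1 : |x - c| ≤ R := abs_le.2 ⟨by linarith [hx.1], by linarith [hx.2]⟩
  have hR : 0 ≤ R := (abs_nonneg _).trans h1
  have hM0 : 0 ≤ M := h0.trans hM
  rw [abs_mul, abs_of_nonneg (mul_nonneg hr h0), abs_of_nonneg (by positivity : 0 ≤ r * M * R)]
  gcongr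

theorem le_soliton {r μ lam M R c x : ℝ} (hr : 0 ≤ r) (hμ : 0 ≤ μ) (h0 : μ ≤ lam) (hM : lam ≤ M)
    (hx : x ∈ Icc (c - R) (c + R)) :
    (r + 1) * μ ^ 2 / Real.cosh (r * M * R) ^ 2 ≤ soliton r lam c x := by
  unfold soliton
  have h1 := cosh_le hr (hμ.trans h0) hM hx
  have h2 := Real.cosh_pos (r * lam * (x - c))
  gcongr

/-- Cauchy–Schwarz form of the fundamental theorem of calculus -/
theorem norm_sub_sq_le {u u' : ℝ → ℂ} (hu : ∀ x, HasDerivAt u (u' x) x) (hu' : Continuous u')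
    {c R x : ℝ} (hR : 0 < R) (hx : x ∈ Icc (c - R) (c + R)) :
    ‖u x - u c‖ ^ 2 ≤ 2 * R * ∫ y in (c - R)..(c + R), ‖u' y‖ ^ 2 := by
  have hle : c - R ≤ c + R := by linarith
  set A := ∫ y in (c - R)..(c + R), ‖u' y‖ with hA
  have hA0 : 0 ≤ A := intervalIntegral.integral_nonneg hle fun _ _ => norm_nonneg _
  have h1 : ‖u x - u c‖ ≤ A := by
    rw [← intervalIntegral.integral_eq_sub_of_hasDerivAt (fun y _ => hu y)
      (hu'.intervalIntegrable _ _)]
    refine intervalIntegral.norm_integral_le_abs_integral_norm.trans ?_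
    rw [← abs_of_nonneg hA0]
    refine intervalIntegral.abs_integral_mono_interval ?_
      (Filter.Eventually.of_forall fun _ => norm_nonneg _) (hu'.norm.intervalIntegrable _ _)
    rw [uIoc_of_le hle]
    exact uIoc_subset_uIoc_of_uIcc_subset_uIcc (c := c - R) (d := c + R) (by
      rw [uIcc_of_le hle]
      exact uIcc_subset_Icc ⟨by linarith, by linarith⟩ hx) |>.trans (by rw [uIoc_of_le hle])
  have h2 : 0 ≤ ∫ y in (c - R)..(c + R), (‖u' y‖ - A / (2 * R)) ^ 2 :=
    intervalIntegral.integral_nonneg hle fun _ _ => sq_nonneg _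
  have h3 : ∫ y in (c - R)..(c + R), (‖u' y‖ - A / (2 * R)) ^ 2 =
      (∫ y in (c - R)..(c + R), ‖u' y‖ ^ 2) - A ^ 2 / (2 * R) := by
    have e : ∀ y, (‖u' y‖ - A / (2 * R)) ^ 2 =
        ‖u' y‖ ^ 2 - (A / R) * ‖u' y‖ + (A / (2 * R)) ^ 2 := fun y => by field_simp; ring
    simp_rw [e]
    rw [intervalIntegral.integral_add ((by fun_prop : Continuous _).intervalIntegrable _ _)
        (continuous_const.intervalIntegrable _ _),
      intervalIntegral.integral_sub ((by fun_prop : Continuous _).intervalIntegrable _ _)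
        ((by fun_prop : Continuous _).intervalIntegrable _ _),
      intervalIntegral.integral_const_mul, intervalIntegral.integral_const, ← hA, smul_eq_mul]
    field_simp
    ring
  have h4 : A ^ 2 ≤ 2 * R * ∫ y in (c - R)..(c + R), ‖u' y‖ ^ 2 := by
    rw [h3, sub_nonneg, div_le_iff₀ (by positivity)] at h2
    linarith
  exact (pow_le_pow_left₀ (norm_nonneg _) h1 2).trans h4

theorem vs_sub_le_integral {ψ ψ' : ℝ → Fin m → ℂ} (hψ : ∀ x i, HasDerivAt (fun y => ψ y i) (ψ' x i) x)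
    (hψ' : Continuous ψ') {c R x : ℝ} (hR : 0 < R) (hx : x ∈ Icc (c - R) (c + R)) :
    vs (ψ x - ψ c) ≤ 2 * R * ∫ y in (c - R)..(c + R), vs (ψ' y) := by
  have hc : ∀ i, Continuous fun y => ψ' y i := fun i => (continuous_apply i).comp hψ'
  unfold vs
  rw [intervalIntegral.integral_finsetSum (f := fun i y => ‖ψ' y i‖ ^ 2)
    fun i _ => ((hc i).norm.pow 2).intervalIntegrable _ _, Finset.mul_sum]
  exact Finset.sum_le_sum fun i _ => norm_sub_sq_le (fun y => hψ y i) (hc i) hR hx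

theorem qf_mpow_le {A : Mx n n} (hA : A.PosSemidef) {M r : ℝ} (h : Bd A M) (hr : 1 ≤ r)
    (w : Fin n → ℂ) : qf (mpow A r) w ≤ M ^ (r - 1) * qf A w := by
  obtain ⟨U, d, hU, hU', rfl⟩ := exists_diag hA.1
  rw [psd_conj_dg_iff hU] at hA
  rw [bd_conj_dg_iff hU] at h
  have e : ∀ d : Fin n → ℝ, qf (U * dg d * Uᴴ) w = ∑ i, d i * ‖(Uᴴ *ᵥ w) i‖ ^ 2 := fun d => by
    rw [← qf_dg, ← qf_conj, conjTranspose_conjTranspose]
  rw [mpow_conj_dg hU, e, e, Finset.mul_sum]
  refine Finset.sum_le_sum fun i _ => ?_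
  rw [← mul_assoc]
  refine mul_le_mul_of_nonneg_right ?_ (sq_nonneg _)
  have h1 : d i ^ r = d i ^ (r - 1) * d i := by
    rw [← Real.rpow_add_one' (hA i) (by linarith)]; congr 1; ring
  rw [h1]
  exact mul_le_mul_of_nonneg_right (Real.rpow_le_rpow (hA i) (h i) (by linarith)) (hA i)

theorem re_dot_sq_le {w : Fin n → ℂ} (hw : vs w = 1) (z : Fin n → ℂ) :
    (star w ⬝ᵥ z).re ^ 2 ≤ vs z := by
  have h1 := norm_dot_sq_le w z
  rw [hw, one_mul] at h1
  refine le_trans ?_ h1
  rw [← sq_abs]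
  exact pow_le_pow_left₀ (abs_nonneg _) (Complex.abs_re_le_norm _) 2

theorem exists_eps {a b η A B : ℝ} (ha : 0 < a) (hb : 0 < b) (hη : 0 < η) (hA : 0 ≤ A) (hB : 0 ≤ B) :
    ∃ ε : ℝ, 0 < ε ∧ ε < a ∧ A * ε ≤ b ∧ B * ε ≤ η := by
  refine ⟨min (a / 2) (min (b / (A + 1)) (η / (B + 1))), by positivity,
    (min_le_left _ _).trans_lt (by linarith), ?_, ?_⟩
  · calc A * _ ≤ A * (b / (A + 1)) :=
          mul_le_mul_of_nonneg_left ((min_le_right _ _).trans (min_le_left _ _)) hA
      _ ≤ (A + 1) * (b / (A + 1)) := by gcongr; linarith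
      _ = b := by field_simp
  · calc B * _ ≤ B * (η / (B + 1)) :=
          mul_le_mul_of_nonneg_left ((min_le_right _ _).trans (min_le_right _ _)) hB
      _ ≤ (B + 1) * (η / (B + 1)) := by gcongr; linarith
      _ = η := by field_simp

theorem hasDerivAt_F {β : ℝ} (hβ : 0 < β) (lam c x : ℝ) :
    HasDerivAt (fun y => Real.cosh (β⁻¹ * lam * (y - c)) ^ β)
      (-(kink β⁻¹ lam c x) * Real.cosh (β⁻¹ * lam * (x - c)) ^ β) x := by
  have h1 : HasDerivAt (fun y => β⁻¹ * lam * (y - c)) (β⁻¹ * lam) x := by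
    simpa using ((hasDerivAt_id x).sub_const c).const_mul (β⁻¹ * lam)
  have h2 := (h1.cosh).rpow_const (p := β) (Or.inl (Real.cosh_pos _).ne')
  convert h2 using 1
  have hc := Real.cosh_pos (β⁻¹ * lam * (x - c))
  rw [kink, Real.tanh_eq_sinh_div_cosh, Real.rpow_sub_one hc.ne']
  field_simp

end Stab2

open Stab2

theorem stab2Stmt : Stab2Stmt := by
  intro β M μ R η hβ hβ1 hμ hR hη
  by_cases hM : μ ≤ M
  swap
  · exact ⟨1, one_pos, fun m n Φ N lam c w _ _ _ h1 h2 => absurd (h1.trans h2) hM⟩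
  have hM0 : 0 < M := hμ.trans_le hM
  set r := β⁻¹ with hr
  have hr1 : 1 ≤ r := (one_le_inv₀ hβ).2 hβ1.le
  have hr0 : 0 ≤ r := by linarith
  set Ch := Real.cosh (r * M * R) with hCh
  have hCh1 : 1 ≤ Ch := Real.one_le_cosh _
  set s0 := (r + 1) * μ ^ 2 / Ch ^ 2 with hs0
  have hs0p : 0 < s0 := by positivity
  set c1 := s0 / (2 * M ^ (r - 1)) with hc1
  have hMr : 0 < M ^ (r - 1) := Real.rpow_pos_of_pos hM0 _
  have hc1p : 0 < c1 := by positivity
  set K := 2 * (M ^ r) ^ 2 + 2 * ((r + 1) * M ^ 2) ^ 2 with hK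
  have hK0 : 0 ≤ K := by positivity
  set A := 2 * R * (Ch ^ 2 * (2 + 2 * M)) with hA
  have hA0 : 0 ≤ A := by positivity
  obtain ⟨ε, hε, hε1, hε2, hε3⟩ := exists_eps (a := 2 * R * (s0 / 2) ^ 2) (b := c1 / 4) (η := η)
    (A := A) (B := 4 / c1 * (2 * Ch ^ 2 * M + 2 * R * (2 * K * A))) (by positivity) (by positivity) hη
    hA0 (by positivity)
  refine ⟨ε, hε, fun m n Φ N lam c w hΦ hΦM hN hlam hlamM hw h1 h2 => ?_⟩
  have hlam0 : 0 ≤ lam := hμ.le.trans hlam
  have hle : c - R ≤ c + R := by linarith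
  have hΦc := hΦ.continuous
  have hdΦc := hΦ.dM.continuous
  have hkc := continuous_kink r lam c
  have hsc := continuous_soliton r lam c
  set G : ℝ → Mx n n := fun x => (Φ x)ᴴ * Φ x with hG
  have hGc : Continuous fun x => mpow (G x) r :=
    continuous_mpow (hΦc.matrix_conjTranspose.matrix_mul hΦc)
      (fun x => isHermitian_conjTranspose_mul_self _) hr0
  have hVc : Continuous fun x => mpow (Φ x * (Φ x)ᴴ) r :=
    continuous_mpow (hΦc.matrix_mul hΦc.matrix_conjTranspose)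
      (fun x => isHermitian_mul_conjTranspose_self _) hr0
  set e1 : ℝ → ℝ := fun x => hs (dM Φ x - Φ x * N x) with he1
  set e2 : ℝ → ℝ := fun x => vs (N x *ᵥ w - (kink r lam c x : ℂ) • w) with he2
  set e3 : ℝ → ℝ := fun x => vs (mpow (G x) r *ᵥ w - (soliton r lam c x : ℂ) • w) with he3
  have he1c : Continuous e1 := continuous_hs.comp (hdΦc.sub (hΦc.matrix_mul hN))
  have he2c : Continuous e2 := continuous_vs.comp ((hN.matrix_mulVec continuous_const).sub
    ((Complex.continuous_ofReal.comp hkc).smul continuous_const))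
  have he3c : Continuous e3 := continuous_vs.comp ((hGc.matrix_mulVec continuous_const).sub
    ((Complex.continuous_ofReal.comp hsc).smul continuous_const))
  have h23 : (∫ x in (c - R)..(c + R), e2 x) + ∫ x in (c - R)..(c + R), e3 x ≤ ε := by
    rw [← intervalIntegral.integral_add (he2c.intervalIntegrable _ _) (he3c.intervalIntegrable _ _)]
    exact h2
  have i2 : 0 ≤ ∫ x in (c - R)..(c + R), e2 x :=
    intervalIntegral.integral_nonneg hle fun _ _ => vs_nonneg _
  have i3 : 0 ≤ ∫ x in (c - R)..(c + R), e3 x :=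
    intervalIntegral.integral_nonneg hle fun _ _ => vs_nonneg _
  have h2' : ∫ x in (c - R)..(c + R), e2 x ≤ ε := by linarith
  have h3' : ∫ x in (c - R)..(c + R), e3 x ≤ ε := by linarith
  -- the normalised vector `ψ`
  set F : ℝ → ℝ := fun y => Real.cosh (r * lam * (y - c)) ^ β with hF
  have hF1 : ∀ y, 1 ≤ F y := fun y => Real.one_le_rpow (Real.one_le_cosh _) hβ.le
  have hF2 : ∀ y ∈ Icc (c - R) (c + R), F y ≤ Ch := fun y hy =>
    (Real.rpow_le_self_of_one_le (Real.one_le_cosh _) hβ1.le).trans (cosh_le hr0 hlam0 hlamM hy)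
  have hFsq : ∀ y ∈ Icc (c - R) (c + R), ‖(F y : ℂ)‖ ^ 2 ≤ Ch ^ 2 := fun y hy => by
    rw [Complex.norm_real, Real.norm_eq_abs, abs_of_nonneg (by linarith [hF1 y])]
    exact pow_le_pow_left₀ (by linarith [hF1 y]) (hF2 y hy) 2
  have hFc : F c = 1 := by simp [hF]
  have hFd : ∀ x, HasDerivAt F (-(kink r lam c x) * F x) x := hasDerivAt_F hβ lam c
  have hFcont : Continuous F := continuous_iff_continuousAt.2 fun x => (hFd x).continuousAt
  set ψ : ℝ → Fin m → ℂ := fun x => (F x : ℂ) • (Φ x *ᵥ w) with hψ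
  set ψ' : ℝ → Fin m → ℂ := fun x => (F x : ℂ) •
    ((dM Φ x - Φ x * N x) *ᵥ w + Φ x *ᵥ (N x *ᵥ w - (kink r lam c x : ℂ) • w)) with hψ'
  have hψd : ∀ x i, HasDerivAt (fun y => ψ y i) (ψ' x i) x := by
    intro x i
    have a1 : HasDerivAt (fun y => (Φ y *ᵥ w) i) ((dM Φ x *ᵥ w) i) x := by
      simp only [mulVec, dotProduct]
      exact HasDerivAt.fun_sum fun l _ => (hΦ.der x i l).mul_const _
    have a2 : HasDerivAt (fun y => ψ y i) _ x := ((hFd x).ofReal_comp).mul a1
    convert a2 using 1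
    simp only [hψ', sub_mulVec, mulVec_sub, mulVec_smul, ← mulVec_mulVec, Pi.smul_apply,
      Pi.add_apply, Pi.sub_apply, smul_eq_mul]
    push_cast
    ring
  have hψ'c : Continuous ψ' := (Complex.continuous_ofReal.comp hFcont).smul
    (((hdΦc.sub (hΦc.matrix_mul hN)).matrix_mulVec continuous_const).add
      (hΦc.matrix_mulVec ((hN.matrix_mulVec continuous_const).sub
        ((Complex.continuous_ofReal.comp hkc).smul continuous_const))))
  have hρ : ∀ x ∈ Icc (c - R) (c + R), vs (ψ x - ψ c) ≤ A * ε := by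
    intro x hx
    refine (vs_sub_le_integral hψd hψ'c hR hx).trans ?_
    have b1 : ∫ y in (c - R)..(c + R), vs (ψ' y) ≤
        ∫ y in (c - R)..(c + R), Ch ^ 2 * (2 * e1 y + 2 * M * e2 y) := by
      refine intervalIntegral.integral_mono_on hle
        ((continuous_vs.comp hψ'c).intervalIntegrable _ _)
        ((by fun_prop : Continuous _).intervalIntegrable _ _) fun y hy => ?_
      simp only [hψ', vs_smul]
      refine mul_le_mul (hFsq y hy) ((vs_add_le _ _).trans ?_) (vs_nonneg _) (by positivity)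
      have b2 := vs_mulVec_le_hs (dM Φ y - Φ y * N y) w
      have b3 := (vs_mulVec_le_hs (Φ y) (N y *ᵥ w - (kink r lam c y : ℂ) • w)).trans
        (mul_le_mul_of_nonneg_right (hΦM y) (vs_nonneg _))
      rw [hw, mul_one] at b2
      simp only [he1, he2]
      linarith
    rw [intervalIntegral.integral_const_mul, intervalIntegral.integral_add
      ((by fun_prop : Continuous _).intervalIntegrable _ _)
      ((by fun_prop : Continuous _).intervalIntegrable _ _), intervalIntegral.integral_const_mul,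
      intervalIntegral.integral_const_mul] at b1
    have b4 : Ch ^ 2 * (2 * (∫ y in (c - R)..(c + R), e1 y) +
        2 * M * ∫ y in (c - R)..(c + R), e2 y) ≤ Ch ^ 2 * (2 * ε + 2 * M * ε) := by
      have : ∫ y in (c - R)..(c + R), e1 y ≤ ε := h1
      gcongr
    calc _ ≤ 2 * R * (Ch ^ 2 * (2 * ε + 2 * M * ε)) :=
          mul_le_mul_of_nonneg_left (b1.trans b4) (by positivity)
      _ = A * ε := by rw [hA]; ring
  have hGb : ∀ x, Bd (G x) M := fun x =>
    (bd_rtr (posSemidef_conjTranspose_mul_self (Φ x))).mono (by rw [← hs_eq_rtr]; exact hΦM x)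
  -- a point where `Φ w` is not small
  obtain ⟨x₀, hx₀, hlow⟩ : ∃ x₀ ∈ Icc (c - R) (c + R), c1 ≤ vs (Φ x₀ *ᵥ w) := by
    by_contra hcon
    push Not at hcon
    have b1 : ∫ _ in (c - R)..(c + R), (s0 / 2) ^ 2 ≤ ∫ y in (c - R)..(c + R), e3 y := by
      refine intervalIntegral.integral_mono_on hle (continuous_const.intervalIntegrable _ _)
        (he3c.intervalIntegrable _ _) fun y hy => ?_
      have b2 := re_dot_sq_le hw (mpow (G y) r *ᵥ w - (soliton r lam c y : ℂ) • w)
      have b3 : (star w ⬝ᵥ (mpow (G y) r *ᵥ w - (soliton r lam c y : ℂ) • w)).re =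
          qf (mpow (G y) r) w - soliton r lam c y := by
        rw [dotProduct_sub, dotProduct_smul, vs_eq_dot, hw]
        simp [qf]
      have b4 := qf_mpow_le (posSemidef_conjTranspose_mul_self (Φ y)) (hGb y) hr1 w
      have b5 : M ^ (r - 1) * qf (G y) w ≤ s0 / 2 := by
        have := hcon y hy
        rw [vs_mulVec] at this
        calc _ ≤ M ^ (r - 1) * c1 := mul_le_mul_of_nonneg_left this.le hMr.le
          _ = s0 / 2 := by rw [hc1]; field_simp
      have b6 : s0 ≤ soliton r lam c y := le_soliton hr0 hμ.le hlam hlamM hy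
      rw [b3] at b2
      refine le_trans ?_ b2
      have b7 : s0 / 2 ≤ -(qf (mpow (G y) r) w - soliton r lam c y) := by
        have : qf (mpow (G y) r) w ≤ s0 / 2 := b4.trans b5
        linarith
      rw [← neg_sq (qf (mpow (G y) r) w - soliton r lam c y)]
      exact pow_le_pow_left₀ (by positivity) b7 2
    rw [intervalIntegral.integral_const, smul_eq_mul] at b1
    have : (c + R - (c - R)) = 2 * R := by ring
    rw [this] at b1
    linarith
  have hψc : ψ c = Φ c *ᵥ w := by simp [hψ, hFc]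
  set a := vs (ψ c) with ha
  have ha1 : c1 / 4 ≤ a := by
    have b1 : c1 ≤ vs (ψ x₀) := by
      refine hlow.trans ?_
      simp only [hψ, vs_smul]
      refine le_mul_of_one_le_left (vs_nonneg _) ?_
      rw [Complex.norm_real, Real.norm_eq_abs, abs_of_nonneg (by linarith [hF1 x₀])]
      exact one_le_pow₀ (hF1 x₀)
    have b2 := vs_add_le (ψ c) (ψ x₀ - ψ c)
    rw [add_sub_cancel] at b2
    have b3 := hρ x₀ hx₀
    linarith
  have ha0 : 0 < a := lt_of_lt_of_le (by positivity) ha1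
  have hn : ‖(((√a)⁻¹ : ℝ) : ℂ)‖ ^ 2 = a⁻¹ := by
    rw [Complex.norm_real, Real.norm_eq_abs, sq_abs, inv_pow, Real.sq_sqrt ha0.le]
  refine ⟨(((√a)⁻¹ : ℝ) : ℂ) • ψ c, by rw [vs_smul, hn, ← ha, inv_mul_cancel₀ ha0.ne'], ?_⟩
  have b1 : ∫ y in (c - R)..(c + R), vs (mpow (Φ y * (Φ y)ᴴ) r *ᵥ ((((√a)⁻¹ : ℝ) : ℂ) • ψ c) -
      (soliton r lam c y : ℂ) • ((((√a)⁻¹ : ℝ) : ℂ) • ψ c)) ≤
      ∫ y in (c - R)..(c + R), 4 / c1 * (2 * Ch ^ 2 * M * e3 y + 2 * K * A * ε) := by
    refine intervalIntegral.integral_mono_on hle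
      ((continuous_vs.comp ((hVc.matrix_mulVec continuous_const).sub
        ((Complex.continuous_ofReal.comp hsc).smul continuous_const))).intervalIntegrable _ _)
      ((by fun_prop : Continuous _).intervalIntegrable _ _) fun y hy => ?_
    set V := mpow (Φ y * (Φ y)ᴴ) r with hV
    set s := soliton r lam c y with hs
    have hVΦ : V * Φ y = Φ y * mpow (G y) r := cfc_intertwine _ (Φ y)
    have e : V *ᵥ ((((√a)⁻¹ : ℝ) : ℂ) • ψ c) - (s : ℂ) • ((((√a)⁻¹ : ℝ) : ℂ) • ψ c) =
        (((√a)⁻¹ : ℝ) : ℂ) • ((F y : ℂ) • (Φ y *ᵥ (mpow (G y) r *ᵥ w - (s : ℂ) • w)) -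
          (V *ᵥ (ψ y - ψ c) - (s : ℂ) • (ψ y - ψ c))) := by
      have e1 : V *ᵥ ψ y = (F y : ℂ) • (Φ y *ᵥ (mpow (G y) r *ᵥ w)) := by
        simp only [hψ, mulVec_smul, mulVec_mulVec, hVΦ]
      have e2 : (F y : ℂ) • (Φ y *ᵥ ((s : ℂ) • w)) = (s : ℂ) • ψ y := by
        simp only [hψ, mulVec_smul]; rw [smul_comm]
      rw [mulVec_sub, mulVec_sub, smul_sub (F y : ℂ), ← e1, e2, mulVec_smul]
      module
    rw [e, vs_smul, hn]
    have hVb : Bd V (M ^ r) := bd_mpow (posSemidef_self_mul_conjTranspose (Φ y))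
      ((bd_rtr (posSemidef_self_mul_conjTranspose (Φ y))).mono
        (by rw [← hs_eq_rtr']; exact hΦM y)) hr0
    have c2 : vs (V *ᵥ (ψ y - ψ c) - (s : ℂ) • (ψ y - ψ c)) ≤ K * (A * ε) := by
      refine (vs_sub_le _ _).trans ?_
      have c3 := vs_mulVec_le_of_psd (mpow_psd (posSemidef_self_mul_conjTranspose (Φ y)) r) hVb
        (ψ y - ψ c)
      have c4 : ‖(s : ℂ)‖ ^ 2 ≤ ((r + 1) * M ^ 2) ^ 2 := by
        rw [Complex.norm_real, Real.norm_eq_abs, sq_abs]
        exact pow_le_pow_left₀ (soliton_nonneg hr0 _ _ _) (soliton_le hr0 hlam0 hlamM _ _) 2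
      rw [vs_smul]
      have c5 := mul_le_mul_of_nonneg_right c4 (vs_nonneg (ψ y - ψ c))
      calc _ ≤ K * vs (ψ y - ψ c) := by rw [hK]; linarith
        _ ≤ _ := mul_le_mul_of_nonneg_left (hρ y hy) hK0
    have c6 : vs ((F y : ℂ) • (Φ y *ᵥ (mpow (G y) r *ᵥ w - (s : ℂ) • w))) ≤ Ch ^ 2 * (M * e3 y) := by
      rw [vs_smul]
      exact mul_le_mul (hFsq y hy) ((vs_mulVec_le_hs _ _).trans
        (mul_le_mul_of_nonneg_right (hΦM y) (vs_nonneg _))) (vs_nonneg _) (by positivity)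
    have c7 : a⁻¹ ≤ 4 / c1 := by
      rw [inv_le_comm₀ ha0 (by positivity), inv_div]; exact ha1
    refine mul_le_mul c7 ((vs_sub_le _ _).trans ?_) (vs_nonneg _) (by positivity)
    linarith
  refine b1.trans ?_
  rw [intervalIntegral.integral_const_mul, intervalIntegral.integral_add
      ((by fun_prop : Continuous _).intervalIntegrable _ _)
      (continuous_const.intervalIntegrable _ _), intervalIntegral.integral_const_mul,
      intervalIntegral.integral_const, smul_eq_mul]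
  refine le_trans ?_ hε3
  have : (c + R - (c - R)) = 2 * R := by ring
  rw [this, mul_assoc (4 / c1)]
  refine mul_le_mul_of_nonneg_left ?_ (by positivity)
  have := mul_le_mul_of_nonneg_left h3' (by positivity : 0 ≤ 2 * Ch ^ 2 * M)
  linarith

end Crest.Agent.R332
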