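import Crest.Agent.R332.Young

/-! # Row 332: derivative of `tr η(X)` along a path -/

set_option autoImplicit false

open MeasureTheory Matrix Set Filter Topology Asymptotics
open scoped ComplexOrder ContDiff
open Crest.MathPhysics.LiebThirring

noncomputable section

namespace Crest.Agent.R332

namespace TrDer

variable {n : ℕ}

/-- Klein's inequality -/
theorem klein {A B : Mx n n} (hA : A.PosDef) (hB : B.PosDef) :
    rtr (mlog A * (B - A)) ≤ rtr (cfc eta B) - rtr (cfc eta A) := by
  obtain ⟨U, a, hU, -, rfl⟩ := exists_diag hA.1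
  obtain ⟨V, b, hV, -, rfl⟩ := exists_diag hB.1
  rw [pd_conj_dg_iff hU] at hA
  rw [pd_conj_dg_iff hV] at hB
  obtain ⟨q, hq, hr, hc, hqq⟩ := Young.two hU hV
  rw [mlog, cfc_conj_dg _ hU, cfc_conj_dg _ hU, cfc_conj_dg _ hV, Matrix.mul_sub, rtr_sub,
    conj_dg_mul hU, rtr_conj_dg hU, rtr_conj_dg hU, rtr_conj_dg hV, hqq, hr fun i => eta (a i),
    hr fun i => Real.log (a i) * a i, hc fun j => eta (b j)]
  simp only [← Finset.sum_sub_distrib]
  refine Finset.sum_le_sum fun i _ => Finset.sum_le_sum fun j _ => ?_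
  have h1 := Real.log_le_sub_one_of_pos (div_pos (hA i) (hB j))
  rw [Real.log_div (hA i).ne' (hB j).ne'] at h1
  have h2 := mul_le_mul_of_nonneg_left h1 (hB j).le
  rw [mul_sub (b j) (a i / b j), mul_div_cancel₀ _ (hB j).ne'] at h2
  have h3 : 0 ≤ (eta (b j) - eta (a i) - Real.log (a i) * (b j - a i)) * q i j :=
    mul_nonneg (by unfold eta; linarith) (hq i j)
  linarith

theorem squeeze {g l u : ℝ → ℝ} {L x : ℝ} (hl : HasDerivAt l L x) (hu : HasDerivAt u L x)
    (hl0 : l x = 0) (hu0 : u x = 0) (h1 : ∀ y, l y ≤ g y - g x) (h2 : ∀ y, g y - g x ≤ u y) :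
    HasDerivAt g L x := by
  rw [hasDerivAt_iff_isLittleO] at hl hu ⊢
  refine IsBigO.trans_isLittleO (IsBigO.of_bound 1 (Eventually.of_forall fun y => ?_))
    (hl.norm_left.add hu.norm_left)
  rw [hl0, hu0, one_mul]
  simp only [Real.norm_eq_abs, smul_eq_mul, sub_zero]
  refine le_trans ?_ (le_abs_self _)
  have := h1 y
  have := h2 y
  have := le_abs_self (u y - (y - x) * L)
  have := neg_abs_le (l y - (y - x) * L)
  have := abs_nonneg (u y - (y - x) * L)
  have := abs_nonneg (l y - (y - x) * L)
  rw [abs_le]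
  constructor <;> linarith

theorem cont_mul {c d : ℝ → ℂ} {d' : ℂ} {x : ℝ} (hc : ContinuousAt c x) (hd : HasDerivAt d d' x)
    (h0 : d x = 0) : HasDerivAt (fun y => c y * d y) (c x * d') x := by
  rw [hasDerivAt_iff_tendsto_slope] at hd ⊢
  refine ((hc.tendsto.mono_left nhdsWithin_le_nhds).mul hd).congr fun y => ?_
  simp [slope, h0, mul_left_comm]

end TrDer

theorem trDerStmt : TrDerStmt := by
  intro n X X' x hX hD
  have hD' : Der (fun y => X y - X x) X' x := by
    simpa using hD.sub (Der.const (X x) x)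
  have hc : ContinuousAt (fun y => mlog (X y)) x := by
    have h1 : ContinuousWithinAt (mlog : Mx n n → Mx n n) {A | A.PosDef} (X x) :=
      continuousOn_mlog _ (hX x)
    exact continuousWithinAt_univ _ _ |>.1
      (h1.comp (hD.continuousAt.continuousWithinAt (s := univ)) fun y _ => hX y)
  have hl : Der (fun y => mlog (X x) * (X y - X x)) (mlog (X x) * X') x := by
    simpa using (Der.const (mlog (X x)) x).mul hD'
  have hu : Der (fun y => mlog (X y) * (X y - X x)) (mlog (X x) * X') x := by
    intro i j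
    simp only [Matrix.mul_apply]
    refine HasDerivAt.fun_sum fun k _ => TrDer.cont_mul (c := fun y => mlog (X y) i k) ?_
      (hD' k j) (by simp)
    exact ((continuous_apply_apply i k).continuousAt).comp hc
  refine TrDer.squeeze hl.rtr hu.rtr (by simp [rtr]) (by simp [rtr])
    (fun y => TrDer.klein (hX x) (hX y)) fun y => ?_
  have := TrDer.klein (hX y) (hX x)
  rw [← neg_sub (X y), Matrix.mul_neg, rtr_neg] at this
  linarith

end Crest.Agent.R332
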