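import Crest.Agent.R332.Ode
import Crest.Agent.R197.Deg

/-!
# Row 332: Brouwer's theorem as a variational inequality (`ViStmt`)
-/

set_option autoImplicit false

open Matrix Set Filter Topology Metric
open scoped ComplexOrder Manifold InnerProductSpace

noncomputable section

namespace Crest.Agent.R332

namespace Vi

theorem exists_contDiff_near {V : Type} [NormedAddCommGroup V] [NormedSpace ℝ V]
    [FiniteDimensional ℝ V] {f : V → V} (hf : Continuous f) {ε : ℝ} (hε : 0 < ε) :
    ∃ g : V → V, ContDiff ℝ 2 g ∧ ∀ x, ‖g x - f x‖ < ε := by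
  obtain ⟨g, hg⟩ := exists_contMDiffMap_forall_mem_convex_of_local_const (n := 2) 𝓘(ℝ, V)
    (t := fun x => ball (f x) ε) (fun x => convex_ball _ _) (fun x => ⟨f x, by
      filter_upwards [hf.continuousAt.eventually (ball_mem_nhds (f x) hε)] with y hy
      exact mem_ball_comm.1 hy⟩)
  exact ⟨g, contMDiff_iff_contDiff.1 g.contMDiff, fun x => by
    simpa [mem_ball, dist_eq_norm] using hg x⟩

/-- Brouwer's fixed point theorem for bounded maps -/
theorem brouwer {V : Type} [NormedAddCommGroup V] [NormedSpace ℝ V] [FiniteDimensional ℝ V]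
    {f : V → V} (hf : Continuous f) {R : ℝ} (hR : ∀ x, ‖f x‖ ≤ R) : ∃ x, f x = x := by
  have : ProperSpace V := FiniteDimensional.proper_real V
  by_contra hcon
  push Not at hcon
  have hR0 : 0 ≤ R := (norm_nonneg _).trans (hR 0)
  obtain ⟨x₀, -, hx₀⟩ := (isCompact_closedBall (0 : V) (R + 1)).exists_isMinOn
    ⟨0, mem_closedBall_self (by linarith)⟩ (f := fun x => ‖x - f x‖) (by fun_prop)
  have hpos : 0 < min ‖x₀ - f x₀‖ 1 :=
    lt_min (norm_pos_iff.2 (sub_ne_zero.2 (hcon x₀).symm)) one_pos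
  have hlow : ∀ x, min ‖x₀ - f x₀‖ 1 ≤ ‖x - f x‖ := fun x => by
    by_cases hx : x ∈ closedBall (0 : V) (R + 1)
    · exact (min_le_left _ _).trans (hx₀ hx)
    · rw [mem_closedBall_zero_iff, not_le] at hx
      have := norm_sub_norm_le x (f x)
      exact (min_le_right _ _).trans (by linarith [hR x])
  obtain ⟨g, hg, hgf⟩ := exists_contDiff_near hf hpos
  have hgb : ∀ x, ‖g x‖ ≤ R + 1 := fun x => by
    have := norm_sub_norm_le (g x) (f x)
    linarith [hR x, hgf x, min_le_right ‖x₀ - f x₀‖ 1]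
  have h1 : (fun y : V => (fun p : ℝ × V => p.2 - (1 - p.1) • g p.2) (1, y)) = id := by
    ext y; simp
  obtain ⟨-, hev⟩ := Crest.Agent.R197.degStmt V univ (closedBall 0 (R + 2))
    (fun p => p.2 - (1 - p.1) • g p.2) 1 isOpen_univ (isCompact_closedBall _ _) (subset_univ _)
    one_pos (ContDiff.contDiffOn (by fun_prop))
    (fun t ht x _ hx => by
      rw [mem_closedBall_zero_iff, not_le] at hx
      have h2 := norm_sub_norm_le x ((1 - t) • g x)
      have h3 : ‖(1 - t) • g x‖ ≤ ‖g x‖ := by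
        rw [norm_smul, Real.norm_of_nonneg (by linarith [ht.2])]
        exact mul_le_of_le_one_left (norm_nonneg _) (by linarith [ht.1])
      have := hgb x
      show 1 ≤ ‖x - (1 - t) • g x‖
      linarith)
    (fun x _ h => by
      simp only [sub_zero, one_smul, sub_eq_zero] at h
      have h2 := hgf x
      rw [← h] at h2
      exact absurd (hlow x) (not_le.2 h2))
    (fun x _ _ => by
      rw [h1, fderiv_id]
      exact fun a b h => h)
  simp at hev

theorem vi_inner {V : Type} [NormedAddCommGroup V] [InnerProductSpace ℝ V] [FiniteDimensional ℝ V]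
    {C : Set V} (hC : IsCompact C) (hcv : Convex ℝ C) (hne : C.Nonempty) {G : V → V}
    (hG : ContinuousOn G C) : ∃ T ∈ C, ∀ T' ∈ C, ⟪G T, T' - T⟫_ℝ ≤ 0 := by
  choose pr hpr hprd using exists_norm_eq_iInf_of_complete_convex hne hC.isComplete hcv
  have hin : ∀ x, ∀ w ∈ C, ⟪x - pr x, w - pr x⟫_ℝ ≤ 0 := fun x =>
    (norm_eq_iInf_iff_real_inner_le_zero hcv (hpr x)).1 (hprd x)
  have hlip : LipschitzWith 1 pr := LipschitzWith.of_dist_le_mul fun x y => by
    rw [dist_eq_norm, dist_eq_norm, NNReal.coe_one, one_mul]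
    have h1 := hin x _ (hpr y)
    have h2 := hin y _ (hpr x)
    have h3 : ‖pr x - pr y‖ ^ 2 ≤ ⟪x - y, pr x - pr y⟫_ℝ := by
      have e : ⟪x - y, pr x - pr y⟫_ℝ = ‖pr x - pr y‖ ^ 2 - ⟪x - pr x, pr y - pr x⟫_ℝ -
          ⟪y - pr y, pr x - pr y⟫_ℝ := by
        rw [← real_inner_self_eq_norm_sq, ← neg_sub (pr x) (pr y), inner_neg_right]
        simp only [inner_sub_left]
        ring
      linarith
    have h4 := real_inner_le_norm (x - y) (pr x - pr y)
    rcases (norm_nonneg (pr x - pr y)).eq_or_lt with h | h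
    · rw [← h]; exact norm_nonneg _
    · nlinarith
  have hprc := hlip.continuous
  obtain ⟨R, hR⟩ := hC.isBounded.exists_norm_le
  obtain ⟨T, hT⟩ := brouwer (f := fun z => pr (pr z + G (pr z)))
    (hprc.comp (hprc.add (hG.comp_continuous hprc hpr))) (fun z => hR _ (hpr _))
  have hTC : T ∈ C := hT ▸ hpr _
  have hfix : pr T = T := by
    have := hin T T hTC
    rw [real_inner_self_eq_norm_sq] at this
    exact (sub_eq_zero.1 (norm_eq_zero.1 (by nlinarith [norm_nonneg (T - pr T)]))).symm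
  refine ⟨T, hTC, fun T' hT' => ?_⟩
  have := hin (T + G T) T' hT'
  simp only [hfix] at hT
  rwa [hT, add_sub_cancel_left] at this

theorem vi_dual {E : Type} [NormedAddCommGroup E] [NormedSpace ℝ E] [FiniteDimensional ℝ E]
    {C : Set E} (hC : IsCompact C) (hcv : Convex ℝ C) (hne : C.Nonempty) {l : E → E →L[ℝ] ℝ}
    (hl : ContinuousOn l C) : ∃ T ∈ C, ∀ T' ∈ C, l T (T' - T) ≤ 0 := by
  let e := toEuclidean (E := E)
  obtain ⟨_, ⟨T, hT, rfl⟩, h⟩ := vi_inner (C := e '' C) (hC.image e.continuous)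
    (hcv.linear_image e.toLinearEquiv.toLinearMap) (hne.image _)
    (G := fun y => (InnerProductSpace.toDual ℝ _).symm ((l (e.symm y)).comp e.symm.toContinuousLinearMap))
    ((InnerProductSpace.toDual ℝ _).symm.continuous.comp_continuousOn
      (ContinuousOn.clm_comp (hl.comp e.symm.continuous.continuousOn (by
        rintro _ ⟨x, hx, rfl⟩; simpa using hx)) continuousOn_const))
  refine ⟨T, hT, fun T' hT' => ?_⟩
  have := h _ ⟨T', hT', rfl⟩
  rw [InnerProductSpace.toDual_symm_apply, ← map_sub] at this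
  simpa using this

end Vi

open scoped Matrix.Norms.Frobenius

theorem viStmt : ViStmt := by
  intro n R Δ hR hΔ
  have : ProperSpace (Mx n n) := FiniteDimensional.proper_real _
  let l0 : Mx n n → Mx n n →ₗ[ℝ] ℝ := fun A =>
    { toFun := fun X => rtr (A * X)
      map_add' := fun X Y => by rw [Matrix.mul_add, rtr_add]
      map_smul' := fun c X => by simp [rtr] }
  have hcl : IsClosed {T : Mx n n | T.PosSemidef ∧ rtr T ≤ R} :=
    Ode.isClosed_psd.inter (isClosed_le continuous_rtr continuous_const)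
  have hcpt : IsCompact {T : Mx n n | T.PosSemidef ∧ rtr T ≤ R} := by
    refine (isCompact_closedBall (0 : Mx n n) √(R ^ 2 * hs (1 : Mx n n))).of_isClosed_subset hcl ?_
    rintro T ⟨h1, h2⟩
    have h3 := hs_mul_le_left (vs_mulVec_le_of_psd h1 ((bd_rtr h1).mono h2)) (1 : Mx n n)
    rw [Matrix.mul_one, ← Ode.norm_sq_eq] at h3
    exact mem_closedBall_zero_iff.2 (Real.le_sqrt_of_sq_le h3)
  have hcv : Convex ℝ {T : Mx n n | T.PosSemidef ∧ rtr T ≤ R} := by
    rintro X ⟨hX, hX'⟩ Y ⟨hY, hY'⟩ a b ha hb hab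
    refine ⟨(hX.smul ha).add (hY.smul hb), ?_⟩
    have e : rtr (a • X + b • Y) = a * rtr X + b * rtr Y := by simp [rtr]
    rw [e]
    nlinarith
  obtain ⟨T, hT, h⟩ := Vi.vi_dual hcpt hcv ⟨0, PosSemidef.zero, by simpa using hR⟩
    (l := fun T => LinearMap.toContinuousLinearMap (l0 (Δ T)))
    (continuousOn_clm_apply.2 fun X =>
      continuous_rtr.comp_continuousOn (hΔ.mul continuousOn_const))
  exact ⟨T, hT, fun T' h1 h2 => h T' ⟨h1, h2⟩⟩

end Crest.Agent.R332
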