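import Crest.Agent.R332.Basic

/-! # Row 332: trace Young inequality with remainder -/

set_option autoImplicit false

open MeasureTheory Matrix Set
open scoped ComplexOrder ContDiff
open Crest.MathPhysics.LiebThirring

noncomputable section

namespace Crest.Agent.R332

namespace Young

variable {n : ℕ}

/-- two orthonormal bases and the doubly stochastic matrix of their overlaps -/
theorem two {U V : Mx n n} (hU : Uᴴ * U = 1) (hV : Vᴴ * V = 1) :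
    ∃ q : Fin n → Fin n → ℝ, (∀ i j, 0 ≤ q i j) ∧
      (∀ a : Fin n → ℝ, ∑ i, a i = ∑ i, ∑ j, a i * q i j) ∧
      (∀ b : Fin n → ℝ, ∑ j, b j = ∑ i, ∑ j, b j * q i j) ∧
      ∀ a b : Fin n → ℝ, rtr (U * dg a * Uᴴ * (V * dg b * Vᴴ)) = ∑ i, ∑ j, a i * b j * q i j := by
  have hU' : U * Uᴴ = 1 := mul_eq_one_comm.1 hU
  have hV' : V * Vᴴ = 1 := mul_eq_one_comm.1 hV
  have h1 : (Uᴴ * V) * (Uᴴ * V)ᴴ = 1 := by
    rw [conjTranspose_mul, conjTranspose_conjTranspose]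
    calc Uᴴ * V * (Vᴴ * U) = Uᴴ * (V * Vᴴ) * U := by simp only [Matrix.mul_assoc]
      _ = 1 := by rw [hV', Matrix.mul_one, hU]
  have h2 : (Uᴴ * V)ᴴ * (Uᴴ * V) = 1 := mul_eq_one_comm.1 h1
  refine ⟨fun i j => ‖(Uᴴ * V) i j‖ ^ 2, fun i j => sq_nonneg _, fun a => ?_, fun b => ?_,
    rtr_conj_mul_conj U V⟩
  · refine Finset.sum_congr rfl fun i _ => ?_
    rw [← Finset.mul_sum, sum_normSq_row h1, mul_one]
  · rw [Finset.sum_comm]
    refine Finset.sum_congr rfl fun j _ => ?_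
    rw [← Finset.mul_sum, sum_normSq_col h2, mul_one]

theorem mono {β L s t : ℝ} (h0 : 0 < β) (h1 : β < 1) (hs : 0 ≤ s) (hst : s ≤ t) (ht : t ≤ L) :
    β * L ^ (β - 1) * (t - s) ≤ t ^ β - s ^ β := by
  rcases (hs.trans hst).eq_or_lt with h | h
  · have : s = 0 := le_antisymm (h ▸ hst) hs
    subst this
    subst h
    simp
  have h2 : (1 + (s / t - 1)) ^ β ≤ 1 + β * (s / t - 1) :=
    rpow_one_add_le_one_add_mul_self (by have := div_nonneg hs h.le; linarith) h0.le h1.le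
  rw [add_sub_cancel, Real.div_rpow hs h.le, div_le_iff₀ (Real.rpow_pos_of_pos h β)] at h2
  have h3 : L ^ (β - 1) ≤ t ^ (β - 1) := Real.rpow_le_rpow_of_nonpos h ht (by linarith)
  have h4 : t ^ (β - 1) = t ^ β / t := Real.rpow_sub_one h.ne' β
  have h5 : β * t ^ (β - 1) * (t - s) = t ^ β - (1 + β * (s / t - 1)) * t ^ β := by
    rw [h4]; field_simp; ring
  have h6 : β * L ^ (β - 1) * (t - s) ≤ β * t ^ (β - 1) * (t - s) :=
    mul_le_mul_of_nonneg_right (mul_le_mul_of_nonneg_left h3 h0.le) (by linarith)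
  linarith

theorem scal {β L w ν : ℝ} (h0 : 0 < β) (h1 : β < 1) (hw : 0 ≤ w) (hwL : w ≤ L) (hν : 0 ≤ ν)
    (hνL : ν ≤ L) : β / 2 * L ^ (β - 1) * (w - ν) ^ 2 ≤
      w ^ (1 + β) / (1 + β) - ν ^ (1 + β) / (1 + β) - ν ^ β * (w - ν) := by
  set c := β * L ^ (β - 1) with hc
  have hd : ∀ t : ℝ, HasDerivAt (fun t : ℝ => t ^ (1 + β) / (1 + β) - c / 2 * t ^ 2)
      (t ^ β - c * t) t := fun t => by
    have h2 := (Real.hasDerivAt_rpow_const (x := t) (p := 1 + β) (Or.inr (by linarith))).div_const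
      (1 + β)
    have h3 := (hasDerivAt_pow 2 t).const_mul (c / 2)
    refine (h2.fun_sub h3).congr_deriv ?_
    rw [add_sub_cancel_left]
    have : (1 + β) ≠ 0 := by linarith
    field_simp
    norm_num
    ring
  have hcont : ∀ a b : ℝ, ContinuousOn (fun t : ℝ => t ^ (1 + β) / (1 + β) - c / 2 * t ^ 2)
      (Icc a b) := fun a b t _ => (hd t).continuousAt.continuousWithinAt
  have e : β / 2 * L ^ (β - 1) = c / 2 := by rw [hc]; ring
  rw [e]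
  rcases lt_trichotomy w ν with h | h | h
  · obtain ⟨ξ, hξ, hξ'⟩ := exists_hasDerivAt_eq_slope _ _ h (hcont w ν) fun t _ => hd t
    rw [eq_div_iff (by linarith)] at hξ'
    have h4 := mono h0 h1 (hw.trans hξ.1.le) hξ.2.le hνL
    have h5 : 0 ≤ (ν ^ β - ξ ^ β - c * (ν - ξ)) * (ν - w) :=
      mul_nonneg (by linarith) (by linarith)
    nlinarith
  · subst h; simp
  · obtain ⟨ξ, hξ, hξ'⟩ := exists_hasDerivAt_eq_slope _ _ h (hcont ν w) fun t _ => hd t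
    rw [eq_div_iff (by linarith)] at hξ'
    have h4 := mono h0 h1 hν hξ.1.le (hξ.2.le.trans hwL)
    have h5 : 0 ≤ (ξ ^ β - ν ^ β - c * (ξ - ν)) * (w - ν) :=
      mul_nonneg (by linarith) (by linarith)
    nlinarith

theorem scal' {β L w g : ℝ} (h0 : 0 < β) (h1 : β < 1) (hw : 0 ≤ w) (hwL : w ≤ L) (hg : 0 ≤ g)
    (hgL : g ^ β⁻¹ ≤ L) : β / 2 * L ^ (β - 1) * (w - g ^ β⁻¹) ^ 2 ≤
      w ^ (1 + β) / (1 + β) + g ^ (1 + β⁻¹) / (1 + β⁻¹) - w * g := by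
  have h2 := scal h0 h1 hw hwL (Real.rpow_nonneg hg β⁻¹) hgL
  have h3 : (g ^ β⁻¹) ^ β = g := Real.rpow_inv_rpow hg h0.ne'
  have h4 : (g ^ β⁻¹) ^ (1 + β) = g ^ β⁻¹ * g := by
    rw [Real.rpow_add' (Real.rpow_nonneg hg _) (by linarith), Real.rpow_one, h3]
  have h5 : g ^ (1 + β⁻¹) = g ^ β⁻¹ * g := by
    rw [Real.rpow_add' hg (by have := inv_pos.2 h0; linarith), Real.rpow_one, mul_comm]
  rw [h3, h4] at h2
  rw [h5]
  refine h2.trans (le_of_eq ?_)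
  have : (1 + β) ≠ 0 := by linarith
  have : (β + 1) ≠ 0 := by linarith
  field_simp
  ring

theorem main {β Λ : ℝ} (h0 : 0 < β) (h1 : β < 1) {m : ℕ} {W Γ : Mx m m}
    (hW : W.PosSemidef) (hΓ : Γ.PosSemidef) (hWL : Bd W Λ) (hΓL : Bd Γ Λ) :
    β / 2 * (max Λ (Λ ^ β⁻¹)) ^ (β - 1) * hs (W - mpow Γ β⁻¹) ≤ brg β W Γ := by
  obtain ⟨U, w, hU, -, rfl⟩ := exists_diag hW.1
  obtain ⟨V, g, hV, -, rfl⟩ := exists_diag hΓ.1
  rw [psd_conj_dg_iff hU] at hW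
  rw [psd_conj_dg_iff hV] at hΓ
  rw [bd_conj_dg_iff hU] at hWL
  rw [bd_conj_dg_iff hV] at hΓL
  obtain ⟨q, hq, hr, hc, hqq⟩ := two hU hV
  have hh : (U * dg w * Uᴴ - V * dg (fun j => g j ^ β⁻¹) * Vᴴ).IsHermitian :=
    (herm_conj (dg_herm _) U).sub (herm_conj (dg_herm _) V)
  have e1 : hs (U * dg w * Uᴴ - mpow (V * dg g * Vᴴ) β⁻¹) =
      ∑ i, ∑ j, (w i - g j ^ β⁻¹) ^ 2 * q i j := by
    rw [mpow_conj_dg hV, hs_eq_rtr, hh.eq, Matrix.sub_mul, Matrix.mul_sub, Matrix.mul_sub,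
      rtr_sub, rtr_sub, rtr_sub, rtr_mul_comm (V * dg _ * Vᴴ) (U * dg w * Uᴴ), conj_dg_mul hU,
      conj_dg_mul hV, rtr_conj_dg hU, rtr_conj_dg hV, hqq, hr fun i => w i * w i,
      hc fun j => g j ^ β⁻¹ * g j ^ β⁻¹]
    simp only [← Finset.sum_sub_distrib]
    exact Finset.sum_congr rfl fun i _ => Finset.sum_congr rfl fun j _ => by ring
  have e2 : brg β (U * dg w * Uᴴ) (V * dg g * Vᴴ) = ∑ i, ∑ j,
      (w i ^ (1 + β) / (1 + β) + g j ^ (1 + β⁻¹) / (1 + β⁻¹) - w i * g j) * q i j := by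
    rw [brg, tracePow_conj_dg hU, tracePow_conj_dg hV, hqq, hr fun i => w i ^ (1 + β),
      hc fun j => g j ^ (1 + β⁻¹)]
    simp only [Finset.sum_div, ← Finset.sum_sub_distrib, ← Finset.sum_add_distrib]
    exact Finset.sum_congr rfl fun i _ => Finset.sum_congr rfl fun j _ => by ring
  rw [e1, e2, Finset.mul_sum]
  refine Finset.sum_le_sum fun i _ => ?_
  rw [Finset.mul_sum]
  refine Finset.sum_le_sum fun j _ => ?_
  rw [← mul_assoc]
  refine mul_le_mul_of_nonneg_right (scal' h0 h1 (hW i) ((hWL i).trans (le_max_left _ _)) (hΓ j)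
    ((Real.rpow_le_rpow (hΓ j) (hΓL j) (inv_nonneg.2 h0.le)).trans (le_max_right _ _))) (hq i j)

end Young

theorem youngStmt : YoungStmt := by
  intro β h0 h1
  refine ⟨fun m W Γ hW hΓ => ?_, fun Λ hΛ => ⟨β / 2 * (max Λ (Λ ^ β⁻¹)) ^ (β - 1),
    mul_pos (half_pos h0) (Real.rpow_pos_of_pos (lt_max_of_lt_left hΛ) _),
    fun m W Γ hW hΓ hWL hΓL => Young.main h0 h1 hW hΓ hWL hΓL⟩⟩
  have h2 := Young.main (Λ := max (rtr W) (rtr Γ)) h0 h1 hW hΓ
    ((bd_rtr hW).mono (le_max_left _ _)) ((bd_rtr hΓ).mono (le_max_right _ _))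
  refine le_trans (mul_nonneg (mul_nonneg (half_pos h0).le (Real.rpow_nonneg ?_ _))
    (hs_nonneg _)) h2
  exact le_max_of_le_left (le_max_of_le_left (rtr_nonneg hW))

end Crest.Agent.R332
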