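import Crest.Agent.R332.GT
import Crest.Agent.R332.Delta
import Crest.Agent.R332.Asy
import Crest.Agent.R332.TrDer
import Crest.Agent.R332.Young
import Crest.Agent.R332.Scal
import Crest.Agent.R332.HJB
import Crest.Agent.R332.Dia
import Crest.Agent.R332.Ode
import Crest.Agent.R332.Vi
import Crest.Agent.R332.Count
import Crest.Agent.R332.Ext
import Crest.Agent.R332.Fam
import Crest.Agent.R332.Core
import Crest.Agent.R332.Stab1
import Crest.Agent.R332.Stab2
import Crest.Agent.R332.Lim
import Crest.Agent.R332.Approx
import Crest.Agent.R332.Peel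
import Crest.Agent.R332.Fwd
import Crest.Agent.R332.Conv
import Crest.Agent.R332.LT
import Crest.Agent.R332.Glue

/-! # Row 332: assembly -/

namespace Crest.Agent.R332

theorem hjbStmt : HJBStmt := hjbStmt_of gtStmt deltaStmt asyStmt scalStmt
theorem diaStmt : DiaStmt := diaStmt_of hjbStmt trDerStmt scalStmt
theorem extStmt : ExtStmt := extStmt_of odeStmt viStmt countStmt
theorem coreStmt : CoreStmt := coreStmt_of extStmt famStmt youngStmt
theorem ltStmt : LTStmt := ltStmt_of famStmt coreStmt diaStmt youngStmt scalStmt
theorem approxStmt : ApproxStmt :=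
  approxStmt_of famStmt countStmt coreStmt diaStmt youngStmt scalStmt stab1Stmt stab2Stmt
theorem peelStmt : PeelStmt := peelStmt_of ltStmt famStmt countStmt scalStmt
theorem fwdStmt : FwdStmt := fwdStmt_of approxStmt limStmt peelStmt
theorem convStmt : ConvStmt := convStmt_of scalStmt

end Crest.Agent.R332
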