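import Crest.Agent.R332.Basic0

/-! # Row 332: basic matrix API (spectral part) -/

set_option autoImplicit false

open MeasureTheory Matrix Set
open scoped ComplexOrder ContDiff
open Crest.MathPhysics.LiebThirring

noncomputable section

namespace Crest.Agent.R332

variable {m n k : ℕ}

theorem cfc_herm (f : ℝ → ℝ) (A : Mx n n) : (cfc f A).IsHermitian := by
  have : IsSelfAdjoint (cfc f A) := cfc_predicate f A
  exact this

/-- spectral decomposition compatible with the functional calculus -/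
theorem exists_spec {A : Mx n n} (hA : A.IsHermitian) :
    ∃ (U : Mx n n) (d : Fin n → ℝ), Uᴴ * U = 1 ∧ U * Uᴴ = 1 ∧ A = U * dg d * Uᴴ ∧
      ∀ f : ℝ → ℝ, cfc f A = U * dg (fun i => f (d i)) * Uᴴ := by
  refine ⟨hA.eigenvectorUnitary, hA.eigenvalues, ?_, ?_, ?_, fun f => ?_⟩
  · exact Unitary.star_mul_self_of_mem hA.eigenvectorUnitary.2
  · exact Unitary.mul_star_self_of_mem hA.eigenvectorUnitary.2
  · conv_lhs => rw [hA.spectral_theorem, Unitary.conjStarAlgAut_apply]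
    rfl
  · rw [hA.cfc_eq, IsHermitian.cfc, Unitary.conjStarAlgAut_apply]
    rfl

theorem dg_intertwine {d : Fin m → ℝ} {e : Fin n → ℝ} {Y : Mx m n} (h : dg d * Y = Y * dg e)
    (f : ℝ → ℝ) : dg (fun i => f (d i)) * Y = Y * dg (fun i => f (e i)) := by
  ext i j
  have h1 := congrFun (congrFun h i) j
  simp only [dg, diagonal_mul, mul_diagonal] at h1 ⊢
  by_cases hy : Y i j = 0
  · simp [hy]
  · have : (d i : ℂ) = e j := by
      rw [mul_comm] at h1
      exact mul_left_cancel₀ hy h1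
    have h2 : d i = e j := by exact_mod_cast this
    rw [h2, mul_comm]

theorem cfc_intertwine' (f : ℝ → ℝ) {A : Mx m m} {B : Mx n n} (hA : A.IsHermitian)
    (hB : B.IsHermitian) {X : Mx m n} (h : A * X = X * B) : cfc f A * X = X * cfc f B := by
  obtain ⟨U, d, hU, hU', hAe, hfA⟩ := exists_spec hA
  obtain ⟨V, e, hV, hV', hBe, hfB⟩ := exists_spec hB
  have h1 : dg d * (Uᴴ * X * V) = (Uᴴ * X * V) * dg e := by
    have h2 : Uᴴ * (A * X) * V = Uᴴ * (X * B) * V := by rw [h]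
    rw [hAe, hBe] at h2
    calc dg d * (Uᴴ * X * V) = (Uᴴ * U) * dg d * Uᴴ * X * V := by
          rw [hU]; simp [Matrix.mul_assoc]
      _ = Uᴴ * (U * dg d * Uᴴ * X) * V := by simp [Matrix.mul_assoc]
      _ = Uᴴ * (X * (V * dg e * Vᴴ)) * V := h2
      _ = Uᴴ * X * V * dg e * (Vᴴ * V) := by simp [Matrix.mul_assoc]
      _ = _ := by rw [hV]; simp
  have h3 := dg_intertwine h1 f
  rw [hfA, hfB]
  calc U * dg (fun i => f (d i)) * Uᴴ * X
      = U * (dg (fun i => f (d i)) * (Uᴴ * X * V)) * Vᴴ := by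
        simp only [Matrix.mul_assoc, hV', Matrix.mul_one]
    _ = U * ((Uᴴ * X * V) * dg (fun i => f (e i))) * Vᴴ := by rw [h3]
    _ = (U * Uᴴ) * X * (V * dg (fun i => f (e i)) * Vᴴ) := by simp only [Matrix.mul_assoc]
    _ = _ := by rw [hU']; simp

theorem cfc_dg (f : ℝ → ℝ) (d : Fin n → ℝ) : cfc f (dg d) = dg fun i => f (d i) := by
  obtain ⟨V, e, hV, hV', hBe, hfB⟩ := exists_spec (dg_herm d)
  have h1 : dg d * V = V * dg e := by
    conv_lhs => rw [hBe]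
    simp only [Matrix.mul_assoc, hV, Matrix.mul_one]
  have h3 := dg_intertwine h1 f
  rw [hfB, ← h3, Matrix.mul_assoc, hV', Matrix.mul_one]

theorem herm_conj {A : Mx n n} (hA : A.IsHermitian) (U : Mx m n) : (U * A * Uᴴ).IsHermitian :=
  isHermitian_mul_mul_conjTranspose U hA

theorem cfc_conj (f : ℝ → ℝ) {U : Mx n n} (hU : Uᴴ * U = 1) {A : Mx n n} (hA : A.IsHermitian) :
    cfc f (U * A * Uᴴ) = U * cfc f A * Uᴴ := by
  have hU' : U * Uᴴ = 1 := mul_eq_one_comm.1 hU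
  have h := cfc_intertwine' f (herm_conj hA U) hA (X := U)
    (by simp only [Matrix.mul_assoc, hU, Matrix.mul_one])
  rw [← h, Matrix.mul_assoc (cfc f (U * A * Uᴴ)), hU', Matrix.mul_one]

theorem cfc_conj_dg (f : ℝ → ℝ) {U : Mx n n} (hU : Uᴴ * U = 1) (d : Fin n → ℝ) :
    cfc f (U * dg d * Uᴴ) = U * dg (fun i => f (d i)) * Uᴴ := by
  rw [cfc_conj f hU (dg_herm d), cfc_dg]

/-- spectral decomposition -/
theorem exists_diag {A : Mx n n} (hA : A.IsHermitian) :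
    ∃ (U : Mx n n) (d : Fin n → ℝ), Uᴴ * U = 1 ∧ U * Uᴴ = 1 ∧ A = U * dg d * Uᴴ := by
  obtain ⟨U, d, h1, h2, h3, -⟩ := exists_spec hA
  exact ⟨U, d, h1, h2, h3⟩

theorem psd_dg_iff (d : Fin n → ℝ) : (dg d).PosSemidef ↔ ∀ i, 0 ≤ d i := by
  refine ⟨fun h i => ?_, dg_psd⟩
  have := h.diag_nonneg (i := i)
  simpa [dg] using this

theorem pd_dg_iff (d : Fin n → ℝ) : (dg d).PosDef ↔ ∀ i, 0 < d i := by
  refine ⟨fun h i => ?_, dg_pd⟩
  have := h.diag_pos (i := i)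
  simpa [dg] using this

theorem conj_conj {U : Mx n n} (hU : Uᴴ * U = 1) (A : Mx n n) : Uᴴ * (U * A * Uᴴ) * U = A := by
  calc Uᴴ * (U * A * Uᴴ) * U = (Uᴴ * U) * A * (Uᴴ * U) := by simp only [Matrix.mul_assoc]
    _ = A := by rw [hU]; simp

theorem psd_conj_dg_iff {U : Mx n n} (hU : Uᴴ * U = 1) (d : Fin n → ℝ) :
    (U * dg d * Uᴴ).PosSemidef ↔ ∀ i, 0 ≤ d i := by
  rw [← psd_dg_iff]
  refine ⟨fun h => ?_, fun h => h.mul_mul_conjTranspose_same U⟩
  have := h.conjTranspose_mul_mul_same U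
  rwa [conj_conj hU] at this

theorem pd_conj_dg_iff {U : Mx n n} (hU : Uᴴ * U = 1) (d : Fin n → ℝ) :
    (U * dg d * Uᴴ).PosDef ↔ ∀ i, 0 < d i := by
  have hU' : U * Uᴴ = 1 := mul_eq_one_comm.1 hU
  rw [← pd_dg_iff]
  refine ⟨fun h => ?_, fun h => ?_⟩
  · have := h.conjTranspose_mul_mul_same (B := U) (fun v w hvw => by
      have := congrArg (fun z => Uᴴ *ᵥ z) hvw
      simpa [mulVec_mulVec, hU] using this)
    rwa [conj_conj hU] at this
  · exact h.mul_mul_conjTranspose_same (B := U) (fun v w hvw => by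
      have := congrArg (fun z => z ᵥ* Uᴴ) hvw
      simpa [vecMul_vecMul, hU'] using this)

theorem smul_one_sub_conj_dg {U : Mx n n} (hU : Uᴴ * U = 1) (d : Fin n → ℝ) (M : ℝ) :
    (M : ℂ) • (1 : Mx n n) - U * dg d * Uᴴ = U * dg (fun i => M - d i) * Uᴴ := by
  have hU' : U * Uᴴ = 1 := mul_eq_one_comm.1 hU
  rw [← dg_sub, dg_const, Matrix.mul_sub, Matrix.sub_mul]
  simp [hU']

theorem bd_conj_dg_iff {U : Mx n n} (hU : Uᴴ * U = 1) (d : Fin n → ℝ) (M : ℝ) :
    Bd (U * dg d * Uᴴ) M ↔ ∀ i, d i ≤ M := by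
  rw [Bd, smul_one_sub_conj_dg hU, psd_conj_dg_iff hU]
  simp

theorem conj_dg_mul {U : Mx n n} (hU : Uᴴ * U = 1) (d e : Fin n → ℝ) :
    U * dg d * Uᴴ * (U * dg e * Uᴴ) = U * dg (fun i => d i * e i) * Uᴴ := by
  rw [← dg_mul_dg]
  calc U * dg d * Uᴴ * (U * dg e * Uᴴ) = U * dg d * (Uᴴ * U) * dg e * Uᴴ := by
        simp only [Matrix.mul_assoc]
    _ = _ := by rw [hU]; simp only [Matrix.mul_assoc, Matrix.mul_one]

theorem rtr_conj_dg {U : Mx n n} (hU : Uᴴ * U = 1) (d : Fin n → ℝ) :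
    rtr (U * dg d * Uᴴ) = ∑ i, d i := by rw [rtr_conj hU, rtr_dg]

theorem rtr_mul_nonneg {A B : Mx n n} (hA : A.PosSemidef) (hB : B.PosSemidef) :
    0 ≤ rtr (A * B) := by
  obtain ⟨U, d, hU, hU', rfl⟩ := exists_diag hA.1
  obtain ⟨V, e, hV, hV', rfl⟩ := exists_diag hB.1
  rw [psd_conj_dg_iff hU] at hA
  rw [psd_conj_dg_iff hV] at hB
  rw [rtr_conj_mul_conj]
  exact Finset.sum_nonneg fun i _ => Finset.sum_nonneg fun j _ =>
    mul_nonneg (mul_nonneg (hA i) (hB j)) (sq_nonneg _)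

theorem Bd.herm {A : Mx n n} {M : ℝ} (h : Bd A M) : A.IsHermitian := by
  have h1 : ((M : ℂ) • (1 : Mx n n)).IsHermitian := by
    rw [← dg_const]; exact dg_herm _
  have := h1.sub h.1
  simpa using this

/-- `-M ≤ A ≤ M` gives `‖A v‖² ≤ M² ‖v‖²` -/
theorem vs_mulVec_le_of_bd {A : Mx n n} {M : ℝ} (h₁ : Bd A M) (h₂ : Bd (-A) M) (v : Fin n → ℂ) :
    vs (A *ᵥ v) ≤ M ^ 2 * vs v := by
  have hA := h₁.herm
  obtain ⟨U, d, hU, hU', rfl⟩ := exists_diag hA
  have e : -(U * dg d * Uᴴ) = U * dg (fun i => -d i) * Uᴴ := by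
    rw [← dg_neg]; simp
  rw [e, bd_conj_dg_iff hU] at h₂
  rw [bd_conj_dg_iff hU] at h₁
  rw [vs_mulVec, hA.eq, conj_dg_mul hU]
  refine (bd_iff (herm_conj (dg_herm _) U)).1 ((bd_conj_dg_iff hU _ _).2 fun i => ?_) v
  have := h₁ i; have := h₂ i
  nlinarith

theorem vs_mulVec_le_of_psd {A : Mx n n} {M : ℝ} (hA : A.PosSemidef) (h : Bd A M)
    (v : Fin n → ℂ) : vs (A *ᵥ v) ≤ M ^ 2 * vs v := by
  refine vs_mulVec_le_of_bd h ?_ v
  obtain ⟨U, d, hU, hU', rfl⟩ := exists_diag hA.1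
  have e : -(U * dg d * Uᴴ) = U * dg (fun i => -d i) * Uᴴ := by
    rw [← dg_neg]; simp
  rw [e, bd_conj_dg_iff hU]
  rw [bd_conj_dg_iff hU] at h
  rw [psd_conj_dg_iff hU] at hA
  intro i
  have := h i; have := hA i
  linarith

theorem bd_rtr {A : Mx n n} (hA : A.PosSemidef) : Bd A (rtr A) := by
  obtain ⟨U, d, hU, hU', rfl⟩ := exists_diag hA.1
  rw [psd_conj_dg_iff hU] at hA
  rw [bd_conj_dg_iff hU, rtr_conj_dg hU]
  exact fun i => Finset.single_le_sum (fun j _ => hA j) (Finset.mem_univ i)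

theorem Btw.vs_le {κ : Fin n → ℝ} {N : Mx n n} (h : Btw κ N) {M : ℝ} (hM : ∀ j, κ j ≤ M)
    (v : Fin n → ℂ) : vs (N *ᵥ v) ≤ M ^ 2 * vs v := by
  have hb : Bd (dg κ) M := bd_dg hM
  refine vs_mulVec_le_of_bd ?_ ?_ v
  · have := hb.add h.2
    rw [Bd]; convert this using 1; abel
  · have := hb.add h.1
    rw [Bd]; convert this using 1; abel

theorem cfc_mulVec_eigen (f : ℝ → ℝ) {A : Mx n n} (hA : A.IsHermitian) {v : Fin n → ℂ} {t : ℝ}
    (h : A *ᵥ v = (t : ℂ) • v) : cfc f A *ᵥ v = (f t : ℂ) • v := by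
  set X : Mx n 1 := of fun i _ => v i with hX
  have key : ∀ (B : Mx n n) (s : ℝ), B * X = X * dg (fun _ : Fin 1 => s) ↔ B *ᵥ v = (s : ℂ) • v := by
    intro B s
    rw [dg_const, Matrix.mul_smul, Matrix.mul_one]
    constructor
    · intro hB
      ext i
      have := congrFun (congrFun hB i) 0
      simpa [hX, mul_apply, mulVec, dotProduct, mul_comm] using this
    · intro hB
      ext i j
      have := congrFun hB i
      simpa [hX, mul_apply, mulVec, dotProduct, mul_comm] using this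
  have h2 := cfc_intertwine' f hA (dg_herm _) ((key A t).2 h)
  rw [cfc_dg] at h2
  exact (key _ _).1 h2

theorem cfc_intertwine (f : ℝ → ℝ) (Φ : Mx m n) :
    cfc f (Φ * Φᴴ) * Φ = Φ * cfc f (Φᴴ * Φ) :=
  cfc_intertwine' f (isHermitian_mul_conjTranspose_self Φ) (isHermitian_conjTranspose_mul_self Φ)
    (Matrix.mul_assoc _ _ _)

theorem mpow_conj_dg {U : Mx n n} (hU : Uᴴ * U = 1) (d : Fin n → ℝ) (s : ℝ) :
    mpow (U * dg d * Uᴴ) s = U * dg (fun i => d i ^ s) * Uᴴ := cfc_conj_dg _ hU d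

theorem tracePow_conj_dg {U : Mx n n} (hU : Uᴴ * U = 1) (d : Fin n → ℝ) (s : ℝ) :
    tracePow (U * dg d * Uᴴ) s = ∑ i, d i ^ s := by
  rw [tracePow_eq, mpow_conj_dg hU, rtr_conj_dg hU]

theorem mpow_psd {A : Mx n n} (hA : A.PosSemidef) (s : ℝ) : (mpow A s).PosSemidef := by
  obtain ⟨U, d, hU, hU', rfl⟩ := exists_diag hA.1
  rw [psd_conj_dg_iff hU] at hA
  rw [mpow_conj_dg hU, psd_conj_dg_iff hU]
  exact fun i => Real.rpow_nonneg (hA i) s

theorem mpow_zero {s : ℝ} (hs : s ≠ 0) : mpow (0 : Mx n n) s = 0 := by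
  have h0 : (0 : Mx n n) = dg fun _ => 0 := by simp [dg]
  rw [h0, mpow, cfc_dg]
  simp [Real.zero_rpow hs]

theorem bd_mpow {A : Mx n n} (hA : A.PosSemidef) {M s : ℝ} (h : Bd A M) (hs : 0 ≤ s) :
    Bd (mpow A s) (M ^ s) := by
  obtain ⟨U, d, hU, hU', rfl⟩ := exists_diag hA.1
  rw [psd_conj_dg_iff hU] at hA
  rw [bd_conj_dg_iff hU] at h
  rw [mpow_conj_dg hU, bd_conj_dg_iff hU]
  exact fun i => Real.rpow_le_rpow (hA i) (h i) hs

theorem mpow_mpow {A : Mx n n} (hA : A.PosSemidef) (s t : ℝ) :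
    mpow (mpow A s) t = mpow A (s * t) := by
  obtain ⟨U, d, hU, hU', rfl⟩ := exists_diag hA.1
  rw [psd_conj_dg_iff hU] at hA
  simp only [mpow_conj_dg hU]
  congr 3
  ext i
  rw [← Real.rpow_mul (hA i)]

theorem mpow_mul_self {A : Mx n n} (hA : A.PosSemidef) {s : ℝ} (hs : 0 < s) :
    mpow A s * A = mpow A (s + 1) := by
  obtain ⟨U, d, hU, hU', rfl⟩ := exists_diag hA.1
  rw [psd_conj_dg_iff hU] at hA
  simp only [mpow_conj_dg hU, conj_dg_mul hU]
  congr 3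
  ext i
  rw [Real.rpow_add' (hA i) (by linarith), Real.rpow_one]

theorem tracePow_nonneg {A : Mx n n} (hA : A.PosSemidef) (s : ℝ) : 0 ≤ tracePow A s :=
  rtr_nonneg (mpow_psd hA s)

theorem tracePow_smul {A : Mx n n} (hA : A.PosSemidef) {c : ℝ} (hc : 0 ≤ c) (s : ℝ) :
    tracePow ((c : ℂ) • A) s = c ^ s * tracePow A s := by
  obtain ⟨U, d, hU, hU', rfl⟩ := exists_diag hA.1
  rw [psd_conj_dg_iff hU] at hA
  have e : (c : ℂ) • (U * dg d * Uᴴ) = U * dg (fun i => c * d i) * Uᴴ := by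
    rw [← dg_mul_dg (fun _ => c), dg_const]; simp
  rw [e, tracePow_conj_dg hU, tracePow_conj_dg hU, Finset.mul_sum]
  exact Finset.sum_congr rfl fun i _ => Real.mul_rpow hc (hA i)

theorem tracePow_swap (Φ : Mx m n) {s : ℝ} (hs : 0 < s) :
    tracePow (Φ * Φᴴ) (s + 1) = tracePow (Φᴴ * Φ) (s + 1) := by
  rw [tracePow_eq, tracePow_eq, ← mpow_mul_self (posSemidef_self_mul_conjTranspose Φ) hs,
    ← mpow_mul_self (posSemidef_conjTranspose_mul_self Φ) hs, ← Matrix.mul_assoc, mpow,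
    cfc_intertwine, rtr_mul_comm, rtr_mul_comm (mpow _ _), ← Matrix.mul_assoc, mpow]

/-- `‖A‖ ≤ (tr A^s)^(1/s)` -/
theorem bd_tracePow {A : Mx n n} (hA : A.PosSemidef) {s : ℝ} (hs : 0 < s) :
    Bd A (tracePow A s ^ s⁻¹) := by
  obtain ⟨U, d, hU, hU', rfl⟩ := exists_diag hA.1
  rw [psd_conj_dg_iff hU] at hA
  rw [bd_conj_dg_iff hU, tracePow_conj_dg hU]
  intro i
  have h1 : d i ^ s ≤ ∑ j, d j ^ s :=
    Finset.single_le_sum (f := fun j => d j ^ s) (fun j _ => Real.rpow_nonneg (hA j) s)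
      (Finset.mem_univ i)
  calc d i = (d i ^ s) ^ s⁻¹ := (Real.rpow_rpow_inv (hA i) hs.ne').symm
    _ ≤ _ := Real.rpow_le_rpow (Real.rpow_nonneg (hA i) s) h1 (inv_nonneg.2 hs.le)

theorem eq_zero_of_tracePow {A : Mx n n} (hA : A.PosSemidef) {s : ℝ} (hs : 0 < s)
    (h : tracePow A s = 0) : A = 0 := by
  obtain ⟨U, d, hU, hU', rfl⟩ := exists_diag hA.1
  rw [psd_conj_dg_iff hU] at hA
  rw [tracePow_conj_dg hU,
    Finset.sum_eq_zero_iff_of_nonneg (fun j _ => Real.rpow_nonneg (hA j) s)] at h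
  have : d = fun _ => 0 := by
    ext i
    exact (Real.rpow_eq_zero (hA i) hs.ne').1 (h i (Finset.mem_univ i))
  rw [this]
  simp [dg]

theorem continuousOn_cfc_herm {f : ℝ → ℝ} (hf : Continuous f) :
    ContinuousOn (fun A : Mx n n => cfc f A) {A | A.IsHermitian} := by
  open scoped Matrix.Norms.L2Operator in
  exact ContinuousOn.cfc_of_mem_nhdsSet (s := univ) f (a := fun A : Mx n n => A)
    Filter.univ_mem continuousOn_id (fun A hA => hA) hf.continuousOn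

theorem continuousOn_cfc_pd {f : ℝ → ℝ} (hf : ContinuousOn f (Ioi 0)) :
    ContinuousOn (fun A : Mx n n => cfc f A) {A | A.PosDef} := by
  have hs : Ioi (0 : ℝ) ∈ nhdsSet (⋃ A ∈ {A : Mx n n | A.PosDef}, spectrum ℝ A) := by
    refine isOpen_Ioi.mem_nhdsSet.2 ?_
    intro t ht
    simp only [mem_iUnion, mem_ofPred_eq] at ht
    obtain ⟨A, hA, ht⟩ := ht
    rw [hA.1.spectrum_real_eq_range_eigenvalues] at ht
    obtain ⟨i, rfl⟩ := ht
    exact hA.eigenvalues_pos i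
  open scoped Matrix.Norms.L2Operator in
  exact ContinuousOn.cfc_of_mem_nhdsSet (s := Ioi 0) f (a := fun A : Mx n n => A)
    hs continuousOn_id (fun A hA => hA.1) hf

theorem continuous_mpow {Z : Type*} [TopologicalSpace Z] {G : Z → Mx n n} (hG : Continuous G)
    (h : ∀ z, (G z).IsHermitian) {s : ℝ} (hs : 0 ≤ s) : Continuous fun z => mpow (G z) s :=
  (continuousOn_cfc_herm (Real.continuous_rpow_const hs)).comp_continuous hG h

theorem continuousOn_mlog : ContinuousOn (mlog : Mx n n → Mx n n) {A | A.PosDef} :=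
  continuousOn_cfc_pd (Real.continuousOn_log.mono fun _ ht => ne_of_gt ht)

theorem continuous_dg : Continuous (dg : (Fin n → ℝ) → Mx n n) := by
  refine continuous_matrix fun i j => ?_
  by_cases h : i = j
  · subst h
    simp only [dg, diagonal_apply_eq]
    fun_prop
  · simp only [dg, diagonal_apply_ne _ h]
    fun_prop

theorem continuous_Ld (κ : Fin n → ℝ) : Continuous (Ld κ) := by
  unfold Ld
  exact continuous_dg.comp (by fun_prop)

theorem continuousOn_chi {κ : Fin n → ℝ} (hκ : ∀ j, 0 < κ j) :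
    ContinuousOn (fun p : ℝ × Mx n n => chi κ p.1 p.2) (Ioi 0 ×ˢ {N | Btw κ N}) := by
  have hL : Continuous fun p : ℝ × Mx n n => Ld κ p.1 := (continuous_Ld κ).comp continuous_fst
  unfold chi
  refine ContinuousOn.sub (ContinuousOn.add ?_ ?_) ?_
  · exact continuousOn_mlog.comp (hL.add continuous_snd).continuousOn
      fun p hp => Btw.pd_add hp.2 hκ hp.1
  · exact continuousOn_mlog.comp (hL.sub continuous_snd).continuousOn
      fun p hp => Btw.pd_sub hp.2 hκ hp.1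
  · refine ContinuousOn.smul (f := fun p : ℝ × Mx n n => (Real.log p.1 : ℂ))
      (g := fun _ => (1 : Mx n n)) ?_ continuousOn_const
    exact Complex.continuous_ofReal.comp_continuousOn
      (Real.continuousOn_log.comp continuous_fst.continuousOn fun p hp => ne_of_gt hp.1)

end Crest.Agent.R332
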