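import Crest.Agent.R332.Defs

/-! # Row 332: basic matrix API (elementary part) -/

set_option autoImplicit false

open MeasureTheory Matrix Set
open scoped ComplexOrder ContDiff
open Crest.MathPhysics.LiebThirring

noncomputable section

namespace Crest.Agent.R332

variable {m n k : ℕ}

namespace B0
theorem star_mul_self (z : ℂ) : star z * z = ((‖z‖ ^ 2 : ℝ) : ℂ) := by
  rw [mul_comm, Complex.star_def, Complex.mul_conj, Complex.normSq_eq_norm_sq]
theorem star_mul_self_re (z : ℂ) : (star z * z).re = ‖z‖ ^ 2 := by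
  rw [star_mul_self, Complex.ofReal_re]
theorem add_sq_le (z w : ℂ) : ‖z + w‖ ^ 2 ≤ 2 * ‖z‖ ^ 2 + 2 * ‖w‖ ^ 2 := by
  have h := norm_add_le z w
  nlinarith [norm_nonneg (z + w), norm_nonneg z, norm_nonneg w, sq_nonneg (‖z‖ - ‖w‖)]
theorem im_eq_zero {A : Mx n n} (hA : A.IsHermitian) (v : Fin n → ℂ) :
    (star v ⬝ᵥ A *ᵥ v).im = 0 := by
  have h : star (star v ⬝ᵥ A *ᵥ v) = star v ⬝ᵥ A *ᵥ v := by
    rw [← star_dotProduct_star, star_star, star_mulVec, hA.eq, ← dotProduct_mulVec]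
  exact Complex.conj_eq_iff_im.1 h
theorem dg_herm (d : Fin n → ℝ) : (dg d).IsHermitian := by
  ext i j; by_cases h : i = j <;> simp [dg, h, eq_comm]
theorem dg_mul_dg (d e : Fin n → ℝ) : dg d * dg e = dg fun i => d i * e i := by
  simp [dg, diagonal_mul_diagonal]
theorem dg_add (d e : Fin n → ℝ) : dg d + dg e = dg fun i => d i + e i := by
  ext i j; by_cases h : i = j <;> simp [dg, h]
theorem dg_const (c : ℝ) : dg (fun _ : Fin n => c) = (c : ℂ) • 1 := by
  ext i j; by_cases h : i = j <;> simp [dg, one_apply, h]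
theorem dg_pd {d : Fin n → ℝ} (h : ∀ i, 0 < d i) : (dg d).PosDef :=
  PosDef.diagonal fun i => by simpa using h i
theorem herm_smul_one (M : ℝ) : ((M : ℂ) • (1 : Mx n n)).IsHermitian := by
  rw [← dg_const]; exact dg_herm _
theorem sqrt_sub_pos {k u : ℝ} (hk : 0 < k) (hu : 0 < u) : 0 < √(k ^ 2 + u) - k := by
  have : k < √(k ^ 2 + u) := Real.lt_sqrt_of_sq_lt (by linarith)
  linarith
end B0

/-! ### traces and norms -/
theorem tracePow_eq (A : Mx n n) (s : ℝ) : tracePow A s = rtr (mpow A s) := rfl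
theorem negMoment_eq (A : Mx n n) (γ : ℝ) :
    negMoment A γ = rtr (cfc (fun t : ℝ => (max (-t) 0) ^ γ) A) := rfl
@[simp] theorem rtr_zero : rtr (0 : Mx n n) = 0 := by simp [rtr]
@[simp] theorem rtr_one : rtr (1 : Mx n n) = n := by simp [rtr]
theorem rtr_add (A B : Mx n n) : rtr (A + B) = rtr A + rtr B := by simp [rtr]
theorem rtr_sub (A B : Mx n n) : rtr (A - B) = rtr A - rtr B := by simp [rtr]
theorem rtr_neg (A : Mx n n) : rtr (-A) = -rtr A := by simp [rtr]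
theorem rtr_smul (c : ℝ) (A : Mx n n) : rtr ((c : ℂ) • A) = c * rtr A := by simp [rtr]
theorem rtr_mul_comm (A : Mx m n) (B : Mx n m) : rtr (A * B) = rtr (B * A) := by
  simp [rtr, Matrix.trace_mul_comm A B]
theorem rtr_conjTranspose (A : Mx n n) : rtr Aᴴ = rtr A := by simp [rtr, trace_conjTranspose]
theorem rtr_eq_sum (A : Mx n n) : rtr A = ∑ i, (A i i).re := by simp [rtr, Matrix.trace]
theorem rtr_dg (d : Fin n → ℝ) : rtr (dg d) = ∑ i, d i := by simp [rtr, dg, Matrix.trace]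
theorem rtr_sum {ι : Type*} (s : Finset ι) (A : ι → Mx n n) :
    rtr (∑ i ∈ s, A i) = ∑ i ∈ s, rtr (A i) := by simp [rtr]
theorem continuous_rtr : Continuous (rtr : Mx n n → ℝ) := by
  unfold rtr; exact Complex.continuous_re.comp (Continuous.matrix_trace continuous_id)
theorem continuous_hs : Continuous (hs : Mx m n → ℝ) := by
  unfold hs; fun_prop
theorem continuous_vs : Continuous (vs : (Fin n → ℂ) → ℝ) := by
  unfold vs; fun_prop
theorem hs_nonneg (A : Mx m n) : 0 ≤ hs A := by unfold hs; positivity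
theorem vs_nonneg (v : Fin n → ℂ) : 0 ≤ vs v := by unfold vs; positivity
@[simp] theorem hs_zero : hs (0 : Mx m n) = 0 := by simp [hs]
@[simp] theorem vs_zero : vs (0 : Fin n → ℂ) = 0 := by simp [vs]
theorem hs_eq_zero {A : Mx m n} : hs A = 0 ↔ A = 0 := by
  constructor
  · intro h
    ext i j
    have h1 := (Finset.sum_eq_zero_iff_of_nonneg (fun i _ => by positivity)).1 h i (Finset.mem_univ _)
    have h2 := (Finset.sum_eq_zero_iff_of_nonneg (fun i _ => by positivity)).1 h1 j (Finset.mem_univ _)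
    simpa using h2
  · rintro rfl; simp
theorem vs_eq_zero {v : Fin n → ℂ} : vs v = 0 ↔ v = 0 := by
  constructor
  · intro h
    ext i
    have h1 := (Finset.sum_eq_zero_iff_of_nonneg (fun i _ => by positivity)).1 h i (Finset.mem_univ _)
    simpa using h1
  · rintro rfl; simp
theorem hs_eq_rtr (A : Mx m n) : hs A = rtr (Aᴴ * A) := by
  simp only [hs, rtr, Matrix.trace, Matrix.diag, Matrix.mul_apply, conjTranspose_apply, Complex.re_sum]
  rw [Finset.sum_comm]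
  refine Finset.sum_congr rfl fun j _ => Finset.sum_congr rfl fun i _ => ?_
  rw [B0.star_mul_self_re]
theorem hs_eq_rtr' (A : Mx m n) : hs A = rtr (A * Aᴴ) := by rw [hs_eq_rtr, rtr_mul_comm]
theorem hs_conjTranspose (A : Mx m n) : hs Aᴴ = hs A := by
  rw [hs_eq_rtr, hs_eq_rtr', conjTranspose_conjTranspose]
theorem hs_neg (A : Mx m n) : hs (-A) = hs A := by simp [hs]
theorem hs_smul (c : ℂ) (A : Mx m n) : hs (c • A) = ‖c‖ ^ 2 * hs A := by
  simp [hs, Finset.mul_sum, mul_pow]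
theorem vs_smul (c : ℂ) (v : Fin n → ℂ) : vs (c • v) = ‖c‖ ^ 2 * vs v := by
  simp [vs, Finset.mul_sum, mul_pow]
theorem vs_neg (v : Fin n → ℂ) : vs (-v) = vs v := by simp [vs]
theorem hs_add_le (A B : Mx m n) : hs (A + B) ≤ 2 * hs A + 2 * hs B := by
  simp only [hs, Finset.mul_sum, ← Finset.sum_add_distrib]
  exact Finset.sum_le_sum fun i _ => Finset.sum_le_sum fun j _ => B0.add_sq_le _ _
theorem hs_sub_le (A B : Mx m n) : hs (A - B) ≤ 2 * hs A + 2 * hs B := by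
  rw [sub_eq_add_neg]; simpa [hs_neg] using hs_add_le A (-B)
theorem vs_add_le (v w : Fin n → ℂ) : vs (v + w) ≤ 2 * vs v + 2 * vs w := by
  simp only [vs, Finset.mul_sum, ← Finset.sum_add_distrib]
  exact Finset.sum_le_sum fun i _ => B0.add_sq_le _ _
theorem vs_sub_le (v w : Fin n → ℂ) : vs (v - w) ≤ 2 * vs v + 2 * vs w := by
  rw [sub_eq_add_neg]; simpa [vs_neg] using vs_add_le v (-w)
theorem vs_eq_dot (v : Fin n → ℂ) : star v ⬝ᵥ v = (vs v : ℂ) := by
  simp only [vs, dotProduct, Pi.star_apply, Complex.ofReal_sum]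
  refine Finset.sum_congr rfl fun i _ => ?_
  rw [B0.star_mul_self]
theorem vs_eq_qf (v : Fin n → ℂ) : vs v = qf 1 v := by simp [qf, vs_eq_dot]
theorem vs_mulVec (A : Mx m n) (v : Fin n → ℂ) : vs (A *ᵥ v) = qf (Aᴴ * A) v := by
  rw [qf, ← mulVec_mulVec, dotProduct_mulVec, ← star_mulVec, vs_eq_dot]; simp
theorem hs_eq_sum_col (A : Mx m n) : hs A = ∑ j, vs fun i => A i j := by
  simp only [hs, vs]; exact Finset.sum_comm
/-- Cauchy–Schwarz -/
theorem norm_dot_sq_le (v w : Fin n → ℂ) : ‖star v ⬝ᵥ w‖ ^ 2 ≤ vs v * vs w := by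
  have h1 : ‖star v ⬝ᵥ w‖ ≤ ∑ i, ‖v i‖ * ‖w i‖ := by
    simp only [dotProduct, Pi.star_apply]
    refine (norm_sum_le _ _).trans (le_of_eq ?_)
    simp
  calc ‖star v ⬝ᵥ w‖ ^ 2 ≤ (∑ i, ‖v i‖ * ‖w i‖) ^ 2 := by gcongr
    _ ≤ _ := Finset.sum_mul_sq_le_sq_mul_sq _ _ _
theorem rtr_sq_le (A B : Mx m n) : rtr (Aᴴ * B) ^ 2 ≤ hs A * hs B := by
  have h1 : |rtr (Aᴴ * B)| ≤ ∑ p : Fin m × Fin n, ‖A p.1 p.2‖ * ‖B p.1 p.2‖ := by
    rw [Fintype.sum_prod_type, Finset.sum_comm]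
    refine (Complex.abs_re_le_norm _).trans ?_
    simp only [Matrix.trace, Matrix.diag, Matrix.mul_apply, conjTranspose_apply]
    refine (norm_sum_le _ _).trans (Finset.sum_le_sum fun j _ => ?_)
    refine (norm_sum_le _ _).trans (le_of_eq ?_)
    simp
  have hA : hs A = ∑ p : Fin m × Fin n, ‖A p.1 p.2‖ ^ 2 := by rw [Fintype.sum_prod_type]; rfl
  have hB : hs B = ∑ p : Fin m × Fin n, ‖B p.1 p.2‖ ^ 2 := by rw [Fintype.sum_prod_type]; rfl
  rw [hA, hB, ← sq_abs]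
  calc |rtr (Aᴴ * B)| ^ 2 ≤ (∑ p : Fin m × Fin n, ‖A p.1 p.2‖ * ‖B p.1 p.2‖) ^ 2 := by gcongr
    _ ≤ _ := Finset.sum_mul_sq_le_sq_mul_sq _ _ _
theorem vs_mulVec_le_hs (A : Mx m n) (v : Fin n → ℂ) : vs (A *ᵥ v) ≤ hs A * vs v := by
  rw [hs, Finset.sum_mul]
  refine Finset.sum_le_sum fun i _ => ?_
  have h := norm_dot_sq_le (star (A i)) v
  rw [star_star] at h
  simpa [vs, mulVec] using h
theorem hs_mul_le (A : Mx m n) (B : Mx n k) : hs (A * B) ≤ hs A * hs B := by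
  rw [hs_eq_sum_col (A * B), hs_eq_sum_col B, Finset.mul_sum]
  exact Finset.sum_le_sum fun j _ => vs_mulVec_le_hs A fun i => B i j
theorem qf_add (A B : Mx n n) (v : Fin n → ℂ) : qf (A + B) v = qf A v + qf B v := by simp [qf, add_mulVec]
theorem qf_sub (A B : Mx n n) (v : Fin n → ℂ) : qf (A - B) v = qf A v - qf B v := by simp [qf, sub_mulVec]
theorem qf_smul (c : ℝ) (A : Mx n n) (v : Fin n → ℂ) : qf ((c : ℂ) • A) v = c * qf A v := by
  simp [qf, smul_mulVec]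
theorem qf_conj (A : Mx m m) (J : Mx m n) (v : Fin n → ℂ) : qf (Jᴴ * A * J) v = qf A (J *ᵥ v) :=
  by
  rw [qf, qf, ← mulVec_mulVec, ← mulVec_mulVec, dotProduct_mulVec, ← star_mulVec]
theorem qf_dg (d : Fin n → ℝ) (v : Fin n → ℂ) : qf (dg d) v = ∑ i, d i * ‖v i‖ ^ 2 := by
  simp only [qf, dg, dotProduct, mulVec_diagonal, Pi.star_apply, Complex.re_sum]
  refine Finset.sum_congr rfl fun i _ => ?_
  rw [mul_left_comm, B0.star_mul_self, ← Complex.ofReal_mul, Complex.ofReal_re]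
theorem qf_nonneg {A : Mx n n} (hA : A.PosSemidef) (v : Fin n → ℂ) : 0 ≤ qf A v := (Complex.nonneg_iff.1 (hA.dotProduct_mulVec_nonneg v)).1
theorem psd_of_qf {A : Mx n n} (hA : A.IsHermitian) (h : ∀ v, 0 ≤ qf A v) : A.PosSemidef := 
  PosSemidef.of_dotProduct_mulVec_nonneg hA fun v =>
    Complex.nonneg_iff.2 ⟨h v, (B0.im_eq_zero hA v).symm⟩
theorem pd_of_qf {A : Mx n n} (hA : A.IsHermitian) (h : ∀ v, v ≠ 0 → 0 < qf A v) : A.PosDef :=
  PosDef.of_dotProduct_mulVec_pos hA fun v hv =>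
    Complex.pos_iff.2 ⟨h v hv, (B0.im_eq_zero hA v).symm⟩
theorem rtr_eq_sum_qf (A : Mx n n) : rtr A = ∑ i, qf A (Pi.single i 1) := by
  rw [rtr_eq_sum]
  refine Finset.sum_congr rfl fun i _ => ?_
  simp [qf, dotProduct, Pi.single_apply, apply_ite]
theorem rtr_nonneg {A : Mx n n} (hA : A.PosSemidef) : 0 ≤ rtr A := by
  rw [rtr_eq_sum_qf]; exact Finset.sum_nonneg fun i _ => qf_nonneg hA _
/-! ### the order bound `Bd` -/
theorem bd_iff {A : Mx n n} (hA : A.IsHermitian) {M : ℝ} : Bd A M ↔ ∀ v, qf A v ≤ M * vs v := by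
  have hH : ((M : ℂ) • (1 : Mx n n) - A).IsHermitian := (B0.herm_smul_one M).sub hA
  constructor
  · intro h v
    have := qf_nonneg h v
    rw [qf_sub, qf_smul, ← vs_eq_qf] at this
    linarith
  · intro h
    refine psd_of_qf hH fun v => ?_
    rw [qf_sub, qf_smul, ← vs_eq_qf]
    linarith [h v]
theorem Bd.mono {A : Mx n n} {M M' : ℝ} (h : Bd A M) (hM : M ≤ M') : Bd A M' := by
  have hA : A.IsHermitian := by
    have h1 := (B0.herm_smul_one (n := n) M).sub h.isHermitian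
    simpa using h1
  rw [bd_iff hA] at h ⊢
  intro v
  exact (h v).trans (mul_le_mul_of_nonneg_right hM (vs_nonneg v))
theorem bd_dg {d : Fin n → ℝ} {M : ℝ} (h : ∀ i, d i ≤ M) : Bd (dg d) M := by
  rw [bd_iff (B0.dg_herm d)]
  intro v
  rw [qf_dg, vs, Finset.mul_sum]
  exact Finset.sum_le_sum fun i _ => mul_le_mul_of_nonneg_right (h i) (by positivity)
theorem hs_mul_le_left {A : Mx m n} {c : ℝ} (h : ∀ v, vs (A *ᵥ v) ≤ c * vs v) (B : Mx n k) :
    hs (A * B) ≤ c * hs B := by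
  rw [hs_eq_sum_col (A * B), hs_eq_sum_col B, Finset.mul_sum]
  exact Finset.sum_le_sum fun j _ => h fun i => B i j
theorem hs_mul_le_right {A : Mx n k} {c : ℝ} (h : ∀ v, vs (Aᴴ *ᵥ v) ≤ c * vs v) (B : Mx m n) :
    hs (B * A) ≤ c * hs B := by
  rw [← hs_conjTranspose, conjTranspose_mul, ← hs_conjTranspose B]
  exact hs_mul_le_left h _
theorem bd_of_hs {A : Mx n n} (hA : A.IsHermitian) {M : ℝ} (hM : 0 ≤ M) (h : hs A ≤ M ^ 2) :
    Bd A M := by
  rw [bd_iff hA]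
  intro v
  have h1 : qf A v ≤ ‖star v ⬝ᵥ A *ᵥ v‖ := Complex.re_le_norm _
  have h2 := norm_dot_sq_le v (A *ᵥ v)
  have h3 := vs_mulVec_le_hs A v
  have hv := vs_nonneg v
  have h4 : ‖star v ⬝ᵥ A *ᵥ v‖ ^ 2 ≤ (M * vs v) ^ 2 := by
    calc _ ≤ vs v * vs (A *ᵥ v) := h2
      _ ≤ vs v * (M ^ 2 * vs v) := by
        gcongr
        exact h3.trans (mul_le_mul_of_nonneg_right h hv)
      _ = _ := by ring
  exact h1.trans ((pow_le_pow_iff_left₀ (norm_nonneg _) (by positivity) two_ne_zero).1 h4)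
theorem Btw.herm {κ : Fin n → ℝ} {N : Mx n n} (h : Btw κ N) : N.IsHermitian := by
  have h1 := h.1.isHermitian.sub (B0.dg_herm κ)
  simpa using h1
theorem Btw.pd_add {κ : Fin n → ℝ} {N : Mx n n} (h : Btw κ N) (hκ : ∀ j, 0 < κ j) {u : ℝ}
    (hu : 0 < u) : (Ld κ u + N).PosDef := by
  have : Ld κ u + N = dg (fun j => √(κ j ^ 2 + u) - κ j) + (dg κ + N) := by
    rw [← add_assoc, B0.dg_add]; simp [Ld]
  rw [this]
  exact (B0.dg_pd fun j => B0.sqrt_sub_pos (hκ j) hu).add_posSemidef h.1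
theorem Btw.pd_sub {κ : Fin n → ℝ} {N : Mx n n} (h : Btw κ N) (hκ : ∀ j, 0 < κ j) {u : ℝ}
    (hu : 0 < u) : (Ld κ u - N).PosDef := by
  have : Ld κ u - N = dg (fun j => √(κ j ^ 2 + u) - κ j) + (dg κ - N) := by
    rw [← add_sub_assoc, B0.dg_add]; simp [Ld]
  rw [this]
  exact (B0.dg_pd fun j => B0.sqrt_sub_pos (hκ j) hu).add_posSemidef h.2
theorem Ld_mul_self (κ : Fin n → ℝ) {u : ℝ} (hu : 0 ≤ u) :
    Ld κ u * Ld κ u = dg κ * dg κ + (u : ℂ) • 1 := by
  rw [Ld, B0.dg_mul_dg, B0.dg_mul_dg, ← B0.dg_const, B0.dg_add]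
  congr 1
  ext j
  rw [Real.mul_self_sqrt (by positivity)]; ring
/-! ### diagonal matrices and the functional calculus -/
theorem dg_herm (d : Fin n → ℝ) : (dg d).IsHermitian := B0.dg_herm d
theorem dg_mul_dg (d e : Fin n → ℝ) : dg d * dg e = dg fun i => d i * e i := B0.dg_mul_dg d e
theorem dg_add (d e : Fin n → ℝ) : dg d + dg e = dg fun i => d i + e i := B0.dg_add d e
theorem dg_sub (d e : Fin n → ℝ) : dg d - dg e = dg fun i => d i - e i := by
  ext i j; by_cases h : i = j <;> simp [dg, h]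
theorem dg_neg (d : Fin n → ℝ) : -dg d = dg fun i => -d i := by
  ext i j; by_cases h : i = j <;> simp [dg, h]
theorem dg_const (c : ℝ) : dg (fun _ : Fin n => c) = (c : ℂ) • 1 := B0.dg_const c
theorem dg_psd {d : Fin n → ℝ} (h : ∀ i, 0 ≤ d i) : (dg d).PosSemidef := 
  PosSemidef.diagonal fun i => by simpa using h i
theorem dg_pd {d : Fin n → ℝ} (h : ∀ i, 0 < d i) : (dg d).PosDef := B0.dg_pd h
theorem rtr_conj {U : Mx n n} (hU : Uᴴ * U = 1) (A : Mx n n) : rtr (U * A * Uᴴ) = rtr A := by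
  rw [rtr_mul_comm, ← Matrix.mul_assoc, hU, Matrix.one_mul]
theorem hs_conj {U : Mx m m} {V : Mx n n} (hU : Uᴴ * U = 1) (hV : Vᴴ * V = 1) (A : Mx m n) :
    hs (U * A * Vᴴ) = hs A := by
  rw [hs_eq_rtr, hs_eq_rtr]
  have : (U * A * Vᴴ)ᴴ * (U * A * Vᴴ) = V * (Aᴴ * A) * Vᴴ := by
    simp only [conjTranspose_mul, conjTranspose_conjTranspose, Matrix.mul_assoc]
    rw [← Matrix.mul_assoc Uᴴ U, hU, Matrix.one_mul]
  rw [this, rtr_conj hV]
/-- doubly stochastic formula -/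
theorem rtr_conj_mul_conj (U V : Mx n n) (a b : Fin n → ℝ) :
    rtr (U * dg a * Uᴴ * (V * dg b * Vᴴ)) = ∑ i, ∑ j, a i * b j * ‖(Uᴴ * V) i j‖ ^ 2 := by
  have h1 : rtr (U * dg a * Uᴴ * (V * dg b * Vᴴ)) =
      rtr (dg a * (Uᴴ * V) * dg b * (Uᴴ * V)ᴴ) := by
    rw [Matrix.mul_assoc U, Matrix.mul_assoc U, rtr_mul_comm]
    simp only [conjTranspose_mul, conjTranspose_conjTranspose, Matrix.mul_assoc]
  rw [h1, rtr_eq_sum]
  refine Finset.sum_congr rfl fun i _ => ?_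
  rw [Matrix.mul_apply, Complex.re_sum]
  refine Finset.sum_congr rfl fun j _ => ?_
  generalize Uᴴ * V = W
  rw [dg, dg, mul_diagonal, diagonal_mul, conjTranspose_apply]
  have : (a i : ℂ) * W i j * (b j : ℂ) * star (W i j) = ((a i * b j * ‖W i j‖ ^ 2 : ℝ) : ℂ) := by
    rw [Complex.ofReal_mul, ← B0.star_mul_self]; push_cast; ring
  rw [this, Complex.ofReal_re]
theorem sum_normSq_row {U : Mx n n} (hU : U * Uᴴ = 1) (i : Fin n) : ∑ j, ‖U i j‖ ^ 2 = 1 := by
  have h := congrArg (fun X : Mx n n => (X i i).re) hU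
  simp only [Matrix.mul_apply, conjTranspose_apply, Complex.re_sum, one_apply_eq, Complex.one_re] at h
  rw [← h]
  refine Finset.sum_congr rfl fun j _ => ?_
  rw [mul_comm, B0.star_mul_self_re]
theorem sum_normSq_col {U : Mx n n} (hU : Uᴴ * U = 1) (j : Fin n) : ∑ i, ‖U i j‖ ^ 2 = 1 := by
  have h := congrArg (fun X : Mx n n => (X j j).re) hU
  simp only [Matrix.mul_apply, conjTranspose_apply, Complex.re_sum, one_apply_eq, Complex.one_re] at h
  rw [← h]
  refine Finset.sum_congr rfl fun i _ => ?_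
  rw [B0.star_mul_self_re]
/-! ### continuity -/
/-! ### entrywise derivatives -/
theorem Der.continuousAt {F : ℝ → Mx m n} {F' : Mx m n} {x : ℝ} (h : Der F F' x) :
    ContinuousAt F x := 
  continuousAt_pi.2 fun i => continuousAt_pi.2 fun j => (h i j).continuousAt
theorem Der.const (C : Mx m n) (x : ℝ) : Der (fun _ => C) 0 x := fun i j => by
  simpa using hasDerivAt_const x (C i j)
theorem Der.add {F G : ℝ → Mx m n} {F' G' : Mx m n} {x : ℝ} (hF : Der F F' x) (hG : Der G G' x) :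
    Der (fun y => F y + G y) (F' + G') x := fun i j => (hF i j).add (hG i j)
theorem Der.sub {F G : ℝ → Mx m n} {F' G' : Mx m n} {x : ℝ} (hF : Der F F' x) (hG : Der G G' x) :
    Der (fun y => F y - G y) (F' - G') x := fun i j => (hF i j).sub (hG i j)
theorem Der.mul {F : ℝ → Mx m n} {G : ℝ → Mx n k} {F' : Mx m n} {G' : Mx n k} {x : ℝ}
    (hF : Der F F' x) (hG : Der G G' x) : Der (fun y => F y * G y) (F' * G x + F x * G') x := by
  intro i j
  simp only [Matrix.mul_apply, Matrix.add_apply, ← Finset.sum_add_distrib]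
  exact HasDerivAt.fun_sum fun l _ => (hF i l).mul (hG l j)
theorem Der.conjTranspose {F : ℝ → Mx m n} {F' : Mx m n} {x : ℝ} (hF : Der F F' x) :
    Der (fun y => (F y)ᴴ) F'ᴴ x := fun i j => (hF j i).star
theorem Der.rtr {F : ℝ → Mx n n} {F' : Mx n n} {x : ℝ} (hF : Der F F' x) :
    HasDerivAt (fun y => rtr (F y)) (rtr F') x := by
  simp only [rtr_eq_sum]
  exact HasDerivAt.fun_sum fun i _ => Complex.reCLM.hasFDerivAt.comp_hasDerivAt x (hF i i)
theorem Der.unique {F : ℝ → Mx m n} {F' F'' : Mx m n} {x : ℝ} (h : Der F F' x) (h' : Der F F'' x) :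
    F' = F'' := by
  ext i j; exact (h i j).unique (h' i j)
theorem Sm.der {Φ : ℝ → Mx m n} (h : Sm Φ) (x : ℝ) : Der Φ (dM Φ x) x := fun i k =>
  (((h.smooth i k).differentiable (by simp)) x).hasDerivAt
theorem Sm.continuous {Φ : ℝ → Mx m n} (h : Sm Φ) : Continuous Φ := 
  continuous_pi fun i => continuous_pi fun k => (h.smooth i k).continuous
theorem Sm.dM {Φ : ℝ → Mx m n} (h : Sm Φ) : Sm (dM Φ) := by
  refine ⟨fun i k => (contDiff_infty_iff_deriv.1 (h.smooth i k)).2, ?_⟩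
  refine HasCompactSupport.intro h.supp fun x hx => ?_
  ext i k
  have h0 : Φ =ᶠ[nhds x] 0 := notMem_tsupport_iff_eventuallyEq.1 hx
  have h1 : (fun y => Φ y i k) =ᶠ[nhds x] fun _ => 0 := h0.mono fun y hy => by simp [hy]
  simp [R332.dM, h1.deriv_eq]
theorem Sm.exists_Ioo {Φ : ℝ → Mx m n} (h : Sm Φ) :
    ∃ a b : ℝ, a < b ∧ ∀ x, x ∉ Ioo a b → Φ x = 0 := by
  obtain ⟨R, hR⟩ := h.supp.isCompact.isBounded.subset_ball 0
  refine ⟨-(|R| + 1), |R| + 1, by linarith [abs_nonneg R], fun x hx => ?_⟩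
  by_contra hne
  have := hR (subset_tsupport _ hne)
  rw [Metric.mem_ball, dist_zero_right, Real.norm_eq_abs, abs_lt] at this
  exact hx ⟨by linarith [le_abs_self R], by linarith [le_abs_self R]⟩
theorem Ric.continuous {κ : Fin n → ℝ} {N 𝒲 : ℝ → Mx n n} {a b : ℝ} (h : Ric κ N 𝒲 a b) :
    Continuous N := continuous_iff_continuousAt.2 fun x => (h.der x).continuousAt
theorem Ric.zero_of_not_mem {κ : Fin n → ℝ} {N 𝒲 : ℝ → Mx n n} {a b : ℝ} (h : Ric κ N 𝒲 a b)
    {x : ℝ} (hx : x ∉ Ioo a b) : 𝒲 x = 0 ∧ Am κ (N x) = 0 ∧ cm κ (N x) = 0 := by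
  have key : ∀ (C : Mx n n) (s : Set ℝ), x ∈ s → UniqueDiffWithinAt ℝ s x → (∀ y ∈ s, N y = C) →
      Am κ (N x) - 𝒲 x = 0 := by
    intro C s hxs hs hC
    ext i j
    have h1 : HasDerivWithinAt (fun y => N y i j) ((Am κ (N x) - 𝒲 x) i j) s x :=
      (h.der x i j).hasDerivWithinAt
    have h2 : HasDerivWithinAt (fun y => N y i j) 0 s x :=
      (hasDerivWithinAt_const x s (C i j)).congr (fun y hy => by rw [hC y hy]) (by rw [hC x hxs])
    simpa using hs.eq_deriv _ h1 h2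
  rw [mem_Ioo, not_and_or, not_lt, not_lt] at hx
  rcases hx with hx | hx
  · have hN := h.left x hx
    have hA : Am κ (N x) = 0 := by rw [hN, Am, sub_self]
    have := key (dg κ) (Iic x) self_mem_Iic (uniqueDiffWithinAt_Iic x) fun y hy => h.left y (le_trans hy hx)
    rw [hA, zero_sub, neg_eq_zero] at this
    refine ⟨this, hA, ?_⟩
    rw [cm, hN, Matrix.mul_assoc, sub_self, hs_zero]
  · have hN := h.right x hx
    have hA : Am κ (N x) = 0 := by rw [hN, Am]; simp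
    have := key (-dg κ) (Ici x) self_mem_Ici (uniqueDiffWithinAt_Ici x) fun y hy => h.right y (le_trans hx hy)
    rw [hA, zero_sub, neg_eq_zero] at this
    refine ⟨this, hA, ?_⟩
    rw [cm, hN]; simp [Matrix.mul_assoc]

end Crest.Agent.R332
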