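import Crest.Prelude.Def_LiebThirring

/-!
# Row 332 (sharp 1D matrix Lieb–Thirring inequality): definitions and interface

Notation: `β = γ - 1/2 ∈ (0,1)`, `p = 1 + β`, `r = 1/β`, `q = 1 + 2β = 2γ`.
-/

set_option autoImplicit false

open MeasureTheory Matrix Set
open scoped ComplexOrder ContDiff
open Crest.MathPhysics.LiebThirring

noncomputable section

namespace Crest.Agent.R332

abbrev Mx (m n : ℕ) : Type := Matrix (Fin m) (Fin n) ℂ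

/-- real part of the trace -/
def rtr {n : ℕ} (A : Mx n n) : ℝ := A.trace.re
/-- squared Hilbert–Schmidt norm -/
def hs {m n : ℕ} (A : Mx m n) : ℝ := ∑ i, ∑ j, ‖A i j‖ ^ 2
/-- squared Euclidean norm -/
def vs {n : ℕ} (v : Fin n → ℂ) : ℝ := ∑ i, ‖v i‖ ^ 2
/-- real quadratic form -/
def qf {n : ℕ} (A : Mx n n) (v : Fin n → ℂ) : ℝ := (star v ⬝ᵥ A *ᵥ v).re
/-- real diagonal matrix -/
def dg {n : ℕ} (κ : Fin n → ℝ) : Mx n n := diagonal fun j => (κ j : ℂ)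
def mlog {n : ℕ} (X : Mx n n) : Mx n n := cfc Real.log X
def mpow {n : ℕ} (A : Mx n n) (s : ℝ) : Mx n n := cfc (fun t : ℝ => t ^ s) A
/-- `A ≤ M` -/
def Bd {n : ℕ} (A : Mx n n) (M : ℝ) : Prop := ((M : ℂ) • (1 : Mx n n) - A).PosSemidef
/-- entrywise derivative -/
def Der {m n : ℕ} (F : ℝ → Mx m n) (F' : Mx m n) (x : ℝ) : Prop :=
  ∀ i j, HasDerivAt (fun y => F y i j) (F' i j) x
/-- `-K ≤ N ≤ K` -/
def Btw {n : ℕ} (κ : Fin n → ℝ) (N : Mx n n) : Prop :=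
  (dg κ + N).PosSemidef ∧ (dg κ - N).PosSemidef
/-- `A = K² - N²` -/
def Am {n : ℕ} (κ : Fin n → ℝ) (N : Mx n n) : Mx n n := dg κ * dg κ - N * N
/-- `L_u = √(K² + u)` -/
def Ld {n : ℕ} (κ : Fin n → ℝ) (u : ℝ) : Mx n n := dg fun j => √(κ j ^ 2 + u)
/-- `χ_u = log (L_u + N) + log (L_u - N) - log u` -/
def chi {n : ℕ} (κ : Fin n → ℝ) (u : ℝ) (N : Mx n n) : Mx n n :=
  mlog (Ld κ u + N) + mlog (Ld κ u - N) - (Real.log u : ℂ) • (1 : Mx n n)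
/-- `‖[K², N]‖²` -/
def cm {n : ℕ} (κ : Fin n → ℝ) (N : Mx n n) : ℝ := hs (dg κ * dg κ * N - N * (dg κ * dg κ))
/-- `I_β = ∫₀^∞ u^(β-1)/(1+u) du` -/
def Ib (β : ℝ) : ℝ := ∫ u in Ioi (0 : ℝ), u ^ (β - 1) / (1 + u)
/-- `J_β = ∫_{-1}^1 (1-t²)^β dt` -/
def Jb (β : ℝ) : ℝ := ∫ t in (-1 : ℝ)..1, (1 - t ^ 2) ^ β
/-- `η(t) = t log t - t` -/
def eta (t : ℝ) : ℝ := t * Real.log t - t
/-- Young defect -/
def brg {m : ℕ} (β : ℝ) (W Γ : Mx m m) : ℝ :=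
  tracePow W (1 + β) / (1 + β) + tracePow Γ (1 + β⁻¹) / (1 + β⁻¹) - rtr (W * Γ)

/-- a Riccati path `N' = K² - N² - 𝒲` from `K` to `-K` -/
structure Ric {n : ℕ} (κ : Fin n → ℝ) (N 𝒲 : ℝ → Mx n n) (a b : ℝ) : Prop where
  ab : a < b
  cont : Continuous 𝒲
  psd : ∀ x, (𝒲 x).PosSemidef
  btw : ∀ x, Btw κ (N x)
  der : ∀ x, Der N (Am κ (N x) - 𝒲 x) x
  left : ∀ x, x ≤ a → N x = dg κ
  right : ∀ x, b ≤ x → N x = - dg κ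

/-- the slack density of a Riccati path -/
def slk {n : ℕ} (β : ℝ) (κ : Fin n → ℝ) (N 𝒲 : Mx n n) : ℝ :=
  hs (Am κ N - ((β / (1 + β) : ℝ) : ℂ) • 𝒲) + cm κ N

/-- smooth compactly supported matrix functions (columns = trial functions) -/
structure Sm {m n : ℕ} (Φ : ℝ → Mx m n) : Prop where
  smooth : ∀ i k, ContDiff ℝ ∞ fun x => Φ x i k
  supp : HasCompactSupport Φ

def dM {m n : ℕ} (Φ : ℝ → Mx m n) (x : ℝ) : Mx m n := of fun i k => deriv (fun y => Φ y i k) x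
def gram {m n : ℕ} (Φ : ℝ → Mx m n) : Mx n n := of fun k l => ∫ x, ((Φ x)ᴴ * Φ x) k l
def ener {m n : ℕ} (W : ℝ → Mx m m) (Φ : ℝ → Mx m n) : Mx n n :=
  of fun k l => ∫ x, ((dM Φ x)ᴴ * dM Φ x - (Φ x)ᴴ * W x * Φ x) k l

/-- admissible potentials -/
structure Pot {m : ℕ} (β : ℝ) (W : ℝ → Mx m m) : Prop where
  meas : ∀ i j, Measurable fun x => W x i j
  psd : ∀ x, (W x).PosSemidef
  int : Integrable fun x => tracePow (W x) (1 + β)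

/-- `σ = ∫ tr W^p` -/
def sig {m : ℕ} (β : ℝ) (W : ℝ → Mx m m) : ℝ := ∫ x, tracePow (W x) (1 + β)

/-- `W` is an optimiser -/
def Opt {m : ℕ} (β : ℝ) (W : ℝ → Mx m m) : Prop :=
  ∀ ε : ℝ, 0 < ε → ∃ (n : ℕ) (Φ : ℝ → Mx m n), Sm Φ ∧ gram Φ = 1 ∧
    sharpConst (β + 1 / 2) * sig β W - ε < negMoment (ener W Φ) (β + 1 / 2)

/-- the kink `-λ tanh (r λ (x - c))` -/
def kink (r lam c x : ℝ) : ℝ := -(lam * Real.tanh (r * lam * (x - c)))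

/-! ## 1. Matrix inequalities -/

/-- (GT) Golden–Thompson in Gibbs form, with a remainder -/
def GTStmt : Prop :=
  (∀ (n : ℕ) (P X Y : Mx n n), P.PosDef → X.PosDef → Y.PosDef →
    rtr (P * (mlog X + mlog Y)) ≤ rtr (P * mlog P) - rtr P + rtr (X * Y)) ∧
  ∀ M : ℝ, 0 < M → ∃ c : ℝ, 0 < c ∧ ∀ (n : ℕ) (P X Y : Mx n n), P.PosDef → X.PosDef → Y.PosDef →
    Bd P M → Bd X M → Bd Y M →
    rtr (P * (mlog X + mlog Y)) + c * (hs (X * Y - P) - 2 * hs (X * Y - Y * X)) ≤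
      rtr (P * mlog P) - rtr P + rtr (X * Y)

/-- (DELTA) the derivative of `χ_u` in `u` -/
def DeltaStmt : Prop :=
  ∀ M : ℝ, 0 < M → ∃ c : ℝ, 0 < c ∧ ∀ (n : ℕ) (κ : Fin n → ℝ) (N : Mx n n) (u : ℝ),
    (∀ j, 0 < κ j ∧ κ j ≤ M) → Btw κ N → 0 < u → ∃ D' j' : ℝ,
      HasDerivAt (fun w => rtr (chi κ w N * Am κ N)) D' u ∧
      HasDerivAt (fun w => rtr (chi κ w N)) j' u ∧
      D' + u * j' ≤ -(rtr (Am κ N) / u) ∧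
      (u ∈ Icc (1 : ℝ) 2 → D' + u * j' + c * cm κ N ≤ -(rtr (Am κ N) / u))

/-- (ASY) behaviour of `χ_u` as `u → 0` and `u → ∞` -/
def AsyStmt : Prop :=
  ∀ (n : ℕ) (M : ℝ), 0 < M → ∃ C u₀ : ℝ, 0 < C ∧ ∀ (κ : Fin n → ℝ) (N : Mx n n),
    (∀ j, 0 < κ j ∧ κ j ≤ M) → Btw κ N →
    |rtr (Am κ N)| ≤ C ∧
    (∀ u, 0 < u → u ≤ 1 → |rtr (chi κ u N * Am κ N)| ≤ C * (1 + |Real.log u|) ∧
      |rtr (chi κ u N)| ≤ C * (1 + |Real.log u|)) ∧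
    (∀ u, u₀ ≤ u → |rtr (chi κ u N * Am κ N)| ≤ C / u ∧
      rtr (Am κ N) / u - C / u ^ 2 ≤ rtr (chi κ u N))

/-- (SCAL) scalar integrals and constants -/
def ScalStmt : Prop :=
  ∀ β : ℝ, 0 < β → β < 1 →
    0 < Ib β ∧ 0 < Jb β ∧ 0 < sharpConst (β + 1 / 2) ∧
    (sharpConst (β + 1 / 2))⁻¹ = (1 + β) ^ (1 + β) * β ^ (-β) * Jb β ∧
    (∀ b ε R : ℝ, 0 ≤ b → 0 < ε → ε ≤ R →
      (1 + β) * ∫ u in ε..R, u ^ (β - 1) * ((b + u) * (Real.log (b + u) - Real.log u) - b) ≤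
        β⁻¹ * Ib β * b ^ (1 + β)) ∧
    (∀ κ η : ℝ, 0 < κ → 0 < η → ∃ ε₀ R₀ : ℝ, 0 < ε₀ ∧ ∀ ε R : ℝ, 0 < ε → ε ≤ ε₀ → R₀ ≤ R →
      Ib β * Jb β * κ ^ (1 + 2 * β) - η ≤ β * ∫ u in ε..R, u ^ (β - 1) *
        (2 * (eta (√(κ ^ 2 + u) + κ) - eta (√(κ ^ 2 + u) - κ) - κ * Real.log u))) ∧
    (∀ a c : ℝ, 0 ≤ a → Integrable (fun x => soliton β⁻¹ a c x ^ (1 + β)) ∧
      sharpConst (β + 1 / 2) * ∫ x, soliton β⁻¹ a c x ^ (1 + β) = a ^ (1 + 2 * β))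

/-- (HJB) the pointwise Hamilton–Jacobi inequality -/
def HJBStmt : Prop :=
  ∀ β M : ℝ, 0 < β → β < 1 → 0 < M → ∃ c : ℝ, 0 < c ∧ ∀ (n : ℕ) (η : ℝ), 0 < η →
    ∃ ε₀ R₀ : ℝ, 0 < ε₀ ∧ ∀ ε R : ℝ, 0 < ε → ε ≤ ε₀ → R₀ ≤ R →
      ∀ (κ : Fin n → ℝ) (N B : Mx n n), (∀ j, 0 < κ j ∧ κ j ≤ M) → Btw κ N → B.PosSemidef →
        Bd B M →
        β * (∫ u in ε..R, u ^ (β - 1) *
            rtr (chi κ u N * (((β⁻¹ + 1 : ℝ) : ℂ) • B - Am κ N))) +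
          c * (hs (Am κ N - B) + cm κ N) ≤ β⁻¹ * Ib β * tracePow B (1 + β) + η

/-- (TRDER) derivative of `tr η(X)` along a path -/
def TrDerStmt : Prop :=
  ∀ (n : ℕ) (X : ℝ → Mx n n) (X' : Mx n n) (x : ℝ), (∀ y, (X y).PosDef) → Der X X' x →
    HasDerivAt (fun y => rtr (cfc eta (X y))) (rtr (mlog (X x) * X')) x

/-- (DIA) the cost of a Riccati path -/
def DiaStmt : Prop :=
  ∀ β M : ℝ, 0 < β → β < 1 → 0 < M → ∃ c : ℝ, 0 < c ∧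
    ∀ (n : ℕ) (κ : Fin n → ℝ) (N 𝒲 : ℝ → Mx n n) (a b : ℝ), (∀ j, 0 < κ j ∧ κ j ≤ M) →
      Ric κ N 𝒲 a b → (∀ x, Bd (𝒲 x) M) →
      (sharpConst (β + 1 / 2))⁻¹ * ∑ j, κ j ^ (1 + 2 * β) +
        c * ∫ x in a..b, slk β κ (N x) (𝒲 x) ≤ ∫ x in a..b, tracePow (𝒲 x) (1 + β)

/-- (YOUNG) trace Young inequality with remainder -/
def YoungStmt : Prop :=
  ∀ β : ℝ, 0 < β → β < 1 →
    (∀ (m : ℕ) (W Γ : Mx m m), W.PosSemidef → Γ.PosSemidef → 0 ≤ brg β W Γ) ∧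
    ∀ Λ : ℝ, 0 < Λ → ∃ c : ℝ, 0 < c ∧ ∀ (m : ℕ) (W Γ : Mx m m), W.PosSemidef → Γ.PosSemidef →
      Bd W Λ → Bd Γ Λ → c * hs (W - mpow Γ β⁻¹) ≤ brg β W Γ

/-- (COUNT) eigenvalue comparison -/
def CountStmt : Prop :=
  ∀ (n n₁ n₂ : ℕ) (E : Mx n n) (E₁ : Mx n₁ n₁) (E₂ : Mx n₂ n₂) (J₁ : Mx n₁ n) (J₂ : Mx n₂ n)
    (t₀ : ℝ) (f : ℝ → ℝ), E.IsHermitian → E₁.IsHermitian → E₂.IsHermitian → Antitone f →
    (∀ t, t₀ ≤ t → f t = 0) →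
    (∀ (t : ℝ) (v : Fin n → ℂ), t ≤ t₀ → t * vs (J₁ *ᵥ v) ≤ qf E₁ (J₁ *ᵥ v) →
      t * vs (J₂ *ᵥ v) ≤ qf E₂ (J₂ *ᵥ v) → t * vs v ≤ qf E v) →
    rtr (cfc f E) ≤ rtr (cfc f E₁) + rtr (cfc f E₂)

/-! ## 2. Existence of the Riccati path -/

/-- (ODE) the truncated Riccati flow -/
def OdeStmt : Prop :=
  ∀ (n : ℕ) (Z : Type) [TopologicalSpace Z] (a b ρ : ℝ) (K : Z → Mx n n) (𝒲 : Z → ℝ → Mx n n),
    a < b → Continuous K → Continuous (fun p : Z × ℝ => 𝒲 p.1 p.2) →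
    (∀ z, (K z).PosSemidef ∧ Bd (K z) ρ) → (∀ z x, (𝒲 z x).PosSemidef) →
    ∃ N : Z → ℝ → Mx n n, (∀ z, N z a = K z) ∧ Continuous (fun z => N z b) ∧
      (∀ z, (N z b).IsHermitian) ∧
      (∀ (z : Z) (v : Fin n → ℂ) (μ : ℂ), K z *ᵥ v = μ • v → (∀ x, 𝒲 z x *ᵥ v = 0) →
        N z b *ᵥ v = μ • v) ∧
      ∀ z, (K z + N z b).PosSemidef → ∀ x ∈ Icc a b,
        (K z + N z x).PosSemidef ∧ (K z - N z x).PosSemidef ∧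
        ∀ i j, HasDerivWithinAt (fun y => N z y i j)
          ((K z * K z - N z x * N z x - 𝒲 z x) i j) (Icc a b) x

/-- (VI) Brouwer's theorem as a variational inequality on `{T ≥ 0, tr T ≤ R}` -/
def ViStmt : Prop :=
  ∀ (n : ℕ) (R : ℝ) (Δ : Mx n n → Mx n n), 0 ≤ R →
    ContinuousOn Δ {T | T.PosSemidef ∧ rtr T ≤ R} →
    ∃ T : Mx n n, (T.PosSemidef ∧ rtr T ≤ R) ∧
      ∀ T' : Mx n n, T'.PosSemidef → rtr T' ≤ R → rtr (Δ T * (T' - T)) ≤ 0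

/-- (EXT) existence of the frame `T` and of the Riccati path -/
def ExtStmt : Prop :=
  ∀ (r q : ℝ) (n : ℕ) (κ : Fin n → ℝ) (g : ℝ → Mx n n) (a b η : ℝ), 1 ≤ r → 0 < q → 0 < n →
    (∀ j, 0 < κ j) → Continuous g → (∀ x, (g x).PosSemidef) → a < b →
    (∀ x, x ∉ Ioo a b → g x = 0) → (∀ i j, ∫ x in a..b, g x i j = (1 : Mx n n) i j) → 0 < η →
    ∃ (T : Mx n n) (κ' : Fin n → ℝ) (N : ℝ → Mx n n), (∀ j, 0 < κ' j) ∧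
      (∀ i, ∃ j, κ i ≤ κ' j) ∧ ∑ j, κ j ^ q ≤ ∑ j, κ' j ^ q ∧
      rtr (dg κ' * dg κ' * (Tᴴ * T)) ≤ rtr (dg κ * dg κ * (T * Tᴴ)) + η ∧
      Ric κ' N (fun x => mpow (Tᴴ * g x * T) r) a b

/-! ## 3. Trial families -/

/-- (BRIDGE) trial families as matrix functions -/
def BridgeStmt : Prop :=
  ∀ (m n : ℕ) (W : ℝ → Mx m m),
    (∀ φ : Fin n → ℝ → Vec m, IsTrialFamily φ →
      ∃ Φ : ℝ → Mx m n, Sm Φ ∧ gram Φ = 1 ∧ ener W Φ = energyMatrix W φ) ∧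
    (∀ Φ : ℝ → Mx m n, Sm Φ → gram Φ = 1 →
      ∃ φ : Fin n → ℝ → Vec m, IsTrialFamily φ ∧ energyMatrix W φ = ener W Φ)

/-- (FAM) algebra of frames -/
def FamStmt : Prop :=
  (∀ (m n k : ℕ) (Φ : ℝ → Mx m n) (J : Mx n k), Sm Φ → Sm (fun x => Φ x * J) ∧
    (∀ x, dM (fun x => Φ x * J) x = dM Φ x * J) ∧ gram (fun x => Φ x * J) = Jᴴ * gram Φ * J) ∧
  (∀ (m n k : ℕ) (Φ : ℝ → Mx m n) (P : Mx k m), Sm Φ → Sm (fun x => P * Φ x) ∧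
    ∀ x, dM (fun x => P * Φ x) x = P * dM Φ x) ∧
  (∀ (β : ℝ) (m n : ℕ) (W : ℝ → Mx m m) (Φ : ℝ → Mx m n), 0 < β → Pot β W → Sm Φ →
    (∀ k l, Integrable fun x => ((Φ x)ᴴ * W x * Φ x) k l) ∧ (ener W Φ).IsHermitian ∧
    ∀ (k : ℕ) (J : Mx n k), ener W (fun x => Φ x * J) = Jᴴ * ener W Φ * J) ∧
  (∀ (m k : ℕ) (F : ℝ → Mx m k), Sm F → ∃ (n : ℕ) (C : Mx k n) (J : Mx n k),
    gram (fun x => F x * C) = 1 ∧ ∀ x, F x = F x * C * J) ∧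
  (∀ (n : ℕ) (E : Mx n n), E.IsHermitian → ∃ (k : ℕ) (J : Mx n k) (κ : Fin k → ℝ),
    (∀ j, 0 < κ j) ∧ Jᴴ * J = 1 ∧ Jᴴ * E * J = -(dg κ * dg κ) ∧
    ∀ f : ℝ → ℝ, (∀ t, 0 ≤ t → f t = 0) → rtr (cfc f E) = ∑ j, f (-(κ j ^ 2)))

/-- (CORE) completing the square -/
def CoreStmt : Prop :=
  ∀ (β : ℝ) (m : ℕ) (W : ℝ → Mx m m), 0 < β → β < 1 → Pot β W → ∃ M₁ : ℝ, 0 < M₁ ∧
    ∀ (n : ℕ) (Ψ : ℝ → Mx m n) (κ : Fin n → ℝ) (η : ℝ), 0 < n → Sm Ψ → gram Ψ = 1 →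
      (∀ j, 0 < κ j) → ener W Ψ = -(dg κ * dg κ) → 0 < η → η ≤ 1 →
      ∃ (Φ : ℝ → Mx m n) (κ' : Fin n → ℝ) (N : ℝ → Mx n n) (a b : ℝ), Sm Φ ∧
        (∀ j, 0 < κ' j) ∧ (∀ i, ∃ j, κ i ≤ κ' j) ∧
        ∑ j, κ j ^ (1 + 2 * β) ≤ ∑ j, κ' j ^ (1 + 2 * β) ∧
        Ric κ' N (fun x => mpow ((Φ x)ᴴ * Φ x) β⁻¹) a b ∧ (∀ x, hs (Φ x) ≤ M₁) ∧
        Integrable (fun x => hs (dM Φ x - Φ x * N x)) ∧
        Integrable (fun x => brg β (W x) (Φ x * (Φ x)ᴴ)) ∧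
        (∫ x, hs (dM Φ x - Φ x * N x)) +
          (∫ x in a..b, tracePow (mpow ((Φ x)ᴴ * Φ x) β⁻¹) (1 + β)) / (1 + β) +
          (∫ x, brg β (W x) (Φ x * (Φ x)ᴴ)) ≤ sig β W / (1 + β) + η

/-- (LT) the inequality in matrix form -/
def LTStmt : Prop :=
  ∀ (β : ℝ) (m n : ℕ) (W : ℝ → Mx m m) (Φ : ℝ → Mx m n), 0 < β → β < 1 → Pot β W → Sm Φ →
    gram Φ = 1 → negMoment (ener W Φ) (β + 1 / 2) ≤ sharpConst (β + 1 / 2) * sig β W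

/-! ## 4. Cases of equality -/

/-- (STAB1) an almost optimal Riccati path has an almost invariant direction -/
def Stab1Stmt : Prop :=
  ∀ (β M μ R η : ℝ) (n₀ : ℕ), 0 < β → β < 1 → 0 < μ → 0 < R → 0 < η → ∃ ε : ℝ, 0 < ε ∧
    ∀ (n : ℕ) (κ : Fin n → ℝ) (N 𝒲 : ℝ → Mx n n) (a b : ℝ), (∀ j, 0 < κ j ∧ κ j ≤ M) →
      (∃ j, μ ≤ κ j) → (Finset.univ.filter fun j => μ / 2 ≤ κ j).card ≤ n₀ → Ric κ N 𝒲 a b →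
      (∫ x in a..b, slk β κ (N x) (𝒲 x)) ≤ ε →
      ∃ (lam c : ℝ) (w : Fin n → ℂ), μ ≤ lam ∧ lam ≤ M ∧ vs w = 1 ∧
        (∫ x in (c - R)..(c + R), (vs (N x *ᵥ w - (kink β⁻¹ lam c x : ℂ) • w) +
          vs (𝒲 x *ᵥ w - (soliton β⁻¹ lam c x : ℂ) • w))) ≤ η

/-- (STAB2) from the direction `w` to a channel `v` -/
def Stab2Stmt : Prop :=
  ∀ (β M μ R η : ℝ), 0 < β → β < 1 → 0 < μ → 0 < R → 0 < η → ∃ ε : ℝ, 0 < ε ∧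
    ∀ (m n : ℕ) (Φ : ℝ → Mx m n) (N : ℝ → Mx n n) (lam c : ℝ) (w : Fin n → ℂ), Sm Φ →
      (∀ x, hs (Φ x) ≤ M) → Continuous N → μ ≤ lam → lam ≤ M → vs w = 1 →
      (∫ x in (c - R)..(c + R), hs (dM Φ x - Φ x * N x)) ≤ ε →
      (∫ x in (c - R)..(c + R), (vs (N x *ᵥ w - (kink β⁻¹ lam c x : ℂ) • w) +
          vs (mpow ((Φ x)ᴴ * Φ x) β⁻¹ *ᵥ w - (soliton β⁻¹ lam c x : ℂ) • w))) ≤ ε →
      ∃ v : Fin m → ℂ, vs v = 1 ∧ (∫ x in (c - R)..(c + R),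
        vs (mpow (Φ x * (Φ x)ᴴ) β⁻¹ *ᵥ v - (soliton β⁻¹ lam c x : ℂ) • v)) ≤ η

/-- approximate soliton channels -/
def Approx {m : ℕ} (β : ℝ) (W : ℝ → Mx m m) : Prop :=
  ∃ μ M : ℝ, 0 < μ ∧ ∀ R Λ η : ℝ, 0 < R → 0 < Λ → 0 < η →
    ∃ (lam c : ℝ) (v : Fin m → ℂ), μ ≤ lam ∧ lam ≤ M ∧ vs v = 1 ∧
      (∫ x in Icc (c - R) (c + R) ∩ {x | hs (W x) ≤ Λ},
        vs (W x *ᵥ v - (soliton β⁻¹ lam c x : ℂ) • v)) ≤ η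

/-- (APPROX) -/
def ApproxStmt : Prop :=
  ∀ (β : ℝ) (m : ℕ) (W : ℝ → Mx m m), 0 < β → β < 1 → Pot β W → Opt β W → 0 < sig β W →
    Approx β W

/-- (LIM) passage to the limit -/
def LimStmt : Prop :=
  ∀ (β : ℝ) (m : ℕ) (W : ℝ → Mx m m), 0 < β → β < 1 → Pot β W → Approx β W →
    ∃ (lam c : ℝ) (v : Fin m → ℂ), 0 < lam ∧ vs v = 1 ∧
      ∀ᵐ x, W x *ᵥ v = (soliton β⁻¹ lam c x : ℂ) • v

/-- (PEEL) removing a soliton channel from an optimiser -/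
def PeelStmt : Prop :=
  ∀ (β : ℝ) (m : ℕ) (W : ℝ → Mx m m) (lam c : ℝ) (v : Fin m → ℂ), 0 < β → β < 1 → Pot β W →
    Opt β W → 0 < lam → vs v = 1 → (∀ᵐ x, W x *ᵥ v = (soliton β⁻¹ lam c x : ℂ) • v) →
    ∃ W' : ℝ → Mx m m, Pot β W' ∧ Opt β W' ∧
      ∀ᵐ x, W x = W' x + (soliton β⁻¹ lam c x : ℂ) • vecMulVec v (star v)

/-- the conclusion of the equality statement -/
def SolSum {m : ℕ} (β : ℝ) (W : ℝ → Mx m m) : Prop :=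
  ∃ (U : Matrix.unitaryGroup (Fin m) ℂ) (a c : Fin m → ℝ), (∀ i, 0 ≤ a i) ∧
    ∀ᵐ x : ℝ, W x = (U : Mx m m) *
      Matrix.diagonal (fun i => ((soliton β⁻¹ (a i) (c i) x : ℝ) : ℂ)) * star (U : Mx m m)

/-- (FWD) optimisers are sums of solitons -/
def FwdStmt : Prop :=
  ∀ (β : ℝ) (m : ℕ) (W : ℝ → Mx m m), 0 < β → β < 1 → Pot β W → Opt β W → SolSum β W

/-- (CONV) sums of solitons are optimisers -/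
def ConvStmt : Prop :=
  ∀ (β : ℝ) (m : ℕ) (W : ℝ → Mx m m), 0 < β → β < 1 → Pot β W → SolSum β W → Opt β W

end Crest.Agent.R332
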