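import Crest.Agent.R332.Basic

/-! # Row 332: Golden–Thompson in Gibbs form with a remainder, by resolvents -/

set_option autoImplicit false

open Matrix Set Filter Topology
open scoped ComplexOrder

noncomputable section

namespace Crest.Agent.R332

namespace GT

variable {n : ℕ}

theorem rtr_mul_conj (Q W : Mx n n) (d : Fin n → ℝ) :
    rtr (Q * (W * dg d * Wᴴ)) = ∑ j, d j * ((Wᴴ * Q * W) j j).re := by
  have : rtr (Q * (W * dg d * Wᴴ)) = rtr (Wᴴ * Q * W * dg d) := by
    rw [← Matrix.mul_assoc, rtr_mul_comm]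
    simp only [Matrix.mul_assoc]
  rw [this, rtr_eq_sum]
  refine Finset.sum_congr rfl fun j _ => ?_
  simp [dg, mul_diagonal, mul_comm]

theorem rtr_dg_left (A B : Mx n n) (d : Fin n → ℝ) :
    rtr (dg d * Aᴴ * B) = ∑ k, ∑ i, d i * (star (A k i) * B k i).re := by
  rw [rtr_eq_sum, Finset.sum_comm]
  refine Finset.sum_congr rfl fun i _ => ?_
  rw [Matrix.mul_assoc, dg, diagonal_mul, Matrix.mul_apply, Finset.mul_sum, Complex.re_sum]
  refine Finset.sum_congr rfl fun k _ => ?_
  rw [conjTranspose_apply, Complex.re_ofReal_mul]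

theorem rtr_dg_mid (B : Mx n n) (d : Fin n → ℝ) :
    rtr (Bᴴ * dg d * B) = ∑ k, ∑ i, d k * ‖B k i‖ ^ 2 := by
  rw [rtr_eq_sum, Finset.sum_comm]
  refine Finset.sum_congr rfl fun i _ => ?_
  rw [Matrix.mul_apply, Complex.re_sum]
  refine Finset.sum_congr rfl fun k _ => ?_
  rw [dg, mul_diagonal, conjTranspose_apply, mul_right_comm, Complex.re_mul_ofReal, mul_comm,
    Complex.star_def, Complex.conj_mul', ← Complex.ofReal_pow, Complex.ofReal_re]

theorem re_star_mul_self (z : ℂ) : (star z * z).re = ‖z‖ ^ 2 := by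
  rw [Complex.star_def, Complex.conj_mul', ← Complex.ofReal_pow, Complex.ofReal_re]

theorem scalar_id {r : ℝ} (hr : 0 < r) (p : ℝ) (α ξ : ℂ) :
    p ^ 2 * ‖α‖ ^ 2 / r = 2 * (p * (star α * ξ).re) - r * ‖ξ‖ ^ 2 +
      ‖(r : ℂ) * ξ - α * p‖ ^ 2 / r := by
  simp only [Complex.sq_norm, Complex.normSq_apply, Complex.star_def, Complex.mul_re,
    Complex.conj_re, Complex.conj_im, Complex.sub_re, Complex.sub_im, Complex.mul_im,
    Complex.ofReal_re, Complex.ofReal_im]
  field_simp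
  ring

/-- completing the square against the resolvents of `X` -/
theorem square {U V : Mx n n} (hU' : U * Uᴴ = 1) (hV : Vᴴ * V = 1)
    (hV' : V * Vᴴ = 1) (hU : Uᴴ * U = 1) {p x : Fin n → ℝ} (hp : ∀ i, 0 < p i)
    (hx : ∀ i, 0 < x i) {a : Mx n n} (ha : a.IsHermitian) {t : ℝ} (ht : 0 ≤ t) :
    ∑ k, ∑ i, p i ^ 2 * ‖(Vᴴ * U) k i‖ ^ 2 / (x k + t * p i) =
      2 * rtr (U * dg p * Uᴴ * a) - rtr (V * dg x * Vᴴ * (a * a)) -
        t * rtr (U * dg p * Uᴴ * (a * a)) +
      ∑ k, ∑ i, ‖(Vᴴ * (V * dg x * Vᴴ * a + (t : ℂ) • (a * (U * dg p * Uᴴ)) - U * dg p * Uᴴ) * U)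
        k i‖ ^ 2 / (x k + t * p i) := by
  set A := Vᴴ * U with hA
  set Ξ := Vᴴ * a * U with hΞ
  have hVV : ∀ Z : Mx n n, V * (Vᴴ * Z) = Z := fun Z => by
    rw [← Matrix.mul_assoc, hV', Matrix.one_mul]
  have hVV' : ∀ Z : Mx n n, Vᴴ * (V * Z) = Z := fun Z => by
    rw [← Matrix.mul_assoc, hV, Matrix.one_mul]
  have hΞ' : Ξᴴ = Uᴴ * a * V := by
    rw [hΞ, conjTranspose_mul, conjTranspose_mul, ha.eq, conjTranspose_conjTranspose,
      Matrix.mul_assoc]
  have h1 : rtr (U * dg p * Uᴴ * a) = rtr (dg p * Aᴴ * Ξ) := by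
    rw [hA, hΞ, conjTranspose_mul, conjTranspose_conjTranspose]
    simp only [Matrix.mul_assoc, hVV]
    rw [rtr_mul_comm]
    simp only [Matrix.mul_assoc]
  have h2 : rtr (U * dg p * Uᴴ * (a * a)) = rtr (dg p * Ξᴴ * Ξ) := by
    rw [hΞ', hΞ]
    simp only [Matrix.mul_assoc, hVV]
    rw [rtr_mul_comm]
    simp only [Matrix.mul_assoc]
  have h3 : rtr (V * dg x * Vᴴ * (a * a)) = rtr (Ξᴴ * dg x * Ξ) := by
    rw [hΞ', hΞ]
    have : Uᴴ * a * V * dg x * (Vᴴ * a * U) = Uᴴ * (a * (V * dg x * Vᴴ * a)) * Uᴴᴴ := by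
      simp only [Matrix.mul_assoc, conjTranspose_conjTranspose]
    rw [this, rtr_conj (by rwa [conjTranspose_conjTranspose]), rtr_mul_comm a]
    simp only [Matrix.mul_assoc]
  have h4 : Vᴴ * (V * dg x * Vᴴ * a + (t : ℂ) • (a * (U * dg p * Uᴴ)) - U * dg p * Uᴴ) * U =
      dg x * Ξ + (t : ℂ) • (Ξ * dg p) - A * dg p := by
    rw [hA, hΞ]
    simp only [Matrix.mul_add, Matrix.mul_sub, Matrix.add_mul, Matrix.sub_mul, Matrix.mul_smul,
      Matrix.smul_mul, Matrix.mul_assoc, hVV', hU, Matrix.mul_one]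
  rw [h1, h2, h3, h4, rtr_dg_left, rtr_dg_left, rtr_dg_mid]
  simp only [Finset.mul_sum, ← Finset.sum_sub_distrib, ← Finset.sum_add_distrib]
  refine Finset.sum_congr rfl fun k _ => Finset.sum_congr rfl fun i _ => ?_
  have hr : 0 < x k + t * p i := add_pos_of_pos_of_nonneg (hx k) (mul_nonneg ht (hp i).le)
  have h5 : (dg x * Ξ + (t : ℂ) • (Ξ * dg p) - A * dg p) k i =
      ((x k + t * p i : ℝ) : ℂ) * Ξ k i - A k i * p i := by
    simp only [dg, Matrix.sub_apply, Matrix.add_apply, Matrix.smul_apply, diagonal_mul,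
      mul_diagonal, smul_eq_mul]
    push_cast
    ring
  rw [h5, scalar_id hr (p i) (A k i) (Ξ k i), re_star_mul_self]
  ring

theorem tendsto_log {α β : ℝ} (hα : 0 < α) (hβ : 0 < β) :
    Tendsto (fun t : ℝ => Real.log (α + t * β) - Real.log (1 + t)) atTop (𝓝 (Real.log β)) := by
  have h1 : Tendsto (fun t : ℝ => β + (α - β) / (1 + t)) atTop (𝓝 (β + 0)) :=
    tendsto_const_nhds.add (tendsto_const_nhds.div_atTop
      (tendsto_atTop_add_const_left _ _ tendsto_id))
  rw [add_zero] at h1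
  refine (h1.log hβ.ne').congr' ((eventually_gt_atTop 0).mono fun t ht => ?_)
  have h2 : 0 < α + t * β := by positivity
  simp only
  rw [← Real.log_div h2.ne' (by positivity)]
  congr 1
  field_simp
  ring

theorem tendsto_div {α β : ℝ} (hβ : 0 < β) :
    Tendsto (fun t : ℝ => α / (1 + t * β)) atTop (𝓝 0) :=
  tendsto_const_nhds.div_atTop
    (tendsto_atTop_add_const_left _ _ (tendsto_id.atTop_mul_const hβ))

theorem hasDerivAt_log {α β t : ℝ} (h : 0 < α + t * β) :
    HasDerivAt (fun s : ℝ => Real.log (α + s * β)) (β / (α + t * β)) t := by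
  simpa using (((hasDerivAt_id t).mul_const β).const_add α).log h.ne'

theorem hasDerivAt_log1 {t : ℝ} (h : 0 ≤ t) :
    HasDerivAt (fun s : ℝ => Real.log (1 + s)) (1 / (1 + t)) t := by
  simpa using hasDerivAt_log (α := 1) (β := 1) (t := t) (by linarith)

theorem hasDerivAt_div {α β t : ℝ} (h : 0 < 1 + t * β) :
    HasDerivAt (fun s : ℝ => α / (1 + s * β)) (-(α * β) / (1 + t * β) ^ 2) t := by
  have := (hasDerivAt_const t α).fun_div (((hasDerivAt_id t).mul_const β).const_add 1) h.ne'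
  simpa using this

/-- the main monotonicity argument -/
theorem core {U V W : Mx n n} (hU : Uᴴ * U = 1) (hU' : U * Uᴴ = 1) (hV : Vᴴ * V = 1)
    (hV' : V * Vᴴ = 1) (hW : Wᴴ * W = 1) (hW' : W * Wᴴ = 1) {p x y : Fin n → ℝ}
    (hp : ∀ i, 0 < p i) (hx : ∀ i, 0 < x i) (hy : ∀ i, 0 < y i) {δ : ℝ}
    (hδ : ∀ t ∈ Ioo (0 : ℝ) 1, δ ≤ ∑ k, ∑ i, ‖(Vᴴ * (V * dg x * Vᴴ *
      (W * dg (fun j => y j / (1 + t * y j)) * Wᴴ) +
      (t : ℂ) • ((W * dg (fun j => y j / (1 + t * y j)) * Wᴴ) * (U * dg p * Uᴴ)) -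
      U * dg p * Uᴴ) * U) k i‖ ^ 2 / (x k + t * p i)) :
    rtr (U * dg p * Uᴴ * (mlog (V * dg x * Vᴴ) + mlog (W * dg y * Wᴴ))) + δ ≤
      rtr (U * dg p * Uᴴ * mlog (U * dg p * Uᴴ)) - rtr (U * dg p * Uᴴ) +
        rtr (V * dg x * Vᴴ * (W * dg y * Wᴴ)) := by
  set P := U * dg p * Uᴴ with hP
  set X := V * dg x * Vᴴ with hX
  set w : Fin n → Fin n → ℝ := fun k i => ‖(Vᴴ * U) k i‖ ^ 2 with hw
  set β : Fin n → ℝ := fun j => ((Wᴴ * P * W) j j).re with hβ
  set γ : Fin n → ℝ := fun j => ((Wᴴ * X * W) j j).re with hγ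
  set S : ℝ → ℝ := fun t => ∑ k, ∑ i, ‖(Vᴴ * (X *
      (W * dg (fun j => y j / (1 + t * y j)) * Wᴴ) +
      (t : ℂ) • ((W * dg (fun j => y j / (1 + t * y j)) * Wᴴ) * P) - P) * U) k i‖ ^ 2 /
        (x k + t * p i) with hS
  set Φ : ℝ → ℝ := fun t =>
    ∑ k, ∑ i, p i * w k i * (Real.log (x k + t * p i) - Real.log (1 + t) - Real.log (p i)) +
    ∑ j, β j * (1 / (1 + t * y j) - (Real.log (1 + t * y j) - Real.log (1 + t))) -
    ∑ j, γ j * (y j / (1 + t * y j)) with hΦ
  have hcol : ∀ i, ∑ k, w k i = 1 := fun i => sum_normSq_col (by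
    rw [conjTranspose_mul, conjTranspose_conjTranspose, Matrix.mul_assoc, ← Matrix.mul_assoc V,
      hV', Matrix.one_mul, hU]) i
  have hsum : ∀ f : Fin n → ℝ, ∑ k, ∑ i, p i * w k i * f i = ∑ i, p i * f i := fun f => by
    rw [Finset.sum_comm]
    refine Finset.sum_congr rfl fun i _ => ?_
    rw [← Finset.sum_mul, ← Finset.mul_sum, hcol, mul_one]
  have hrP : rtr P = ∑ i, p i := rtr_conj_dg hU p
  have hβ1 : ∑ j, β j = ∑ i, p i := by
    have := rtr_mul_conj P W fun _ => 1
    rw [dg_const, Complex.ofReal_one, one_smul, Matrix.mul_one, hW', Matrix.mul_one, hrP] at this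
    simpa using this.symm
  have hder : ∀ t, 0 ≤ t → HasDerivAt Φ (S t) t := fun t ht => by
    have hr : ∀ k i, 0 < x k + t * p i := fun k i =>
      add_pos_of_pos_of_nonneg (hx k) (mul_nonneg ht (hp i).le)
    have hj : ∀ j, 0 < 1 + t * y j := fun j =>
      add_pos_of_pos_of_nonneg one_pos (mul_nonneg ht (hy j).le)
    have h1 := ((HasDerivAt.fun_sum (u := Finset.univ) fun k _ =>
      HasDerivAt.fun_sum (u := Finset.univ) fun i _ =>
        ((((hasDerivAt_log (hr k i)).fun_sub (hasDerivAt_log1 ht)).sub_const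
          (Real.log (p i))).const_mul (p i * w k i))).fun_add
      (HasDerivAt.fun_sum (u := Finset.univ) fun j _ =>
        (((hasDerivAt_div (α := 1) (hj j)).fun_sub ((hasDerivAt_log (hj j)).fun_sub
          (hasDerivAt_log1 ht))).const_mul (β j)))).fun_sub
      (HasDerivAt.fun_sum (u := Finset.univ) fun j _ =>
        (hasDerivAt_div (α := y j) (hj j)).const_mul (γ j))
    refine h1.congr_deriv ?_
    have h2 := square hU' hV hV' hU hp hx
      (herm_conj (dg_herm fun j => y j / (1 + t * y j)) W) ht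
    rw [← hP, ← hX, conj_dg_mul hW, rtr_mul_conj, rtr_mul_conj, rtr_mul_conj] at h2
    have h3 : ∑ k, ∑ i, p i * w k i * (p i / (x k + t * p i) - 1 / (1 + t)) =
        ∑ k, ∑ i, p i ^ 2 * w k i / (x k + t * p i) - (∑ j, β j) / (1 + t) := by
      rw [hβ1, Finset.sum_div]
      have := hsum fun _ => 1 / (1 + t)
      simp only [mul_one_div] at this
      rw [← this, ← Finset.sum_sub_distrib]
      refine Finset.sum_congr rfl fun k _ => ?_
      rw [← Finset.sum_sub_distrib]
      refine Finset.sum_congr rfl fun i _ => ?_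
      ring
    have h4 : ∑ j, β j * (-(1 * y j) / (1 + t * y j) ^ 2 - (y j / (1 + t * y j) - 1 / (1 + t))) =
        (∑ j, β j) / (1 + t) - 2 * ∑ j, y j / (1 + t * y j) * β j +
          t * ∑ j, y j / (1 + t * y j) * (y j / (1 + t * y j)) * β j := by
      simp only [Finset.sum_div, Finset.mul_sum, ← Finset.sum_sub_distrib,
        ← Finset.sum_add_distrib]
      refine Finset.sum_congr rfl fun j _ => ?_
      have h0 : (1 + t * y j) * (1 + t * y j)⁻¹ = 1 := mul_inv_cancel₀ (hj j).ne'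
      simp only [div_eq_mul_inv, ← inv_pow]
      linear_combination (-(β j * y j * (1 + t * y j)⁻¹)) * h0
    have h5 : ∑ j, γ j * (-(y j * y j) / (1 + t * y j) ^ 2) =
        -∑ j, y j / (1 + t * y j) * (y j / (1 + t * y j)) * γ j := by
      rw [← Finset.sum_neg_distrib]
      refine Finset.sum_congr rfl fun j _ => ?_
      have := (hj j).ne'
      field_simp
    rw [h3, h4, h5]
    simp only [hS, hw, hβ, hγ] at h2 ⊢
    linarith
  have hmvt : ∀ s t, 0 ≤ s → s < t → ∃ c ∈ Ioo s t, S c = (Φ t - Φ s) / (t - s) :=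
    fun s t hs hst => exists_hasDerivAt_eq_slope Φ S hst
      (fun c hc => (hder c (hs.trans hc.1)).continuousAt.continuousWithinAt)
      fun c hc => hder c (hs.trans hc.1.le)
  have hS0 : ∀ t, 0 ≤ t → 0 ≤ S t := fun t ht =>
    Finset.sum_nonneg fun k _ => Finset.sum_nonneg fun i _ => div_nonneg (sq_nonneg _)
      (add_nonneg (hx k).le (mul_nonneg ht (hp i).le))
  have h01 : Φ 0 + δ ≤ Φ 1 := by
    obtain ⟨c, hc, h⟩ := hmvt 0 1 le_rfl one_pos
    have := hδ c hc
    simp only [sub_zero, div_one] at h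
    change δ ≤ S c at this
    linarith
  have h1T : ∀ T, 1 < T → Φ 1 ≤ Φ T := fun T hT => by
    obtain ⟨c, hc, h⟩ := hmvt 1 T zero_le_one hT
    have := hS0 c (zero_le_one.trans hc.1.le)
    rw [h, le_div_iff₀ (by linarith)] at this
    linarith
  have hlim : Tendsto Φ atTop (𝓝 (∑ k, ∑ i, p i * w k i * (Real.log (p i) - Real.log (p i)) +
      ∑ j, β j * (0 - Real.log (y j)) - ∑ j, γ j * 0)) :=
    ((tendsto_finsetSum _ fun k _ => tendsto_finsetSum _ fun i _ =>
      ((tendsto_log (hx k) (hp i)).sub_const _).const_mul _).add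
      (tendsto_finsetSum _ fun j _ =>
        ((tendsto_div (hy j)).sub (tendsto_log one_pos (hy j))).const_mul _)).sub
      (tendsto_finsetSum _ fun j _ => (tendsto_div (hy j)).const_mul _)
  have hfin := h01.trans (ge_of_tendsto hlim ((eventually_gt_atTop 1).mono h1T))
  have e1 : rtr (P * mlog X) = ∑ k, ∑ i, p i * w k i * Real.log (x k) := by
    rw [hX, mlog, cfc_conj_dg _ hV, rtr_mul_comm, hP, rtr_conj_mul_conj]
    refine Finset.sum_congr rfl fun k _ => Finset.sum_congr rfl fun i _ => ?_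
    simp only [hw]
    ring
  have e2 : rtr (P * mlog (W * dg y * Wᴴ)) = ∑ j, Real.log (y j) * β j := by
    rw [mlog, cfc_conj_dg _ hW, rtr_mul_conj]
  have e3 : rtr (P * mlog P) = ∑ i, p i * Real.log (p i) := by
    rw [hP, mlog, cfc_conj_dg _ hU, conj_dg_mul hU, rtr_conj_dg hU]
  have e4 : rtr (X * (W * dg y * Wᴴ)) = ∑ j, y j * γ j := rtr_mul_conj X W y
  rw [Matrix.mul_add, rtr_add, e1, e2, e3, e4, hrP, ← hsum, ← hβ1]
  simp only [hΦ, zero_mul, add_zero, Real.log_one, sub_zero, div_one, mul_one, sub_self, mul_zero,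
    Finset.sum_const_zero, zero_add, zero_sub, mul_neg, Finset.sum_neg_distrib, mul_sub,
    Finset.sum_sub_distrib] at hfin
  simp only [mul_comm (Real.log _) (β _), mul_comm (y _) (γ _)]
  linarith

end GT

open _root_.Crest.Agent.R332.GT in
theorem gtStmt : GTStmt := by
  refine ⟨fun n P X Y hP hX hY => ?_, fun M hM => ⟨1 / (4 * M * (1 + M) ^ 2), by positivity,
    fun n P X Y hP hX hY hPM hXM hYM => ?_⟩⟩
  all_goals
    obtain ⟨U, p, hU, hU', rfl⟩ := exists_diag hP.1
    obtain ⟨V, x, hV, hV', rfl⟩ := exists_diag hX.1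
    obtain ⟨W, y, hW, hW', rfl⟩ := exists_diag hY.1
    rw [pd_conj_dg_iff hU] at hP
    rw [pd_conj_dg_iff hV] at hX
    rw [pd_conj_dg_iff hW] at hY
  · have := core hU hU' hV hV' hW hW' hP hX hY (δ := 0) fun t ht =>
      Finset.sum_nonneg fun k _ => Finset.sum_nonneg fun i _ => div_nonneg (sq_nonneg _)
        (add_nonneg (hX k).le (mul_nonneg ht.1.le (hP i).le))
    rwa [add_zero] at this
  · rw [bd_conj_dg_iff hU] at hPM
    rw [bd_conj_dg_iff hV] at hXM
    rw [bd_conj_dg_iff hW] at hYM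
    refine core hU hU' hV hV' hW hW' hP hX hY fun t ht => ?_
    set P := U * dg p * Uᴴ
    set X := V * dg x * Vᴴ
    set Y := W * dg y * Wᴴ with hYd
    set a := W * dg (fun j => y j / (1 + t * y j)) * Wᴴ with ha
    set E := X * a + (t : ℂ) • (a * P) - P with hE
    have hj : ∀ j, 0 < 1 + t * y j := fun j =>
      add_pos_of_pos_of_nonneg one_pos (mul_nonneg ht.1.le (hY j).le)
    have h1 : hs E / (2 * M) ≤ ∑ k, ∑ i, ‖(Vᴴ * E * U) k i‖ ^ 2 / (x k + t * p i) := by
      have : hs E = hs (Vᴴ * E * U) := by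
        have := hs_conj (U := Vᴴ) (V := Uᴴ) (by rwa [conjTranspose_conjTranspose])
          (by rwa [conjTranspose_conjTranspose]) E
        rw [conjTranspose_conjTranspose] at this
        exact this.symm
      rw [this, hs, Finset.sum_div]
      refine Finset.sum_le_sum fun k _ => ?_
      rw [Finset.sum_div]
      refine Finset.sum_le_sum fun i _ => div_le_div_of_nonneg_left (sq_nonneg _)
        (add_pos_of_pos_of_nonneg (hX k) (mul_nonneg ht.1.le (hP i).le)) ?_
      have := hXM k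
      have := hPM i
      have := hP i
      have := ht.2
      nlinarith
    refine le_trans ?_ h1
    set L := W * dg (fun j => 1 + t * y j) * Wᴴ with hL
    set b := W * dg (fun j => t * (y j / (1 + t * y j))) * Wᴴ with hb
    have hLe : L = 1 + (t : ℂ) • Y := by
      rw [hL, hYd, ← dg_add, dg_const, ← dg_mul_dg (fun _ => t), dg_const]
      simp [Matrix.mul_add, Matrix.add_mul, hW']
    have hbe : b = (t : ℂ) • a := by
      rw [hb, ha, ← dg_mul_dg (fun _ => t), dg_const]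
      simp
    have hLa : L * a = Y := by
      rw [hL, ha, conj_dg_mul hW, hYd]
      congr 3
      ext j
      have := (hj j).ne'
      field_simp
    have hYa : a + (t : ℂ) • (Y * a) = Y := by
      rw [show a + (t : ℂ) • (Y * a) = (1 + (t : ℂ) • Y) * a by
        rw [Matrix.add_mul, Matrix.one_mul, Matrix.smul_mul], ← hLe, hLa]
    have key : X * Y - P = L * E + (X * Y - Y * X) * b := by
      have e1 : L * E = L * X * a + (t : ℂ) • (Y * P) - L * P := by
        rw [hE, Matrix.mul_sub, Matrix.mul_add, Matrix.mul_smul, ← Matrix.mul_assoc L a, hLa,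
          Matrix.mul_assoc L X]
      have e2 : X * Y = X * a + (t : ℂ) • (X * (Y * a)) := by
        rw [← Matrix.mul_smul, ← Matrix.mul_add, hYa]
      rw [e1, hLe, hbe]
      simp only [Matrix.add_mul, Matrix.one_mul, Matrix.smul_mul, Matrix.mul_smul, Matrix.sub_mul,
        Matrix.mul_assoc, smul_sub]
      rw [e2]
      abel
    have h2 : hs (L * E) ≤ (1 + M) ^ 2 * hs E := by
      refine hs_mul_le_left (vs_mulVec_le_of_psd ?_ ?_) E
      · exact (psd_conj_dg_iff hW _).2 fun j => (hj j).le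
      · refine (bd_conj_dg_iff hW _ _).2 fun j => ?_
        have := hYM j
        have := hY j
        have := ht.2
        nlinarith
    have h3 : hs ((X * Y - Y * X) * b) ≤ 1 ^ 2 * hs (X * Y - Y * X) := by
      have hbp : b.PosSemidef := (psd_conj_dg_iff hW _).2 fun j =>
        mul_nonneg ht.1.le (div_nonneg (hY j).le (hj j).le)
      refine hs_mul_le_right (fun v => ?_) _
      rw [hbp.1.eq]
      refine vs_mulVec_le_of_psd hbp ((bd_conj_dg_iff hW _ _).2 fun j => ?_) v
      rw [← mul_div_assoc, div_le_one (hj j)]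
      linarith
    have h4 := hs_add_le (L * E) ((X * Y - Y * X) * b)
    rw [← key] at h4
    rw [one_div, inv_mul_le_iff₀ (by positivity)]
    have e : 4 * M * (1 + M) ^ 2 * (hs E / (2 * M)) = 2 * ((1 + M) ^ 2 * hs E) := by
      field_simp
      ring
    rw [e]
    linarith

end Crest.Agent.R332
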